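import Crest.Agent.R225.BaseA

set_option autoImplicit false

open MeasureTheory Set
open scoped ENNReal NNReal Matrix

namespace Crest.Agent.R225

/-- choice of the scales: `L = (D / η^a)^(1/e)`, `B = ⌈R'/η⌉₊ + 1`; as `η → 0`, `L → ∞` and
`(2B+1)^s (6R'/L)^e = (2B+1)^s (6R')^e η^a / D → 0` because `s < a` -/
theorem exists_scales {a e s : ℕ} (hs : s < a) (he : 1 ≤ e) {D η₀ R' ε : ℝ} (hD : 0 < D) (hη : 0 < η₀)
    (hR : 0 ≤ R') (hε : 0 < ε) :
    ∃ (η L : ℝ) (B : ℕ), 0 < η ∧ η ≤ η₀ ∧ 0 < L ∧ η ^ a * L ^ e = D ∧ R' / η + 1 ≤ B ∧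
      R' / L ≤ 1 / 8 ∧ (2 * B + 1 : ℝ) ^ s * (6 * (R' / L)) ^ e ≤ ε := by
  set C : ℝ := (2 * R' + 5) ^ s * (6 * R') ^ e / D with hC
  have hC0 : 0 ≤ C := by rw [hC]; positivity
  have hW : 0 ≤ (8 * R') ^ e := by positivity
  obtain ⟨η, h0, h1, h2, h3, h4⟩ : ∃ η : ℝ, 0 < η ∧ η ≤ η₀ ∧ η ≤ 1 ∧ η ≤ ε / (C + 1) ∧
      η ≤ D / ((8 * R') ^ e + 1) :=
    ⟨min (min η₀ 1) (min (ε / (C + 1)) (D / ((8 * R') ^ e + 1))),
      lt_min (lt_min hη one_pos) (lt_min (by positivity) (by positivity)),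
      (min_le_left _ _).trans (min_le_left _ _), (min_le_left _ _).trans (min_le_right _ _),
      (min_le_right _ _).trans (min_le_left _ _), (min_le_right _ _).trans (min_le_right _ _)⟩
  have ha : 0 < η ^ a := pow_pos h0 a
  set L : ℝ := (D / η ^ a) ^ ((e : ℝ)⁻¹) with hL
  have hL0 : 0 < L := Real.rpow_pos_of_pos (by positivity) _
  have hLe : L ^ e = D / η ^ a := Real.rpow_inv_natCast_pow (by positivity) (by omega)
  refine ⟨η, L, ⌈R' / η⌉₊ + 1, h0, h1, hL0, by rw [hLe]; field_simp, ?_, ?_, ?_⟩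
  · push_cast
    linarith [Nat.le_ceil (R' / η)]
  · have h5 : η ^ a ≤ η := pow_le_of_le_one h0.le h2 (by omega)
    rw [le_div_iff₀ (by positivity)] at h4
    have h6 : (8 * R') ^ e ≤ L ^ e := by
      rw [hLe, le_div_iff₀ ha]
      nlinarith [mul_le_mul_of_nonneg_left h5 hW]
    have h7 : 8 * R' ≤ L := (pow_le_pow_iff_left₀ (by positivity) hL0.le (by omega)).1 h6
    rw [div_le_iff₀ hL0]
    linarith
  · have h5 : (2 * ((⌈R' / η⌉₊ + 1 : ℕ) : ℝ) + 1) ≤ (2 * R' + 5) / η := by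
      have h6 := (Nat.ceil_lt_add_one (show 0 ≤ R' / η by positivity)).le
      have h7 : (5 : ℝ) ≤ 5 / η := by
        rw [le_div_iff₀ h0]; linarith
      have h8 : (2 * R' + 5) / η = 2 * (R' / η) + 5 / η := by ring
      push_cast
      linarith
    have h6 : (6 * (R' / L)) ^ e = (6 * R') ^ e * η ^ a / D := by
      rw [← mul_div_assoc, div_pow, hLe]
      field_simp
    obtain ⟨k, rfl⟩ : ∃ k, a = s + (k + 1) := ⟨a - s - 1, by omega⟩
    have h7 : η ^ (k + 1) ≤ η := pow_le_of_le_one h0.le h2 (by omega)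
    rw [le_div_iff₀ (by positivity)] at h3
    calc _ ≤ ((2 * R' + 5) / η) ^ s * ((6 * R') ^ e * η ^ (s + (k + 1)) / D) := by
          rw [h6]
          exact mul_le_mul_of_nonneg_right (pow_le_pow_left₀ (by positivity) h5 s) (by positivity)
      _ = C * η ^ (k + 1) := by
          rw [hC, div_pow, pow_add η s]
          field_simp
      _ ≤ C * η := mul_le_mul_of_nonneg_left h7 hC0
      _ ≤ ε := by nlinarith

/-- **random base lattice.**  `g_α = fromBlocks (η•1) 0 ((L•1) * α) (L•1)`.  Put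
`Z t = {(σ, ω) | ∀ z, XX ω z ∉ cov ..}` (`meas_layer`) and, for `ᾱ : m → T d`,
`δ t ᾱ = ∫_{σ ∈ cube} vol {θ | (σ, Option.elim θ ᾱ) ∈ Z t}`.  Tonelli (`MeasurableEquiv.piOptionEquivProd`,
`volume_preserving_piOptionEquivProd`/`measurePreserving_piOptionEquivProd`) and `base_fixed` give
`∫ δ t ᾱ dᾱ ≤ 15 e^{-V t}`; so some `ᾱ` has `∑_t δ t ᾱ / (15 e^{-V t}) ≤ card τ + 1`.  Lift `ᾱ` to a real matrix
`α` (`exists_pr_cube`; `pr (α *ᵥ rv z) = ∑ z c • ᾱ c`) and apply `layer`. -/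
theorem base {τ m d : Type} [Fintype τ] [Fintype m] [Fintype d] [DecidableEq m] [DecidableEq d]
    {A : ℕ} (hA : 1 ≤ A) (hm : 16 * A < Fintype.card m) (hd : 250 * A ≤ Fintype.card d)
    {D η₀ : ℝ} (hD : 0 < D) (hη : 0 < η₀) (S S₀ : τ → Set (m ⊕ d → ℝ)) (hS : ∀ t, IsCompact (S t))
    (hS₀ : ∀ t, MeasurableSet (S₀ t))
    (h : ∀ t, ∀ x ∈ S₀ t, ∀ u : m → ℝ, ‖u‖ ≤ η₀ → x + Sum.elim u 0 ∈ S t)
    (V : τ → ℝ) (hV0 : ∀ t, 0 ≤ V t) (hVA : ∀ t, V t ≤ A)
    (hV : ∀ t, ENNReal.ofReal (V t * D) ≤ volume (S₀ t)) :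
    ∃ g : Matrix (m ⊕ d) (m ⊕ d) ℝ, g.det = D ∧ ∀ t, volume (cov g (S t))ᶜ ≤
      ENNReal.ofReal (((Fintype.card τ : ℝ) + 1) * (15 * Real.exp (-V t))) := by
  obtain ⟨R₀, hR₀⟩ := (isCompact_iUnion hS).isBounded.exists_norm_le
  have hb : ∀ t, ∀ x ∈ S t, ‖x‖ ≤ max R₀ 0 := fun t x hx =>
    (hR₀ x (mem_iUnion.2 ⟨t, hx⟩)).trans (le_max_left _ _)
  obtain ⟨η, L, B, h0, h1, h2, h3, h4, h5, h6⟩ := exists_scales (s := 16 * A)
    (e := Fintype.card d) hm (by omega) hD hη (le_max_right R₀ 0) (Real.exp_pos (-20 * A))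
  have dA : (η • (1 : Matrix m m ℝ)).det = η ^ Fintype.card m := by
    rw [Matrix.det_smul, Matrix.det_one, mul_one]
  have dL : (L • (1 : Matrix d d ℝ)).det = L ^ Fintype.card d := by
    rw [Matrix.det_smul, Matrix.det_one, mul_one]
  have dA0 : (η • (1 : Matrix m m ℝ)).det ≠ 0 := by rw [dA]; positivity
  have dL0 : (L • (1 : Matrix d d ℝ)).det ≠ 0 := by rw [dL]; positivity
  let Z : τ → Set ((m → ℝ) × (Option m → T d)) := fun t => {q | ∀ z : m → ℤ,
    XX q.2 z ∉ cov (L • (1 : Matrix d d ℝ)) (sec (S t) ((η • (1 : Matrix m m ℝ)) *ᵥ (q.1 + rv z)))}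
  have hZ : ∀ t, MeasurableSet (Z t) := fun t => meas_layer _ _ dA0 dL0 (hS t)
  let E := (MeasurableEquiv.piOptionEquivProd fun _ : Option m => T d).symm
  have hE : MeasurePreserving E ((volume : Measure (m → T d)).prod (volume : Measure (T d)))
      volume :=
    ⟨E.measurable, Measure.pi_map_piOptionEquivProd fun _ : Option m => (volume : Measure (T d))⟩
  let W : τ → Set (((m → T d) × (m → ℝ)) × T d) := fun t =>
    (fun p => (p.1.2, E (p.1.1, p.2))) ⁻¹' Z t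
  have hW : ∀ t, MeasurableSet (W t) := fun t =>
    (measurable_fst.snd.prodMk (E.measurable.comp (measurable_fst.fst.prodMk measurable_snd)))
      (hZ t)
  let F : τ → (m → T d) × (m → ℝ) → ℝ≥0∞ := fun t p => volume (Prod.mk p ⁻¹' W t)
  have hF : ∀ t, Measurable (F t) := fun t => measurable_measure_prodMk_left (hW t)
  let δ : τ → (m → T d) → ℝ≥0∞ := fun t a => ∫⁻ σ in cube m, F t (a, σ)
  have hδ : ∀ t, Measurable (δ t) := fun t => (hF t).lintegral_prod_right'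
  let c : τ → ℝ≥0∞ := fun t => ENNReal.ofReal (15 * Real.exp (-V t))
  have hc0 : ∀ t, c t ≠ 0 := fun t => (ENNReal.ofReal_pos.2 (by positivity)).ne'
  have hcube : volume (cube m) = 1 := by
    rw [cube, Real.volume_pi_Ico]
    simp
  have hint : ∀ t, ∫⁻ a, δ t a ≤ c t := by
    intro t
    have e1 : ∫⁻ a, δ t a = ∫⁻ σ in cube m, ∫⁻ a, F t (a, σ) :=
      lintegral_lintegral_swap (f := fun a σ => F t (a, σ)) (hF t).aemeasurable
    rw [e1]
    calc _ ≤ ∫⁻ _σ in cube m, c t := by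
          refine setLIntegral_mono' (MeasurableSet.univ_pi fun _ => measurableSet_Ico)
            fun σ hσ => ?_
          have hm' : MeasurableSet (Prod.mk σ ⁻¹' Z t) := measurable_prodMk_left (hZ t)
          have e2 : ∫⁻ a, F t (a, σ) = volume (Prod.mk σ ⁻¹' Z t) := by
            rw [← hE.measure_preimage hm'.nullMeasurableSet, Measure.prod_apply (E.measurable hm')]
            rfl
          rw [e2]
          exact base_fixed (hS t) (hS₀ t) h0 h2 (le_max_right R₀ 0) (hb t)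
            (fun x hx u hu => h t x hx u (hu.trans h1)) hA hd h4 h5 h6 (hV0 t) (hVA t)
            (by rw [h3]; exact hV t) hσ
      _ = c t := by rw [setLIntegral_const, hcube, mul_one]
  have : IsProbabilityMeasure (volume : Measure (m → T d)) := by
    rw [volume_pi]; infer_instance
  obtain ⟨a, ha⟩ := exists_le_lintegral (μ := (volume : Measure (m → T d)))
    (f := fun a => ∑ t, δ t a * (c t)⁻¹)
    (Finset.measurable_sum _ fun t _ => (hδ t).mul_const _).aemeasurable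
  have ha2 : ∑ t, δ t a * (c t)⁻¹ ≤ Fintype.card τ := by
    refine ha.trans ?_
    rw [lintegral_finsetSum _ fun t _ => (hδ t).mul_const _]
    calc _ ≤ ∑ _t : τ, (1 : ℝ≥0∞) := by
          refine Finset.sum_le_sum fun t _ => ?_
          rw [lintegral_mul_const _ (hδ t)]
          exact (mul_le_mul_left (hint t) _).trans
            (ENNReal.mul_inv_cancel (hc0 t) ENNReal.ofReal_ne_top).le
      _ = _ := by simp
  choose s hs using fun k => exists_pr_cube (a k)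
  let α : Matrix d m ℝ := Matrix.of fun i k => s k i
  have hα : ∀ z : m → ℤ, pr (α *ᵥ rv z) = ∑ k, z k • a k := by
    intro z
    have e1 : α *ᵥ rv z = ∑ k, (z k : ℝ) • s k := by
      funext i
      simp [α, Matrix.mulVec, dotProduct, rv, mul_comm]
    have e2 := map_sum (AddMonoidHom.mk' (pr : (d → ℝ) → T d) pr_add)
      (fun k => (z k : ℝ) • s k) Finset.univ
    rw [e1]
    refine e2.trans (Finset.sum_congr rfl fun k _ => ?_)
    rw [AddMonoidHom.mk'_apply, pr_zsmul, (hs k).2]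
  refine ⟨Matrix.fromBlocks (η • 1) 0 ((L • (1 : Matrix d d ℝ)) * α) (L • 1), ?_, fun t => ?_⟩
  · rw [Matrix.det_fromBlocks_zero₁₂, dA, dL, h3]
  · refine (layer _ _ α dA0 dL0 (hS t)).trans ?_
    have e1 : ∫⁻ σ in cube m, volume {θ : T d | ∀ z : m → ℤ, θ + pr (α *ᵥ rv z) ∉
        cov (L • (1 : Matrix d d ℝ)) (sec (S t) ((η • (1 : Matrix m m ℝ)) *ᵥ (σ + rv z)))} =
        δ t a := by
      simp only [hα]
      rfl
    rw [e1]
    have h7 : δ t a * (c t)⁻¹ ≤ Fintype.card τ :=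
      (Finset.single_le_sum (f := fun t => δ t a * (c t)⁻¹) (fun _ _ => zero_le)
        (Finset.mem_univ t)).trans ha2
    have h8 : δ t a ≤ Fintype.card τ * c t := by
      rw [← div_eq_mul_inv, ENNReal.div_le_iff (hc0 t) ENNReal.ofReal_ne_top] at h7
      exact h7
    refine h8.trans ?_
    rw [ENNReal.ofReal_mul (by positivity)]
    refine mul_le_mul_left ?_ _
    rw [← ENNReal.ofReal_natCast]
    exact ENNReal.ofReal_le_ofReal (by linarith)

end Crest.Agent.R225
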