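import Crest.Agent.R225.Tor

set_option autoImplicit false

open MeasureTheory Set
open scoped ENNReal NNReal Matrix

namespace Crest.Agent.R225

/-- **Layer lemma.**  Lattice with basis `fromBlocks A 0 (g' U) g'`; a point with lattice coordinates
`(σ + z, s)` is `(A (σ+z), g' (U σ + U z + s))`.  The void set is open; by Fubini on
`T (κ ⊕ l) ≃ T κ × T l` (`volume_measurePreserving_sumPiEquivProdPi`) and `mp_pr` on the first factor its
measure is `∫_{σ ∈ cube} vol {τ | Sum.elim (pr σ) τ ∉ cov}`, and this slice is contained in the translate by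
`- pr (U σ)` of the set below (if `θ + pr (U z) = pr s'`, `g' s' ∈ sec`, `θ = τ + pr (U σ)`, then
`s = s' - U σ - U z` has `pr s = τ`, and `Sum.elim (σ + z) s` witnesses the covering). -/
theorem layer {κ l : Type} [Fintype κ] [Fintype l] [DecidableEq κ] [DecidableEq l]
    (A : Matrix κ κ ℝ) (g' : Matrix l l ℝ) (U : Matrix l κ ℝ) (hA : A.det ≠ 0) (hg : g'.det ≠ 0)
    {S : Set (κ ⊕ l → ℝ)} (hS : IsCompact S) :
    volume (cov (Matrix.fromBlocks A 0 (g' * U) g') S)ᶜ ≤
      ∫⁻ σ in cube κ, volume {θ : T l | ∀ z : κ → ℤ,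
        θ + pr (U *ᵥ rv z) ∉ cov g' (sec S (A *ᵥ (σ + rv z)))} := by
  have hG : (Matrix.fromBlocks A 0 (g' * U) g').det ≠ 0 := by
    rw [Matrix.det_fromBlocks_zero₁₂]; exact mul_ne_zero hA hg
  have hV := (isCompact_cov hG hS).isClosed.measurableSet.compl
  have he := volume_measurePreserving_sumPiEquivProdPi_symm (fun _ : κ ⊕ l => UnitAddCircle)
  have hW := he.measurable hV
  rw [← he.measure_preimage hV.nullMeasurableSet, Measure.volume_eq_prod, Measure.prod_apply hW,
    ← mp_pr.lintegral_comp (measurable_measure_prodMk_left hW)]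
  refine lintegral_mono fun σ => ?_
  rw [← measure_preimage_add_right volume (pr (U *ᵥ σ)) {θ : T l | ∀ z : κ → ℤ,
    θ + pr (U *ᵥ rv z) ∉ cov g' (sec S (A *ᵥ (σ + rv z)))}]
  refine measure_mono fun τ hτ z ⟨s', h1, h2⟩ => hτ
    ⟨Sum.elim (σ + rv z) (s' - U *ᵥ σ - U *ᵥ rv z), ?_, ?_⟩
  · change _ ∈ S
    rw [Matrix.fromBlocks_mulVec, Sum.elim_comp_inl, Sum.elim_comp_inr, Matrix.zero_mulVec, add_zero,
      ← Matrix.mulVec_mulVec, ← Matrix.mulVec_add, Matrix.mulVec_add U,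
      show U *ᵥ σ + U *ᵥ rv z + (s' - U *ᵥ σ - U *ᵥ rv z) = s' by abel]
    exact h1
  · have e1 : pr (σ + rv z) = pr σ := by rw [pr_add, pr_rv, add_zero]
    have e2 : pr (s' - U *ᵥ σ - U *ᵥ rv z) = τ := by
      rw [pr_sub, pr_sub, h2]; beta_reduce; abel
    funext i
    rcases i with i | i
    · exact congrFun e1 i
    · exact congrFun e2 i

/-- joint measurability used for the random base lattice: the set is a countable intersection over `z` of
preimages, under continuous maps, of the complement of the compact set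
`(fun (y, s) => (y, pr s)) '' {(y, s) | Sum.elim (A y) (g' s) ∈ S}` -/
theorem meas_layer {κ l : Type} [Fintype κ] [Fintype l] [DecidableEq κ] [DecidableEq l]
    (A : Matrix κ κ ℝ) (g' : Matrix l l ℝ) (hA : A.det ≠ 0) (hg : g'.det ≠ 0)
    {S : Set (κ ⊕ l → ℝ)} (hS : IsCompact S) :
    MeasurableSet {q : (κ → ℝ) × (Option κ → T l) | ∀ z : κ → ℤ,
      XX q.2 z ∉ cov g' (sec S (A *ᵥ (q.1 + rv z)))} := by
  have hu : IsUnit g'.det := isUnit_iff_ne_zero.2 hg
  have hK : IsCompact ((fun x : κ ⊕ l → ℝ =>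
      (x ∘ Sum.inl, pr (g'⁻¹ *ᵥ (x ∘ Sum.inr)))) '' S) :=
    hS.image ((by fun_prop : Continuous fun x : κ ⊕ l → ℝ => x ∘ Sum.inl).prodMk
      (continuous_pr.comp (by fun_prop)))
  have key : ∀ (y : κ → ℝ) (θ : T l), θ ∈ cov g' (sec S y) ↔ (y, θ) ∈ (fun x : κ ⊕ l → ℝ =>
      (x ∘ Sum.inl, pr (g'⁻¹ *ᵥ (x ∘ Sum.inr)))) '' S := by
    intro y θ
    constructor
    · rintro ⟨s, h1, rfl⟩
      refine ⟨_, h1, ?_⟩
      simp only [Sum.elim_comp_inl, Sum.elim_comp_inr, Matrix.mulVec_mulVec,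
        Matrix.nonsing_inv_mul _ hu, Matrix.one_mulVec]
    · rintro ⟨x, h1, h2⟩
      obtain ⟨rfl, rfl⟩ := Prod.mk.inj h2
      refine ⟨_, ?_, rfl⟩
      change Sum.elim _ _ ∈ S
      rw [Matrix.mulVec_mulVec, Matrix.mul_nonsing_inv _ hu, Matrix.one_mulVec,
        Sum.elim_comp_inl_inr]
      exact h1
  simp only [key, setOf_forall]
  refine MeasurableSet.iInter fun z => ?_
  have hc : Continuous fun q : (κ → ℝ) × (Option κ → T l) => (A *ᵥ (q.1 + rv z), XX q.2 z) := by
    unfold XX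
    fun_prop
  exact (hK.isClosed.preimage hc).measurableSet.compl

end Crest.Agent.R225
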