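import Crest.Agent.R225.Core
import Crest.Agent.R225.Layer

set_option autoImplicit false

open MeasureTheory Set
open scoped ENNReal NNReal Matrix

namespace Crest.Agent.R225

/-- Riemann lower bound: the cubes `η (σ + z) + [0,η)^m` tile `ℝ^m`; for `y` in such a cube
`sec S₀ y ⊆ sec S (η (σ + z))`; `vol_eq_lintegral_sec`; only `z ∈ P` contribute -/
theorem riemann {m d : Type} [Fintype m] [Fintype d] {S S₀ : Set (m ⊕ d → ℝ)} (hS₀ : MeasurableSet S₀)
    {η : ℝ} (hη : 0 < η)
    (h : ∀ x ∈ S₀, ∀ u : m → ℝ, ‖u‖ ≤ η → x + Sum.elim u 0 ∈ S) (σ : m → ℝ) (P : Finset (m → ℤ))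
    (hP : ∀ z : m → ℤ, (sec S (η • (σ + rv z))).Nonempty → z ∈ P) :
    volume S₀ ≤ ENNReal.ofReal (η ^ Fintype.card m) * ∑ z ∈ P, volume (sec S (η • (σ + rv z))) := by
  classical
  set C : (m → ℤ) → Set (m → ℝ) := fun z =>
    Set.pi univ fun i => Ico (η * (σ i + z i)) (η * (σ i + z i) + η) with hC
  have hCm : ∀ z, MeasurableSet (C z) := fun z =>
    MeasurableSet.univ_pi fun i => measurableSet_Ico
  have hCv : ∀ z, volume (C z) = ENNReal.ofReal (η ^ Fintype.card m) := by
    intro z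
    rw [hC]
    simp only
    rw [Real.volume_pi_Ico]
    simp only [add_sub_cancel_left, Finset.prod_const, Finset.card_univ]
    rw [ENNReal.ofReal_pow hη.le]
  have hpt : ∀ y : m → ℝ, volume (sec S₀ y) ≤
      ∑ z ∈ P, (C z).indicator (fun _ => volume (sec S (η • (σ + rv z)))) y := by
    intro y
    rcases (sec S₀ y).eq_empty_or_nonempty with h0 | h0
    · rw [h0, measure_empty]; exact zero_le
    set z : m → ℤ := fun i => ⌊y i / η - σ i⌋ with hz
    have hy : ∀ i, η * (σ i + z i) ≤ y i ∧ y i < η * (σ i + z i) + η := by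
      intro i
      have h1 := Int.floor_le (y i / η - σ i)
      have h2 := Int.lt_floor_add_one (y i / η - σ i)
      have h3 : η * (y i / η) = y i := by field_simp
      constructor
      · have : σ i + (z i : ℝ) ≤ y i / η := by rw [hz]; linarith
        have := mul_le_mul_of_nonneg_left this hη.le
        linarith
      · have : y i / η < σ i + (z i : ℝ) + 1 := by rw [hz]; linarith
        have := mul_lt_mul_of_pos_left this hη
        linarith
    have hsub : sec S₀ y ⊆ sec S (η • (σ + rv z)) := by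
      intro w hw
      have hu : ‖η • (σ + rv z) - y‖ ≤ η := by
        rw [pi_norm_le_iff_of_nonneg hη.le]
        intro i
        rw [Real.norm_eq_abs, abs_le]
        simp only [Pi.sub_apply, Pi.smul_apply, Pi.add_apply, rv, smul_eq_mul]
        constructor <;> linarith [(hy i).1, (hy i).2]
      have h2 := h _ hw _ hu
      have e : Sum.elim y w + Sum.elim (η • (σ + rv z) - y) 0 = Sum.elim (η • (σ + rv z)) w := by
        funext i
        rcases i with i | i <;> simp
      rw [e] at h2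
      exact h2
    have hzP : z ∈ P := hP z (h0.mono hsub)
    have hyC : y ∈ C z := fun i _ => hy i
    calc volume (sec S₀ y) ≤ volume (sec S (η • (σ + rv z))) := measure_mono hsub
      _ = (C z).indicator (fun _ => volume (sec S (η • (σ + rv z)))) y := by
          rw [indicator_of_mem hyC]
      _ ≤ _ := Finset.single_le_sum
          (f := fun z => (C z).indicator (fun _ => volume (sec S (η • (σ + rv z)))) y)
          (fun _ _ => zero_le) hzP
  rw [(vol_eq_lintegral_sec hS₀).2]
  refine (lintegral_mono hpt).trans (le_of_eq ?_)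
  rw [lintegral_finsetSum _ fun z _ => measurable_const.indicator (hCm z), Finset.mul_sum]
  refine Finset.sum_congr rfl fun z _ => ?_
  rw [lintegral_indicator_const (hCm z), hCv, mul_comm]

/-- fixed `σ`.  Targets `I z = cov (L • 1) (sec S ((η • 1) *ᵥ (σ + z)))` `= pr '' (L⁻¹ • sec)`, contained in
`pr '' closedBall 0 (R'/L)`, of measure `vol (sec) / L^card d` (`vol_pr_small`, `addHaar_smul`).
`P = Fintype.piFinset (Icc (-B) B)`; `riemann` gives `∑_P p ≥ V`; `exists_sub_sum` gives `P'` with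
`V - 1 ≤ ∑ ≤ V ≤ A`; `core`; `5 e ≤ 15`. -/
theorem base_fixed {m d : Type} [Fintype m] [Fintype d] [DecidableEq m] [DecidableEq d]
    {S S₀ : Set (m ⊕ d → ℝ)} (hS : IsCompact S) (hS₀ : MeasurableSet S₀) {η L R' V : ℝ} {A B : ℕ}
    (hη : 0 < η) (hL : 0 < L) (hR : 0 ≤ R') (hb : ∀ x ∈ S, ‖x‖ ≤ R')
    (h : ∀ x ∈ S₀, ∀ u : m → ℝ, ‖u‖ ≤ η → x + Sum.elim u 0 ∈ S)
    (hA : 1 ≤ A) (hd : 250 * A ≤ Fintype.card d) (hB : R' / η + 1 ≤ B) (hρ : R' / L ≤ 1 / 8)
    (hδ : (2 * B + 1 : ℝ) ^ (16 * A) * (6 * (R' / L)) ^ Fintype.card d ≤ Real.exp (-20 * A))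
    (hV0 : 0 ≤ V) (hVA : V ≤ A)
    (hV : ENNReal.ofReal (V * (η ^ Fintype.card m * L ^ Fintype.card d)) ≤ volume S₀)
    {σ : m → ℝ} (hσ : σ ∈ cube m) :
    volume {ω : Option m → T d | ∀ z : m → ℤ,
        XX ω z ∉ cov (L • (1 : Matrix d d ℝ)) (sec S ((η • (1 : Matrix m m ℝ)) *ᵥ (σ + rv z)))} ≤
      ENNReal.ofReal (15 * Real.exp (-V)) := by
  have e1 : ∀ v : m → ℝ, (η • (1 : Matrix m m ℝ)) *ᵥ v = η • v := fun v => by
    rw [Matrix.smul_mulVec, Matrix.one_mulVec]
  have e2 : ∀ X : Set (d → ℝ), cov (L • (1 : Matrix d d ℝ)) X = pr '' ((fun s => L • s) ⁻¹' X) := by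
    intro X
    unfold cov
    congr 1
    ext s
    simp only [mem_ofPred_eq, mem_preimage, Matrix.smul_mulVec, Matrix.one_mulVec]
  simp only [e1, e2]
  set I : (m → ℤ) → Set (T d) := fun z =>
    pr '' ((fun s => L • s) ⁻¹' sec S (η • (σ + rv z))) with hI
  have hball : ∀ y : m → ℝ, (fun s : d → ℝ => L • s) ⁻¹' sec S y ⊆
      Metric.closedBall (0 : d → ℝ) (R' / L) := by
    intro y s hs
    rw [mem_closedBall_zero_iff, pi_norm_le_iff_of_nonneg (by positivity)]
    intro i
    have h1 := (norm_le_pi_norm (Sum.elim y (L • s)) (Sum.inr i)).trans (hb _ hs)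
    simp only [Sum.elim_inr, Pi.smul_apply, smul_eq_mul, norm_mul, Real.norm_eq_abs,
      abs_of_pos hL] at h1
    rw [Real.norm_eq_abs, le_div_iff₀ hL]
    linarith
  have hmeas : ∀ y : m → ℝ, MeasurableSet ((fun s : d → ℝ => L • s) ⁻¹' sec S y) := fun y =>
    (measurable_const_smul L) (sec_compact hS y).isClosed.measurableSet
  have hsmall := fun y : m → ℝ => vol_pr_small (c := 0) (ρ := R' / L) (by linarith) (hmeas y) (hball y)
  have hSm : Sm I (R' / L) := fun z => ⟨(hsmall _).1, image_mono (hball _)⟩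
  have hLd : 0 < L ^ Fintype.card d := pow_pos hL _
  have hηm : 0 < η ^ Fintype.card m := pow_pos hη _
  have hvol : ∀ z, volume (sec S (η • (σ + rv z))) =
      ENNReal.ofReal (L ^ Fintype.card d) * volume (I z) := by
    intro z
    rw [hI]
    simp only
    rw [(hsmall _).2, Measure.addHaar_preimage_smul volume hL.ne', ← mul_assoc,
      ← ENNReal.ofReal_mul hLd.le, Module.finrank_fintype_fun_eq_card, abs_of_pos (inv_pos.2 hLd),
      mul_inv_cancel₀ hLd.ne', ENNReal.ofReal_one, one_mul]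
  set P : Finset (m → ℤ) := Fintype.piFinset fun _ => Finset.Icc (-(B : ℤ)) B with hPdef
  have hP : ∀ z : m → ℤ, (sec S (η • (σ + rv z))).Nonempty → z ∈ P := by
    rintro z ⟨w, hw⟩
    rw [hPdef, Fintype.mem_piFinset]
    intro i
    have h1 := (norm_le_pi_norm (Sum.elim (η • (σ + rv z)) w) (Sum.inl i)).trans (hb _ hw)
    simp only [Sum.elim_inl, Pi.smul_apply, Pi.add_apply, rv, smul_eq_mul, norm_mul,
      Real.norm_eq_abs, abs_of_pos hη] at h1
    have h2 : |σ i + z i| ≤ R' / η := by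
      rw [le_div_iff₀ hη]; linarith
    obtain ⟨h3, h4⟩ := hσ i (mem_univ i)
    obtain ⟨h5, h6⟩ := abs_le.1 h2
    rw [Finset.mem_Icc]
    constructor
    · have : (-(B : ℝ)) ≤ z i := by linarith
      exact_mod_cast this
    · have : (z i : ℝ) ≤ B := by linarith
      exact_mod_cast this
  have hr := hV.trans (riemann hS₀ hη h σ P hP)
  simp only [hvol] at hr
  have hsum : V ≤ ∑ z ∈ P, (volume (I z)).toReal := by
    rw [mul_comm V, ENNReal.ofReal_mul (mul_pos hηm hLd).le, ← Finset.mul_sum, ← mul_assoc,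
      ← ENNReal.ofReal_mul hηm.le] at hr
    have h1 := (ENNReal.mul_le_mul_iff_right (ENNReal.ofReal_pos.2 (mul_pos hηm hLd)).ne'
      ENNReal.ofReal_ne_top).1 hr
    rw [← ENNReal.toReal_sum fun z _ => measure_ne_top _ _]
    exact (ENNReal.ofReal_le_iff_le_toReal (ENNReal.sum_ne_top.2 fun z _ => measure_ne_top _ _)).1 h1
  obtain ⟨P', hP', h1, h2⟩ := exists_sub_sum P (fun z => (volume (I z)).toReal)
    (fun _ => ENNReal.toReal_nonneg)
    (fun z => by
      have := ENNReal.toReal_mono ENNReal.one_ne_top (prob_le_one (μ := volume) (s := I z))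
      simpa using this) hV0 hsum
  have hc := core (by positivity) hρ hSm P' hA (B := B) (fun z hz c => by
      have := hP' hz
      rw [hPdef, Fintype.mem_piFinset] at this
      exact abs_le.2 (Finset.mem_Icc.1 (this c))) (h2.trans hVA) hd hδ
  refine le_trans (measure_mono ?_) (hc.trans (ENNReal.ofReal_le_ofReal ?_))
  · intro ω hω z _
    exact hω z
  have h3 : Real.exp (-∑ z ∈ P', (volume (I z)).toReal) ≤ Real.exp 1 * Real.exp (-V) := by
    rw [← Real.exp_add]
    exact Real.exp_le_exp.2 (by linarith)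
  have h4 := Real.exp_one_lt_d9
  have h5 := Real.exp_pos (-V)
  nlinarith

end Crest.Agent.R225
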