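import Crest.Agent.R225.Coord

set_option autoImplicit false

open MeasureTheory Set
open scoped ENNReal NNReal Matrix

namespace Crest.Agent.R225

theorem Blk.sum_prod {α : Type} [Fintype α] {d : ℕ} (h : Fin d → α → ℝ) :
    ∑ x : Fin d → α, ∏ i, h i (x i) = ∏ i, ∑ a, h i a := by
  classical
  rw [Finset.prod_univ_sum, Fintype.piFinset_univ]

theorem Blk.second {α : Type} [Fintype α] (P g : α → ℝ) (h1 : ∑ a, P a = 1)
    (hg : ∑ a, P a * g a = 0) (d : ℕ) :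
    ∑ x : Fin d → α, (∏ i, P (x i)) * (∑ i, g (x i)) ^ 2 = d * ∑ a, P a * g a ^ 2 := by
  induction d with
  | zero => simp
  | succ d ih =>
    have h0 : ∑ x : Fin d → α, ∏ i, P (x i) = 1 := by
      rw [Blk.sum_prod (fun _ a => P a)]; simp [h1]
    rw [← (Fin.consEquiv fun _ : Fin (d + 1) => α).sum_comp, Fintype.sum_prod_type, Finset.sum_comm]
    have e : ∀ x : Fin d → α, ∑ a, (∏ i, P ((Fin.consEquiv fun _ : Fin (d + 1) => α) (a, x) i)) *
        (∑ i, g ((Fin.consEquiv fun _ : Fin (d + 1) => α) (a, x) i)) ^ 2 =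
        (∏ i, P (x i)) * (∑ a, P a * g a ^ 2) + (∏ i, P (x i)) * (∑ i, g (x i)) ^ 2 := by
      intro x
      have : ∀ a, (∏ i, P ((Fin.consEquiv fun _ : Fin (d + 1) => α) (a, x) i)) *
          (∑ i, g ((Fin.consEquiv fun _ : Fin (d + 1) => α) (a, x) i)) ^ 2 =
          (∏ i, P (x i)) * (P a * g a ^ 2) + 2 * (∏ i, P (x i)) * (∑ i, g (x i)) * (P a * g a) +
            (∏ i, P (x i)) * (∑ i, g (x i)) ^ 2 * P a := by
        intro a
        simp only [Fin.prod_univ_succ, Fin.sum_univ_succ, Fin.consEquiv_apply, Fin.cons_zero,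
          Fin.cons_succ]
        ring
      simp only [this, Finset.sum_add_distrib, ← Finset.mul_sum, h1, hg]
      ring
    simp only [e, Finset.sum_add_distrib, ← Finset.sum_mul, h0, ih]
    push_cast
    ring

open Classical in
/-- Chebyshev on a finite product: `E (∑ (f (x i) - μ))² = d Var ≤ d b²` (induction on `d`, or
`Finset.prod_univ_sum`/`Fintype.piFinset`) -/
theorem cheb_pi {α : Type} [Fintype α] (P f : α → ℝ) (hP : ∀ a, 0 ≤ P a) (h1 : ∑ a, P a = 1) {b Δ : ℝ}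
    (hf : ∀ a, |f a| ≤ b) (hΔ : 0 < Δ) (d : ℕ) :
    ∑ x ∈ Finset.univ.filter (fun x : Fin d → α => Δ < |∑ i, f (x i) - d * ∑ a, P a * f a|),
      ∏ i, P (x i) ≤ d * b ^ 2 / Δ ^ 2 := by
  set μ := ∑ a, P a * f a with hμ
  have hg : ∑ a, P a * (f a - μ) = 0 := by
    simp only [mul_sub, Finset.sum_sub_distrib, ← Finset.sum_mul, h1, one_mul, hμ, sub_self]
  have hv : ∑ a, P a * (f a - μ) ^ 2 ≤ b ^ 2 := by
    have e : ∑ a, P a * (f a - μ) ^ 2 = ∑ a, P a * f a ^ 2 - μ ^ 2 := by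
      have : ∀ a, P a * (f a - μ) ^ 2 = P a * f a ^ 2 - 2 * μ * (P a * f a) + μ ^ 2 * P a :=
        fun a => by ring
      simp only [this, Finset.sum_add_distrib, Finset.sum_sub_distrib, ← Finset.mul_sum, h1, ← hμ]
      ring
    have : ∑ a, P a * f a ^ 2 ≤ ∑ a, P a * b ^ 2 := Finset.sum_le_sum fun a _ =>
      mul_le_mul_of_nonneg_left (by
        rw [← sq_abs]; exact pow_le_pow_left₀ (abs_nonneg _) (hf a) 2) (hP a)
    rw [← Finset.sum_mul, h1, one_mul] at this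
    nlinarith [sq_nonneg μ]
  have key := Blk.second P (fun a => f a - μ) h1 hg d
  rw [le_div_iff₀ (by positivity), Finset.sum_mul]
  calc _ ≤ ∑ x ∈ Finset.univ.filter (fun x : Fin d → α => Δ < |∑ i, f (x i) - d * μ|),
        (∏ i, P (x i)) * (∑ i, (f (x i) - μ)) ^ 2 := by
        refine Finset.sum_le_sum fun x hx => mul_le_mul_of_nonneg_left ?_
          (Finset.prod_nonneg fun i _ => hP _)
        have := (Finset.mem_filter.1 hx).2
        rw [Finset.sum_sub_distrib, ← sq_abs (_ - _)]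
        simp only [Finset.sum_const, Finset.card_univ, Fintype.card_fin, nsmul_eq_mul]
        exact pow_le_pow_left₀ hΔ.le this.le 2
    _ ≤ ∑ x : Fin d → α, (∏ i, P (x i)) * (∑ i, (f (x i) - μ)) ^ 2 :=
        Finset.sum_le_sum_of_subset_of_nonneg (Finset.filter_subset _ _) fun x _ _ =>
          mul_nonneg (Finset.prod_nonneg fun i _ => hP _) (sq_nonneg _)
    _ ≤ _ := by rw [key]; gcongr

open Classical in
/-- Markov: `E ∏_{i ∈ G} r (x i) = (E r)^|G|` -/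
theorem markov_pi {α : Type} [Fintype α] (P r : α → ℝ) (hP : ∀ a, 0 ≤ P a) (h1 : ∑ a, P a = 1)
    (hr : ∀ a, 0 ≤ r a) {β : ℝ} (hβ : 0 < β) {d : ℕ} (G : Finset (Fin d)) :
    ∑ x ∈ Finset.univ.filter (fun x : Fin d → α => β < ∏ i ∈ G, r (x i)), ∏ i, P (x i) ≤
      (∑ a, P a * r a) ^ G.card / β := by
  have key : ∑ x : Fin d → α, (∏ i, P (x i)) * ∏ i ∈ G, r (x i) = (∑ a, P a * r a) ^ G.card := by
    have e : ∀ x : Fin d → α, (∏ i, P (x i)) * ∏ i ∈ G, r (x i) =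
        ∏ i, P (x i) * (if i ∈ G then r (x i) else 1) := by
      intro x
      rw [Finset.prod_mul_distrib, Finset.prod_ite_mem, Finset.univ_inter]
    simp only [e]
    rw [Blk.sum_prod (fun i a => P a * (if i ∈ G then r a else 1))]
    have e2 : ∀ i : Fin d, ∑ a, P a * (if i ∈ G then r a else 1) =
        if i ∈ G then ∑ a, P a * r a else 1 := by
      intro i; split_ifs <;> simp [h1]
    simp only [e2]
    rw [Finset.prod_ite_mem, Finset.univ_inter, Finset.prod_const]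
  rw [le_div_iff₀ hβ, Finset.sum_mul, ← key]
  calc _ ≤ ∑ x ∈ Finset.univ.filter (fun x : Fin d → α => β < ∏ i ∈ G, r (x i)),
        (∏ i, P (x i)) * ∏ i ∈ G, r (x i) :=
        Finset.sum_le_sum fun x hx => mul_le_mul_of_nonneg_left (Finset.mem_filter.1 hx).2.le
          (Finset.prod_nonneg fun i _ => hP _)
    _ ≤ _ := Finset.sum_le_sum_of_subset_of_nonneg (Finset.filter_subset _ _) fun x _ _ =>
          mul_nonneg (Finset.prod_nonneg fun i _ => hP _) (Finset.prod_nonneg fun i _ => hr _)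

theorem card_group {N s g : ℕ} (hg : g < N) :
    (Finset.univ.filter fun i : Fin (N * s) => i.val / s = g).card = s := by
  rcases Nat.eq_zero_or_pos s with rfl | hs
  · simp
  have : s = (Finset.Ico (g * s) ((g + 1) * s)).card := by simp [add_mul]
  conv_rhs => rw [this]
  refine Finset.card_bij (fun i _ => i.val) (fun i hi => ?_) (fun i _ j _ h => Fin.ext h)
    fun b hb => ?_
  · have := (Finset.mem_filter.1 hi).2
    rw [Finset.mem_Ico, ← Nat.le_div_iff_mul_le hs, ← Nat.div_lt_iff_lt_mul hs]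
    omega
  · rw [Finset.mem_Ico] at hb
    have h1 : b < N * s := hb.2.trans_le (Nat.mul_le_mul_right _ hg)
    rw [← Nat.le_div_iff_mul_le hs, ← Nat.div_lt_iff_lt_mul hs] at hb
    exact ⟨⟨b, h1⟩, Finset.mem_filter.2 ⟨Finset.mem_univ _, by simp only; omega⟩, rfl⟩

open Classical in
theorem Blk.abs {α : Type} [Fintype α] (m δ : α → ℝ) {Q Y h : ℝ} {N s : ℕ} (hY1 : 1000 ≤ Y)
    (hhY : h ^ 4 ≤ Y) (hexp : Y ^ 38 ≤ Real.exp Y) (hQ : 0 < Q) (hN : (N : ℝ) = Y ^ 18)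
    (hs : (s : ℝ) = Y ^ 10) (hmm : ∀ o, 0 < m o) (hlog : ∀ o, |Real.log (m o)| ≤ h ^ 2)
    (hδ : ∀ o, 0 ≤ δ o) (z1 : 1 - 2 * (Y ^ 32)⁻¹ ≤ ∑ o, m o / Q) (z2 : ∑ o, m o / Q ≤ 1)
    (hm : 1 / 2 ≤ ∑ o, m o / Q * Real.log (m o))
    (hb : ∑ o, δ o / Q ≤ (1 - (Y ^ 9)⁻¹) * ∑ o, m o / Q) :
    ∃ (A : ℝ) (𝒜 : Finset (Fin (N * s) → α)), 2 * Y ^ 15 ≤ A ∧
    (∀ x ∈ 𝒜, Real.exp (A - Y ^ 15) ≤ ∏ i, m (x i) ∧ ∏ i, m (x i) ≤ Real.exp (A + Y ^ 15) ∧
      ∀ g < N, ∏ i ∈ Finset.univ.filter (fun i : Fin (N * s) => i.val / s = g), δ (x i) ≤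
        (Y ^ 19)⁻¹ * ∏ i ∈ Finset.univ.filter (fun i : Fin (N * s) => i.val / s = g), m (x i)) ∧
    (1 - 4 / Y) * Q ^ (N * s) ≤ ∑ x ∈ 𝒜, ∏ i, m (x i) ∧
    ∑ x : Fin (N * s) → α, ∏ i, m (x i) ≤ Q ^ (N * s) := by
  have hY0 : 0 < Y := by linarith
  have hd : ((N * s : ℕ) : ℝ) = Y ^ 28 := by push_cast; rw [hN, hs]; ring
  obtain ⟨z, hz⟩ : ∃ z, z = ∑ o, m o / Q := ⟨_, rfl⟩
  rw [← hz] at z1 z2 hb
  have hY32 : (Y ^ 32)⁻¹ ≤ 1 / 4 := by
    rw [inv_le_comm₀ (by positivity) (by norm_num)]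
    exact le_trans (by norm_num; linarith) (le_self_pow₀ (by linarith) (by norm_num))
  have hz0 : 0 < z := by linarith
  obtain ⟨P, hP⟩ : ∃ P : α → ℝ, ∀ o, P o = m o / Q / z := ⟨_, fun _ => rfl⟩
  have hP0 : ∀ o, 0 ≤ P o := fun o => by have := hmm o; rw [hP]; positivity
  have hP1 : ∑ o, P o = 1 := by simp only [hP]; rw [← Finset.sum_div, ← hz, div_self hz0.ne']
  obtain ⟨μ, hμ⟩ : ∃ μ, μ = ∑ o, P o * Real.log (m o) := ⟨_, rfl⟩
  have hμ1 : 1 / 2 ≤ μ := by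
    have : μ = (∑ o, m o / Q * Real.log (m o)) / z := by
      rw [Finset.sum_div, hμ]; exact Finset.sum_congr rfl fun o _ => by rw [hP]; ring
    rw [this, le_div_iff₀ hz0]; linarith
  obtain ⟨r, hr⟩ : ∃ r : α → ℝ, ∀ o, r o = δ o / m o := ⟨_, fun _ => rfl⟩
  have hr0 : ∀ o, 0 ≤ r o := fun o => by rw [hr]; exact div_nonneg (hδ o) (hmm o).le
  have hEr : ∑ o, P o * r o ≤ 1 - (Y ^ 9)⁻¹ := by
    have : ∑ o, P o * r o = (∑ o, δ o / Q) / z := by
      rw [Finset.sum_div]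
      exact Finset.sum_congr rfl fun o _ => by have := hmm o; rw [hP, hr]; field_simp
    rw [this, div_le_iff₀ hz0]; exact hb
  have hEr0 : 0 ≤ ∑ o, P o * r o := Finset.sum_nonneg fun o _ => mul_nonneg (hP0 o) (hr0 o)
  obtain ⟨W, hW⟩ : ∃ W : (Fin (N * s) → α) → ℝ, ∀ x, W x = ∏ i, P (x i) := ⟨_, fun _ => rfl⟩
  have hW0 : ∀ x, 0 ≤ W x := fun x => by rw [hW]; exact Finset.prod_nonneg fun i _ => hP0 _
  have hW1 : ∑ x, W x = 1 := by
    simp only [hW]; rw [Blk.sum_prod (fun _ a => P a)]; simp [hP1]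
  have hMW : ∀ x : Fin (N * s) → α, ∏ i, m (x i) = (Q * z) ^ (N * s) * W x := by
    intro x
    have : (Q * z) ^ (N * s) = ∏ _i : Fin (N * s), (Q * z) := by simp
    rw [this, hW, ← Finset.prod_mul_distrib]
    exact Finset.prod_congr rfl fun i _ => by rw [hP]; field_simp
  obtain ⟨G, hG⟩ : ∃ G : ℕ → Finset (Fin (N * s)),
    ∀ g, G g = Finset.univ.filter fun i => i.val / s = g := ⟨_, fun _ => rfl⟩
  simp only [← hG]
  obtain ⟨B0, hB0⟩ : ∃ B0, B0 = Finset.univ.filter fun x : Fin (N * s) → α =>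
    Y ^ 15 < |∑ i, Real.log (m (x i)) - (N * s : ℕ) * μ| := ⟨_, rfl⟩
  obtain ⟨B, hB⟩ : ∃ B : ℕ → Finset (Fin (N * s) → α), ∀ g, B g =
    Finset.univ.filter fun x => (Y ^ 19)⁻¹ < ∏ i ∈ G g, r (x i) := ⟨_, fun _ => rfl⟩
  have b0 : ∑ x ∈ B0, W x ≤ 1 / Y := by
    have := cheb_pi P (fun o => Real.log (m o)) hP0 hP1 hlog (Δ := Y ^ 15) (by positivity) (N * s)
    rw [← hμ, ← hB0] at this
    simp only [hW]
    refine this.trans ?_
    rw [hd, div_le_div_iff₀ (by positivity) hY0]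
    calc Y ^ 28 * (h ^ 2) ^ 2 * Y = Y ^ 29 * h ^ 4 := by ring
      _ ≤ Y ^ 29 * Y := by gcongr
      _ = _ := by ring
  have b1 : ∀ g ∈ Finset.range N, ∑ x ∈ B g, W x ≤ 1 / Y ^ 19 := by
    intro g hg
    have := markov_pi P r hP0 hP1 hr0 (β := (Y ^ 19)⁻¹) (by positivity) (G g)
    rw [← hB] at this
    simp only [hW]
    refine this.trans ?_
    have hc : (G g).card = s := by rw [hG]; exact card_group (Finset.mem_range.1 hg)
    have h1 : (∑ o, P o * r o) ^ s ≤ Real.exp (-Y) := by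
      calc _ ≤ Real.exp (-(Y ^ 9)⁻¹) ^ s := by
            gcongr
            linarith [Real.add_one_le_exp (-(Y ^ 9)⁻¹)]
        _ = _ := by rw [← Real.exp_nat_mul, hs]; congr 1; field_simp
    rw [hc, div_inv_eq_mul, le_div_iff₀ (by positivity)]
    calc _ ≤ Real.exp (-Y) * Y ^ 19 * Y ^ 19 := by gcongr
      _ = Real.exp (-Y) * Y ^ 38 := by ring
      _ ≤ Real.exp (-Y) * Real.exp Y := by gcongr
      _ = 1 := by rw [← Real.exp_add]; simp
  obtain ⟨𝒜, h𝒜⟩ : ∃ 𝒜 : Finset (Fin (N * s) → α), ∀ x, x ∈ 𝒜 ↔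
      |∑ i, Real.log (m (x i)) - (N * s : ℕ) * μ| ≤ Y ^ 15 ∧
      ∀ g < N, ∏ i ∈ G g, δ (x i) ≤ (Y ^ 19)⁻¹ * ∏ i ∈ G g, m (x i) :=
    ⟨Finset.univ.filter fun x => |∑ i, Real.log (m (x i)) - (N * s : ℕ) * μ| ≤ Y ^ 15 ∧
      ∀ g < N, ∏ i ∈ G g, δ (x i) ≤ (Y ^ 19)⁻¹ * ∏ i ∈ G g, m (x i),
      fun x => by rw [Finset.mem_filter, and_iff_right (Finset.mem_univ _)]⟩
  have hA : 1 - 2 / Y ≤ ∑ x ∈ 𝒜, W x := by
    have pt : ∀ x, W x ≤ (if x ∈ 𝒜 then W x else 0) + (if x ∈ B0 then W x else 0) +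
        ∑ g ∈ Finset.range N, if x ∈ B g then W x else 0 := by
      intro x
      have n1 : 0 ≤ if x ∈ 𝒜 then W x else 0 := by split_ifs <;> simp [hW0]
      have n2 : 0 ≤ if x ∈ B0 then W x else 0 := by split_ifs <;> simp [hW0]
      have n3 : ∀ g ∈ Finset.range N, 0 ≤ if x ∈ B g then W x else 0 :=
        fun g _ => by split_ifs <;> simp [hW0]
      have n4 := Finset.sum_nonneg n3
      by_cases h0 : x ∈ B0
      · rw [if_pos h0]; linarith
      by_cases h1 : x ∈ 𝒜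
      · rw [if_pos h1]; linarith
      rw [hB0, Finset.mem_filter, and_iff_right (Finset.mem_univ _), not_lt] at h0
      rw [h𝒜, and_iff_right h0] at h1
      push Not at h1
      obtain ⟨g, hg, hlt⟩ := h1
      have hx : x ∈ B g := by
        rw [hB]
        refine Finset.mem_filter.2 ⟨Finset.mem_univ _, ?_⟩
        simp only [hr]
        rw [Finset.prod_div_distrib, lt_div_iff₀ (Finset.prod_pos fun i _ => hmm _)]
        exact hlt
      have := Finset.single_le_sum n3 (Finset.mem_range.2 hg)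
      rw [if_pos hx] at this
      linarith
    have tot := Finset.sum_le_sum fun x (_ : x ∈ Finset.univ) => pt x
    rw [hW1, Finset.sum_add_distrib, Finset.sum_add_distrib, Finset.sum_comm] at tot
    simp only [Finset.sum_ite_mem, Finset.univ_inter] at tot
    have b2 := Finset.sum_le_card_nsmul _ _ _ b1
    rw [Finset.card_range, nsmul_eq_mul, hN] at b2
    have e : Y ^ 18 * (1 / Y ^ 19) = 1 / Y := by field_simp
    have e2 : 2 / Y = 1 / Y + 1 / Y := by ring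
    linarith
  have hzd : 1 - 2 / Y ≤ z ^ (N * s) := by
    have h1 := one_add_mul_le_pow (a := z - 1) (by linarith) (N * s)
    rw [add_sub_cancel, hd] at h1
    have h2 : Y ^ 28 * (2 * (Y ^ 32)⁻¹) ≤ 2 / Y := by
      have : Y ^ 28 * (2 * (Y ^ 32)⁻¹) = 2 / Y ^ 4 := by field_simp
      rw [this]
      exact div_le_div_of_nonneg_left (by norm_num) hY0 (le_self_pow₀ (by linarith) (by norm_num))
    have h3 : Y ^ 28 * (-(2 * (Y ^ 32)⁻¹)) ≤ Y ^ 28 * (z - 1) := by gcongr; linarith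
    linarith
  have h2Y : 2 / Y ≤ 1 := by rw [div_le_one hY0]; linarith
  refine ⟨(N * s : ℕ) * μ, 𝒜, ?_, fun x hx => ?_, ?_, ?_⟩
  · rw [hd]
    have : 4 * Y ^ 15 ≤ Y ^ 28 := by
      calc 4 * Y ^ 15 ≤ Y * Y ^ 15 := by gcongr; linarith
        _ = Y ^ 16 := by ring
        _ ≤ _ := pow_le_pow_right₀ (by linarith) (by norm_num)
    have h0 : Y ^ 28 * (1 / 2) ≤ Y ^ 28 * μ := by gcongr
    linarith
  · obtain ⟨h1, h2⟩ := (h𝒜 x).1 hx
    have e : ∏ i, m (x i) = Real.exp (∑ i, Real.log (m (x i))) := by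
      rw [Real.exp_sum]; exact Finset.prod_congr rfl fun i _ => (Real.exp_log (hmm _)).symm
    rw [abs_le] at h1
    exact ⟨by rw [e]; exact Real.exp_le_exp.2 (by linarith),
      by rw [e]; exact Real.exp_le_exp.2 (by linarith), h2⟩
  · simp only [hMW]
    rw [← Finset.mul_sum, mul_pow]
    have : 1 - 4 / Y ≤ z ^ (N * s) * ∑ x ∈ 𝒜, W x := by
      have h3 : (1 - 2 / Y) * (1 - 2 / Y) ≤ z ^ (N * s) * ∑ x ∈ 𝒜, W x :=
        mul_le_mul hzd hA (by linarith) (by positivity)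
      have e : 4 / Y = 2 * (2 / Y) := by ring
      nlinarith [sq_nonneg (2 / Y)]
    calc _ ≤ (z ^ (N * s) * ∑ x ∈ 𝒜, W x) * Q ^ (N * s) := by gcongr
      _ = _ := by ring
  · simp only [hMW]
    rw [← Finset.mul_sum, hW1, mul_one]
    exact pow_le_pow_left₀ (by positivity) (mul_le_of_le_one_right hQ.le z2) _

/-- **alive set.**  `z₁ = ∑ mm / Q`, `P o = mm o / (Q z₁)`, `A = d ∑ P log mm ≥ d / 2`,
`𝒜 = {x | |log MM - A| ≤ De ∧ Unb}`.  `cheb_pi` (`b = hh²`): `≤ Y^28 hh^4 / Y^30 ≤ 1/Y`; `markov_pi` with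
`r = |wb f - wb t| / mm`, `(1 - Y^(-9))^(Y^10) ≤ e^{-Y}`, `Y^18 Y^19 e^{-Y} ≤ 1/Y`;
`∑_𝒜 MM = Q^d z₁^d P(𝒜)`, `z₁^d ≥ 1 - 2 d Y^(-32)` (Bernoulli). -/
theorem blk {p : ℕ} (hp : 40 ≤ p) : ∃ (A : ℝ) (𝒜 : Finset (Gam p)), 2 * De p ≤ A ∧
    (∀ x ∈ 𝒜, Real.exp (A - De p) ≤ MM p x ∧ MM p x ≤ Real.exp (A + De p) ∧ Unb p x) ∧
    (1 - 4 / 2 ^ p) * (Fintype.card (Gam p) : ℝ) ≤ ∑ x ∈ 𝒜, MM p x ∧
    ∑ x, MM p x ≤ Fintype.card (Gam p) := by
  have hh40 := hh_ge hp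
  have hhY := hh_le hp
  have hh4 : (40 : ℝ) ^ 4 ≤ hh p ^ 4 := by gcongr
  have pw : ∀ k : ℕ, (2 : ℝ) ^ (k * p) = (2 ^ p) ^ k := fun k => by rw [mul_comm, pow_mul]
  have hQ : (0 : ℝ) < QQ p := by unfold QQ; positivity
  have hN : (NN p : ℝ) = (2 ^ p) ^ 18 := by unfold NN; push_cast; rw [pw]
  have hs : (ss p : ℝ) = (2 ^ p) ^ 10 := by unfold ss; push_cast; rw [pw]
  have hDe : De p = (2 ^ p) ^ 15 := pw 15
  have hbe : be p = ((2 ^ p) ^ 19)⁻¹ := by unfold be; rw [pw]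
  obtain ⟨z1, z2⟩ := sum_mm hp
  have hb := bias_mm hp
  rw [pw] at z1 hb
  have hexp : ((2 : ℝ) ^ p) ^ 38 ≤ Real.exp (2 ^ p) := by
    have h1 : (2 : ℝ) ^ p = Real.exp (p * Real.log 2) := by
      rw [Real.exp_nat_mul, Real.exp_log (by norm_num)]
    have h2 : 38 * (p * Real.log 2) ≤ 2 ^ p := by
      have := hh_sq p
      have h3 : 0 ≤ p * Real.log 2 := by have := Real.log_two_gt_d9; positivity
      have h4 : hh p ^ 2 ≤ hh p ^ 4 := pow_le_pow_right₀ (by linarith) (by norm_num)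
      linarith
    calc ((2 : ℝ) ^ p) ^ 38 = Real.exp (p * Real.log 2) ^ 38 := by rw [← h1]
      _ = Real.exp (38 * (p * Real.log 2)) := by rw [← Real.exp_nat_mul]; norm_num
      _ ≤ _ := Real.exp_le_exp.2 h2
  have hcard : (Fintype.card (Gam p) : ℝ) = (QQ p : ℝ) ^ (NN p * ss p) := by
    rw [Fintype.card_fun, ZMod.card, Fintype.card_fin, Nat.cast_pow]; rfl
  obtain ⟨A, 𝒜, h1, h2, h3, h4⟩ := Blk.abs (mm p) (fun o => |wb p o false - wb p o true|)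
    (Y := 2 ^ p) (h := hh p) (by linarith) (by linarith) hexp hQ hN hs (fun o => (log_mm hp o).1)
    (fun o => (log_mm hp o).2) (fun _ => abs_nonneg _) z1 z2 (mean_log_mm hp) hb
  rw [hDe, hcard]
  refine ⟨A, 𝒜, h1, fun x hx => ⟨(h2 x hx).1, (h2 x hx).2.1, ?_⟩, h3, ?_⟩
  · unfold Unb
    rw [hbe]
    exact (h2 x hx).2.2
  · refine le_trans (le_of_eq ?_) h4
    exact Finset.sum_congr (Finset.ext fun x => iff_of_true (Finset.mem_univ _)
      (@Finset.mem_univ (Fin (NN p * ss p) → ZMod (QQ p)) _ x)) fun _ _ => rfl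

end Crest.Agent.R225
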