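import Crest.Agent.R225.Defs

set_option autoImplicit false

open MeasureTheory Set
open scoped ENNReal NNReal Matrix

namespace Crest.Agent.R225

namespace BonfX

/-- elementary symmetric sum -/
noncomputable def e {α : Type} (p : α → ℝ) (P : Finset α) (j : ℕ) : ℝ :=
  ∑ F ∈ P.powersetCard j, ∏ z ∈ F, p z

theorem e_zero {α : Type} (p : α → ℝ) (P : Finset α) : e p P 0 = 1 := by simp [e]

theorem e_empty {α : Type} (p : α → ℝ) (j : ℕ) : e p ∅ (j + 1) = 0 := by
  unfold e
  rw [Finset.powersetCard_eq_empty.2 (by simp), Finset.sum_empty]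

theorem e_insert {α : Type} [DecidableEq α] (p : α → ℝ) {P : Finset α} {z : α} (hz : z ∉ P) (j : ℕ) :
    e p (insert z P) (j + 1) = e p P (j + 1) + p z * e p P j := by
  unfold e
  rw [Finset.powersetCard_succ_insert hz, Finset.sum_union, Finset.sum_image, Finset.mul_sum]
  · congr 1
    refine Finset.sum_congr rfl fun F hF => ?_
    rw [Finset.prod_insert fun h => hz ((Finset.mem_powersetCard.1 hF).1 h)]
  · intro F hF G hG h
    have h1 : z ∉ F := fun h => hz ((Finset.mem_powersetCard.1 hF).1 h)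
    have h2 : z ∉ G := fun h => hz ((Finset.mem_powersetCard.1 hG).1 h)
    rw [← Finset.erase_insert h1, ← Finset.erase_insert h2, h]
  · rw [Finset.disjoint_left]
    intro F hF hF'
    obtain ⟨G, _, rfl⟩ := Finset.mem_image.1 hF'
    exact hz ((Finset.mem_powersetCard.1 hF).1 (Finset.mem_insert_self _ _))

/-- truncated alternating sum -/
noncomputable def S {α : Type} (p : α → ℝ) (P : Finset α) (J : ℕ) : ℝ :=
  ∑ j ∈ Finset.range (J + 1), (-1 : ℝ) ^ j * e p P j

theorem S_zero {α : Type} (p : α → ℝ) (P : Finset α) : S p P 0 = 1 := by simp [S, e_zero]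

theorem S_empty {α : Type} (p : α → ℝ) (J : ℕ) : S p ∅ J = 1 := by
  unfold S
  rw [Finset.sum_range_succ']
  simp [e_empty, e_zero]

theorem S_insert {α : Type} [DecidableEq α] (p : α → ℝ) {P : Finset α} {z : α} (hz : z ∉ P) (J : ℕ) :
    S p (insert z P) (J + 1) = S p P (J + 1) - p z * S p P J := by
  unfold S
  rw [Finset.sum_range_succ' _ (J + 1), Finset.sum_range_succ' _ (J + 1), e_zero, e_zero,
    Finset.mul_sum, add_sub_right_comm, ← Finset.sum_sub_distrib]
  congr 1
  refine Finset.sum_congr rfl fun j _ => ?_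
  rw [e_insert p hz]; ring

theorem S_sign {α : Type} (p : α → ℝ) (hp : ∀ z, 0 ≤ p z) (hp1 : ∀ z, p z ≤ 1) (P : Finset α) (J : ℕ) :
    0 ≤ (-1 : ℝ) ^ J * (S p P J - ∏ z ∈ P, (1 - p z)) := by
  classical
  induction P using Finset.induction_on generalizing J with
  | empty => simp [S_empty]
  | insert z P hz ih =>
    cases J with
    | zero =>
      rw [S_zero, pow_zero, one_mul, sub_nonneg]
      exact Finset.prod_le_one (fun x _ => by linarith [hp1 x]) fun x _ => by linarith [hp x]
    | succ J =>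
      rw [S_insert p hz, Finset.prod_insert hz]
      have h1 := ih (J + 1)
      have h2 := mul_nonneg (hp z) (ih J)
      rw [pow_succ] at h1 ⊢
      linarith

open Classical in
theorem regroup {α : Type} (N : Finset α) (Q : Finset α → Prop) (K : ℕ) (h : ℕ → Finset α → ℝ) :
    ∑ r ∈ Finset.range (K + 1), ∑ F ∈ (N.powersetCard r).filter Q, h r F
      = ∑ F ∈ N.powerset.filter (fun F => Q F ∧ F.card ≤ K), h F.card F := by
  rw [← Finset.sum_fiberwise_of_maps_to (s := N.powerset.filter (fun F => Q F ∧ F.card ≤ K))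
    (t := Finset.range (K + 1)) (g := Finset.card)
    (fun F hF => Finset.mem_range.2 (Nat.lt_succ_of_le (Finset.mem_filter.1 hF).2.2))]
  refine Finset.sum_congr rfl fun r hr => ?_
  have hr' := Nat.lt_succ_iff.1 (Finset.mem_range.1 hr)
  refine Finset.sum_congr ?_ fun F hF => ?_
  · ext F
    simp only [Finset.mem_filter, Finset.mem_powersetCard, Finset.mem_powerset]
    constructor
    · rintro ⟨⟨a, b⟩, c⟩
      exact ⟨⟨a, c, b ▸ hr'⟩, b⟩
    · rintro ⟨⟨a, c, _⟩, b⟩
      exact ⟨⟨a, b⟩, c⟩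
  · rw [(Finset.mem_filter.1 hF).2]

end BonfX

open Classical in
/-- **Bonferroni for independent sets** (Schmidt).  If every subset of `N` with at most `J` elements is
independent the first sum is `∑_{j ≤ J} (-1)^j C(|N|, j)`, which is `1` for `N = ∅` and `C(|N|-1, J) ≥ 0`
otherwise (`Int.alternating_sum_range_choose..`, or induction).  Otherwise fix a dependent `C ⊆ N`, `|C| ≤ J`
(so `N ≠ ∅`).  Each independent `F ⊆ N`, `|F| ≤ J` extends to a maximal independent `F⁺`, `F ⊆ F⁺ ⊆ F ∪ C`
(`exists_linearIndepOn_extension`), `|F⁺| ≤ 2J`, and some `z ∈ C \ F⁺` lies in the span of `F⁺`; at most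
`2^|F⁺|` sets `F` have the same `F⁺`; so the number of independent `F` with `|F| ≤ J` is at most the second
sum. -/
theorem bonf {α W : Type} [AddCommGroup W] [Module ℚ W] (v : α → W) (N : Finset α) {J : ℕ}
    (hJ : Even J) :
    (if N = ∅ then (1 : ℝ) else 0) ≤
      ∑ j ∈ Finset.range (J + 1), (-1 : ℝ) ^ j *
        (((N.powersetCard j).filter fun F : Finset α => LinearIndepOn ℚ v (F : Set α)).card : ℝ) +
      ∑ r ∈ Finset.range (2 * J + 1), (2 : ℝ) ^ r *
        ∑ F ∈ (N.powersetCard r).filter (fun F : Finset α => LinearIndepOn ℚ v (F : Set α)),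
          (((N \ F).filter fun z => v z ∈ Submodule.span ℚ (v '' (F : Set α))).card : ℝ) := by
  have hnn : 0 ≤ ∑ r ∈ Finset.range (2 * J + 1), (2 : ℝ) ^ r *
        ∑ F ∈ (N.powersetCard r).filter (fun F : Finset α => LinearIndepOn ℚ v (F : Set α)),
          (((N \ F).filter fun z => v z ∈ Submodule.span ℚ (v '' (F : Set α))).card : ℝ) := by
    positivity
  by_cases hall : ∀ C ⊆ N, C.card ≤ J → LinearIndepOn ℚ v (C : Set α)
  · refine le_trans ?_ (le_add_of_nonneg_right hnn)
    have h := BonfX.S_sign (fun _ : α => (1 : ℝ)) (fun _ => zero_le_one) (fun _ => le_rfl) N J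
    rw [hJ.neg_one_pow, one_mul, sub_nonneg] at h
    refine le_trans (le_of_eq ?_) (h.trans (le_of_eq ?_))
    · split_ifs with hN
      · simp [hN]
      · obtain ⟨x, hx⟩ := Finset.nonempty_iff_ne_empty.2 hN
        exact (Finset.prod_eq_zero hx (by simp)).symm
    · unfold BonfX.S BonfX.e
      refine Finset.sum_congr rfl fun j hj => ?_
      have hj' := Nat.lt_succ_iff.1 (Finset.mem_range.1 hj)
      rw [Finset.filter_true_of_mem fun F hF => hall F (Finset.mem_powersetCard.1 hF).1
        ((Finset.mem_powersetCard.1 hF).2 ▸ hj')]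
      simp
  push Not at hall
  obtain ⟨C, hCN, hCJ, hC⟩ := hall
  have hN : N ≠ ∅ := by
    rintro rfl
    rw [Finset.subset_empty.1 hCN] at hC
    exact hC (by simp)
  rw [if_neg hN]
  set I := N.powerset.filter (fun F : Finset α => LinearIndepOn ℚ v (F : Set α) ∧ F.card ≤ J) with hI
  set I2 := N.powerset.filter
    (fun F : Finset α => LinearIndepOn ℚ v (F : Set α) ∧ F.card ≤ 2 * J) with hI2
  set c : Finset α → ℕ := fun F =>
    ((N \ F).filter fun z => v z ∈ Submodule.span ℚ (v '' (F : Set α))).card with hc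
  have h1 : -(I.card : ℝ) ≤ ∑ j ∈ Finset.range (J + 1), (-1 : ℝ) ^ j *
      (((N.powersetCard j).filter fun F : Finset α => LinearIndepOn ℚ v (F : Set α)).card : ℝ) := by
    have e := BonfX.regroup N (fun F : Finset α => LinearIndepOn ℚ v (F : Set α)) J (fun _ _ => 1)
    simp only [Finset.sum_const, nsmul_eq_mul, mul_one] at e
    have e' : ∑ j ∈ Finset.range (J + 1),
        (((N.powersetCard j).filter fun F : Finset α => LinearIndepOn ℚ v (F : Set α)).card : ℝ)
        = I.card := by convert e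
    rw [← e', ← Finset.sum_neg_distrib]
    refine Finset.sum_le_sum fun j _ => ?_
    rcases neg_one_pow_eq_or ℝ j with h | h <;> rw [h]
    · rw [one_mul]; exact neg_le_self (Nat.cast_nonneg _)
    · rw [neg_one_mul]
  have h2 : ∑ r ∈ Finset.range (2 * J + 1), (2 : ℝ) ^ r *
        ∑ F ∈ (N.powersetCard r).filter (fun F : Finset α => LinearIndepOn ℚ v (F : Set α)),
          (((N \ F).filter fun z => v z ∈ Submodule.span ℚ (v '' (F : Set α))).card : ℝ)
      = ∑ F ∈ I2, (2 : ℝ) ^ F.card * c F := by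
    have e := BonfX.regroup N (fun F : Finset α => LinearIndepOn ℚ v (F : Set α)) (2 * J)
      (fun r F => (2 : ℝ) ^ r * c F)
    simp only [Finset.mul_sum]
    convert e
  have h3 : I ⊆ (I2.filter fun G => c G ≠ 0).biUnion Finset.powerset := by
    intro F hF
    obtain ⟨hF1, hF2, hF3⟩ := Finset.mem_filter.1 hF
    have hF1' := Finset.mem_powerset.1 hF1
    obtain ⟨b, hb1, hb2, hb3, hb4⟩ := exists_linearIndepOn_extension hF2
      (t := ((F ∪ C : Finset α) : Set α)) (by simp)
    have hG : (((F ∪ C).filter fun x => x ∈ b : Finset α) : Set α) = b := by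
      ext x
      simp only [Finset.coe_filter, Set.mem_ofPred_eq]
      exact ⟨fun h => h.2, fun h => ⟨hb1 h, h⟩⟩
    refine Finset.mem_biUnion.2 ⟨(F ∪ C).filter fun x => x ∈ b, Finset.mem_filter.2 ⟨?_, ?_⟩, ?_⟩
    · refine Finset.mem_filter.2 ⟨Finset.mem_powerset.2 ((Finset.filter_subset _ _).trans
        (Finset.union_subset hF1' hCN)), by rwa [hG], ?_⟩
      have := Finset.card_union_le F C
      have := Finset.card_filter_le (F ∪ C) fun x => x ∈ b
      omega
    · obtain ⟨z, hz1, hz2⟩ : ∃ z ∈ C, z ∉ b := by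
        by_contra hcon
        push Not at hcon
        exact hC (hb4.mono fun x hx => hcon x hx)
      refine Finset.card_ne_zero.2 ⟨z, Finset.mem_filter.2 ⟨Finset.mem_sdiff.2
        ⟨hCN hz1, fun h => hz2 (Finset.mem_filter.1 h).2⟩, ?_⟩⟩
      rw [hG]
      exact hb3 ⟨z, by simp [hz1], rfl⟩
    · exact Finset.mem_powerset.2 fun x hx =>
        Finset.mem_filter.2 ⟨Finset.mem_union_left _ hx, hb2 hx⟩
  have h4 : I.card ≤ ∑ F ∈ I2, 2 ^ F.card * c F := by
    refine (Finset.card_le_card h3).trans (Finset.card_biUnion_le.trans ?_)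
    rw [Finset.sum_filter]
    refine Finset.sum_le_sum fun G _ => ?_
    split_ifs with h
    · rw [Finset.card_powerset]
      exact Nat.le_mul_of_pos_right _ (Nat.pos_of_ne_zero h)
    · exact Nat.zero_le _
  have h5 : (I.card : ℝ) ≤ ∑ F ∈ I2, (2 : ℝ) ^ F.card * c F := by exact_mod_cast h4
  rw [h2]
  linarith

/-- elementary symmetric sums: `j! e_j ≤ (∑ p)^j` (induction on `P`, or `Finset.sum_pow`) -/
theorem esym_le {α : Type} (P : Finset α) (p : α → ℝ) (hp : ∀ z, 0 ≤ p z) (j : ℕ) :
    ∑ F ∈ P.powersetCard j, ∏ z ∈ F, p z ≤ (∑ z ∈ P, p z) ^ j / (j.factorial : ℝ) := by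
  classical
  show BonfX.e p P j ≤ _
  induction P using Finset.induction_on generalizing j with
  | empty =>
    cases j with
    | zero => simp [BonfX.e_zero]
    | succ j => simp [BonfX.e_empty]
  | insert z P hz ih =>
    cases j with
    | zero => simp [BonfX.e_zero]
    | succ j =>
      rw [BonfX.e_insert p hz, Finset.sum_insert hz, add_comm (p z)]
      have hS : 0 ≤ ∑ z ∈ P, p z := Finset.sum_nonneg fun z _ => hp z
      have h1 := ih (j + 1)
      have h2 := mul_le_mul_of_nonneg_left (ih j) (hp z)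
      have h3 := pow_add_mul_le_add_pow hS (b := p z) (by linarith [hp z]) (j + 1)
      refine (add_le_add h1 h2).trans (le_trans (le_of_eq ?_)
        (div_le_div_of_nonneg_right h3 (by positivity)))
      rw [Nat.factorial_succ, Nat.add_sub_cancel]
      push_cast
      field_simp

/-- with `S_J(P) = ∑_{j ≤ J} (-1)^j e_j(P)`: `S_J (insert z P) = S_J P - p z * S_{J-1} P`
(`Finset.powersetCard_succ_insert`), hence `(-1)^J (S_J - ∏ (1 - p)) ≥ 0` by induction on `P`
(generalising `J`); apply it with `J + 1` and `1 - p ≤ exp (-p)` -/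
theorem esym_bonf {α : Type} (P : Finset α) (p : α → ℝ) (hp : ∀ z, 0 ≤ p z) (hp1 : ∀ z, p z ≤ 1)
    {J : ℕ} (hJ : Even J) :
    ∑ j ∈ Finset.range (J + 1), (-1 : ℝ) ^ j * ∑ F ∈ P.powersetCard j, ∏ z ∈ F, p z ≤
      Real.exp (-∑ z ∈ P, p z) + (∑ z ∈ P, p z) ^ (J + 1) / ((J + 1).factorial : ℝ) := by
  show BonfX.S p P J ≤ _
  have h1 := BonfX.S_sign p hp hp1 P (J + 1)
  have h2 : BonfX.S p P (J + 1) = BonfX.S p P J - BonfX.e p P (J + 1) := by
    unfold BonfX.S
    rw [Finset.sum_range_succ _ (J + 1), pow_succ, hJ.neg_one_pow]; ring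
  rw [pow_succ, hJ.neg_one_pow, h2] at h1
  have h3 : BonfX.e p P (J + 1) ≤ _ := esym_le P p hp (J + 1)
  have h4 : ∏ z ∈ P, (1 - p z) ≤ Real.exp (-∑ z ∈ P, p z) := by
    rw [← Finset.sum_neg_distrib, Real.exp_sum]
    exact Finset.prod_le_prod (fun x _ => by linarith [hp1 x])
      fun x _ => by linarith [Real.add_one_le_exp (-p x)]
  linarith

/-- greedy truncation -/
theorem exists_sub_sum {α : Type} (P : Finset α) (p : α → ℝ) (hp : ∀ z, 0 ≤ p z) (hp1 : ∀ z, p z ≤ 1)
    {V : ℝ} (hV : 0 ≤ V) (h : V ≤ ∑ z ∈ P, p z) :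
    ∃ P' ⊆ P, V - 1 ≤ ∑ z ∈ P', p z ∧ ∑ z ∈ P', p z ≤ V := by
  classical
  induction P using Finset.induction_on with
  | empty => exact ⟨∅, subset_rfl, by simp at h ⊢; constructor <;> linarith⟩
  | insert z P hz ih =>
    by_cases h' : V ≤ ∑ z ∈ P, p z
    · obtain ⟨P', h1, h2⟩ := ih h'
      exact ⟨P', h1.trans (Finset.subset_insert _ _), h2⟩
    · rw [Finset.sum_insert hz] at h
      exact ⟨P, Finset.subset_insert _ _, by linarith [hp1 z], (not_le.1 h').le⟩

end Crest.Agent.R225
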