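import Crest.Agent.R225.Defs

set_option autoImplicit false

open MeasureTheory Set
open scoped ENNReal NNReal Matrix

namespace Crest.Agent.R225

namespace ShiftX

/-- rounding `ℤ/(Q P0) → ℤ/Q` -/
def ph (Q P0 : ℕ) (x : ZMod (Q * P0)) : ZMod Q := (((x.val : ℤ) / (P0 : ℤ) : ℤ) : ZMod Q)

theorem ph_int {Q P0 : ℕ} [NeZero (Q * P0)] (hP : 0 < P0) (a : ℤ) :
    ph Q P0 (a : ZMod (Q * P0)) = ((a / (P0 : ℤ) : ℤ) : ZMod Q) := by
  unfold ph
  rw [ZMod.val_intCast]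
  have h : a = a % ((Q * P0 : ℕ) : ℤ) + (Q * (a / ((Q * P0 : ℕ) : ℤ))) * P0 := by
    have := Int.emod_add_mul_ediv a ((Q * P0 : ℕ) : ℤ)
    push_cast at this ⊢
    linarith
  conv_rhs => rw [h]
  rw [Int.add_mul_ediv_right _ _ (by exact_mod_cast hP.ne')]
  simp

theorem ph_add {Q P0 : ℕ} [NeZero (Q * P0)] (hP : 0 < P0) (x : ZMod (Q * P0)) (c : ℤ) :
    ph Q P0 (x + ((c * P0 : ℤ) : ZMod (Q * P0))) = ph Q P0 x + c := by
  obtain ⟨a, rfl⟩ := ZMod.intCast_surjective x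
  rw [← Int.cast_add, ph_int hP, ph_int hP, Int.add_mul_ediv_right _ _ (by exact_mod_cast hP.ne')]
  simp

/-- the rounded shift as a function on the finite group -/
def R {d : ℕ} (Q P0 : ℕ) (ω : (Fin d → ZMod (Q * P0)) × (Fin d → ZMod (Q * P0))) (j : ℤ) :
    Fin d → ZMod Q := fun i => ph Q P0 (ω.1 i + j * ω.2 i)

theorem rsh_eq {d Q P0 : ℕ} [NeZero (Q * P0)] (hP : 0 < P0)
    (ω : (Fin d → ZMod (Q * P0)) × (Fin d → ZMod (Q * P0))) (j : ℤ) :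
    rsh Q P0 (fun i => ((ω.1 i).val : ℤ)) (fun i => ((ω.2 i).val : ℤ)) j = R Q P0 ω j := by
  funext i
  unfold rsh R
  rw [← ph_int hP]
  simp

theorem avg {d Q P0 : ℕ} [NeZero Q] [NeZero (Q * P0)] (hP : 0 < P0) (ψ : (Fin d → ZMod Q) → ℝ)
    {j j' : ℤ} (h : j' - j ∣ P0) :
    ∑ ω : (Fin d → ZMod (Q * P0)) × (Fin d → ZMod (Q * P0)), ψ (R Q P0 ω j' - R Q P0 ω j)
      = ∑ _ω : (Fin d → ZMod (Q * P0)) × (Fin d → ZMod (Q * P0)),
        (∑ x, ψ x) / Fintype.card (Fin d → ZMod Q) := by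
  obtain ⟨m, hm⟩ := h
  have h1 : ∀ c : Fin d → ZMod Q,
      ∑ ω : (Fin d → ZMod (Q * P0)) × (Fin d → ZMod (Q * P0)), ψ (R Q P0 ω j' - R Q P0 ω j)
      = ∑ ω : (Fin d → ZMod (Q * P0)) × (Fin d → ZMod (Q * P0)),
        ψ (R Q P0 ω j' - R Q P0 ω j + c) := by
    intro c
    rw [← Equiv.sum_comp (Equiv.addRight ((fun i => ((-j * ((c i).val * m) : ℤ) : ZMod (Q * P0))),
      (fun i => (((c i).val * m : ℤ) : ZMod (Q * P0)))))]
    refine Finset.sum_congr rfl fun ω _ => ?_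
    congr 1
    funext i
    simp only [R, Equiv.coe_addRight, Prod.fst_add, Prod.snd_add, Pi.add_apply, Pi.sub_apply]
    have e1 : ω.1 i + ((-j * ((c i).val * m) : ℤ) : ZMod (Q * P0))
        + j * (ω.2 i + (((c i).val * m : ℤ) : ZMod (Q * P0))) = ω.1 i + j * ω.2 i := by
      push_cast; ring
    have e2 : ω.1 i + ((-j * ((c i).val * m) : ℤ) : ZMod (Q * P0))
        + j' * (ω.2 i + (((c i).val * m : ℤ) : ZMod (Q * P0)))
        = ω.1 i + j' * ω.2 i + ((((c i).val : ℤ) * P0 : ℤ) : ZMod (Q * P0)) := by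
      rw [hm]; push_cast; ring
    rw [e1, e2, ph_add hP]
    rw [Int.cast_natCast, ZMod.natCast_zmod_val]
    ring
  have h2 := Finset.sum_congr (s₁ := Finset.univ) rfl fun c _ => h1 c
  rw [Finset.sum_const, Finset.card_univ, nsmul_eq_mul, Finset.sum_comm] at h2
  have h3 : ∀ y : Fin d → ZMod Q, ∑ c, ψ (y + c) = ∑ x, ψ x := fun y =>
    Equiv.sum_comp (Equiv.addLeft y) ψ
  simp only [h3] at h2
  have hc : (Fintype.card (Fin d → ZMod Q) : ℝ) ≠ 0 := by exact_mod_cast Fintype.card_ne_zero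
  rw [← Finset.sum_div, ← h2]
  field_simp

end ShiftX

open Classical in
/-- **pairwise uniform shifts.**  `P0 = (2I)!` (so `j' - j ∣ P0`), `P = Q P0`.  Average over
`ξ, κ ∈ (Fin d → Fin P)` (or `ZMod P`; `rsh` only depends on `ξ, κ` mod `P`).  For `j ≠ j'` and `c : Fin d → ℤ`
the translation `κ ↦ κ + c P0/(j'-j)`, `ξ ↦ ξ - j c P0/(j'-j)` fixes `rsh j` and adds `c` to `rsh j'`
(`Int.add_mul_ediv_right`), so `rsh j' - rsh j` is uniform and the average of each term is the average of `ψ`.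
Pick `(ξ, κ)` below the average (`Finset.exists_le_of_sum_le`). -/
theorem exists_shift {d Q : ℕ} [NeZero Q] (I : ℕ) (ψ : (Fin d → ZMod Q) → ℝ) (hψ : ∀ x, 0 ≤ ψ x)
    (γ : ℤ → ℝ) (hγ : ∀ j, 0 ≤ γ j) :
    ∃ (P0 : ℕ) (ξ κ : Fin d → ℤ), 0 < P0 ∧ (∀ i, 0 ≤ κ i ∧ κ i < Q * P0) ∧
      ∑ j ∈ Finset.Ico (-(I : ℤ)) I, ∑ j' ∈ (Finset.Ico (-(I : ℤ)) I).erase j,
          γ j * ψ (rsh Q P0 ξ κ j' - rsh Q P0 ξ κ j) ≤
        (∑ j ∈ Finset.Ico (-(I : ℤ)) I, γ j) * (2 * I) *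
          ((∑ x, ψ x) / Fintype.card (Fin d → ZMod Q)) := by
  have hP : 0 < (2 * I).factorial := Nat.factorial_pos _
  set P0 := (2 * I).factorial with hP0
  have : NeZero (Q * P0) := ⟨Nat.mul_ne_zero (NeZero.ne Q) hP.ne'⟩
  set A := (∑ x, ψ x) / Fintype.card (Fin d → ZMod Q) with hA
  have hA0 : 0 ≤ A := div_nonneg (Finset.sum_nonneg fun x _ => hψ x) (Nat.cast_nonneg _)
  have hsum : ∑ ω : (Fin d → ZMod (Q * P0)) × (Fin d → ZMod (Q * P0)),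
      ∑ j ∈ Finset.Ico (-(I : ℤ)) I, ∑ j' ∈ (Finset.Ico (-(I : ℤ)) I).erase j,
        γ j * ψ (ShiftX.R Q P0 ω j' - ShiftX.R Q P0 ω j)
      ≤ ∑ _ω : (Fin d → ZMod (Q * P0)) × (Fin d → ZMod (Q * P0)),
        (∑ j ∈ Finset.Ico (-(I : ℤ)) I, γ j) * (2 * I) * A := by
    simp only [Finset.sum_mul]
    rw [Finset.sum_comm, Finset.sum_comm (f := fun _ j => γ j * (2 * I) * A)]
    refine Finset.sum_le_sum fun j hj => ?_
    rw [Finset.sum_comm]
    have e : ∀ j' ∈ (Finset.Ico (-(I : ℤ)) I).erase j,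
        ∑ ω : (Fin d → ZMod (Q * P0)) × (Fin d → ZMod (Q * P0)),
          γ j * ψ (ShiftX.R Q P0 ω j' - ShiftX.R Q P0 ω j)
        = ∑ _ω : (Fin d → ZMod (Q * P0)) × (Fin d → ZMod (Q * P0)), γ j * A := by
      intro j' hj'
      obtain ⟨h1, h2⟩ := Finset.mem_erase.1 hj'
      rw [Finset.mem_Ico] at hj h2
      rw [← Finset.mul_sum, ← Finset.mul_sum, ShiftX.avg hP ψ]
      rw [← Int.natAbs_dvd, Int.natCast_dvd_natCast]
      exact Nat.dvd_factorial (by omega) (by omega)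
    rw [Finset.sum_congr rfl e, Finset.sum_comm]
    refine Finset.sum_le_sum fun ω _ => ?_
    rw [Finset.sum_const, nsmul_eq_mul]
    have hc : (((Finset.Ico (-(I : ℤ)) I).erase j).card : ℝ) ≤ 2 * I := by
      have h1 := Finset.card_erase_le (s := Finset.Ico (-(I : ℤ)) I) (a := j)
      rw [Int.card_Ico] at h1
      have : ((Finset.Ico (-(I : ℤ)) I).erase j).card ≤ 2 * I := by omega
      exact_mod_cast this
    have := mul_le_mul_of_nonneg_right hc (mul_nonneg (hγ j) hA0)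
    linarith
  obtain ⟨ω, -, hω⟩ := Finset.exists_le_of_sum_le Finset.univ_nonempty hsum
  refine ⟨P0, fun i => ((ω.1 i).val : ℤ), fun i => ((ω.2 i).val : ℤ), hP, fun i => ⟨by positivity, ?_⟩, ?_⟩
  · show ((ω.2 i).val : ℤ) < Q * P0
    exact_mod_cast ZMod.val_lt (ω.2 i)
  · simp only [ShiftX.rsh_eq hP]
    exact hω

end Crest.Agent.R225
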