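import Crest.Agent.R225.Blk
import Crest.Agent.R225.Shift

set_option autoImplicit false

open MeasureTheory Set
open scoped ENNReal NNReal Matrix

namespace Crest.Agent.R225

theorem CandX.sel {Γ : Type} [AddCommGroup Γ] [Fintype Γ] [DecidableEq Γ] (𝒜 : Finset Γ) (M : Γ → ℝ)
    (hM : ∀ x, 0 ≤ M x) (J : Finset ℤ) (γ : ℤ → ℝ) (hγ : ∀ j, 0 ≤ γ j) (r : ℤ → Γ) :
    ∃ (sel : Γ → ℤ) (F : Γ → ℝ),
      (∀ x, F x = 0 ∨ (sel x ∈ J ∧ x + r (sel x) ∈ 𝒜 ∧ F x = γ (sel x) * M (x + r (sel x)))) ∧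
      (∑ j ∈ J, γ j) * ∑ x ∈ 𝒜, M x - ∑ j ∈ J, ∑ j' ∈ J.erase j, γ j *
        ∑ y, (if y ∈ 𝒜 then M y else 0) * (if y + (r j' - r j) ∈ 𝒜 then 1 else 0) ≤ ∑ x, F x := by
  set Ω : Γ → ℝ := fun y => if y ∈ 𝒜 then M y else 0 with hΩ
  set χ : Γ → ℝ := fun y => if y ∈ 𝒜 then 1 else 0 with hχ
  have hΩ0 : ∀ y, 0 ≤ Ω y := fun y => by simp only [hΩ]; split_ifs; exacts [hM y, le_rfl]
  have hχ0 : ∀ y, 0 ≤ χ y := fun y => by simp only [hχ]; split_ifs <;> norm_num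
  have key : ∀ x, ∃ (s : ℤ) (f : ℝ), (f = 0 ∨ (s ∈ J ∧ x + r s ∈ 𝒜 ∧ f = γ s * M (x + r s))) ∧
      ∑ j ∈ J, γ j * Ω (x + r j) * (1 - ∑ j' ∈ J.erase j, χ (x + r j')) ≤ f := by
    intro x
    by_cases h : ∃! j, j ∈ J ∧ x + r j ∈ 𝒜
    · obtain ⟨j, ⟨h1, h2⟩, h3⟩ := h
      refine ⟨j, _, Or.inr ⟨h1, h2, rfl⟩, le_of_eq ?_⟩
      rw [Finset.sum_eq_single_of_mem j h1 fun j' hj' hne => by
        simp only [hΩ]; rw [if_neg fun h => hne (h3 j' ⟨hj', h⟩), mul_zero, zero_mul]]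
      rw [Finset.sum_eq_zero fun j' hj' => by
        simp only [hχ]
        exact if_neg fun h => (Finset.mem_erase.1 hj').1 (h3 j' ⟨(Finset.mem_erase.1 hj').2, h⟩)]
      simp only [hΩ]
      rw [if_pos h2, sub_zero, mul_one]
    · refine ⟨0, 0, Or.inl rfl, Finset.sum_nonpos fun j hj => ?_⟩
      by_cases h2 : x + r j ∈ 𝒜
      · have : ∃ j', (j' ∈ J ∧ x + r j' ∈ 𝒜) ∧ j' ≠ j := by
          by_contra hc
          push Not at hc
          exact h ⟨j, ⟨hj, h2⟩, hc⟩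
        obtain ⟨j', ⟨h3, h4⟩, h5⟩ := this
        refine mul_nonpos_of_nonneg_of_nonpos (mul_nonneg (hγ j) (hΩ0 _)) (sub_nonpos.2 ?_)
        refine le_trans ?_ (Finset.single_le_sum (f := fun j' => χ (x + r j'))
          (fun j' _ => hχ0 _) (Finset.mem_erase.2 ⟨h5, h3⟩))
        simp only [hχ]
        rw [if_pos h4]
      · simp only [hΩ]
        rw [if_neg h2, mul_zero, zero_mul]
  choose sel F h1 h2 using key
  refine ⟨sel, F, h1, le_trans (le_of_eq ?_) (Finset.sum_le_sum fun x _ => h2 x)⟩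
  rw [Finset.sum_comm (s := Finset.univ), Finset.sum_mul, ← Finset.sum_sub_distrib]
  refine Finset.sum_congr rfl fun j _ => ?_
  have e1 : ∑ x, Ω (x + r j) = ∑ x ∈ 𝒜, M x := by
    refine (Equiv.sum_comp (Equiv.addRight (r j)) Ω).trans ?_
    simp only [hΩ]
    rw [Finset.sum_ite_mem, Finset.univ_inter]
  have e2 : ∀ j', ∑ y, Ω y * χ (y + (r j' - r j)) = ∑ x, Ω (x + r j) * χ (x + r j') := fun j' => by
    rw [← Equiv.sum_comp (Equiv.addRight (r j))]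
    refine Finset.sum_congr rfl fun x _ => ?_
    rw [Equiv.coe_addRight, add_assoc, add_sub_cancel]
  change _ - ∑ j' ∈ J.erase j, γ j * ∑ y, Ω y * χ (y + (r j' - r j)) = _
  simp only [e2, mul_sub, mul_one, Finset.sum_sub_distrib, ← e1, Finset.mul_sum, mul_assoc]
  rw [Finset.sum_comm]

theorem CandX.fin {g S N C y t D F : ℝ} (hy : 0 < y) (hy1 : y ≤ 1 / 8) (hg : 1 - y ≤ g)
    (hS : (1 - 4 * y) * N ≤ S) (hN : 0 ≤ N) (ht : t * C ≤ y)
    (hD : D ≤ g * t * (S * C)) (hF : g * S - D ≤ F) : (1 - 7 * y) * N ≤ F := by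
  have hS0 : 0 ≤ S := le_trans (mul_nonneg (by linarith) hN) hS
  have hg0 : 0 ≤ g := by linarith
  have h1 : g * t * (S * C) ≤ g * S * y := by
    rw [show g * t * (S * C) = g * S * (t * C) by ring]
    exact mul_le_mul_of_nonneg_left ht (by positivity)
  have h2 : (1 - y) * ((1 - 4 * y) * N) ≤ g * S :=
    mul_le_mul hg hS (mul_nonneg (by linarith) hN) hg0
  have h3 := mul_le_mul_of_nonneg_right h2 (show 0 ≤ 1 - y by linarith)
  have h4 : (1 - 7 * y) * N ≤ (1 - y) * (1 - 4 * y) * (1 - y) * N :=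
    mul_le_mul_of_nonneg_right (by nlinarith [mul_pos hy hy, mul_pos (mul_pos hy hy) hy]) hN
  nlinarith

set_option maxHeartbeats 400000 in
/-- **unique alive candidate.**  From `blk`: `η = 2 (hh+1) Y exp (De - A)`, `I = ⌈hh/η⌉₊`, `γ = cw η`,
`Ω = MM * 1_𝒜`, `ψ u = (∑ x, Ω x * 1_𝒜 (x + u)) / |Γ|`, `exists_shift`.  `F x = γ j * Ω (x + r j)` if `j` is the
only index of `Ico (-I) I` with `x + r j ∈ 𝒜` (then `sel x = j`), `F x = 0` if there is no such unique index.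
`F x ≥ ∑_j γ j Ω (x + r j) - ∑_{j ≠ j'} γ j Ω (x + r j) 1_𝒜 (x + r j')`; `|𝒜| e^{A - De} ≤ |Γ|`;
`∑ γ ≥ 1 - 1/Y` (`sum_cw_Ico`, `I η ≥ hh`); `2 I e^{De - A} ≤ 1/Y`; `F ≤ η e^{A + De} ≤ e^{3 De}`. -/
theorem cand {p : ℕ} (hp : 40 ≤ p) :
    ∃ (η : ℝ) (P0 : ℕ) (ξ κ : Fin (dd p) → ℤ) (sel : Gam p → ℤ) (F : Gam p → ℝ),
      0 < η ∧ η ≤ ((2 : ℝ) ^ (2 * p))⁻¹ ∧ 0 < P0 ∧ (∀ i, 0 ≤ κ i ∧ κ i < QQ p * P0) ∧
      (∀ x, 0 ≤ F x ∧ F x ≤ Real.exp (3 * De p)) ∧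
      (1 - 7 / 2 ^ p) * (Fintype.card (Gam p) : ℝ) ≤ ∑ x, F x ∧
      ∀ x, 0 < F x → |(sel x : ℝ) * η| ≤ hh p + 1 ∧ |((sel x : ℝ) + 1) * η| ≤ hh p + 1 ∧
        F x = cw η (sel x) * MM p (x + rsh (QQ p) P0 ξ κ (sel x)) ∧
        Unb p (x + rsh (QQ p) P0 ξ κ (sel x)) := by
  obtain ⟨A, 𝒜, hA, h𝒜, hS, hS'⟩ := blk hp
  have hh40 := hh_ge hp
  have hhY := hh_le hp
  set h := hh p with hhd
  set Y : ℝ := 2 ^ p with hY
  have hh4 : 100 * h ≤ Y := by
    have : h ≤ h ^ 4 := le_self_pow₀ (by linarith) (by norm_num)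
    linarith
  have hY1 : 1 ≤ Y := by linarith
  have hY0 : 0 < Y := by linarith
  have hDe : De p = Y ^ 15 := by rw [De, hY, ← pow_mul, mul_comm]
  have hexp : Y ^ 4 ≤ Real.exp (De p) := by
    have := Real.add_one_le_exp (De p)
    have h2 : Y ^ 4 ≤ Y ^ 15 := pow_le_pow_right₀ hY1 (by norm_num)
    linarith
  set E := Real.exp (De p - A) with hE
  have hE0 : 0 < E := Real.exp_pos _
  have hE1 : E * Y ^ 4 ≤ 1 := by
    refine (mul_le_mul_of_nonneg_left hexp hE0.le).trans ?_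
    rw [hE, ← Real.exp_add, Real.exp_le_one_iff]; linarith
  set η := 2 * (h + 1) * Y * E with hη
  have hη0 : 0 < η := by positivity
  have hη2 : η ≤ (Y ^ 2)⁻¹ := by
    rw [← one_div, le_div_iff₀ (by positivity)]
    refine le_trans ?_ hE1
    have : 2 * (h + 1) * (E * Y ^ 3) ≤ Y * (E * Y ^ 3) :=
      mul_le_mul_of_nonneg_right (by linarith) (by positivity)
    rw [hη]; linarith
  have hη1 : η ≤ 1 := hη2.trans (inv_le_one_of_one_le₀ (one_le_pow₀ hY1))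
  set I := ⌈h / η⌉₊ with hI
  have hI1 : h ≤ I * η := by
    have := Nat.le_ceil (h / η)
    rwa [div_le_iff₀ hη0] at this
  have hI2 : I * η ≤ h + 1 := by
    have := (Nat.ceil_lt_add_one (show 0 ≤ h / η by positivity)).le
    have h2 := mul_le_mul_of_nonneg_right this hη0.le
    rw [add_mul, div_mul_cancel₀ _ hη0.ne'] at h2
    linarith
  have hM : ∀ x, 0 ≤ MM p x := fun x => Finset.prod_nonneg fun i _ => (log_mm hp _).1.le
  obtain ⟨P0, ξ, κ, hP0, hκ, hsh⟩ := exists_shift (d := dd p) (Q := QQ p) I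
    (fun u => ∑ y, (if y ∈ 𝒜 then MM p y else 0) * (if y + u ∈ 𝒜 then 1 else 0))
    (fun u => Finset.sum_nonneg fun y _ => mul_nonneg (by split_ifs; exacts [hM y, le_rfl])
      (by split_ifs <;> norm_num)) (cw η) (cw_nonneg hη0.le)
  obtain ⟨sel, F, hF, hsum⟩ := CandX.sel 𝒜 (MM p) hM (Finset.Ico (-(I : ℤ)) I) (cw η)
    (cw_nonneg hη0.le) (rsh (QQ p) P0 ξ κ)
  refine ⟨η, P0, ξ, κ, sel, F, hη0, by rwa [mul_comm 2 p, pow_mul], hP0, hκ, fun x => ?_, ?_,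
    fun x hx => ?_⟩
  · rcases hF x with h0 | ⟨-, h2, h3⟩
    · rw [h0]; exact ⟨le_rfl, (Real.exp_pos _).le⟩
    · rw [h3]
      refine ⟨mul_nonneg (cw_nonneg hη0.le _) (hM _), ?_⟩
      refine (mul_le_mul (cw_le hη0.le _) (h𝒜 _ h2).2.1 (hM _) (by positivity)).trans ?_
      have e : Real.exp (3 * De p) = Real.exp (De p) * (E * Real.exp (A + De p)) := by
        rw [hE, ← Real.exp_add, ← Real.exp_add]; congr 1; ring
      rw [e, hη, show 2 * (h + 1) * Y * E / 2 * Real.exp (A + De p) =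
        (h + 1) * Y * (E * Real.exp (A + De p)) by ring]
      refine mul_le_mul_of_nonneg_right (le_trans ?_ hexp) (by positivity)
      have : Y ^ 2 ≤ Y ^ 4 := pow_le_pow_right₀ hY1 (by norm_num)
      nlinarith
  · have hN : (0 : ℝ) < Fintype.card (Gam p) := Nat.cast_pos.2 Fintype.card_pos
    have e : ∑ u : Gam p, ∑ y, (if y ∈ 𝒜 then MM p y else 0) * (if y + u ∈ 𝒜 then (1 : ℝ) else 0) =
        (∑ x ∈ 𝒜, MM p x) * 𝒜.card := by
      rw [Finset.sum_comm]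
      have : ∀ y : Gam p, ∑ u, (if y + u ∈ 𝒜 then (1 : ℝ) else 0) = 𝒜.card := fun y => by
        refine (Equiv.sum_comp (Equiv.addLeft y) fun u => if u ∈ 𝒜 then (1 : ℝ) else 0).trans ?_
        rw [Finset.sum_ite_mem, Finset.univ_inter, Finset.sum_const, nsmul_eq_mul, mul_one]
      simp only [← Finset.mul_sum, this]
      rw [← Finset.sum_mul, Finset.sum_ite_mem, Finset.univ_inter]
    rw [e, mul_div_assoc] at hsh
    have hC : (𝒜.card : ℝ) / Fintype.card (Gam p) ≤ E := by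
      have h1 := Finset.card_nsmul_le_sum 𝒜 (MM p) _ fun x hx => (h𝒜 x hx).1
      have h2 : ∑ x ∈ 𝒜, MM p x ≤ ∑ x, MM p x :=
        Finset.sum_le_sum_of_subset_of_nonneg (Finset.subset_univ _) fun x _ _ => hM x
      rw [nsmul_eq_mul] at h1
      have h3 := mul_le_mul_of_nonneg_right (h1.trans (h2.trans hS')) hE0.le
      rw [mul_assoc, hE, ← Real.exp_add, show A - De p + (De p - A) = 0 by ring, Real.exp_zero,
        mul_one] at h3
      rw [div_le_iff₀ hN]; linarith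
    rw [div_eq_mul_inv 7]
    rw [div_eq_mul_inv 4] at hS
    refine CandX.fin (inv_pos.2 hY0) ?_ ?_ hS hN.le ?_ hsh hsum
    · rw [one_div]; exact inv_anti₀ (by norm_num) (by linarith)
    · refine le_trans ?_ (sum_cw_Ico hη0.le I).1
      have h1 : Real.exp (-(I * η) ^ 2 / 2) ≤ Real.exp (-h ^ 2 / 8) :=
        Real.exp_le_exp.2 (by nlinarith)
      rw [hhd, exp_hh, mul_comm 8 p, pow_mul, ← hY] at h1
      have h2 : (Y ^ 8)⁻¹ ≤ (2 * Y)⁻¹ := by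
        refine inv_anti₀ (by positivity) ?_
        have : Y ^ 2 ≤ Y ^ 8 := pow_le_pow_right₀ hY1 (by norm_num)
        nlinarith
      rw [mul_inv] at h2
      linarith
    · refine (mul_le_mul_of_nonneg_left hC (by positivity)).trans ?_
      rw [← one_div, le_div_iff₀ hY0]
      refine le_of_mul_le_mul_left ?_ (show 0 < h + 1 by linarith)
      rw [hη] at hI2
      linarith
  · rcases hF x with h0 | ⟨h1, h2, h3⟩
    · exact absurd h0 hx.ne'
    · obtain ⟨a1, a2⟩ := Finset.mem_Ico.1 h1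
      have b1 : -(I : ℝ) ≤ sel x := by exact_mod_cast a1
      have b2 : (sel x : ℝ) + 1 ≤ I := by exact_mod_cast a2
      refine ⟨?_, ?_, h3, (h𝒜 _ h2).2.2⟩ <;>
        rw [abs_mul, abs_of_pos hη0] <;>
        exact (mul_le_mul_of_nonneg_right (abs_le.2 ⟨by linarith, by linarith⟩) hη0.le).trans hI2

end Crest.Agent.R225
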