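import Crest.Agent.R225.Defs

set_option autoImplicit false

open MeasureTheory Set
open scoped ENNReal NNReal Matrix

namespace Crest.Agent.R225

/-! Gaussian cells.  `gau = gaussianPDFReal 0 1`. -/

theorem gau_eq (y : ℝ) : gau y = ProbabilityTheory.gaussianPDFReal 0 1 y := by
  unfold gau ProbabilityTheory.gaussianPDFReal
  simp

private theorem sq_ge_two : (2 : ℝ) ≤ √(2 * Real.pi) := by
  apply Real.le_sqrt_of_sq_le
  have := Real.pi_gt_three
  nlinarith

private theorem sq_le_three : √(2 * Real.pi) ≤ (3 : ℝ) := by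
  rw [Real.sqrt_le_iff]
  have := Real.pi_lt_four
  constructor
  · norm_num
  · nlinarith

private theorem c_pos : (0 : ℝ) < (√(2 * Real.pi))⁻¹ :=
  inv_pos.mpr (lt_of_lt_of_le (by norm_num) sq_ge_two)

theorem gau_pos (y : ℝ) : 0 < gau y := by
  unfold gau
  exact mul_pos c_pos (Real.exp_pos _)

theorem gau_le (y : ℝ) : gau y ≤ 1 / 2 := by
  unfold gau
  have h1 : (√(2 * Real.pi))⁻¹ ≤ (1 / 2 : ℝ) := by
    rw [one_div]
    exact inv_anti₀ (by norm_num) sq_ge_two
  have h2 : Real.exp (-y ^ 2 / 2) ≤ 1 := by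
    rw [Real.exp_le_one_iff]
    have := sq_nonneg y
    linarith
  calc _ ≤ (1 / 2 : ℝ) * 1 := mul_le_mul h1 h2 (Real.exp_pos _).le (by norm_num)
    _ = 1 / 2 := by ring

theorem continuous_gau : Continuous gau := by
  unfold gau
  fun_prop

theorem gau_anti {x y : ℝ} (h : |x| ≤ |y|) : gau y ≤ gau x := by
  unfold gau
  apply mul_le_mul_of_nonneg_left _ c_pos.le
  apply Real.exp_le_exp.mpr
  have := sq_le_sq.mpr h
  linarith

private theorem gau_le_exp_mul {x y t : ℝ} (h : y ^ 2 - x ^ 2 ≤ 2 * t) :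
    gau x ≤ Real.exp t * gau y := by
  unfold gau
  rw [mul_left_comm, ← Real.exp_add]
  apply mul_le_mul_of_nonneg_left _ c_pos.le
  apply Real.exp_le_exp.mpr
  linarith

/-- `gau x = gau y * exp ((y² - x²)/2)` -/
theorem gau_le_mul {x y δ M : ℝ} (h : |x - y| ≤ δ) (hy : |y| ≤ M) :
    gau x ≤ Real.exp (δ * M) * gau y := by
  apply gau_le_exp_mul
  have h1 : |(x - y) * y| ≤ δ * M := by
    rw [abs_mul]
    exact mul_le_mul h hy (abs_nonneg _) ((abs_nonneg _).trans h)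
  have h2 := (abs_le.mp h1).1
  nlinarith [sq_nonneg (x - y)]

theorem gau_ge (y : ℝ) : Real.exp (-y ^ 2 / 2) / 3 ≤ gau y := by
  unfold gau
  have h1 : (3 : ℝ)⁻¹ ≤ (√(2 * Real.pi))⁻¹ :=
    inv_anti₀ (lt_of_lt_of_le (by norm_num) sq_ge_two) sq_le_three
  have := mul_le_mul_of_nonneg_right h1 (Real.exp_pos (-y ^ 2 / 2)).le
  linarith

private theorem cell_le {ρ : ℝ} (hρ : 0 ≤ ρ) (a : ℤ) : (a : ℝ) * ρ ≤ (a + 1) * ρ := by
  nlinarith

private theorem cw_le_const {ρ C : ℝ} (hρ : 0 ≤ ρ) (a : ℤ)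
    (h : ∀ u ∈ Icc ((a : ℝ) * ρ) ((a + 1) * ρ), gau u ≤ C) : cw ρ a ≤ ρ * C := by
  unfold cw
  have := intervalIntegral.integral_mono_on (μ := volume) (cell_le hρ a)
    (continuous_gau.intervalIntegrable _ _) (continuous_const.intervalIntegrable _ _) h
  rw [intervalIntegral.integral_const, smul_eq_mul] at this
  calc _ ≤ _ := this
    _ = ρ * C := by ring

private theorem cw_ge_const {ρ C : ℝ} (hρ : 0 ≤ ρ) (a : ℤ)
    (h : ∀ u ∈ Icc ((a : ℝ) * ρ) ((a + 1) * ρ), C ≤ gau u) : ρ * C ≤ cw ρ a := by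
  unfold cw
  have := intervalIntegral.integral_mono_on (μ := volume) (cell_le hρ a)
    (continuous_const.intervalIntegrable _ _) (continuous_gau.intervalIntegrable _ _) h
  rw [intervalIntegral.integral_const, smul_eq_mul] at this
  calc ρ * C = _ := by ring
    _ ≤ _ := this

theorem cw_nonneg {ρ : ℝ} (hρ : 0 ≤ ρ) (a : ℤ) : 0 ≤ cw ρ a := by
  have := cw_ge_const (C := 0) hρ a (fun u _ => (gau_pos u).le)
  simpa using this

theorem cw_le {ρ : ℝ} (hρ : 0 ≤ ρ) (a : ℤ) : cw ρ a ≤ ρ / 2 := by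
  have := cw_le_const (C := 1 / 2) hρ a (fun u _ => gau_le u)
  linarith

theorem cw_le_point {ρ y M : ℝ} (hρ : 0 ≤ ρ) {a : ℤ} (h₁ : a * ρ ≤ y) (h₂ : y ≤ (a + 2) * ρ)
    (hy : |y| ≤ M) : cw ρ a ≤ ρ * (Real.exp (2 * ρ * M) * gau y) := by
  apply cw_le_const hρ
  intro u hu
  apply gau_le_mul _ hy
  rw [abs_le]
  constructor <;> nlinarith [hu.1, hu.2]

theorem cw_ge {ρ M : ℝ} (hρ : 0 ≤ ρ) {a : ℤ} (h₁ : |a * ρ| ≤ M) (h₂ : |(a + 1) * ρ| ≤ M) :
    ρ * gau M ≤ cw ρ a := by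
  apply cw_ge_const hρ
  intro u hu
  apply gau_anti
  have hM : 0 ≤ M := (abs_nonneg _).trans h₁
  rw [abs_of_nonneg hM, abs_le]
  have := (abs_le.mp h₁).1
  have := (abs_le.mp h₂).2
  constructor <;> linarith [hu.1, hu.2]

/-- `intervalIntegral.sum_integral_adjacent_intervals` (or induction) -/
theorem sum_cw (ρ : ℝ) (a : ℤ) (n : ℕ) :
    ∑ i ∈ Finset.range n, cw ρ (a + i) = ∫ y in (a * ρ)..((a + n) * ρ), gau y := by
  induction n with
  | zero => simp
  | succ n ih =>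
    rw [Finset.sum_range_succ, ih]
    unfold cw
    have e1 : (((a + (n : ℤ) : ℤ) : ℝ)) * ρ = ((a : ℝ) + n) * ρ := by push_cast; ring
    have e2 : (((a + (n : ℤ) : ℤ) : ℝ) + 1) * ρ = ((a : ℝ) + ((n + 1 : ℕ) : ℝ)) * ρ := by
      push_cast; ring
    rw [e1, e2]
    exact intervalIntegral.integral_add_adjacent_intervals
      (continuous_gau.intervalIntegrable _ _) (continuous_gau.intervalIntegrable _ _)

private theorem gau_fun : gau = ProbabilityTheory.gaussianPDFReal 0 1 := funext gau_eq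

private theorem integrable_gau : Integrable gau := by
  rw [gau_fun]; exact ProbabilityTheory.integrable_gaussianPDFReal 0 1

private theorem integral_gau : ∫ y, gau y = 1 := by
  rw [gau_fun]; exact ProbabilityTheory.integral_gaussianPDFReal_eq_one 0 one_ne_zero

theorem int_gau_le {a b : ℝ} (h : a ≤ b) : ∫ y in a..b, gau y ≤ 1 := by
  rw [intervalIntegral.integral_of_le h, ← integral_gau]
  exact setIntegral_le_integral integrable_gau (Filter.Eventually.of_forall fun y => (gau_pos y).le)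

/-- tail: `∫_{x}^{∞} gau ≤ exp (-x²/2)` since `gau (x + u) ≤ exp (-x²/2) gau u` for `x, u ≥ 0` -/
theorem int_gau_ge {x : ℝ} (hx : 0 ≤ x) : 1 - 2 * Real.exp (-x ^ 2 / 2) ≤ ∫ y in (-x)..x, gau y := by
  rw [intervalIntegral.integral_of_le (by linarith), ← integral_indicator measurableSet_Ioc]
  have i1 : Integrable (fun y => gau (y - x)) := integrable_gau.comp_sub_right x
  have i2 : Integrable (fun y => gau (y + x)) := integrable_gau.comp_add_right x
  have i0 : Integrable ((Ioc (-x) x).indicator gau) := integrable_gau.indicator measurableSet_Ioc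
  have hpt : ∀ y, gau y ≤ (Ioc (-x) x).indicator gau y +
      Real.exp (-x ^ 2 / 2) * (gau (y - x) + gau (y + x)) := by
    intro y
    have p1 := gau_pos (y - x)
    have p2 := gau_pos (y + x)
    have pe := Real.exp_pos (-x ^ 2 / 2)
    by_cases hy : y ∈ Ioc (-x) x
    · rw [indicator_of_mem hy]
      have : 0 ≤ Real.exp (-x ^ 2 / 2) * (gau (y - x) + gau (y + x)) := by positivity
      linarith
    · rw [indicator_of_notMem hy, zero_add]
      rw [mem_Ioc, not_and_or] at hy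
      rcases hy with hy | hy
      · have : gau y ≤ Real.exp (-x ^ 2 / 2) * gau (y + x) := by
          apply gau_le_exp_mul
          nlinarith [not_lt.mp hy]
        nlinarith [mul_pos pe p1]
      · have : gau y ≤ Real.exp (-x ^ 2 / 2) * gau (y - x) := by
          apply gau_le_exp_mul
          nlinarith [not_le.mp hy]
        nlinarith [mul_pos pe p2]
  have hm := integral_mono integrable_gau (i0.add ((i1.add i2).const_mul _)) hpt
  have e : ∫ y, ((Ioc (-x) x).indicator gau y +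
      Real.exp (-x ^ 2 / 2) * (gau (y - x) + gau (y + x))) =
      (∫ y, (Ioc (-x) x).indicator gau y) + Real.exp (-x ^ 2 / 2) * 2 := by
    have i3 : Integrable (fun y => Real.exp (-x ^ 2 / 2) * (gau (y - x) + gau (y + x))) :=
      (i1.add i2).const_mul _
    rw [integral_add i0 i3, integral_const_mul, integral_add i1 i2,
      integral_sub_right_eq_self gau x, integral_add_right_eq_self gau x, integral_gau]
    norm_num
  have hm' : ∫ y, gau y ≤ ∫ y, ((Ioc (-x) x).indicator gau y +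
      Real.exp (-x ^ 2 / 2) * (gau (y - x) + gau (y + x))) := hm
  rw [e, integral_gau] at hm'
  linarith

theorem sum_cw_Ico {ρ : ℝ} (hρ : 0 ≤ ρ) (I : ℕ) :
    1 - 2 * Real.exp (-(I * ρ) ^ 2 / 2) ≤ ∑ a ∈ Finset.Ico (-(I : ℤ)) I, cw ρ a ∧
      ∑ a ∈ Finset.Ico (-(I : ℤ)) I, cw ρ a ≤ 1 := by
  have e : ∑ a ∈ Finset.Ico (-(I : ℤ)) I, cw ρ a =
      ∑ i ∈ Finset.range (2 * I), cw ρ (-(I : ℤ) + i) := by
    symm
    apply Finset.sum_bij (fun (i : ℕ) _ => -(I : ℤ) + i)
    · intro i hi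
      rw [Finset.mem_range] at hi
      rw [Finset.mem_Ico]
      omega
    · intro i _ j _ h
      omega
    · intro b hb
      rw [Finset.mem_Ico] at hb
      refine ⟨(b + I).toNat, ?_, ?_⟩
      · rw [Finset.mem_range]; omega
      · omega
    · intro i _; rfl
  have hI : 0 ≤ (I : ℝ) * ρ := by positivity
  have e1 : (((-(I : ℤ) : ℤ)) : ℝ) * ρ = -(I * ρ) := by push_cast; ring
  have e2 : ((((-(I : ℤ) : ℤ)) : ℝ) + ((2 * I : ℕ) : ℝ)) * ρ = I * ρ := by push_cast; ring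
  rw [e, sum_cw, e1, e2]
  exact ⟨int_gau_ge hI, int_gau_le (by linarith)⟩

theorem cw_eq_gI {ρ : ℝ} (hρ : 0 ≤ ρ) (a : ℤ) : cw ρ a = gI 1 (a * ρ) ((a + 1) * ρ) := by
  unfold cw gI
  rw [Real.toNNReal_one, ProbabilityTheory.gaussianReal_apply_eq_integral 0 one_ne_zero,
    ENNReal.toReal_ofReal, intervalIntegral.integral_of_le (cell_le hρ a),
    integral_Icc_eq_integral_Ioc, gau_fun]
  exact integral_nonneg fun y => ProbabilityTheory.gaussianPDFReal_nonneg 0 1 y

/-! numerical facts on the parameters (`log 2 < 0.7`, `p^k ≤ 2^p`) -/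

theorem hh_sq (p : ℕ) : hh p ^ 2 = 64 * p * Real.log 2 := by
  unfold hh
  apply Real.sq_sqrt
  have := Real.log_two_gt_d9
  positivity

theorem exp_hh (p : ℕ) : Real.exp (-hh p ^ 2 / 8) = ((2 : ℝ) ^ (8 * p))⁻¹ := by
  rw [hh_sq]
  have : -(64 * (p : ℝ) * Real.log 2) / 8 = -(((8 * p : ℕ) : ℝ) * Real.log 2) := by
    push_cast; ring
  rw [this, Real.exp_neg, Real.exp_nat_mul, Real.exp_log (by norm_num)]

theorem hh_ge {p : ℕ} (hp : 40 ≤ p) : 40 ≤ hh p := by
  unfold hh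
  apply Real.le_sqrt_of_sq_le
  have h1 := Real.log_two_gt_d9
  have h2 : (40 : ℝ) ≤ p := by exact_mod_cast hp
  nlinarith

private theorem sq_le_pow {p : ℕ} (hp : 40 ≤ p) : 202500 * p ^ 2 ≤ 2 ^ p := by
  induction p, hp using Nat.le_induction with
  | base => norm_num
  | succ n hn ih =>
    rw [pow_succ 2 n]
    nlinarith

/-- `hh^4 = (64 p log 2)² ≤ 2025 p²`, `100 * 2025 p² ≤ 2^p` -/
theorem hh_le {p : ℕ} (hp : 40 ≤ p) : 100 * hh p ^ 4 ≤ 2 ^ p := by
  have h0 : hh p ^ 4 = (hh p ^ 2) ^ 2 := by ring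
  have h1 := Real.log_two_gt_d9
  have h2 := Real.log_two_lt_d9
  have h3 : (0 : ℝ) ≤ p := Nat.cast_nonneg p
  have h4 : hh p ^ 2 ≤ 45 * p := by rw [hh_sq]; nlinarith
  have h5 : (hh p ^ 2) ^ 2 ≤ (45 * p) ^ 2 := pow_le_pow_left₀ (sq_nonneg _) h4 2
  have h6 : (202500 : ℝ) * (p : ℝ) ^ 2 ≤ 2 ^ p := by exact_mod_cast sq_le_pow hp
  rw [h0]
  nlinarith

theorem rho_pos {p : ℕ} (hp : 40 ≤ p) : 0 < rho p := by
  unfold rho
  have h1 := hh_ge hp
  have h2 : (0 : ℝ) < QQ p := by unfold QQ; positivity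
  exact div_pos (by linarith) h2

theorem rho_mul (p : ℕ) : (QQ p : ℝ) * rho p = hh p := by
  unfold rho
  have h2 : (0 : ℝ) < QQ p := by unfold QQ; positivity
  field_simp

end Crest.Agent.R225
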