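import Crest.Agent.R225.Defs

set_option autoImplicit false

open MeasureTheory Set
open scoped ENNReal NNReal Matrix

namespace Crest.Agent.R225

/-! easy facts on `lv`, `Chain`, `Stage` -/

theorem lv_length (a : ℕ → (ℕ → ℤ) → ℤ) (k : ℕ) : (lv a k).length = 2 ^ k := by
  induction k with
  | zero => rfl
  | succ k ih => simp [lv, List.length_flatMap, ih, pow_succ]

theorem lv_zero_of_mem {a : ℕ → (ℕ → ℤ) → ℤ} {k : ℕ} {z : ℕ → ℤ} (hz : z ∈ lv a k) :
    ∀ j, k ≤ j → z j = 0 := by
  induction k generalizing z with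
  | zero => intro j _; simp [lv] at hz; simp [hz]
  | succ k ih =>
    intro j hj
    simp only [lv, List.mem_flatMap, List.mem_cons, List.not_mem_nil, or_false] at hz
    obtain ⟨y, hy, rfl | rfl⟩ := hz <;>
      rw [Function.update_of_ne (by omega), ih hy j (by omega)]

theorem trunc_of_mem {a : ℕ → (ℕ → ℤ) → ℤ} {k : ℕ} {z : ℕ → ℤ} (hz : z ∈ lv a k) :
    trunc k z = z := by
  funext j
  unfold trunc
  split_ifs with h
  · rfl
  · exact (lv_zero_of_mem hz j (by omega)).symm

theorem lv_congr {a a' : ℕ → (ℕ → ℤ) → ℤ} {k : ℕ} (h : ∀ i < k, a i = a' i) :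
    lv a k = lv a' k := by
  induction k with
  | zero => rfl
  | succ k ih => simp only [lv, ih fun i hi => h i (by omega), h k (by omega)]

theorem lv_sum_succ (a : ℕ → (ℕ → ℤ) → ℤ) (k : ℕ) (f : (ℕ → ℤ) → ℝ) :
    ((lv a (k + 1)).map f).sum = ((lv a k).map fun z =>
      f (Function.update z k (a k z)) + f (Function.update z k (a k z + 1))).sum := by
  simp only [lv]
  induction lv a k with
  | nil => simp
  | cons x l ih => simp only [List.flatMap_cons, List.map_append, List.sum_append, ih]; simp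

theorem lv_prod_succ (a : ℕ → (ℕ → ℤ) → ℤ) (k : ℕ) (f : (ℕ → ℤ) → ℝ) :
    ((lv a (k + 1)).map f).prod = ((lv a k).map fun z =>
      f (Function.update z k (a k z)) * f (Function.update z k (a k z + 1))).prod := by
  simp only [lv]
  induction lv a k with
  | nil => simp
  | cons x l ih => simp only [List.flatMap_cons, List.map_append, List.prod_append, ih]; simp

theorem mem_lv_succ {a : ℕ → (ℕ → ℤ) → ℤ} {k : ℕ} {z' : ℕ → ℤ} :
    z' ∈ lv a (k + 1) ↔ ∃ z ∈ lv a k,
      z' = Function.update z k (a k z) ∨ z' = Function.update z k (a k z + 1) := by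
  simp only [lv, List.mem_flatMap, List.mem_cons, List.not_mem_nil, or_false]

theorem ChainL.glue_zero (k : ℕ) (z l : ℕ → ℤ) (b : Fin 0 → Bool) : glue k 0 z l b = z := by
  funext j; simp [glue]

theorem ChainL.trunc_glue (k d : ℕ) (z l : ℕ → ℤ) (b : Fin d → Bool) :
    trunc k (glue k d z l b) = trunc k z := by
  funext j
  unfold trunc glue
  split_ifs with h1 h2 <;> first | rfl | omega

theorem ChainL.glue_snoc (k d : ℕ) (z l : ℕ → ℤ) (b : Fin d → Bool) (x : Bool) :
    glue k (d + 1) z l (Fin.snoc (α := fun _ => Bool) b x) =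
      Function.update (glue k d z l b) (k + d) (l d + if x then 1 else 0) := by
  funext j
  by_cases hj : j = k + d
  · subst hj
    have e : (⟨k + d - k, by omega⟩ : Fin (d + 1)) = Fin.last d := by ext; simp
    rw [Function.update_self, glue, dif_pos ⟨by omega, by omega⟩]
    rw [e, Fin.snoc_last, Nat.add_sub_cancel_left]
  · rw [Function.update_of_ne hj]
    unfold glue
    by_cases h : k ≤ j ∧ j - k < d
    · have e : (⟨j - k, by omega⟩ : Fin (d + 1)) = Fin.castSucc ⟨j - k, h.2⟩ := rfl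
      rw [dif_pos h, dif_pos ⟨h.1, by omega⟩]
      simp only [e, Fin.snoc_castSucc]
    · rw [dif_neg h, dif_neg (by omega)]

/-- induction on `d` (`Fin.snoc` / `Fin.insertNthEquiv` for the sum over `Fin (d+1) → Bool`);
`trunc k (glue k d z l b) = z` for `z ∈ lv a k` -/
theorem lv_ext_sum {a : ℕ → (ℕ → ℤ) → ℤ} {k d : ℕ} (lab : (ℕ → ℤ) → ℕ → ℤ)
    (h : ∀ i < d, ∀ z, a (k + i) z = lab (trunc k z) i) (f : (ℕ → ℤ) → ℝ) :
    ((lv a (k + d)).map f).sum =
      ((lv a k).map fun z => ∑ b : Fin d → Bool, f (glue k d z (lab z) b)).sum := by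
  induction d generalizing f with
  | zero => simp [ChainL.glue_zero]
  | succ d ih =>
    rw [← Nat.add_assoc, lv_sum_succ, ih fun i hi => h i (by omega)]
    congr 1
    refine List.map_congr_left fun z hz => ?_
    rw [← (Fin.snocEquiv fun _ : Fin (d + 1) => Bool).sum_comp, Fintype.sum_prod_type,
      Finset.sum_comm]
    refine Finset.sum_congr rfl fun b _ => ?_
    rw [h d (by omega), ChainL.trunc_glue, trunc_of_mem hz, Fintype.sum_bool, add_comm]
    have e : ∀ x : Bool, (Fin.snocEquiv fun _ : Fin (d + 1) => Bool) (x, b) =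
      Fin.snoc (α := fun _ => Bool) b x := fun _ => rfl
    rw [e, e, ChainL.glue_snoc, ChainL.glue_snoc]
    simp

theorem lv_ext_mem {a : ℕ → (ℕ → ℤ) → ℤ} {k d : ℕ} (lab : (ℕ → ℤ) → ℕ → ℤ)
    (h : ∀ i < d, ∀ z, a (k + i) z = lab (trunc k z) i) {z' : ℕ → ℤ} (hz : z' ∈ lv a (k + d)) :
    ∃ z ∈ lv a k, ∃ b : Fin d → Bool, z' = glue k d z (lab z) b := by
  induction d generalizing z' with
  | zero => exact ⟨z', hz, fun _ => false, (ChainL.glue_zero ..).symm⟩
  | succ d ih =>
    rw [← Nat.add_assoc, mem_lv_succ] at hz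
    obtain ⟨y, hy, hz⟩ := hz
    obtain ⟨z, hzm, b, rfl⟩ := ih (fun i hi => h i (by omega)) hy
    rw [h d (by omega), ChainL.trunc_glue, trunc_of_mem hzm] at hz
    rcases hz with rfl | rfl
    · exact ⟨z, hzm, Fin.snoc b false, by rw [ChainL.glue_snoc]; simp⟩
    · exact ⟨z, hzm, Fin.snoc b true, by rw [ChainL.glue_snoc]; simp⟩

theorem Chain.nonneg {N : ℕ} {φ : (ℕ → ℤ) → ℝ} {v : ℝ} (hv : 0 ≤ v) (h : Chain N φ v) :
    ∀ s, 0 ≤ φ s := by
  cases N with
  | zero => exact fun s => hv.trans (h s)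
  | succ N => exact h.1

theorem Chain.shift {N : ℕ} {φ : (ℕ → ℤ) → ℝ} {v : ℝ} (h : Chain N φ v) (s₀ : ℕ → ℤ) :
    Chain N (fun s => φ (s₀ + s)) v := by
  induction N generalizing φ with
  | zero => exact fun s => h _
  | succ N ih =>
    refine ⟨fun s => h.1 _, fun s => by simp only [← add_assoc, h.2.1], ?_⟩
    have := ih h.2.2
    convert this using 1
    funext s
    simp only [Tav, add_assoc]

theorem Chain.mono {N : ℕ} {φ : (ℕ → ℤ) → ℝ} {v v' : ℝ} (h : Chain N φ v) (hv : v' ≤ v) :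
    Chain N φ v' := by
  induction N generalizing φ with
  | zero => exact fun s => hv.trans (h s)
  | succ N ih => exact ⟨h.1, h.2.1, ih h.2.2⟩

theorem chain_one (N : ℕ) : Chain N (fun _ => 1) 1 := by
  induction N with
  | zero => exact fun _ => le_rfl
  | succ N ih =>
    refine ⟨fun _ => zero_le_one, fun _ => rfl, ?_⟩
    convert ih using 1
    funext s
    simp [Tav]

/-- a `2 e_g`-periodic function only sees the parity -/
theorem per_two {φ : (ℕ → ℤ) → ℝ} {g : ℕ} (h : ∀ s, φ (s + Pi.single g 2) = φ s) (s : ℕ → ℤ) (m : ℤ) :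
    φ (s + Pi.single g (2 * m)) = φ s := by
  induction m using Int.induction_on with
  | zero => simp
  | succ m ih => rw [mul_add, mul_one, Pi.single_add, ← add_assoc, h, ih]
  | pred m ih =>
    rw [← h, add_assoc, ← Pi.single_add, ← ih]
    congr 3
    ring

theorem Tav_per {φ : (ℕ → ℤ) → ℝ} {g : ℕ} (h : ∀ s, φ (s + Pi.single g 2) = φ s) (s : ℕ → ℤ) (m : ℤ) :
    Tav g φ (s + Pi.single g m) = Tav g φ s := by
  obtain ⟨q, rfl | rfl⟩ := Int.even_or_odd' m
  · simp only [Tav]
    rw [add_right_comm, per_two h, per_two h]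
  · simp only [Tav]
    have e1 : s + Pi.single g (2 * q + 1) = s + Pi.single g 1 + Pi.single g (2 * q) := by
      rw [Pi.single_add]; abel
    have e2 : s + Pi.single g (2 * q + 1) + Pi.single g 1 = s + Pi.single g (2 * (q + 1)) := by
      rw [add_assoc, ← Pi.single_add]; congr 2; ring
    rw [e2, e1, per_two h, per_two h, add_comm]

theorem Stage.mono {k N : ℕ} {c c' Tc Tc' R R' : ℝ} {H : ℕ → ℕ → ℝ} {gm : ℕ → ℕ}
    (h : Stage k N c Tc R H gm) (hc : c' ≤ c) (hT : Tc ≤ Tc') (hR : R ≤ R') :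
    Stage k N c' Tc' R' H gm := by
  refine ⟨h.pos, fun i hi j hj => (h.bd i hi j hj).trans hR, fun t => ?_⟩
  obtain ⟨a, w, h0, h1, h2⟩ := h.main t
  refine ⟨a, w, h0, fun z hz => ⟨(h1 z hz).1.trans hT, fun hw =>
    ⟨fun i hi => (((h1 z hz).2 hw).1 i hi).trans hR, ((h1 z hz).2 hw).2⟩⟩, fun φ v hv hφ => ?_⟩
  exact (mul_le_mul_of_nonneg_right hc hv).trans (h2 φ v hv hφ)

theorem ChainL.mem_const {m : ℕ → ℤ} {N : ℕ} {z : ℕ → ℤ} (hz : z ∈ lv (fun i _ => m i) N) :
    ∀ i < N, z i = m i ∨ z i = m i + 1 := by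
  induction N generalizing z with
  | zero => intro i hi; omega
  | succ N ih =>
    intro i hi
    obtain ⟨y, hy, h⟩ := mem_lv_succ.1 hz
    by_cases e : i = N
    · subst e
      rcases h with rfl | rfl <;> simp
    · rcases h with rfl | rfl <;> rw [Function.update_of_ne e] <;> exact ih hy i (by omega)

theorem ChainL.gau_ge {y : ℝ} (hy : |y| ≤ 1) : 1 / 5 ≤ gau y := by
  have h1 : y ^ 2 ≤ 1 := by rw [← sq_abs]; exact pow_le_one₀ (abs_nonneg _) hy
  have h2 : √(2 * Real.pi) ≤ 2.6 := by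
    rw [Real.sqrt_le_left (by norm_num)]; linarith [Real.pi_lt_d2]
  have h0 : 0 < √(2 * Real.pi) := Real.sqrt_pos.2 (by positivity)
  have h3 : (0.55 : ℝ) ≤ Real.exp (-y ^ 2 / 2) := by
    have a := Real.add_one_le_exp (-y ^ 2 / 4)
    have b : Real.exp (-y ^ 2 / 2) = Real.exp (-y ^ 2 / 4) ^ 2 := by
      rw [← Real.exp_nat_mul]; congr 1; push_cast; ring
    rw [b]
    calc (0.55 : ℝ) ≤ (3 / 4) ^ 2 := by norm_num
      _ ≤ _ := by gcongr; linarith
  unfold gau
  rw [inv_mul_eq_div, le_div_iff₀ h0]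
  linarith

theorem ChainL.sig_update {N : ℕ} (z : ℕ → ℤ) (m : ℤ) :
    sig (N + 1) id (Function.update z N m) = sig N id z + Pi.single N m := by
  funext g
  simp only [sig, id, Pi.add_apply, Finset.sum_filter, Finset.sum_range_succ, Function.update_self]
  congr 1
  · exact Finset.sum_congr rfl fun j hj => by
      rw [Function.update_of_ne (Finset.mem_range.1 hj).ne]
  · rw [Pi.single_apply]; simp only [eq_comm]

theorem ChainL.chain_sum (m : ℕ → ℤ) (N : ℕ) (φ : (ℕ → ℤ) → ℝ) (v : ℝ) (h : Chain N φ v) :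
    2 ^ N * v ≤ ((lv (fun i _ => m i) N).map fun z => φ (sig N id z)).sum := by
  induction N generalizing φ with
  | zero => simpa [lv] using h _
  | succ N ih =>
    have := ih _ h.2.2
    rw [lv_sum_succ]
    have e : ∀ z : ℕ → ℤ, φ (sig (N + 1) id (Function.update z N (m N))) +
        φ (sig (N + 1) id (Function.update z N (m N + 1))) = 2 * Tav N φ (sig N id z) := by
      intro z
      rw [← Tav_per h.2.1 _ (m N), ChainL.sig_update, ChainL.sig_update, Tav, Pi.single_add,
        add_assoc]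
      ring
    simp only [e]
    rw [List.sum_map_mul_left, pow_succ]
    linarith

/-- **first stage**: `H = id`, policy `a i z = -⌊t i⌋ - 1` (points `fract - 1`, `fract` in `[-1,1]`,
`gau 1 ≥ 1/5`), constant weights `(1/5)^N`, `gm = id`.  Chain sum by induction on `N` (generalising `φ`):
`lv_sum_succ`, `sig (N+1) id (update z N m) = sig N id z + Pi.single N m` for `z ∈ lv a N`, `Tav_per`. -/
theorem stage0 (N : ℕ) :
    Stage N N ((2 / 5) ^ N) 1 1 (fun i j => if i = j then 1 else 0) id := by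
  refine ⟨fun i _ => by simp, fun i _ j _ => by split_ifs <;> simp, fun t => ?_⟩
  refine ⟨fun i _ => -⌊t i⌋ - 1, fun _ => (1 / 5) ^ N, fun _ => by positivity, fun z hz => ?_,
    fun φ v _ hφ => ?_⟩
  · have hy : ∀ i < N, |yy (fun i j => if i = j then 1 else 0) t z i| ≤ 1 := by
      intro i hi
      have e : yy (fun i j => if i = j then 1 else 0) t z i = t i + z i := by
        simp [yy]
      have h1 := Int.floor_le (t i)
      have h2 := Int.lt_floor_add_one (t i)
      rw [e, abs_le]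
      rcases ChainL.mem_const hz i hi with h | h <;> rw [h] <;> push_cast <;> constructor <;> linarith
    refine ⟨pow_le_one₀ (by norm_num) (by norm_num), fun _ => ⟨hy, ?_⟩⟩
    calc ((1 : ℝ) / 5) ^ N = ∏ _i ∈ Finset.range N, (1 / 5 : ℝ) := by simp
      _ ≤ _ := Finset.prod_le_prod (fun _ _ => by norm_num) fun i hi => by
          simp only [if_true, one_mul]
          exact ChainL.gau_ge (hy i (Finset.mem_range.1 hi))
  · have := ChainL.chain_sum (fun i => -⌊t i⌋ - 1) N φ v hφ
    rw [List.sum_map_mul_left]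
    calc ((2 : ℝ) / 5) ^ N * v = (1 / 5) ^ N * (2 ^ N * v) := by
          rw [← mul_assoc, ← mul_pow]; norm_num
      _ ≤ _ := by gcongr

end Crest.Agent.R225
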