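import Crest.Agent.R225.Cell

set_option autoImplicit false

open MeasureTheory Set
open scoped ENNReal NNReal Matrix

namespace Crest.Agent.R225

/-! one bit coordinate.  Sums over `o : ZMod Q` are sums over `o.val ∈ range Q`
(`Finset.sum_range`/`ZMod.finEquiv`, `ZMod.val_lt`, `Finset.sum_bij`). `Y = 2^p`. -/

namespace CoordX

theorem sum_val {Q : ℕ} [NeZero Q] (F : ℕ → ℝ) :
    ∑ o : ZMod Q, F o.val = ∑ i ∈ Finset.range Q, F i :=
  Finset.sum_nbij (fun o => o.val) (fun o _ => Finset.mem_range.2 (ZMod.val_lt o))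
    (fun _ _ _ _ h => ZMod.val_injective Q h)
    (fun i hi => ⟨(i : ZMod Q), by simp, ZMod.val_cast_of_lt (by simpa using hi)⟩) fun _ _ => rfl

theorem Q_pos (p : ℕ) : (0 : ℝ) < QQ p := by unfold QQ; positivity

/-- the folded cell mass -/
noncomputable def fm (p i : ℕ) : ℝ := cw (rho p) ((i : ℤ) - QQ p) + cw (rho p) i

theorem mm_eq (p : ℕ) (o : ZMod (QQ p)) : mm p o = QQ p * fm p o.val := by
  simp [mm, wb, fm, mul_add]

theorem mm_div (p : ℕ) (o : ZMod (QQ p)) : mm p o / QQ p = fm p o.val := by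
  rw [mm_eq, mul_div_cancel_left₀ _ (Q_pos p).ne']

theorem sum_two (ρ : ℝ) (n : ℕ) :
    ∑ i ∈ Finset.range n, cw ρ (-n + i) + ∑ i ∈ Finset.range n, cw ρ i =
      ∫ y in (-(n * ρ))..(n * ρ), gau y := by
  have h1 := sum_cw ρ (-n) n
  have h2 := sum_cw ρ 0 n
  simp only [zero_add, Int.cast_zero, Int.cast_neg, Int.cast_natCast, neg_add_cancel, neg_mul] at h1 h2
  rw [h1, h2]
  exact intervalIntegral.integral_add_adjacent_intervals
    (continuous_gau.intervalIntegrable _ _) (continuous_gau.intervalIntegrable _ _)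

theorem sum_fm (p : ℕ) : ∑ i ∈ Finset.range (QQ p), fm p i = ∫ y in (-hh p)..(hh p), gau y := by
  rw [← rho_mul, ← sum_two, ← Finset.sum_add_distrib]
  simp only [fm, neg_add_eq_sub]

theorem fm_ge {p : ℕ} (hp : 40 ≤ p) {i : ℕ} (hi : i < QQ p) : rho p * gau (hh p) ≤ fm p i := by
  have h0 := rho_pos hp
  have h1 : ((i : ℝ) + 1) * rho p ≤ hh p := by
    rw [← rho_mul]; gcongr; exact_mod_cast hi
  have h2 := cw_ge h0.le (a := i) (M := hh p)
    (by rw [Int.cast_natCast, abs_of_nonneg (by positivity)]; linarith)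
    (by rwa [Int.cast_natCast, abs_of_nonneg (by positivity)])
  have h3 := cw_nonneg h0.le ((i : ℤ) - QQ p)
  unfold fm
  linarith

theorem gibbs {Q m : ℝ} (hQ : 0 < Q) (hm : 0 < m) :
    -(1 / Q) ≤ m * Real.log (Q * m) ∧ 2 * m - 2.72 * (1 / Q) ≤ m * Real.log (Q * m) := by
  have h1 := mul_le_mul_of_nonneg_left (Real.one_sub_inv_le_log_of_pos (mul_pos hQ hm)) hm.le
  have h2 := mul_le_mul_of_nonneg_left (Real.one_sub_inv_le_log_of_pos
    (div_pos (mul_pos hQ hm) (Real.exp_pos 1))) hm.le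
  have h3 := mul_le_mul_of_nonneg_right Real.exp_one_lt_d9.le (one_div_pos.2 hQ).le
  have h4 := one_div_pos.2 hQ
  rw [Real.log_div (mul_pos hQ hm).ne' (Real.exp_pos 1).ne', Real.log_exp,
    show m * (1 - (Q * m / Real.exp 1)⁻¹) = m - Real.exp 1 * (1 / Q) by field_simp] at h2
  rw [show m * (1 - (Q * m)⁻¹) = m - 1 / Q by field_simp] at h1
  constructor <;> linarith

theorem sum_ge (n : ℕ) {f g : ℕ → ℝ} {c : ℝ} (h : ∀ i < n, g i - c ≤ f i) :
    ∑ i ∈ Finset.range n, g i - n * c ≤ ∑ i ∈ Finset.range n, f i := by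
  have := Finset.sum_le_sum fun i hi => h i (Finset.mem_range.1 hi)
  rwa [Finset.sum_sub_distrib, Finset.sum_const, Finset.card_range, nsmul_eq_mul] at this

end CoordX

open CoordX

theorem wb_nonneg {p : ℕ} (hp : 40 ≤ p) (o : ZMod (QQ p)) (b : Bool) : 0 ≤ wb p o b := by
  exact mul_nonneg (Q_pos p).le (cw_nonneg (rho_pos hp).le _)

/-- `mm ≥ wb true ≥ Q ρ gau hh` (`cw_ge`), `mm ≤ Q ρ = hh` (`cw_le`) -/
theorem log_mm {p : ℕ} (hp : 40 ≤ p) (o : ZMod (QQ p)) :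
    0 < mm p o ∧ |Real.log (mm p o)| ≤ hh p ^ 2 := by
  have h0 := hh_ge hp
  have h1 := mul_le_mul_of_nonneg_left (fm_ge hp (ZMod.val_lt o)) (Q_pos p).le
  have h2 := gau_ge (hh p)
  have h3 := Real.exp_pos (-hh p ^ 2 / 2)
  have h4 : mm p o ≤ hh p := by
    have a := cw_le (rho_pos hp).le ((o.val : ℤ) - QQ p)
    have b := cw_le (rho_pos hp).le o.val
    rw [mm_eq, ← rho_mul, fm]
    exact mul_le_mul_of_nonneg_left (by linarith) (Q_pos p).le
  rw [← mm_eq, ← mul_assoc, rho_mul] at h1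
  have h5 : Real.exp (-hh p ^ 2 / 2) ≤ mm p o := by nlinarith
  have h6 := (Real.le_log_iff_exp_le (h3.trans_le h5)).2 h5
  have h7 := Real.log_le_sub_one_of_pos (h3.trans_le h5)
  refine ⟨h3.trans_le h5, abs_le.2 ⟨?_, ?_⟩⟩ <;> nlinarith

/-- total mass `z₁ = ∫_{-hh}^{hh} gau` (`sum_cw_Ico` with `I = Q`), `exp (-hh²/2) = Y^(-32)` -/
theorem sum_mm {p : ℕ} (hp : 40 ≤ p) :
    1 - 2 * ((2 : ℝ) ^ (32 * p))⁻¹ ≤ ∑ o, mm p o / QQ p ∧ ∑ o, mm p o / QQ p ≤ 1 := by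
  have h0 := hh_ge hp
  have h1 := int_gau_ge (x := hh p) (by linarith)
  have h2 : Real.exp (-hh p ^ 2 / 2) = ((2 : ℝ) ^ (32 * p))⁻¹ := by
    rw [show -hh p ^ 2 / 2 = (4 : ℕ) * (-hh p ^ 2 / 8) by push_cast; ring, Real.exp_nat_mul, exp_hh,
      inv_pow, ← pow_mul, show 8 * p * 4 = 32 * p by ring]
  simp only [mm_div]
  rw [sum_val (fm p), sum_fm, ← h2]
  exact ⟨h1, int_gau_le (by linarith)⟩

/-- Gibbs: `m log m ≥ m log g + m - g` for `g > 0`.  Take `g = 3` on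
`S = {o | o.val < Q/8 ∨ 7Q/8 ≤ o.val}` (a quarter of the residues; `8 ∣ Q`) and `g = 1/3` off `S`, so
`∑ g / Q = 1`; the mass of `S` is at least `∫_{-hh/8}^{hh/8} gau ≥ 1 - 2 e^{-12}` (`hh/8 ≥ 5`);
`log 3 ≥ 1`.  So the sum is `≥ (1 - 4e^{-12}) log 3 - 2e^{-12} + z₁ - 1 ≥ 1/2`. -/
theorem mean_log_mm {p : ℕ} (hp : 40 ≤ p) :
    1 / 2 ≤ ∑ o, mm p o / QQ p * Real.log (mm p o) := by
  have h0 := hh_ge hp
  have hρ := rho_pos hp
  have hQ := Q_pos p
  obtain ⟨E, hE⟩ : ∃ E, QQ p = E + 6 * E + E := ⟨2 ^ (30 * p - 3), by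
    rw [QQ, show 30 * p = 30 * p - 3 + 3 by omega, pow_add, Nat.add_sub_cancel]; ring⟩
  have hE' : (QQ p : ℝ) = 8 * E := by rw [hE]; push_cast; ring
  have g := fun i (hi : i < QQ p) => gibbs hQ ((mul_pos hρ (gau_pos _)).trans_le (fm_ge hp hi))
  have s1 := sum_ge E (g := fun i => 2 * cw (rho p) i) (c := 2.72 * (1 / QQ p))
    (f := fun i => fm p i * Real.log (QQ p * fm p i)) fun i hi => le_trans (by
      have := cw_nonneg hρ.le ((i : ℤ) - QQ p)
      unfold fm; linarith) (g i (by omega)).2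
  have s2 := sum_ge (6 * E) (g := fun _ => 0) (c := 1 / QQ p)
    (f := fun i => fm p (E + i) * Real.log (QQ p * fm p (E + i))) fun i hi => by
      rw [zero_sub]; exact (g (E + i) (by omega)).1
  have s3 := sum_ge E (g := fun i => 2 * cw (rho p) (-E + i)) (c := 2.72 * (1 / QQ p))
    (f := fun i => fm p (E + 6 * E + i) * Real.log (QQ p * fm p (E + 6 * E + i))) fun i hi =>
      le_trans (by
        have := cw_nonneg hρ.le ((E + 6 * E + i : ℕ) : ℤ)
        rw [fm, show ((E + 6 * E + i : ℕ) : ℤ) - QQ p = -E + i by omega]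
        linarith) (g _ (by omega)).2
  have s4 := sum_two (rho p) E
  have a1 : 5 ≤ E * rho p := by
    have := rho_mul p
    rw [hE'] at this
    linarith
  have s5 := int_gau_ge (x := E * rho p) (by linarith)
  have s6 : Real.exp (-(E * rho p) ^ 2 / 2) ≤ 1 / 85 := by
    have b1 := Real.quadratic_le_exp_of_nonneg (x := 12) (by norm_num)
    have b2 : Real.exp (-(E * rho p) ^ 2 / 2) ≤ Real.exp (-12) := Real.exp_le_exp.2 (by nlinarith)
    rw [Real.exp_neg, ← one_div] at b2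
    exact b2.trans (one_div_le_one_div_of_le (by norm_num) (by linarith))
  have a2 : E * (1 / QQ p : ℝ) = 1 / 8 := by
    rw [mul_one_div, div_eq_div_iff hQ.ne' (by norm_num)]; linarith
  simp only [mm_div]
  simp only [mm_eq]
  rw [sum_val fun i => fm p i * Real.log (QQ p * fm p i), congrArg Finset.range hE,
    Finset.sum_range_add, Finset.sum_range_add]
  rw [← Finset.mul_sum] at s1 s3
  rw [Finset.sum_const_zero, Nat.cast_mul, Nat.cast_ofNat] at s2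
  linarith

/-- `|a - b| = a + b - 2 min a b`; for the (at least `Q/hh²`) residues with
`hh/2 - 1/hh ≤ o ρ`, `(o+1) ρ ≤ hh/2 + 1/hh` both cells lie in `|y| ≤ hh/2 + 1/hh`, so
`∑ min / Q ≥ (1/hh) gau (hh/2 + 1/hh) ≥ Y^(-8) / (6 hh)` (`cw_ge`, `gau_ge`, `exp_hh`), `hh_le` -/
theorem bias_mm {p : ℕ} (hp : 40 ≤ p) :
    ∑ o, |wb p o false - wb p o true| / QQ p ≤
      (1 - ((2 : ℝ) ^ (9 * p))⁻¹) * ∑ o, mm p o / QQ p := by
  have h0 := hh_ge hp
  have hρ := rho_pos hp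
  have hQ := Q_pos p
  have hY : (0 : ℝ) < 2 ^ p := by positivity
  obtain ⟨H, hH, hJ⟩ : ∃ H, QQ p = H + H ∧ 2 ^ (29 * p) ≤ H := ⟨2 ^ (30 * p - 1), by
    rw [QQ, show 30 * p = 30 * p - 1 + 1 by omega, pow_succ, Nat.add_sub_cancel]; ring,
    Nat.pow_le_pow_right (by norm_num) (by omega)⟩
  have a1 : H * rho p = hh p / 2 := by
    have := rho_mul p
    rw [hH] at this
    push_cast at this
    linarith
  obtain ⟨δ, hδ⟩ : ∃ δ, δ = hh p / 2 ^ p := ⟨_, rfl⟩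
  have a2 : (2 ^ (29 * p) : ℕ) * rho p = δ := by
    rw [hδ, rho, QQ, show 30 * p = 29 * p + p by ring, pow_add]
    push_cast
    field_simp
  have d0 : 0 < δ := by rw [hδ]; positivity
  have d1 : hh p * δ ≤ 1 / 2 := by
    have := hh_le hp
    have b : 1600 ≤ hh p ^ 2 := by nlinarith
    rw [hδ, ← mul_div_assoc, div_le_iff₀ hY]
    nlinarith
  have d2 : δ ≤ 1 / 2 := by nlinarith
  have a3 : ((2 : ℝ) ^ (8 * p))⁻¹ / 6 ≤ gau (hh p / 2 + δ) := by
    have b1 := Real.add_one_le_exp (-(hh p * δ + δ ^ 2) / 2)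
    have b2 := mul_le_mul_of_nonneg_left (show 1 / 2 ≤ Real.exp (-(hh p * δ + δ ^ 2) / 2) by
      nlinarith) (Real.exp_pos (-hh p ^ 2 / 8)).le
    have b3 := gau_ge (hh p / 2 + δ)
    rw [show -(hh p / 2 + δ) ^ 2 / 2 = -hh p ^ 2 / 8 + -(hh p * δ + δ ^ 2) / 2 by ring,
      Real.exp_add] at b3
    rw [← exp_hh]
    linarith
  have a4 : ∀ i ∈ Finset.Ico H (H + 2 ^ (29 * p)), rho p * gau (hh p / 2 + δ) ≤
      min (cw (rho p) ((i : ℤ) - QQ p)) (cw (rho p) i) := fun i hi => by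
    obtain ⟨b1, b2⟩ := Finset.mem_Ico.1 hi
    have c1 : (H : ℝ) * rho p ≤ i * rho p := by gcongr
    have c2 : ((i : ℝ) + 1) * rho p ≤ (H + (2 ^ (29 * p) : ℕ)) * rho p :=
      mul_le_mul_of_nonneg_right (by exact_mod_cast b2) hρ.le
    have c3 := rho_mul p
    refine le_min (cw_ge hρ.le ?_ ?_) (cw_ge hρ.le ?_ ?_) <;> push_cast <;> rw [abs_le] <;>
      constructor <;> linarith
  have a5 : δ * gau (hh p / 2 + δ) ≤
      ∑ i ∈ Finset.range (QQ p), min (cw (rho p) ((i : ℤ) - QQ p)) (cw (rho p) i) := by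
    have b1 := Finset.card_nsmul_le_sum _ _ _ a4
    rw [Nat.card_Ico, Nat.add_sub_cancel_left, nsmul_eq_mul, ← mul_assoc, a2] at b1
    refine b1.trans (Finset.sum_le_sum_of_subset_of_nonneg (fun i hi => ?_) fun i _ _ =>
      le_min (cw_nonneg hρ.le _) (cw_nonneg hρ.le _))
    have := Finset.mem_Ico.1 hi
    exact Finset.mem_range.2 (by omega)
  have a6 : ∀ o : ZMod (QQ p), |wb p o false - wb p o true| / QQ p = mm p o / QQ p -
      2 * min (cw (rho p) ((o.val : ℤ) - QQ p)) (cw (rho p) o.val) := fun o => by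
    simp only [mm_div, wb, fm, if_true, Bool.false_eq_true, if_false]
    rw [← mul_sub, abs_mul, abs_of_pos hQ, mul_div_cancel_left₀ _ hQ.ne', ← max_sub_min_eq_abs',
      ← max_add_min]
    ring
  have a7 : ((2 : ℝ) ^ (9 * p))⁻¹ ≤ 2 * (δ * gau (hh p / 2 + δ)) := by
    have b1 := mul_le_mul_of_nonneg_left a3 d0.le
    have b2 : δ * (((2 : ℝ) ^ (8 * p))⁻¹ / 6) = hh p / 6 * ((2 : ℝ) ^ (9 * p))⁻¹ := by
      rw [hδ, show 9 * p = 8 * p + p by ring, pow_add]; field_simp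
    have b3 : 0 < ((2 : ℝ) ^ (9 * p))⁻¹ := by positivity
    nlinarith
  have a8 := mul_le_mul_of_nonneg_left (sum_mm hp).2 (show 0 ≤ ((2 : ℝ) ^ (9 * p))⁻¹ by positivity)
  simp only [a6]
  rw [Finset.sum_sub_distrib, ← Finset.mul_sum,
    sum_val fun i => min (cw (rho p) ((i : ℤ) - QQ p)) (cw (rho p) i)]
  linarith

end Crest.Agent.R225
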