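import Crest.Agent.R225.RelB

set_option autoImplicit false

open MeasureTheory Set
open scoped ENNReal NNReal Matrix

namespace Crest.Agent.R225

open Classical in
/-- dependent `j`-sets have small weight: a dependent `F` has an element in the span of the others
(`LinearIndepOn`/`linearIndependent_iff_notMem_span`), so the sum is at most
`∑_{|F'| = j-1} ∏ p * ∑_{z ∈ P, hat z ∈ span F'} p z ≤ V^(j-1)/(j-1)! * (2B+1)^j * δ`
(`card_span_le`, `esym_le`); for `j = 0` there is no dependent set -/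
theorem dep_le {m : Type} [Fintype m] (P : Finset (m → ℤ)) (p : (m → ℤ) → ℝ) {B : ℕ} {δ V : ℝ}
    (hp : ∀ z, 0 ≤ p z) (hδ : ∀ z, p z ≤ δ) (hP : ∀ z ∈ P, ∀ c, |z c| ≤ B) (hV : ∑ z ∈ P, p z ≤ V)
    (j : ℕ) :
    ∑ F ∈ (P.powersetCard j).filter (fun F : Finset (m → ℤ) => ¬ LinearIndepOn ℚ hat (F : Set (m → ℤ))),
        ∏ z ∈ F, p z ≤
      if j = 0 then 0 else V ^ (j - 1) / ((j - 1).factorial : ℝ) * ((2 * B + 1 : ℝ) ^ j * δ) := by
  rcases j with _ | k
  · rw [if_pos rfl, Finset.sum_eq_zero]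
    intro F hF
    obtain ⟨h1, h2⟩ := Finset.mem_filter.1 hF
    rw [Finset.powersetCard_zero, Finset.mem_singleton] at h1
    subst h1
    exact absurd (by simp) h2
  rw [if_neg (Nat.succ_ne_zero k), Nat.add_sub_cancel]
  have hδ0 : 0 ≤ δ := (hp 0).trans (hδ 0)
  have hw : ∀ F : Finset (m → ℤ), 0 ≤ ∏ z ∈ F, p z := fun F => Finset.prod_nonneg fun z _ => hp z
  calc _ ≤ ∑ F ∈ ((P.powersetCard k ×ˢ P).filter fun x => x.2 ∉ x.1 ∧
          hat x.2 ∈ Submodule.span ℚ (hat '' (x.1 : Set (m → ℤ)))).image fun x => insert x.2 x.1,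
          ∏ z ∈ F, p z := by
        refine Finset.sum_le_sum_of_subset_of_nonneg (fun F hF => ?_) fun F _ _ => hw F
        obtain ⟨h1, h2⟩ := Finset.mem_filter.1 hF
        rw [linearIndepOn_iff_notMem_span] at h2
        push Not at h2
        obtain ⟨z, a1, a2⟩ := h2
        obtain ⟨a3, a4⟩ := Finset.mem_powersetCard.1 h1
        refine Finset.mem_image.2 ⟨(F.erase z, z), Finset.mem_filter.2 ⟨Finset.mem_product.2
          ⟨Finset.mem_powersetCard.2 ⟨(Finset.erase_subset _ _).trans a3, ?_⟩, a3 a1⟩,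
          Finset.notMem_erase _ _, ?_⟩, Finset.insert_erase a1⟩
        · rw [Finset.card_erase_of_mem a1, a4]; rfl
        · rw [Finset.coe_erase]; exact a2
    _ ≤ _ := Finset.sum_image_le_of_nonneg fun F _ => hw F
    _ ≤ ∑ x ∈ P.powersetCard k ×ˢ P, (∏ z ∈ x.1, p z) *
          if hat x.2 ∈ Submodule.span ℚ (hat '' (x.1 : Set (m → ℤ))) then δ else 0 := by
        rw [Finset.sum_filter]
        refine Finset.sum_le_sum fun x _ => ?_
        split_ifs with h1 h2 h2
        · rw [Finset.prod_insert h1.1, mul_comm]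
          exact mul_le_mul_of_nonneg_left (hδ _) (hw _)
        · exact absurd h1.2 h2
        · exact mul_nonneg (hw _) hδ0
        · rw [mul_zero]
    _ ≤ ∑ F ∈ P.powersetCard k, (∏ z ∈ F, p z) * ((2 * B + 1 : ℝ) ^ (k + 1) * δ) := by
        rw [Finset.sum_product]
        refine Finset.sum_le_sum fun F hF => ?_
        dsimp only
        rw [← Finset.mul_sum, ← Finset.sum_filter, Finset.sum_const, nsmul_eq_mul]
        exact mul_le_mul_of_nonneg_left (mul_le_mul_of_nonneg_right (card_span_le P F hP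
          ((Finset.mem_powersetCard.1 hF).2.le.trans (Nat.le_succ k))) hδ0) (hw F)
    _ ≤ _ := by
        rw [← Finset.sum_mul]
        refine mul_le_mul_of_nonneg_right ((esym_le P p hp k).trans ?_) (by positivity)
        have := Finset.sum_nonneg fun z (_ : z ∈ P) => hp z
        gcongr

namespace CoreX

theorem sum_sub {α : Type} {N P : Finset α} (h : N ⊆ P) (j : ℕ) (q : Finset α → Prop)
    [DecidablePred q] [∀ F : Finset α, Decidable (F ⊆ N)] (g : Finset α → ℝ) :
    ∑ F ∈ (N.powersetCard j).filter q, g F =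
      ∑ F ∈ (P.powersetCard j).filter q, if F ⊆ N then g F else 0 := by
  rw [← Finset.sum_filter]
  refine Finset.sum_congr ?_ fun _ _ => rfl
  ext F
  simp only [Finset.mem_filter, Finset.mem_powersetCard]
  exact ⟨fun a => ⟨⟨⟨a.1.1.trans h, a.1.2⟩, a.2⟩, a.1.1⟩, fun a => ⟨⟨a.2, a.1.1.2⟩, a.1.2⟩⟩

open Classical in
/-- the integrated Bonferroni inequality -/
theorem bonf_int {m d : Type} [Fintype m] [Fintype d] {I : (m → ℤ) → Set (T d)}
    (hI : ∀ z, MeasurableSet (I z)) (P : Finset (m → ℤ)) {J : ℕ} (hJ : Even J) :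
    (volume {ω : Option m → T d | ∀ z ∈ P, XX ω z ∉ I z}).toReal ≤
      ∑ j ∈ Finset.range (J + 1), (-1 : ℝ) ^ j * ∑ F ∈ (P.powersetCard j).filter
        (fun F : Finset (m → ℤ) => LinearIndepOn ℚ hat (F : Set (m → ℤ))),
          (volume (Hit I F)).toReal +
      ∑ r ∈ Finset.range (2 * J + 1), (2 : ℝ) ^ r * ∑ F ∈ (P.powersetCard r).filter
        (fun F : Finset (m → ℤ) => LinearIndepOn ℚ hat (F : Set (m → ℤ))),
        ∑ z ∈ (P \ F).filter (fun z => hat z ∈ Submodule.span ℚ (hat '' (F : Set (m → ℤ)))),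
          (volume (Hit I (insert z F))).toReal := by
  have hv : MeasurableSet {ω : Option m → T d | ∀ z ∈ P, XX ω z ∉ I z} :=
    meas_Hit (I := fun z => (I z)ᶜ) (fun z => (hI z).compl) P
  have i0 : ∀ s : Set (Option m → T d), MeasurableSet s →
      Integrable (s.indicator (1 : (Option m → T d) → ℝ)) :=
    fun s hs => (integrable_const (1 : ℝ)).indicator hs
  have i1 := fun F => i0 _ (meas_Hit hI F)
  have e0 : ∀ s : Set (Option m → T d), MeasurableSet s →
      (volume s).toReal = ∫ ω, s.indicator (1 : (Option m → T d) → ℝ) ω :=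
    fun s hs => (integral_indicator_one hs).symm
  have e1 := fun F => e0 _ (meas_Hit hI F)
  rw [e0 _ hv]
  simp only [e1]
  have j1 : ∀ S : Finset (Finset (m → ℤ)),
      Integrable fun ω => ∑ F ∈ S, (Hit I F).indicator (1 : (Option m → T d) → ℝ) ω :=
    fun S => integrable_finsetSum _ fun F _ => i1 F
  have j2 : ∀ (F S : Finset (m → ℤ)),
      Integrable fun ω => ∑ z ∈ S, (Hit I (insert z F)).indicator (1 : (Option m → T d) → ℝ) ω :=
    fun F S => integrable_finsetSum _ fun z _ => i1 _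
  have j3 : ∀ (S : Finset (Finset (m → ℤ))) (S' : Finset (m → ℤ) → Finset (m → ℤ)),
      Integrable fun ω => ∑ F ∈ S, ∑ z ∈ S' F,
        (Hit I (insert z F)).indicator (1 : (Option m → T d) → ℝ) ω :=
    fun S S' => integrable_finsetSum _ fun F _ => j2 _ _
  simp only [← integral_finsetSum _ fun F _ => i1 F, ← integral_finsetSum _ fun z _ => i1 (insert z _),
    ← integral_finsetSum _ fun F _ => j2 F _, ← integral_const_mul]
  rw [← integral_finsetSum _ fun j _ => (j1 _).const_mul _,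
    ← integral_finsetSum _ fun j _ => (j3 _ _).const_mul _,
    ← integral_add (integrable_finsetSum _ fun j _ => (j1 _).const_mul _)
      (integrable_finsetSum _ fun j _ => (j3 _ _).const_mul _)]
  refine integral_mono (i0 _ hv) ((integrable_finsetSum _ fun j _ => (j1 _).const_mul _).add
    (integrable_finsetSum _ fun j _ => (j3 _ _).const_mul _)) fun ω => ?_
  have hb := bonf hat (P.filter fun z => XX ω z ∈ I z) hJ
  have hs : ∀ F ⊆ P, F ⊆ P.filter (fun z => XX ω z ∈ I z) ↔ ω ∈ Hit I F := fun F hF =>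
    ⟨fun h z hz => (Finset.mem_filter.1 (h hz)).2, fun h z hz => Finset.mem_filter.2 ⟨hF hz, h z hz⟩⟩
  refine le_of_eq_of_le ?_ (le_of_le_of_eq hb (Eq.symm ?_))
  · rw [Set.indicator_apply]
    split_ifs with h1 h2 h2
    · rfl
    · exact absurd (Finset.filter_eq_empty_iff.2 fun z hz => h1 z hz) h2
    · exact absurd (fun z hz => Finset.filter_eq_empty_iff.1 h2 hz) h1
    · rfl
  · dsimp only
    congr 1
    · refine Finset.sum_congr rfl fun j _ => ?_
      rw [Finset.card_eq_sum_ones, Nat.cast_sum, sum_sub (Finset.filter_subset _ P)]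
      congr 1
      refine Finset.sum_congr rfl fun F hF => ?_
      rw [Set.indicator_apply, Nat.cast_one]
      exact if_congr (hs F (Finset.mem_powersetCard.1 (Finset.mem_filter.1 hF).1).1).symm rfl rfl
    · refine Finset.sum_congr rfl fun r _ => ?_
      rw [sum_sub (Finset.filter_subset _ P)]
      congr 1
      refine Finset.sum_congr rfl fun F hF => ?_
      have hF' := hs F (Finset.mem_powersetCard.1 (Finset.mem_filter.1 hF).1).1
      simp only [Set.indicator_apply, Pi.one_apply]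
      rw [← Finset.sum_filter, Finset.sum_const, nsmul_eq_mul, mul_one]
      have hi : ∀ z, ω ∈ Hit I (insert z F) ↔ XX ω z ∈ I z ∧ ω ∈ Hit I F := fun z => by
        simp only [Hit, Set.mem_ofPred_eq, Finset.forall_mem_insert]
      split_ifs with h
      · congr 2
        ext z
        simp only [Finset.mem_filter, Finset.mem_sdiff, hi, hF'.1 h]
        tauto
      · rw [Finset.filter_eq_empty_iff.2 fun z _ hz => h (hF'.2 ((hi z).1 hz).2)]
        simp

theorem shift_le {x : ℝ} (hx : 0 ≤ x) (c N : ℕ) :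
    ∑ j ∈ Finset.range N, (if c ≤ j then x ^ (j - c) / ((j - c).factorial : ℝ) else 0) ≤
      Real.exp x := by
  refine le_trans ?_ (Real.sum_le_exp_of_nonneg hx N)
  calc _ ≤ ∑ j ∈ Finset.range (c + N),
        (if c ≤ j then x ^ (j - c) / ((j - c).factorial : ℝ) else 0) :=
        Finset.sum_le_sum_of_subset_of_nonneg (Finset.range_mono (by omega)) fun j _ _ => by
          split_ifs <;> positivity
    _ = _ := by
        rw [Finset.sum_range_add, Finset.sum_eq_zero fun j hj =>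
          if_neg (by simpa using hj), zero_add]
        exact Finset.sum_congr rfl fun j _ => by rw [if_pos (by omega), Nat.add_sub_cancel_left]

theorem exp_two : Real.exp 2 ≤ 8 := by
  have h := Real.exp_one_lt_d9
  have h0 := Real.exp_pos 1
  rw [show (2 : ℝ) = 1 + 1 by norm_num, Real.exp_add]
  nlinarith

theorem term2 {V : ℝ} {A : ℕ} (h0 : 0 ≤ V) (hV : V ≤ A) :
    V ^ (8 * A + 1) / ((8 * A + 1).factorial : ℝ) ≤ Real.exp (-A) := by
  have h1 := Real.pow_div_factorial_le_exp (x := 8 * A) (by positivity) (8 * A + 1)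
  have h2 : Real.exp (16 * A) ≤ 8 ^ (8 * A + 1) :=
    calc _ = Real.exp 2 ^ (8 * A) := by rw [← Real.exp_nat_mul]; congr 1; push_cast; ring
      _ ≤ 8 ^ (8 * A) := pow_le_pow_left₀ (Real.exp_pos _).le exp_two _
      _ ≤ _ := pow_le_pow_right₀ (by norm_num) (Nat.le_succ _)
  have h3 : V ^ (8 * A + 1) / ((8 * A + 1).factorial : ℝ) ≤
      (A : ℝ) ^ (8 * A + 1) / ((8 * A + 1).factorial : ℝ) := by gcongr
  refine h3.trans (le_of_mul_le_mul_left ?_ (Real.exp_pos (16 * A)))
  calc _ ≤ 8 ^ (8 * A + 1) * ((A : ℝ) ^ (8 * A + 1) / ((8 * A + 1).factorial : ℝ)) := by gcongr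
    _ = (8 * A) ^ (8 * A + 1) / ((8 * A + 1).factorial : ℝ) := by rw [mul_pow]; ring
    _ ≤ _ := h1
    _ ≤ _ := by
        rw [← Real.exp_add]
        exact Real.exp_le_exp.2 (by linarith [Nat.cast_nonneg (α := ℝ) A])

theorem term45 {A : ℕ} (hA : 1 ≤ A) {u w : ℝ} (hu0 : 0 ≤ u) (hu : u ≤ 2 * Real.exp (-20 * A))
    (hw0 : 0 ≤ w) (hw : w ≤ Real.exp (-31 * A)) :
    ∑ r ∈ Finset.range (2 * (8 * A) + 1), (2 : ℝ) ^ r * ((r + 1 : ℝ) *
      ((A : ℝ) ^ r / (r.factorial : ℝ) * u +
        if 2 ≤ r then 4 * 3 ^ r * (A : ℝ) ^ r / ((r - 2).factorial : ℝ) * w else 0)) ≤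
      2 * Real.exp (-A) := by
  have hA' : (1 : ℝ) ≤ A := by exact_mod_cast hA
  have h1 : 16 * (A : ℝ) + 1 ≤ Real.exp (16 * A) := Real.add_one_le_exp _
  have h2 : (A : ℝ) + 1 ≤ Real.exp A := Real.add_one_le_exp _
  have h3 : 144 * (A : ℝ) ^ 2 ≤ Real.exp (8 * A) := by
    have a1 : 4 * (A : ℝ) ≤ (A + 1) ^ 2 := by nlinarith [sq_nonneg ((A : ℝ) - 1)]
    have a2 : (4 : ℝ) ≤ (A + 1) ^ 2 := by nlinarith
    calc _ ≤ (4 * A * 4 : ℝ) ^ 2 := by nlinarith
      _ ≤ ((A + 1) ^ 2 * (A + 1) ^ 2 : ℝ) ^ 2 := by gcongr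
      _ = (A + 1 : ℝ) ^ 8 := by ring
      _ ≤ Real.exp A ^ 8 := by gcongr
      _ = _ := by rw [← Real.exp_nat_mul]; norm_num
  calc _ ≤ ∑ r ∈ Finset.range (2 * (8 * A) + 1), Real.exp (16 * A) *
        ((2 * A : ℝ) ^ r / (r.factorial : ℝ) * u + 144 * (A : ℝ) ^ 2 * w *
          if 2 ≤ r then (6 * A : ℝ) ^ (r - 2) / ((r - 2).factorial : ℝ) else 0) := by
        refine Finset.sum_le_sum fun r hr => ?_
        have a1 : (r + 1 : ℝ) ≤ Real.exp (16 * A) := by
          have : r ≤ 16 * A := by have := Finset.mem_range.1 hr; omega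
          have : (r : ℝ) ≤ 16 * A := by exact_mod_cast this
          linarith
        rw [mul_left_comm]
        refine mul_le_mul a1 (le_of_eq ?_) (by split_ifs <;> positivity) (Real.exp_pos _).le
        split_ifs with h
        · obtain ⟨k, rfl⟩ : ∃ k, r = k + 2 := ⟨r - 2, by omega⟩
          rw [Nat.add_sub_cancel, show (6 * A : ℝ) = 2 * 3 * A by ring, mul_pow, mul_pow, mul_pow]
          ring
        · rw [mul_pow]; ring
    _ ≤ Real.exp (16 * A) * (Real.exp (2 * A) * (Real.exp A * Real.exp (-20 * A)) +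
          Real.exp (8 * A) * Real.exp (-31 * A) * Real.exp (6 * A)) := by
        rw [← Finset.mul_sum, Finset.sum_add_distrib, ← Finset.sum_mul, ← Finset.mul_sum]
        have a1 := Real.sum_le_exp_of_nonneg (x := 2 * A) (by positivity) (2 * (8 * A) + 1)
        have a2 := shift_le (x := 6 * A) (by positivity) 2 (2 * (8 * A) + 1)
        have a3 : u ≤ Real.exp A * Real.exp (-20 * A) :=
          hu.trans (mul_le_mul_of_nonneg_right (by linarith) (Real.exp_pos _).le)
        gcongr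
    _ = _ := by
        rw [mul_add]
        simp only [← Real.exp_add]
        rw [two_mul (Real.exp _)]
        congr 2 <;> ring

end CoreX

/-- **finite core.**  `J = 8A`, `d₁ = 50 A`, `V' = ∑ p`.  Apply `bonf` to `N ω = P.filter (XX ω z ∈ I z)` and
integrate (a count of subsets `F ⊆ N ω` is `∑_{F ⊆ P} 1_{Hit I F}`; `vol_Hit`, `meas_Hit`).  First sum:
independent = all − dependent, `esym_bonf`, `dep_le` (`δ = (2ρ)^card`, `vol_le_of_Sm`),
`A^(8A+1)/(8A+1)! ≤ e^{-A}` (`x^j/j! ≤ e^x` with `x = 8A`: `A^J/J! ≤ e^{8A} 8^{-8A}`).  Second sum: `all_rels`,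
`∑ (2A)^r/r! ≤ e^{2A}`, `∑_{r ≥ 2} (6A)^r/(r-2)! ≤ 36 A² e^{6A}`, `16A+1 ≤ e^{3A}`, `144 A² ≤ e^{5A}`,
`(1/2)^{50A} ≤ e^{-20A}`, `(7/8)^{250A} ≤ e^{-30A}`.  Each of the five terms is `≤ e^{-V'}`. -/
theorem core {m d : Type} [Fintype m] [Fintype d] {I : (m → ℤ) → Set (T d)} {ρ : ℝ}
    (hρ0 : 0 ≤ ρ) (hρ : ρ ≤ 1 / 8) (hI : Sm I ρ) (P : Finset (m → ℤ)) {A B : ℕ} (hA : 1 ≤ A)
    (hP : ∀ z ∈ P, ∀ c, |z c| ≤ B) (hV : ∑ z ∈ P, (volume (I z)).toReal ≤ A)
    (hd : 250 * A ≤ Fintype.card d)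
    (hδ : (2 * B + 1 : ℝ) ^ (16 * A) * (6 * ρ) ^ Fintype.card d ≤ Real.exp (-20 * A)) :
    volume {ω : Option m → T d | ∀ z ∈ P, XX ω z ∉ I z} ≤
      ENNReal.ofReal (5 * Real.exp (-∑ z ∈ P, (volume (I z)).toReal)) := by
  classical
  have hm : ∀ z, MeasurableSet (I z) := fun z => (hI z).1
  have hA' : (1 : ℝ) ≤ A := by exact_mod_cast hA
  have hJ : Even (8 * A) := ⟨4 * A, by ring⟩
  refine (ENNReal.le_ofReal_iff_toReal_le (measure_ne_top _ _) (by positivity)).2
    ((CoreX.bonf_int hm P hJ).trans ?_)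
  have hp : ∀ z, 0 ≤ (volume (I z)).toReal := fun z => ENNReal.toReal_nonneg
  have hp1 : ∀ z, (volume (I z)).toReal ≤ 1 := fun z => measureReal_le_one
  have hpδ : ∀ z, (volume (I z)).toReal ≤ (6 * ρ) ^ Fintype.card d := fun z =>
    (ENNReal.toReal_le_of_le_ofReal (by positivity) (vol_le_of_Sm hρ0 (by linarith) hI z)).trans
      (pow_le_pow_left₀ (by positivity) (by linarith) _)
  have hV0 := Finset.sum_nonneg fun z (_ : z ∈ P) => hp z
  have hB : (1 : ℝ) ≤ 2 * B + 1 := by linarith [Nat.cast_nonneg (α := ℝ) B]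
  have hδ' : ∀ j ≤ 16 * A, (2 * B + 1 : ℝ) ^ j * (6 * ρ) ^ Fintype.card d ≤ Real.exp (-20 * A) :=
    fun j hj => (mul_le_mul_of_nonneg_right (pow_le_pow_right₀ hB hj) (by positivity)).trans hδ
  have t1 := esym_bonf P _ hp hp1 hJ
  have t2 := CoreX.term2 hV0 hV
  have t3 : ∑ j ∈ Finset.range (8 * A + 1), ∑ F ∈ (P.powersetCard j).filter
      (fun F : Finset (m → ℤ) => ¬ LinearIndepOn ℚ hat (F : Set (m → ℤ))),
        ∏ z ∈ F, (volume (I z)).toReal ≤ Real.exp (-A) :=
    calc _ ≤ ∑ j ∈ Finset.range (8 * A + 1), (if 1 ≤ j then (A : ℝ) ^ (j - 1) /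
          ((j - 1).factorial : ℝ) else 0) * Real.exp (-20 * A) := by
          refine Finset.sum_le_sum fun j hj => (dep_le P _ hp hpδ hP hV j).trans ?_
          by_cases h : j = 0
          · rw [if_pos h, if_neg (by omega), zero_mul]
          · rw [if_neg h, if_pos (by omega)]
            exact mul_le_mul_of_nonneg_left (hδ' j (by have := Finset.mem_range.1 hj; omega))
              (by positivity)
      _ ≤ Real.exp A * Real.exp (-20 * A) := by
          rw [← Finset.sum_mul]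
          exact mul_le_mul_of_nonneg_right (CoreX.shift_le (by positivity) 1 _) (Real.exp_pos _).le
      _ ≤ _ := by
          rw [← Real.exp_add]
          exact Real.exp_le_exp.2 (by linarith)
  have t4 : ∑ j ∈ Finset.range (8 * A + 1), (-1 : ℝ) ^ j * ∑ F ∈ (P.powersetCard j).filter
      (fun F : Finset (m → ℤ) => LinearIndepOn ℚ hat (F : Set (m → ℤ))), (volume (Hit I F)).toReal ≤
      ∑ j ∈ Finset.range (8 * A + 1), (-1 : ℝ) ^ j *
        ∑ F ∈ P.powersetCard j, ∏ z ∈ F, (volume (I z)).toReal +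
      ∑ j ∈ Finset.range (8 * A + 1), ∑ F ∈ (P.powersetCard j).filter
        (fun F : Finset (m → ℤ) => ¬ LinearIndepOn ℚ hat (F : Set (m → ℤ))),
          ∏ z ∈ F, (volume (I z)).toReal := by
    rw [← Finset.sum_add_distrib]
    refine Finset.sum_le_sum fun j _ => ?_
    rw [Finset.sum_congr rfl fun F hF => by
        rw [vol_Hit hm (Finset.mem_filter.1 hF).2, ENNReal.toReal_prod],
      ← Finset.sum_filter_add_sum_filter_not (P.powersetCard j)
        (fun F : Finset (m → ℤ) => LinearIndepOn ℚ hat (F : Set (m → ℤ)))]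
    have a1 : 0 ≤ ∑ F ∈ (P.powersetCard j).filter
        (fun F : Finset (m → ℤ) => ¬ LinearIndepOn ℚ hat (F : Set (m → ℤ))),
          ∏ z ∈ F, (volume (I z)).toReal :=
      Finset.sum_nonneg fun F _ => Finset.prod_nonneg fun z _ => hp z
    rcases neg_one_pow_eq_or ℝ j with h | h <;> rw [h] <;> linarith
  have hu : (1 / 2 : ℝ) ^ (50 * A) ≤ Real.exp (-20 * A) :=
    calc _ = ((1 / 2 : ℝ) ^ 5) ^ (10 * A) := by rw [← pow_mul]; congr 1; ring
      _ ≤ Real.exp (-2) ^ (10 * A) := by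
          refine pow_le_pow_left₀ (by positivity) ?_ _
          rw [Real.exp_neg, le_inv_comm₀ (by positivity) (Real.exp_pos _)]
          exact CoreX.exp_two.trans (by norm_num)
      _ = _ := by rw [← Real.exp_nat_mul]; congr 1; push_cast; ring
  have hw : (7 / 8 : ℝ) ^ Fintype.card d ≤ Real.exp (-31 * A) :=
    calc _ ≤ (7 / 8 : ℝ) ^ (250 * A) := pow_le_pow_of_le_one (by norm_num) (by norm_num) hd
      _ ≤ Real.exp (-(1 / 8)) ^ (250 * A) :=
          pow_le_pow_left₀ (by norm_num) (by linarith [Real.add_one_le_exp (-(1 / 8))]) _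
      _ ≤ _ := by
          rw [← Real.exp_nat_mul]
          refine Real.exp_le_exp.2 ?_
          push_cast
          linarith
  have t5 := CoreX.term45 hA (u := 2 * Real.exp (-20 * A)) (by positivity) le_rfl (by positivity) hw
  have t6 := Real.exp_le_exp.2 (neg_le_neg hV)
  refine (add_le_add t4 (le_trans (Finset.sum_le_sum fun r hr => ?_) t5)).trans (by linarith)
  have hr' : r ≤ 16 * A := by have := Finset.mem_range.1 hr; omega
  refine mul_le_mul_of_nonneg_left ((all_rels hρ0 hρ hI P (d₁ := 50 * A) hP hV r (by omega)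
    (by omega)).trans ?_) (by positivity)
  have := hδ' r hr'
  gcongr
  linarith

end Crest.Agent.R225
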