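import Crest.Agent.R225.Defs

set_option autoImplicit false

open MeasureTheory Set
open scoped ENNReal NNReal Matrix

namespace Crest.Agent.R225

namespace CovX

theorem exists_equiv {ι ι' : Type} [Fintype ι] [Fintype ι'] (Ψ : (ι → ℝ) ≃ₗ[ℝ] (ι' → ℝ)) :
    Nonempty (ι ≃ ι') := by
  have h := Ψ.finrank_eq
  rw [Module.finrank_fintype_fun_eq_card, Module.finrank_fintype_fun_eq_card] at h
  exact ⟨Fintype.equivOfCardEq h⟩

theorem vol_image {ι ι' : Type} [Fintype ι] [Fintype ι'] (e : ι ≃ ι')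
    (Ψ : (ι → ℝ) ≃ₗ[ℝ] (ι' → ℝ)) (A : Set (ι → ℝ)) :
    volume (Ψ '' A) = volume (Ψ.trans (LinearEquiv.funCongrLeft ℝ ℝ e) '' A) := by
  have h := volume_preserving_arrowCongr' e.symm (MeasurableEquiv.refl ℝ)
    (MeasurePreserving.id volume)
  rw [← h.measure_preimage_equiv]
  congr 1
  ext x
  constructor
  · rintro ⟨y, hy, rfl⟩
    exact ⟨y, hy, rfl⟩
  · rintro ⟨y, hy, hxy⟩
    refine ⟨y, hy, funext fun i => ?_⟩
    have := congrFun hxy (e.symm i)
    simpa [MeasurableEquiv.arrowCongr', Equiv.arrowCongr'] using this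

end CovX

/-- transport along a linear equivalence.  `card ι = card ι'` (finrank); choose `e : ι ≃ ι'`, let
`R : (ι → ℝ) ≃ₗ (ι' → ℝ)` be the reindexing (volume preserving: `volume_measurePreserving_piCongrLeft` or
`MeasurableEquiv.piCongrLeft`), `P = toMatrix' (R⁻¹ ∘ Ψ)`, new matrix `P⁻¹ * (g reindexed)`;
`Measure.addHaar_image_linearMap` gives `vol (Ψ '' K) = |det P| vol K`. -/
theorem covers_of_equiv {ι ι' : Type} [Fintype ι] [DecidableEq ι] [Fintype ι'] [DecidableEq ι']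
    (Ψ : (ι → ℝ) ≃ₗ[ℝ] (ι' → ℝ)) {K : Set (ι → ℝ)} {V : ℝ} (h : Covers (Ψ '' K) V) :
    Covers K V := by
  obtain ⟨e⟩ := CovX.exists_equiv Ψ
  obtain ⟨g, hg, hc, hV⟩ := h
  set Φ := Ψ.trans (LinearEquiv.funCongrLeft ℝ ℝ e) with hΦ
  set Q := LinearMap.toMatrix' (Φ.symm : (ι → ℝ) →ₗ[ℝ] (ι → ℝ)) with hQ
  have hQd : Q.det = LinearMap.det (Φ.symm : (ι → ℝ) →ₗ[ℝ] (ι → ℝ)) := LinearMap.det_toMatrix' _
  have hQ0 : Q.det ≠ 0 := by rw [hQd]; exact (LinearEquiv.isUnit_det' _).ne_zero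
  have hdet : (Q * g.submatrix e e).det = Q.det * g.det := by
    rw [Matrix.det_mul, Matrix.det_submatrix_equiv_self]
  refine ⟨Q * g.submatrix e e, by rw [hdet]; exact mul_ne_zero hQ0 hg, fun x => ?_, ?_⟩
  · obtain ⟨z, y, hy, hz⟩ := hc (Ψ x)
    refine ⟨z ∘ e, ?_⟩
    have h1 : Φ y = Φ x - g.submatrix e e *ᵥ rv (z ∘ e) := by
      have h2 : rv (z ∘ e) ∘ e.symm = rv z := by
        funext i; simp [rv]
      rw [Matrix.submatrix_mulVec_equiv, h2]
      funext i
      exact congrFun hz (e i)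
    have h3 : y = x - (Q * g.submatrix e e) *ᵥ rv (z ∘ e) := by
      rw [← Matrix.mulVec_mulVec, hQ, LinearMap.toMatrix'_mulVec, ← Φ.symm_apply_apply y, h1,
        map_sub, Φ.symm_apply_apply]
      rfl
    exact h3 ▸ hy
  · have h1 : volume K = ENNReal.ofReal |Q.det| * volume (Ψ '' K) := by
      rw [CovX.vol_image e, ← hΦ, hQd, ← Measure.addHaar_image_linearMap]
      congr 1
      exact (Φ.toEquiv.symm_image_image K).symm
    rw [h1, hdet, ENNReal.toReal_mul, ENNReal.toReal_ofReal (abs_nonneg _), abs_mul,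
      mul_div_mul_left _ _ (abs_ne_zero.2 hQ0)]
    exact hV

theorem Covers.mono {ι : Type} [Fintype ι] [DecidableEq ι] {K : Set (ι → ℝ)} {V V' : ℝ}
    (h : Covers K V) (hV : V ≤ V') : Covers K V' := by
  obtain ⟨g, h1, h2, h3⟩ := h
  exact ⟨g, h1, h2, h3.trans hV⟩

theorem Body.image {ι ι' : Type} [Fintype ι] [Fintype ι'] (Ψ : (ι → ℝ) ≃ₗ[ℝ] (ι' → ℝ))
    {K : Set (ι → ℝ)} (h : Body K) : Body (Ψ '' K) := by
  have hc : Continuous Ψ := Ψ.toLinearMap.continuous_of_finiteDimensional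
  refine ⟨h.cpt.image hc, h.cvx.linear_image Ψ.toLinearMap, ?_⟩
  have h1 := Ψ.toContinuousLinearEquiv.toHomeomorph.image_interior K
  have h2 : (Ψ.toContinuousLinearEquiv.toHomeomorph '' interior K).Nonempty := h.int.image _
  rw [h1] at h2
  exact h2

theorem Body.vol_pos {ι : Type} [Fintype ι] {K : Set (ι → ℝ)} (h : Body K) :
    volume K ≠ 0 ∧ volume K ≠ ⊤ := by
  exact ⟨(Measure.measure_pos_of_nonempty_interior volume h.int).ne', h.cpt.measure_lt_top.ne⟩

theorem Body.prob {ι : Type} [Fintype ι] {K : Set (ι → ℝ)} (h : Body K) :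
    IsProbabilityMeasure (un K) := by
  exact ProbabilityTheory.cond_isProbabilityMeasure_of_finite h.vol_pos.1 h.vol_pos.2

/-- uniform measures are transported by linear equivalences (same reduction as above, or uniqueness of
Haar measure) -/
theorem un_image {ι ι' : Type} [Fintype ι] [Fintype ι'] (Ψ : (ι → ℝ) ≃ₗ[ℝ] (ι' → ℝ))
    {K : Set (ι → ℝ)} (h : Body K) {B : Set (ι' → ℝ)} (hB : MeasurableSet B) :
    un (Ψ '' K) B = un K (Ψ ⁻¹' B) := by
  classical
  obtain ⟨e⟩ := CovX.exists_equiv Ψ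
  set Φ := Ψ.trans (LinearEquiv.funCongrLeft ℝ ℝ e) with hΦ
  have h1 : ∀ A : Set (ι → ℝ), volume (Ψ '' A) =
      ENNReal.ofReal |LinearMap.det (Φ : (ι → ℝ) →ₗ[ℝ] (ι → ℝ))| * volume A := fun A => by
    rw [CovX.vol_image e, ← hΦ, ← Measure.addHaar_image_linearMap]
    rfl
  have h2 : ENNReal.ofReal |LinearMap.det (Φ : (ι → ℝ) →ₗ[ℝ] (ι → ℝ))| ≠ 0 := by
    rw [Ne, ENNReal.ofReal_eq_zero, not_le, abs_pos]
    exact (LinearEquiv.isUnit_det' _).ne_zero
  unfold un
  rw [ProbabilityTheory.cond_apply (h.image Ψ).cpt.measurableSet,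
    ProbabilityTheory.cond_apply h.cpt.measurableSet, ← image_inter_preimage, h1, h1,
    ENNReal.mul_inv (Or.inl h2) (Or.inl ENNReal.ofReal_ne_top), mul_mul_mul_comm,
    ENNReal.inv_mul_cancel h2 ENNReal.ofReal_ne_top, one_mul]

/-- crude bound.  Fix `x₀ ∈ K`; maximise `|det (x_i - x₀)|` over `x : Fin n → K` (compactness; the maximum
`D` is positive since `x₀`.. take `x₀` interior).  By Cramer (`Matrix.cramer`, `det_updateCol`) every point
of `K - x₀` has coordinates in `[-1,1]` in the basis `v_i = x_i - x₀`, so `vol K ≤ 2^n D`; the points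
`x₀ + ∑ t_i v_i`, `t_i ∈ [0, 1/n]`, lie in `K`, and `g = V / n` tiles: density `≤ (2n)^n`. -/
theorem covers_crude {n : ℕ} (hn : 1 ≤ n) {K : Set (Fin n → ℝ)} (h : Body K) :
    Covers K ((2 * n : ℝ) ^ n) := by
  obtain ⟨x₀, hx₀⟩ := h.int
  have hx₀K : x₀ ∈ K := interior_subset hx₀
  have hn' : (0 : ℝ) < n := by exact_mod_cast hn
  let M : (Fin n → Fin n → ℝ) → Matrix (Fin n) (Fin n) ℝ := fun x =>
    Matrix.of fun i j => x j i - x₀ i
  have hM : Continuous fun x => |(M x).det| := by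
    refine Continuous.abs (Continuous.matrix_det ?_)
    refine continuous_pi fun i => continuous_pi fun j => ?_
    simp only [M, Matrix.of_apply]
    fun_prop
  obtain ⟨x, hx, hmax⟩ := (isCompact_univ_pi fun _ : Fin n => h.cpt).exists_isMaxOn
    ⟨fun _ => x₀, fun _ _ => hx₀K⟩ hM.continuousOn
  have hxK : ∀ j, x j ∈ K := fun j => hx j (mem_univ j)
  have hD : 0 < |(M x).det| := by
    obtain ⟨ε, hε, hb⟩ := Metric.mem_nhds_iff.1 (mem_interior_iff_mem_nhds.1 hx₀)
    have h1 : (fun j => x₀ + Pi.single j (ε / 2)) ∈ Set.pi univ fun _ : Fin n => K := by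
      intro j _
      refine hb ?_
      rw [Metric.mem_ball, dist_self_add_left, Pi.norm_single, Real.norm_eq_abs,
        abs_of_pos (half_pos hε)]
      exact half_lt_self hε
    have h2 : M (fun j => x₀ + Pi.single j (ε / 2)) = Matrix.diagonal fun _ => ε / 2 := by
      ext i j
      simp [M, Matrix.diagonal_apply, Pi.single_apply]
    have h3 : |(M fun j => x₀ + Pi.single j (ε / 2)).det| ≤ |(M x).det| := hmax h1
    rw [h2, Matrix.det_diagonal] at h3
    refine lt_of_lt_of_le (abs_pos.2 ?_) h3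
    exact Finset.prod_ne_zero_iff.2 fun _ _ => (half_pos hε).ne'
  have hd0 : (M x).det ≠ 0 := abs_pos.1 hD
  have hu : IsUnit (M x).det := isUnit_iff_ne_zero.2 hd0
  have hsub : K ⊆ (fun w => w + -x₀) ⁻¹'
      (Matrix.toLin' (M x) '' Icc (fun _ => (-1 : ℝ)) fun _ => 1) := by
    intro y hy
    refine ⟨(M x)⁻¹ *ᵥ (y - x₀), ?_, ?_⟩
    · have h1 : ∀ i, |((M x)⁻¹ *ᵥ (y - x₀)) i| ≤ 1 := by
        intro i
        have h2 := congrFun (Matrix.det_smul_inv_mulVec_eq_cramer (M x) (y - x₀) hu) i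
        rw [Matrix.cramer_apply, Pi.smul_apply, smul_eq_mul] at h2
        have h3 : (M x).updateCol i (y - x₀) = M (Function.update x i y) := by
          ext a b
          by_cases hb : b = i
          · subst hb; simp [M]
          · simp [M, Matrix.updateCol_ne hb, Function.update_of_ne hb]
        have h4 : Function.update x i y ∈ Set.pi univ fun _ : Fin n => K := by
          intro j _
          by_cases hj : j = i
          · subst hj; simpa using hy
          · rw [Function.update_of_ne hj]; exact hxK j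
        have h5 : |(M (Function.update x i y)).det| ≤ |(M x).det| := hmax h4
        rw [← h3, ← h2, abs_mul] at h5
        exact (mul_le_iff_le_one_right hD).1 h5
      exact ⟨fun i => (abs_le.1 (h1 i)).1, fun i => (abs_le.1 (h1 i)).2⟩
    · rw [Matrix.toLin'_apply, Matrix.mulVec_mulVec, Matrix.mul_nonsing_inv _ hu,
        Matrix.one_mulVec, sub_eq_add_neg]
  have hvol : (volume K).toReal ≤ |(M x).det| * 2 ^ n := by
    have h1 := measure_mono (μ := volume) hsub
    rw [measure_preimage_add_right, Measure.addHaar_image_linearMap, LinearMap.det_toLin',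
      Real.volume_Icc_pi] at h1
    have h2 : ∏ _i : Fin n, ENNReal.ofReal ((1 : ℝ) - -1) = ENNReal.ofReal (2 ^ n) := by
      rw [Finset.prod_const, Finset.card_univ, Fintype.card_fin,
        ← ENNReal.ofReal_pow (by norm_num)]
      norm_num
    rw [h2, ← ENNReal.ofReal_mul hD.le] at h1
    exact ENNReal.toReal_le_of_le_ofReal (by positivity) h1
  have hdet : ((n : ℝ)⁻¹ • M x).det = (n : ℝ)⁻¹ ^ n * (M x).det := by
    rw [Matrix.det_smul, Fintype.card_fin]
  refine ⟨(n : ℝ)⁻¹ • M x, by rw [hdet]; exact mul_ne_zero (by positivity) hd0, fun y => ?_, ?_⟩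
  · set s := (n : ℝ) • ((M x)⁻¹ *ᵥ (y - x₀)) with hs
    refine ⟨fun j => ⌊s j⌋, ?_⟩
    have h1 : ((n : ℝ)⁻¹ • M x) *ᵥ s = y - x₀ := by
      rw [hs, Matrix.smul_mulVec, Matrix.mulVec_smul, smul_smul, inv_mul_cancel₀ hn'.ne', one_smul,
        Matrix.mulVec_mulVec, Matrix.mul_nonsing_inv _ hu, Matrix.one_mulVec]
    have h2 : y - ((n : ℝ)⁻¹ • M x) *ᵥ rv (fun j => ⌊s j⌋) =
        ∑ j : Fin n, (n : ℝ)⁻¹ • (x₀ + Int.fract (s j) • (x j - x₀)) := by
      have h3 : rv (fun j => ⌊s j⌋) = s - fun j => Int.fract (s j) := by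
        funext j
        simp [rv]
      rw [h3, Matrix.mulVec_sub, h1]
      funext i
      simp only [Pi.sub_apply, Finset.sum_apply, Pi.smul_apply, Pi.add_apply, smul_eq_mul,
        Matrix.mulVec, dotProduct, Matrix.smul_apply, M, Matrix.of_apply, mul_add,
        Finset.sum_add_distrib, Finset.sum_const, Finset.card_univ, Fintype.card_fin,
        nsmul_eq_mul]
      rw [← mul_assoc, mul_inv_cancel₀ hn'.ne', one_mul, sub_sub, sub_sub_cancel]
      congr 1
      exact Finset.sum_congr rfl fun j _ => by ring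
    rw [h2]
    refine h.cvx.sum_mem (fun _ _ => by positivity) ?_ fun j _ => ?_
    · rw [Finset.sum_const, Finset.card_univ, Fintype.card_fin, nsmul_eq_mul,
        mul_inv_cancel₀ hn'.ne']
    · exact h.cvx.add_smul_sub_mem hx₀K (hxK j) ⟨Int.fract_nonneg _, (Int.fract_lt_one _).le⟩
  · rw [hdet, abs_mul, abs_of_pos (by positivity : (0 : ℝ) < (n : ℝ)⁻¹ ^ n),
      div_le_iff₀ (by positivity)]
    refine hvol.trans (le_of_eq ?_)
    rw [mul_pow, inv_pow]
    field_simp

end Crest.Agent.R225
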