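import Mathlib

/-!
# Row 225 (S0347): lattice coverings of density `C n log n` — definitions

Overview of the proof.
* `Tor, Layer, Tree, Rog, Cov`: tori, void fractions, Rogers' binary tree, final dilation.
* `Bonf, Esym, Indep, Tors, Span, Young1, YoungN, One, RelA, RelB, RelC, Core, BaseA, Base`:
  a random lattice leaves void fraction `≲ exp (-V)` for volumes `V ≤ c n`.
* `ChainL, St0, Cell, Coord, Blk, Shift, Cand, Lap, Inner, Step, Tower`: a triangular lattice in `ℝ^k`
  with, for every translate, a binary tree of points carrying a constant part of the Gaussian mass in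
  small atoms.
* `Iso, Small, G2, Two, Shell, Marg, Pt, Psi, Good`: Gaussian lower bound for a `k`-dimensional marginal.
* `Main`, `S0347`: assembly.
-/

set_option autoImplicit false

open MeasureTheory Set
open scoped ENNReal NNReal Matrix

namespace Crest.Agent.R225

/-- the torus `ℝ^ι / ℤ^ι` (its `volume` is the product Haar probability measure) -/
abbrev T (ι : Type) : Type := ι → UnitAddCircle

instance isProb_circle : IsProbabilityMeasure (volume : Measure UnitAddCircle) :=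
  ⟨UnitAddCircle.measure_univ⟩

instance isProb_T (ι : Type) [Fintype ι] : IsProbabilityMeasure (volume : Measure (T ι)) := by
  unfold T; rw [volume_pi]; infer_instance

/-- projection to the torus -/
def pr {ι : Type} (s : ι → ℝ) : T ι := fun i => (s i : UnitAddCircle)

/-- part of the torus `ℝ^ι / g ℤ^ι` (in lattice coordinates) covered by `S` -/
def cov {ι : Type} [Fintype ι] (g : Matrix ι ι ℝ) (S : Set (ι → ℝ)) : Set (T ι) :=
  pr '' {s | g *ᵥ s ∈ S}

/-- section at height `y` -/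
def sec {κ l : Type} (S : Set (κ ⊕ l → ℝ)) (y : κ → ℝ) : Set (l → ℝ) := {w | Sum.elim y w ∈ S}

/-- half-open unit cube -/
def cube (κ : Type) : Set (κ → ℝ) := Set.pi univ fun _ => Ico (0 : ℝ) 1

/-- integer vector as a real vector -/
def rv {ι : Type} (z : ι → ℤ) : ι → ℝ := fun i => (z i : ℝ)

/-- `K` has a lattice covering of density at most `V` -/
def Covers {ι : Type} [Fintype ι] [DecidableEq ι] (K : Set (ι → ℝ)) (V : ℝ) : Prop :=
  ∃ g : Matrix ι ι ℝ, g.det ≠ 0 ∧ (∀ x : ι → ℝ, ∃ z : ι → ℤ, x - g *ᵥ rv z ∈ K) ∧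
    (volume K).toReal / |g.det| ≤ V

/-- homothety with centre `c` and ratio `l` -/
def hom {ι : Type} (c : ι → ℝ) (l : ℝ) (K : Set (ι → ℝ)) : Set (ι → ℝ) :=
  (fun x => c + l • (x - c)) '' K

/-- standard Gaussian density -/
noncomputable def gau (y : ℝ) : ℝ := (√(2 * Real.pi))⁻¹ * Real.exp (-y ^ 2 / 2)

/-- Gaussian mass of the cell `[aρ, (a+1)ρ]` -/
noncomputable def cw (ρ : ℝ) (a : ℤ) : ℝ := ∫ y in (a * ρ)..((a + 1) * ρ), gau y

/-! ### binary trees of integer vectors -/

/-- leaves (depth `k`) of the binary tree given by the policy `a`: at depth `k`, below the prefix `z`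
(which vanishes from `k` on), the two children have `k`-th coordinate `a k z` and `a k z + 1` -/
def lv (a : ℕ → (ℕ → ℤ) → ℤ) : ℕ → List (ℕ → ℤ)
  | 0 => [0]
  | k + 1 => (lv a k).flatMap fun z =>
      [Function.update z k (a k z), Function.update z k (a k z + 1)]

/-- average over the parity of coordinate `g` -/
noncomputable def Tav (g : ℕ) (φ : (ℕ → ℤ) → ℝ) : (ℕ → ℤ) → ℝ :=
  fun s => (φ s + φ (s + Pi.single g 1)) / 2

/-- `φ` is nonnegative, depends on the parity of coordinate `N-1` only, its average over that parity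
depends on the parity of coordinate `N-2` only, ..., and the last average is at least `v` -/
def Chain : ℕ → ((ℕ → ℤ) → ℝ) → ℝ → Prop
  | 0, φ, v => ∀ s, v ≤ φ s
  | g + 1, φ, v => (∀ s, 0 ≤ φ s) ∧ (∀ s, φ (s + Pi.single g 2) = φ s) ∧ Chain g (Tav g φ) v

/-- group sums of the first `k` coordinates, coordinate `j` belonging to group `gm j` -/
def sig (k : ℕ) (gm : ℕ → ℕ) (z : ℕ → ℤ) : ℕ → ℤ :=
  fun g => ∑ j ∈ (Finset.range k).filter (fun j => gm j = g), z j

/-- `i`-th coordinate of `t + H z` for the lower triangular array `H` -/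
def yy (H : ℕ → ℕ → ℝ) (t : ℕ → ℝ) (z : ℕ → ℤ) (i : ℕ) : ℝ :=
  t i + ∑ j ∈ Finset.range (i + 1), H i j * (z j : ℝ)

/-- a stage of the tower -/
structure Stage (k N : ℕ) (c Tc R : ℝ) (H : ℕ → ℕ → ℝ) (gm : ℕ → ℕ) : Prop where
  pos : ∀ i < k, 0 < H i i
  bd : ∀ i < k, ∀ j ≤ i, |H i j| ≤ R
  main : ∀ t : ℕ → ℝ, ∃ (a : ℕ → (ℕ → ℤ) → ℤ) (w : (ℕ → ℤ) → ℝ), (∀ z, 0 ≤ w z) ∧
    (∀ z ∈ lv a k, w z ≤ Tc ∧ (0 < w z → (∀ i < k, |yy H t z i| ≤ R) ∧
      w z ≤ ∏ i ∈ Finset.range k, H i i * gau (yy H t z i))) ∧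
    ∀ (φ : (ℕ → ℤ) → ℝ) (v : ℝ), 0 ≤ v → Chain N φ v →
      c * v ≤ ((lv a k).map fun z => w z * φ (sig k gm z)).sum

/-- extension of a prefix `z` (coordinates `< k`) by `d` labelled bits -/
def glue (k d : ℕ) (z : ℕ → ℤ) (l : ℕ → ℤ) (b : Fin d → Bool) : ℕ → ℤ :=
  fun j => if h : k ≤ j ∧ j - k < d then l (j - k) + (if b ⟨j - k, h.2⟩ then 1 else 0) else z j

/-- forget the coordinates from `k` on -/
def trunc (k : ℕ) (z : ℕ → ℤ) : ℕ → ℤ := fun j => if j < k then z j else 0

/-! ### parameters of the block number `p` (`Y = 2^p`) -/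

/-- spacing of the bit coordinates: `exp (-hh^2/8) = Y^(-8)` -/
noncomputable def hh (p : ℕ) : ℝ := √(64 * p * Real.log 2)
/-- resolution `Q = Y^30` -/
def QQ (p : ℕ) : ℕ := 2 ^ (30 * p)
/-- group size `Y^10` -/
def ss (p : ℕ) : ℕ := 2 ^ (10 * p)
/-- number of groups `Y^18` -/
def NN (p : ℕ) : ℕ := 2 ^ (18 * p)
/-- number of bit coordinates `Y^28` -/
def dd (p : ℕ) : ℕ := NN p * ss p
/-- grid step -/
noncomputable def rho (p : ℕ) : ℝ := hh p / QQ p
/-- typicality window `Y^15` -/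
noncomputable def De (p : ℕ) : ℝ := 2 ^ (15 * p)
/-- parity bias `Y^(-19)` -/
noncomputable def be (p : ℕ) : ℝ := (2 ^ (19 * p))⁻¹

instance QQ_neZero (p : ℕ) : NeZero (QQ p) := ⟨by unfold QQ; positivity⟩

/-- rounded offsets of a block -/
abbrev Gam (p : ℕ) : Type := Fin (dd p) → ZMod (QQ p)

/-- idealised weight of the child `b` at rounded offset `o`
(`false`: the point `ρ (o - Q)`, `true`: the point `ρ o`) -/
noncomputable def wb (p : ℕ) (o : ZMod (QQ p)) (b : Bool) : ℝ :=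
  QQ p * cw (rho p) (if b then (o.val : ℤ) else (o.val : ℤ) - QQ p)

/-- folded weight of one coordinate -/
noncomputable def mm (p : ℕ) (o : ZMod (QQ p)) : ℝ := wb p o false + wb p o true

/-- folded weight of a block -/
noncomputable def MM (p : ℕ) (x : Gam p) : ℝ := ∏ i, mm p (x i)

/-- all groups have small parity bias -/
def Unb (p : ℕ) (x : Gam p) : Prop :=
  ∀ g < NN p, ∏ i ∈ Finset.univ.filter (fun i : Fin (dd p) => i.val / ss p = g),
      |wb p (x i) false - wb p (x i) true| ≤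
    be p * ∏ i ∈ Finset.univ.filter (fun i : Fin (dd p) => i.val / ss p = g), mm p (x i)

/-- rounded shift of the candidate `j` -/
def rsh {d : ℕ} (Q P0 : ℕ) (ξ κ : Fin d → ℤ) (j : ℤ) : Fin d → ZMod Q :=
  fun i => (((ξ i + j * κ i) / (P0 : ℤ) : ℤ) : ZMod Q)

/-! ### the random base lattice -/

/-- homogenised integer vector `(1, z)` -/
def hat {m : Type} (z : m → ℤ) : Option m → ℚ := fun o => o.elim 1 fun c => (z c : ℚ)

/-- position of the layer `z`: `θ + α z` with `θ = ω none`, `α_c = ω (some c)` -/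
noncomputable def XX {m d : Type} [Fintype m] (ω : Option m → T d) (z : m → ℤ) : T d :=
  ω none + ∑ c, z c • ω (some c)

/-- all layers of `F` are hit -/
def Hit {m d : Type} [Fintype m] (I : (m → ℤ) → Set (T d)) (F : Finset (m → ℤ)) :
    Set (Option m → T d) := {ω | ∀ z ∈ F, XX ω z ∈ I z}

/-- targets are measurable and lie in the `ρ`-neighbourhood (sup norm) of the origin of the torus -/
def Sm {m d : Type} [Fintype d] (I : (m → ℤ) → Set (T d)) (ρ : ℝ) : Prop :=
  ∀ z, MeasurableSet (I z) ∧ I z ⊆ pr '' Metric.closedBall (0 : d → ℝ) ρ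

/-- primitive integer relation of height `H` expressing `j` through `F` -/
def Rel {m : Type} (F : Finset (m → ℤ)) (j : m → ℤ) (H : ℕ) : Prop :=
  0 < H ∧ ∃ b : (m → ℤ) → ℤ, (∀ y, |b y| ≤ H) ∧
    (H : ℚ) • hat j + ∑ y ∈ F, (b y : ℚ) • hat y = 0 ∧
    ∃ n : (m → ℤ) → ℤ, (H : ℤ) ∣ ∑ y ∈ F, b y * n y + 1

/-! ### isotropic bodies and Gaussian matrices -/

/-- uniform probability measure on `K` -/
noncomputable def un {ι : Type} [Fintype ι] (K : Set (ι → ℝ)) : Measure (ι → ℝ) :=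
  ProbabilityTheory.cond volume K

/-- convex body -/
structure Body {ι : Type} [Fintype ι] (K : Set (ι → ℝ)) : Prop where
  cpt : IsCompact K
  cvx : Convex ℝ K
  int : (interior K).Nonempty

/-- second moment matrix is the identity (no centring) -/
def Iso {n : ℕ} (K : Set (Fin n → ℝ)) : Prop :=
  ∀ i j, ∫ x, x i * x j ∂(un K) = if i = j then 1 else 0

/-- standard Gaussian vector -/
noncomputable def gv (n : ℕ) : Measure (Fin n → ℝ) :=
  Measure.pi fun _ => ProbabilityTheory.gaussianReal 0 1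

/-- standard Gaussian `l × n` matrix -/
noncomputable def gmx (l n : ℕ) : Measure (Fin l → Fin n → ℝ) := Measure.pi fun _ => gv n

/-- mass of the box `∏ [a r, b r]` under the image of `ν` by `G` -/
noncomputable def mG {l n : ℕ} (ν : Measure (Fin n → ℝ)) (a b : Fin l → ℝ)
    (G : Fin l → Fin n → ℝ) : ℝ :=
  (ν {x | ∀ r, G r ⬝ᵥ x ∈ Icc (a r) (b r)}).toReal

/-- Gaussian mass of an interval, variance `v` -/
noncomputable def gI (v a b : ℝ) : ℝ :=
  (ProbabilityTheory.gaussianReal 0 v.toNNReal (Icc a b)).toReal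

/-- mass of the box under the Gaussian mixture -/
noncomputable def gQ {l n : ℕ} (ν : Measure (Fin n → ℝ)) (a b : Fin l → ℝ) : ℝ :=
  ∫ x, ∏ r, gI (x ⬝ᵥ x) (a r) (b r) ∂ν

/-- Gaussian lower bound for the `κ`-marginal on the box `[-R,R]^κ` -/
def Marg {κ l : Type} [Fintype κ] [Fintype l] (K : Set (κ ⊕ l → ℝ)) (R : ℝ) : Prop :=
  ∀ y : κ → ℝ, (∀ i, |y i| ≤ R) →
    ENNReal.ofReal ((1 / 100) * ∏ i, gau (y i)) * volume K ≤ volume (sec K y)

/-- `K` contains a box whose `κ`-sides have the explicit size `r` -/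
def Box {κ l : Type} [Fintype κ] [Fintype l] (K : Set (κ ⊕ l → ℝ)) (r : ℝ) (c : κ ⊕ l → ℝ) : Prop :=
  ∃ r₂ : ℝ, 0 < r₂ ∧ ∀ (u : κ → ℝ) (w : l → ℝ), ‖u‖ ≤ r → ‖w‖ ≤ r₂ → c + Sum.elim u w ∈ K

end Crest.Agent.R225
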