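import Crest.Agent.R225.Cell

set_option autoImplicit false

open MeasureTheory Set
open scoped ENNReal NNReal Matrix

namespace Crest.Agent.R225

open ProbabilityTheory

instance gv_prob (n : ℕ) : IsProbabilityMeasure (gv n) := by unfold gv; infer_instance

instance gmx_prob (l n : ℕ) : IsProbabilityMeasure (gmx l n) := by unfold gmx; infer_instance

namespace G2X

theorem dot_nonneg {n : ℕ} (x : Fin n → ℝ) : 0 ≤ x ⬝ᵥ x :=
  Finset.sum_nonneg fun _ _ => mul_self_nonneg _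

theorem measurable_dot {n : ℕ} (x : Fin n → ℝ) : Measurable fun g : Fin n → ℝ => g ⬝ᵥ x := by
  unfold dotProduct; fun_prop

theorem cf (n : ℕ) (x : Fin n → ℝ) :
    ∫ g, Complex.exp (((g ⬝ᵥ x : ℝ) : ℂ) * Complex.I) ∂gv n =
      Complex.exp (((-(x ⬝ᵥ x) / 2 : ℝ) : ℂ)) := by
  have h1 : ∀ g : Fin n → ℝ, Complex.exp (((g ⬝ᵥ x : ℝ) : ℂ) * Complex.I) =
      ∏ i, Complex.exp ((x i : ℂ) * (g i : ℂ) * Complex.I) := fun g => by
    rw [← Complex.exp_sum, dotProduct, Complex.ofReal_sum, Finset.sum_mul]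
    congr 1
    exact Finset.sum_congr rfl fun i _ => by push_cast; ring
  simp_rw [h1]
  rw [gv, integral_fintype_prod_eq_prod
    (f := fun i (y : ℝ) => Complex.exp ((x i : ℂ) * (y : ℂ) * Complex.I))]
  simp_rw [← charFun_apply_real, charFun_gaussianReal]
  rw [← Complex.exp_sum, dotProduct, ← Finset.sum_neg_distrib, Finset.sum_div, Complex.ofReal_sum]
  congr 1
  exact Finset.sum_congr rfl fun i _ => by push_cast; ring

theorem gI_eq {r a b : ℝ} (hr : 0 < r) (hab : a ≤ b) :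
    gI (r ^ 2) a b = ∫ y in a..b, r⁻¹ * gau (y / r) := by
  have h0 : (r ^ 2).toNNReal ≠ 0 := by
    rw [Ne, Real.toNNReal_eq_zero, not_le]; positivity
  rw [gI, gaussianReal_apply_eq_integral _ h0,
    ENNReal.toReal_ofReal (integral_nonneg fun y => gaussianPDFReal_nonneg _ _ _),
    integral_Icc_eq_integral_Ioc, ← intervalIntegral.integral_of_le hab]
  congr 1
  ext y
  rw [gaussianPDFReal, gau, Real.coe_toNNReal _ (sq_nonneg r),
    Real.sqrt_mul (by positivity), Real.sqrt_sq hr.le, sub_zero, div_pow, mul_inv]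
  rw [show -y ^ 2 / (2 * r ^ 2) = -(y ^ 2 / r ^ 2) / 2 by field_simp]
  ring

theorem gI_one {a b : ℝ} (hab : a ≤ b) : gI 1 a b = ∫ y in a..b, gau y := by
  have := gI_eq one_pos hab
  simpa using this

theorem cont (r : ℝ) : Continuous fun y => r⁻¹ * gau (y / r) :=
  continuous_const.mul (continuous_gau.comp (continuous_id.div_const r))

theorem small (c : ℝ) {θ : ℝ} (hθ : 0 ≤ θ) : (gaussianReal 0 1).real {y | |y - c| ≤ θ} ≤ θ := by
  have e : {y : ℝ | |y - c| ≤ θ} = Icc (c - θ) (c + θ) := by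
    ext y
    simp only [mem_ofPred_eq, abs_le, mem_Icc]
    constructor <;> rintro ⟨h1, h2⟩ <;> constructor <;> linarith
  have h1 := gI_one (by linarith : c - θ ≤ c + θ)
  rw [gI, Real.toNNReal_one] at h1
  rw [e, Measure.real, h1]
  have h2 := intervalIntegral.integral_mono_on (μ := volume) (by linarith : c - θ ≤ c + θ)
    (continuous_gau.intervalIntegrable _ _) (continuous_const.intervalIntegrable _ _)
    (fun y _ => gau_le y)
  rw [intervalIntegral.integral_const, smul_eq_mul] at h2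
  linarith

theorem cheb (v : ℝ≥0) {θ : ℝ} (hθ : 0 < θ) :
    (gaussianReal 0 v).real {y | θ ≤ |y|} ≤ v / θ ^ 2 := by
  have := meas_ge_le_variance_div_sq (memLp_id_gaussianReal' (μ := 0) (v := v) 2 (by norm_num)) hθ
  rw [variance_id_gaussianReal] at this
  simp only [id, integral_id_gaussianReal, sub_zero] at this
  exact ENNReal.toReal_le_of_le_ofReal (by positivity) this

theorem scale (A a b : ℝ) : (gaussianReal 0 1).real {y | A * y ∈ Icc a b} = gI (A ^ 2) a b := by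
  have h := gaussianReal_map_const_mul (μ := 0) (v := 1) A
  rw [mul_zero, mul_one] at h
  have e : (A ^ 2).toNNReal = NNReal.mk (A ^ 2) (sq_nonneg _) := Real.toNNReal_of_nonneg _
  rw [gI, e, ← h, Measure.map_apply (by fun_prop) measurableSet_Icc]
  rfl

theorem two (S S' : Set ℝ) : (gv 2).real {ξ | ξ 0 ∈ S ∧ ξ 1 ∈ S'} =
    (gaussianReal 0 1).real S * (gaussianReal 0 1).real S' := by
  have e : {ξ : Fin 2 → ℝ | ξ 0 ∈ S ∧ ξ 1 ∈ S'} = Set.univ.pi ![S, S'] := by
    ext ξ; simp [Fin.forall_fin_two]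
  rw [e, Measure.real, gv, Measure.pi_pi, Fin.prod_univ_two, ENNReal.toReal_mul]
  rfl

theorem snd (S' : Set ℝ) : (gv 2).real {ξ | ξ 1 ∈ S'} = (gaussianReal 0 1).real S' := by
  simpa using two univ S'

theorem flip {B a' b' W y θ : ℝ} (hB : 0 < B) (h1 : ¬ |y - a' / B| ≤ θ) (h2 : ¬ |y - b' / B| ≤ θ)
    (h3 : |W - y| ≤ θ) : B * W ∈ Icc a' b' ↔ B * y ∈ Icc a' b' := by
  simp only [mem_Icc, ← div_le_iff₀' hB, ← le_div_iff₀' hB]
  rw [not_le, lt_abs] at h1 h2
  rw [abs_le] at h3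
  constructor <;> rintro ⟨h4, h5⟩ <;> constructor <;> rcases h1 with h1 | h1 <;>
    rcases h2 with h2 | h2 <;> linarith [h3.1, h3.2]

theorem abs_sub_le_of {Ω : Type} [MeasurableSpace Ω] (μ : Measure Ω) [IsFiniteMeasure μ]
    {E E' Z : Set Ω} (h : ∀ ξ, ξ ∉ Z → (ξ ∈ E ↔ ξ ∈ E')) : |μ.real E - μ.real E'| ≤ μ.real Z := by
  have h1 : μ.real E ≤ μ.real E' + μ.real Z :=
    (measureReal_mono (fun ξ hξ => by
      by_cases hz : ξ ∈ Z
      exacts [Or.inr hz, Or.inl ((h ξ hz).1 hξ)])).trans (measureReal_union_le _ _)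
  have h2 : μ.real E' ≤ μ.real E + μ.real Z :=
    (measureReal_mono (fun ξ hξ => by
      by_cases hz : ξ ∈ Z
      exacts [Or.inr hz, Or.inl ((h ξ hz).2 hξ)])).trans (measureReal_union_le _ _)
  rw [abs_le]
  constructor <;> linarith

theorem var_le {r : ℝ} (hr : r ^ 2 ≤ 1) : r * r + (√(1 - r ^ 2) - 1) * (√(1 - r ^ 2) - 1) ≤ 2 * r ^ 2 := by
  have h1 := Real.sq_sqrt (by linarith : 0 ≤ 1 - r ^ 2)
  have h2 := Real.sqrt_nonneg (1 - r ^ 2)
  have h3 : √(1 - r ^ 2) ≤ 1 := Real.sqrt_le_one.2 (by nlinarith)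
  nlinarith

end G2X

/-- characteristic functions (`Measure.ext_of_charFun`, `charFun_gaussianReal`, `integral_fintype_prod_eq_prod`
or `charFunDual_pi`), or induction with `gaussianReal_conv_gaussianReal` -/
theorem map_dot (n : ℕ) (x : Fin n → ℝ) :
    (gv n).map (fun g => g ⬝ᵥ x) = gaussianReal 0 (x ⬝ᵥ x).toNNReal := by
  have : IsProbabilityMeasure ((gv n).map fun g => g ⬝ᵥ x) :=
    Measure.isProbabilityMeasure_map (G2X.measurable_dot x).aemeasurable
  refine Measure.ext_of_charFun (funext fun t => ?_)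
  rw [charFun_apply_real, integral_map (G2X.measurable_dot x).aemeasurable
    (Measurable.aestronglyMeasurable (by fun_prop)), charFun_gaussianReal,
    Real.coe_toNNReal _ (G2X.dot_nonneg x)]
  have := G2X.cf n (t • x)
  simp only [dotProduct_smul, smul_dotProduct, smul_eq_mul, Complex.ofReal_mul] at this
  rw [this]
  congr 1
  push_cast
  ring

/-- joint law of `(g ⬝ᵥ x, g ⬝ᵥ x')` (`Measure.ext_of_charFunDual` on `ℝ × ℝ`: every linear form of either side is
a centred Gaussian with the same variance, by `map_dot` in dimensions `n` and `2`) -/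
theorem map_dot2 (n : ℕ) (x x' : Fin n → ℝ) {a b r : ℝ} (ha : x ⬝ᵥ x = a ^ 2) (hb : x' ⬝ᵥ x' = b ^ 2)
    (hr : x ⬝ᵥ x' = a * b * r) (hr1 : r ^ 2 ≤ 1) :
    (gv n).map (fun g => (g ⬝ᵥ x, g ⬝ᵥ x')) =
      (gv 2).map (fun ξ => (a * ξ 0, b * (r * ξ 0 + √(1 - r ^ 2) * ξ 1))) := by
  have m1 : Measurable fun g : Fin n → ℝ => (g ⬝ᵥ x, g ⬝ᵥ x') :=
    (G2X.measurable_dot x).prodMk (G2X.measurable_dot x')
  have m2 : Measurable fun ξ : Fin 2 → ℝ => (a * ξ 0, b * (r * ξ 0 + √(1 - r ^ 2) * ξ 1)) := by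
    fun_prop
  refine Measure.ext_of_charFunDual (funext fun L => ?_)
  rw [charFunDual_apply, charFunDual_apply,
    integral_map m1.aemeasurable (Measurable.aestronglyMeasurable (by fun_prop)),
    integral_map m2.aemeasurable (Measurable.aestronglyMeasurable (by fun_prop))]
  have hL : ∀ p q : ℝ, L (p, q) = p * L (1, 0) + q * L (0, 1) := fun p q => by
    rw [← smul_eq_mul, ← smul_eq_mul, ← map_smul, ← map_smul, ← map_add]
    simp
  generalize L (1, 0) = α at hL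
  generalize L (0, 1) = β at hL
  have e1 : ∀ g : Fin n → ℝ, L (g ⬝ᵥ x, g ⬝ᵥ x') = g ⬝ᵥ (α • x + β • x') := fun g => by
    rw [hL, dotProduct_add, dotProduct_smul, dotProduct_smul, smul_eq_mul, smul_eq_mul]; ring
  have e2 : ∀ ξ : Fin 2 → ℝ, L (a * ξ 0, b * (r * ξ 0 + √(1 - r ^ 2) * ξ 1)) =
      ξ ⬝ᵥ ![α * a + β * b * r, β * b * √(1 - r ^ 2)] := fun ξ => by
    rw [hL]; simp [dotProduct, Fin.sum_univ_two]; ring
  simp_rw [e1, e2]
  rw [G2X.cf, G2X.cf]
  congr 4
  have h1 := Real.sq_sqrt (by linarith : 0 ≤ 1 - r ^ 2)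
  simp only [dotProduct_add, add_dotProduct, dotProduct_smul, smul_dotProduct, smul_eq_mul,
    dotProduct_comm x' x, ha, hb, hr]
  simp only [dotProduct, Fin.sum_univ_two, Matrix.cons_val_zero, Matrix.cons_val_one]
  linear_combination (-(β * b) ^ 2) * h1

/-- **one row.**  With `a = √(x⬝x)`, `b = √(x'⬝x')`, `r` the correlation, `θ = √|r|`: the events for
`W = r ξ₀ + √(1-r²) ξ₁` and for `ξ₁` differ only if `ξ₁` is within `θ` of `a'/b` or `b'/b` (probability
`≤ 2 * 2θ * (1/2)`) or `|W - ξ₁| > θ` (Chebyshev: `E (W - ξ₁)² = r² + (1 - √(1-r²))² ≤ 2 r²`, so `≤ 2|r| ≤ 2θ`);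
for `ξ₁` the probability factorises. -/
theorem one_row (n : ℕ) (x x' : Fin n → ℝ) (hx : 0 < x ⬝ᵥ x) (hx' : 0 < x' ⬝ᵥ x') (a b a' b' : ℝ) :
    |(gv n {g | g ⬝ᵥ x ∈ Icc a b ∧ g ⬝ᵥ x' ∈ Icc a' b'}).toReal - gI (x ⬝ᵥ x) a b * gI (x' ⬝ᵥ x') a' b'| ≤
      10 * √(|x ⬝ᵥ x'| / (√(x ⬝ᵥ x) * √(x' ⬝ᵥ x'))) := by
  set A := √(x ⬝ᵥ x) with hA
  set B := √(x' ⬝ᵥ x') with hB
  have hA0 : 0 < A := Real.sqrt_pos.2 hx
  have hB0 : 0 < B := Real.sqrt_pos.2 hx'
  have ha : x ⬝ᵥ x = A ^ 2 := (Real.sq_sqrt hx.le).symm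
  have hb : x' ⬝ᵥ x' = B ^ 2 := (Real.sq_sqrt hx'.le).symm
  obtain ⟨r, hr⟩ : ∃ r, x ⬝ᵥ x' = A * B * r := ⟨x ⬝ᵥ x' / (A * B), by field_simp⟩
  have hr1 : r ^ 2 ≤ 1 := by
    have h1 : (x ⬝ᵥ x') ^ 2 ≤ (x ⬝ᵥ x) * (x' ⬝ᵥ x') := by
      have := Finset.sum_mul_sq_le_sq_mul_sq Finset.univ x x'
      simpa only [dotProduct, sq] using this
    rw [ha, hb, hr] at h1
    have h2 : 0 < (A * B) ^ 2 := by positivity
    refine le_of_mul_le_mul_left ?_ h2
    linarith
  have e0 : |x ⬝ᵥ x'| / (A * B) = |r| := by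
    rw [hr, abs_mul, abs_of_pos (mul_pos hA0 hB0)]; field_simp
  rw [e0]
  set θ := √|r| with hθ
  have hθ0 : 0 ≤ θ := Real.sqrt_nonneg _
  have hθ2 : θ ^ 2 = |r| := Real.sq_sqrt (abs_nonneg r)
  have hθ1 : θ ≤ 1 := Real.sqrt_le_one.2 ((sq_le_one_iff_abs_le_one r).1 hr1)
  have m1 : Measurable fun g : Fin n → ℝ => (g ⬝ᵥ x, g ⬝ᵥ x') :=
    (G2X.measurable_dot x).prodMk (G2X.measurable_dot x')
  have m2 : Measurable fun ξ : Fin 2 → ℝ => (A * ξ 0, B * (r * ξ 0 + √(1 - r ^ 2) * ξ 1)) := by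
    fun_prop
  have h1 := congrArg (fun μ : Measure (ℝ × ℝ) => μ (Icc a b ×ˢ Icc a' b'))
    (map_dot2 n x x' ha hb hr hr1)
  simp only [Measure.map_apply m1 (measurableSet_Icc.prod measurableSet_Icc),
    Measure.map_apply m2 (measurableSet_Icc.prod measurableSet_Icc)] at h1
  have h2 : (gv n {g | g ⬝ᵥ x ∈ Icc a b ∧ g ⬝ᵥ x' ∈ Icc a' b'}).toReal = (gv 2).real
      {ξ | A * ξ 0 ∈ Icc a b ∧ B * (r * ξ 0 + √(1 - r ^ 2) * ξ 1) ∈ Icc a' b'} :=
    congrArg ENNReal.toReal h1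
  rw [h2, ha, hb, ← G2X.scale, ← G2X.scale, ← G2X.two]
  have h3 : (gv 2).real {ξ | θ < |r * ξ 0 + √(1 - r ^ 2) * ξ 1 - ξ 1|} ≤ 2 * θ := by
    rcases eq_or_ne r 0 with rfl | hr0
    · have : {ξ : Fin 2 → ℝ | θ < |0 * ξ 0 + √(1 - 0 ^ 2) * ξ 1 - ξ 1|} = ∅ := by
        ext ξ; simpa using hθ0
      rw [this, measureReal_empty]; positivity
    · have hθp : 0 < θ := Real.sqrt_pos.2 (abs_pos.2 hr0)
      have h4 := G2X.cheb (![r, √(1 - r ^ 2) - 1] ⬝ᵥ ![r, √(1 - r ^ 2) - 1]).toNNReal hθp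
      rw [← map_dot, map_measureReal_apply (G2X.measurable_dot _)
        (measurableSet_le measurable_const (by fun_prop)),
        Real.coe_toNNReal _ (G2X.dot_nonneg _)] at h4
      refine (measureReal_mono fun ξ hξ => ?_).trans (h4.trans ?_)
      · simp only [mem_preimage, mem_ofPred_eq, dotProduct, Fin.sum_univ_two, Matrix.cons_val_zero,
          Matrix.cons_val_one] at hξ ⊢
        refine hξ.le.trans (le_of_eq ?_)
        congr 1; ring
      · simp only [dotProduct, Fin.sum_univ_two, Matrix.cons_val_zero, Matrix.cons_val_one]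
        rw [div_le_iff₀ (by positivity)]
        refine (G2X.var_le hr1).trans ?_
        rw [← sq_abs r, ← hθ2]
        have : θ * θ ≤ θ := mul_le_of_le_one_right hθ0 hθ1
        nlinarith [mul_le_mul_of_nonneg_left this (sq_nonneg θ)]
  have h4 := (G2X.snd _).trans_le (G2X.small (a' / B) hθ0)
  have h5 := (G2X.snd _).trans_le (G2X.small (b' / B) hθ0)
  refine (G2X.abs_sub_le_of (gv 2) (Z := ({ξ | ξ 1 ∈ {y | |y - a' / B| ≤ θ}} ∪
    {ξ | ξ 1 ∈ {y | |y - b' / B| ≤ θ}}) ∪ {ξ | θ < |r * ξ 0 + √(1 - r ^ 2) * ξ 1 - ξ 1|})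
    fun ξ hξ => ?_).trans ?_
  · simp only [mem_union, mem_ofPred_eq, not_or, not_lt] at hξ
    exact and_congr_right fun _ => G2X.flip hB0 hξ.1.1 hξ.1.2 hξ.2
  · refine (measureReal_union_le _ _).trans ?_
    have := measureReal_union_le (μ := gv 2) {ξ | ξ 1 ∈ {y | |y - a' / B| ≤ θ}}
      {ξ | ξ 1 ∈ {y | |y - b' / B| ≤ θ}}
    linarith

theorem gI_nonneg (v a b : ℝ) : 0 ≤ gI v a b :=
  ENNReal.toReal_nonneg

theorem gI_le_one (v a b : ℝ) : gI v a b ≤ 1 :=
  measureReal_le_one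

/-- `gI v a b = (gv 1 or gaussianReal 0 1) {ξ | √v ξ ∈ Icc a b}`; `measurable_measure_prodMk_left`, or
`ProbabilityTheory.measurable_gaussianReal` + `Measure.measurable_coe` -/
theorem measurable_gI (a b : ℝ) : Measurable fun v => gI v a b := by
  have h1 : Measurable fun v : ℝ => gaussianReal 0 v.toNNReal :=
    measurable_gaussianReal.comp (measurable_const.prodMk measurable_real_toNNReal)
  exact ((Measure.measurable_coe measurableSet_Icc).comp h1).ennreal_toReal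

/-- density bounds: for `r > 0`, `gI (r²) u (u+s) = ∫_u^{u+s} (1/r) gau (y/r)` -/
theorem gI_eq {r a b : ℝ} (hr : 0 < r) (hab : a ≤ b) :
    gI (r ^ 2) a b = ∫ y in a..b, r⁻¹ * gau (y / r) :=
  G2X.gI_eq hr hab

/-- `sup_r (1/r) gau (u/r) = gau 1 / u`; for `v ≤ 0` the measure is the Dirac mass at `0` -/
theorem gI_upper (v : ℝ) {u s : ℝ} (hu : 0 < u) (hs : 0 ≤ s) : gI v u (u + s) ≤ s * gau 1 / u := by
  have hg := gau_pos 1
  rcases le_or_gt v 0 with hv | hv
  · rw [gI, Real.toNNReal_eq_zero.2 hv, gaussianReal_zero_var,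
      Measure.dirac_apply' _ measurableSet_Icc, indicator_of_notMem (fun h => by linarith [h.1])]
    simp only [ENNReal.toReal_zero]
    positivity
  · have hr : 0 < √v := Real.sqrt_pos.2 hv
    rw [← Real.sq_sqrt hv.le, gI_eq hr (by linarith)]
    have h2 := intervalIntegral.integral_mono_on (μ := volume) (by linarith : u ≤ u + s)
      ((G2X.cont (√v)).intervalIntegrable _ _)
      ((continuous_const (y := gau 1 / u)).intervalIntegrable _ _) (fun y hy => ?_)
    · rw [intervalIntegral.integral_const, smul_eq_mul, add_sub_cancel_left, ← mul_div_assoc] at h2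
      exact h2
    · have hy0 : 0 < y := hu.trans_le hy.1
      have key : ∀ t : ℝ, t * gau t ≤ gau 1 := fun t => by
        have h1 : t ≤ Real.exp ((t ^ 2 - 1) / 2) := by
          have := Real.add_one_le_exp ((t ^ 2 - 1) / 2)
          nlinarith [sq_nonneg (t - 1)]
        refine (mul_le_mul_of_nonneg_right h1 (gau_pos t).le).trans (le_of_eq ?_)
        rw [gau, gau, mul_left_comm, ← Real.exp_add]
        congr 2; ring
      have h3 := key (y / √v)
      rw [le_div_iff₀ hu]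
      refine le_trans ?_ h3
      rw [div_eq_mul_inv y, mul_comm, ← mul_assoc, ← div_eq_mul_inv y]
      exact mul_le_mul_of_nonneg_right (mul_le_mul_of_nonneg_right hy.1 (by positivity))
        (gau_pos _).le

theorem gI_lower {r u s l : ℝ} (hu : 0 < u) (hl : 1 ≤ l) (hs : 0 ≤ s) (hs' : s ≤ u / l) (h₁ : u ≤ r)
    (h₂ : r ≤ u * (1 + 1 / l)) : s * gau 1 / u * Real.exp (-3 / l) ≤ gI (r ^ 2) u (u + s) := by
  have hr : 0 < r := hu.trans_le h₁
  have hl0 : 0 < l := by linarith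
  rw [gI_eq hr (by linarith)]
  have h2 := intervalIntegral.integral_mono_on (μ := volume) (by linarith : u ≤ u + s)
    ((continuous_const (y := gau 1 / u * Real.exp (-3 / l))).intervalIntegrable _ _)
    ((G2X.cont r).intervalIntegrable _ _) (fun y hy => ?_)
  · rw [intervalIntegral.integral_const, smul_eq_mul, add_sub_cancel_left, ← mul_assoc,
      ← mul_div_assoc] at h2
    exact h2
  · have hy0 : 0 < y := hu.trans_le hy.1
    have hδ : 0 < 1 / l := by positivity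
    have hδ1 : 1 / l ≤ 1 := (div_le_one hl0).2 hl
    have h3 : y / r ≤ 1 + 1 / l := by
      rw [div_le_iff₀ hr]
      have : s ≤ u * (1 / l) := by rwa [mul_one_div]
      nlinarith [hy.2]
    have h4 : gau (1 + 1 / l) ≤ gau (y / r) :=
      gau_anti (by rwa [abs_of_pos (by positivity), abs_of_pos (by positivity)])
    have h5 : gau 1 * Real.exp (-2 / l) ≤ gau (1 + 1 / l) := by
      rw [gau, gau, mul_assoc, ← Real.exp_add]
      refine mul_le_mul_of_nonneg_left (Real.exp_le_exp.2 ?_) (by positivity)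
      rw [show -2 / l = -2 * (1 / l) by ring]
      nlinarith
    have h6 : u⁻¹ * Real.exp (-(1 / l)) ≤ r⁻¹ := by
      rw [Real.exp_neg, ← mul_inv]
      refine inv_anti₀ hr (h₂.trans (mul_le_mul_of_nonneg_left ?_ hu.le))
      linarith [Real.add_one_le_exp (1 / l)]
    refine le_trans (le_of_eq ?_) (mul_le_mul h6 (h5.trans h4)
      (mul_pos (gau_pos 1) (Real.exp_pos _)).le (by positivity))
    rw [show -3 / l = -(1 / l) + -2 / l by ring, Real.exp_add]
    ring

/-- comparing variances: `(1/r) gau (y/r) ≥ (σ/r) (1/σ) gau (y/σ)` for `r ≥ σ` -/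
theorem gI_scale {σ r a b τ : ℝ} (hσ : 0 < σ) (h₁ : σ ≤ r) (h₂ : r ≤ σ * (1 + τ)) (hab : a ≤ b) :
    gI 1 a b / (1 + τ) ≤ gI (r ^ 2) (σ * a) (σ * b) := by
  have hr : 0 < r := hσ.trans_le h₁
  have hτ : 0 < 1 + τ := pos_of_mul_pos_right (hr.trans_le h₂) hσ.le
  rw [gI_eq hr (mul_le_mul_of_nonneg_left hab hσ.le), G2X.gI_one hab,
    ← intervalIntegral.mul_integral_comp_mul_left (f := fun y => r⁻¹ * gau (y / r)),
    ← intervalIntegral.integral_const_mul, ← intervalIntegral.integral_div]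
  refine intervalIntegral.integral_mono_on hab
    ((continuous_gau.div_const _).intervalIntegrable _ _)
    ((continuous_const.mul ((G2X.cont r).comp (continuous_const.mul continuous_id))).intervalIntegrable
      _ _) fun y _ => ?_
  have h3 : gau y ≤ gau (σ * y / r) := gau_anti (by
    rw [abs_div, abs_mul, abs_of_pos hσ, abs_of_pos hr, div_le_iff₀ hr, mul_comm]
    exact mul_le_mul_of_nonneg_left h₁ (abs_nonneg y))
  have h4 : (1 + τ)⁻¹ ≤ σ * r⁻¹ := by
    rw [← div_eq_mul_inv, le_div_iff₀ hr, inv_mul_le_iff₀ hτ]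
    linarith
  rw [div_eq_inv_mul, ← mul_assoc]
  exact mul_le_mul h4 h3 (gau_pos y).le (by positivity)

end Crest.Agent.R225
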