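import Crest.Agent.R225.Tor

set_option autoImplicit false

open MeasureTheory Set
open scoped ENNReal NNReal Matrix

namespace Crest.Agent.R225

variable {m d : Type} [Fintype m] [Fintype d]

/-- prescribed real values on an independent family: pass to `ℝ` (`linearIndependent_algebraMap_comp_iff`
or `LinearIndependent.map'`/base change) and extend (`LinearIndependent.extend`, `Basis.constr`, or
`exists_linearMap..`): a real row vector `ℓ` with `∑_o hat z o * ℓ o = n z` for `z ∈ F` -/
theorem exists_fun {F : Finset (m → ℤ)} (hF : LinearIndepOn ℚ hat (F : Set (m → ℤ)))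
    (n : (m → ℤ) → ℝ) : ∃ ℓ : Option m → ℝ, ∀ z ∈ F, ∑ o, (hat z o : ℝ) * ℓ o = n z := by
  classical
  have h1 : LinearIndependent ℚ (fun z : (F : Set (m → ℤ)) => hat (z : m → ℤ)) := hF
  obtain ⟨g, hg⟩ := LinearMap.exists_leftInverse_of_injective
    (Finsupp.linearCombination ℚ (fun z : (F : Set (m → ℤ)) => hat (z : m → ℤ)))
    (LinearMap.ker_eq_bot.2 h1)
  let φ : (Option m → ℚ) →ₗ[ℚ] ℝ :=
    (Finsupp.linearCombination ℚ (fun z : (F : Set (m → ℤ)) => n (z : m → ℤ))).comp g
  refine ⟨fun o => φ fun j => if o = j then 1 else 0, fun z hz => ?_⟩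
  have h2 : φ (hat z) = n z := by
    have h3 := LinearMap.congr_fun hg (Finsupp.single (⟨z, hz⟩ : (F : Set (m → ℤ))) 1)
    simp only [LinearMap.comp_apply, Finsupp.linearCombination_single, one_smul,
      LinearMap.id_apply] at h3
    simp only [φ, LinearMap.comp_apply, h3, Finsupp.linearCombination_single, one_smul]
  rw [← h2, LinearMap.pi_apply_eq_sum_univ φ (hat z)]
  refine Finset.sum_congr rfl fun o _ => ?_
  rw [Rat.smul_def]

omit [Fintype d] in
theorem XX_add (ω ω' : Option m → T d) (z : m → ℤ) : XX (ω + ω') z = XX ω z + XX ω' z := by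
  simp only [XX, Pi.add_apply, smul_add, Finset.sum_add_distrib]
  abel

omit [Fintype d] in
theorem XX_pr (ℓ : Option m → d → ℝ) (z : m → ℤ) :
    XX (fun o => pr (ℓ o)) z = pr (fun i => ∑ o, (hat z o : ℝ) * ℓ o i) := by
  let P : (d → ℝ) →+ T d := AddMonoidHom.mk' pr pr_add
  have hP : ∀ s, pr s = P s := fun _ => rfl
  have e : (fun i => ∑ o, (hat z o : ℝ) * ℓ o i) = ℓ none + ∑ c, z c • ℓ (some c) := by
    funext i
    simp [Fintype.sum_option, hat, Finset.sum_apply]
  rw [e]
  simp only [XX, hP, map_add, map_sum, map_zsmul]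

omit [Fintype d] in
theorem continuous_XX (z : m → ℤ) : Continuous fun ω : Option m → T d => XX ω z := by
  unfold XX
  exact (continuous_apply none).add
    (continuous_finsetSum _ fun c _ => (continuous_zsmul (z c)).comp (continuous_apply (some c)))

/-- independent layers are independent uniform points: a continuous surjective homomorphism of compact groups
preserves the Haar probability measures (`AddMonoidHom.measurePreserving`); surjective by `exists_fun` -/
theorem XX_mp {F : Finset (m → ℤ)} (hF : LinearIndepOn ℚ hat (F : Set (m → ℤ))) :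
    MeasurePreserving (fun (ω : Option m → T d) (z : F) => XX ω z) volume volume := by
  let f : (Option m → T d) →+ (F → T d) :=
    AddMonoidHom.mk' (fun (ω : Option m → T d) (z : F) => XX ω z) fun ω ω' =>
      funext fun z => XX_add ω ω' z
  have hc : Continuous f := continuous_pi fun z => continuous_XX (z : m → ℤ)
  have hs : Function.Surjective f := by
    classical
    intro τ
    choose s _ hs using fun z : F => exists_pr_cube (τ z)
    choose ℓ hℓ using fun i : d =>
      exists_fun hF fun z => if h : z ∈ F then s ⟨z, h⟩ i else 0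
    refine ⟨fun o => pr fun i => ℓ i o, funext fun z => ?_⟩
    change XX (fun o => pr fun i => ℓ i o) (z : m → ℤ) = τ z
    rw [XX_pr (fun o i => ℓ i o), ← hs z]
    congr 1
    funext i
    rw [hℓ i z z.2, dif_pos z.2]
  have h1 : (volume : Measure (Option m → T d)) univ = (volume : Measure (F → T d)) univ := by
    have a1 : IsProbabilityMeasure (volume : Measure (Option m → T d)) := by
      rw [volume_pi]; infer_instance
    have a2 : IsProbabilityMeasure (volume : Measure (F → T d)) := by
      rw [volume_pi]; infer_instance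
    rw [measure_univ, measure_univ]
  have b1 : BorelSpace (Option m → T d) := Pi.borelSpace
  have b2 : BorelSpace (F → T d) := Pi.borelSpace
  have b3 : (volume : Measure (Option m → T d)).IsAddHaarMeasure :=
    Measure.pi.isAddHaarMeasure fun _ => volume
  have b4 : (volume : Measure (F → T d)).IsAddHaarMeasure :=
    Measure.pi.isAddHaarMeasure fun _ => volume
  exact AddMonoidHom.measurePreserving hc hs h1

theorem meas_Hit {I : (m → ℤ) → Set (T d)} (hI : ∀ z, MeasurableSet (I z)) (F : Finset (m → ℤ)) :
    MeasurableSet (Hit I F) := by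
  have e : Hit I F = ⋂ z ∈ F, (fun ω : Option m → T d => XX ω z) ⁻¹' I z := by
    ext ω
    simp [Hit]
  rw [e]
  exact F.measurableSet_biInter fun z _ => (continuous_XX z).measurable (hI z)

theorem vol_Hit {I : (m → ℤ) → Set (T d)} (hI : ∀ z, MeasurableSet (I z)) {F : Finset (m → ℤ)}
    (hF : LinearIndepOn ℚ hat (F : Set (m → ℤ))) : volume (Hit I F) = ∏ z ∈ F, volume (I z) := by
  have e : Hit I F = (fun (ω : Option m → T d) (z : F) => XX ω z) ⁻¹'
      Set.pi univ fun z : F => I z := by
    ext ω
    simp [Hit]
  rw [e, (XX_mp hF).measure_preimage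
    (MeasurableSet.univ_pi fun z : F => hI z).nullMeasurableSet, volume_pi_pi,
    Finset.prod_coe_sort F fun z => volume (I z)]

omit [Fintype d] in
/-- an integer relation between the `hat`s holds between the positions -/
theorem XX_rel (F : Finset (m → ℤ)) (b : (m → ℤ) → ℤ) (h : ∑ y ∈ F, (b y : ℚ) • hat y = 0)
    (ω : Option m → T d) : ∑ y ∈ F, b y • XX ω y = 0 := by
  have h0 : ∑ y ∈ F, b y = 0 := by
    have := congrFun h none
    simp only [Finset.sum_apply, Pi.smul_apply, hat, Option.elim, smul_eq_mul, mul_one,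
      Pi.zero_apply] at this
    exact_mod_cast this
  have h1 : ∀ c, ∑ y ∈ F, b y * y c = 0 := by
    intro c
    have := congrFun h (some c)
    simp only [Finset.sum_apply, Pi.smul_apply, hat, Option.elim, smul_eq_mul,
      Pi.zero_apply] at this
    exact_mod_cast this
  simp only [XX, smul_add, Finset.sum_add_distrib, Finset.smul_sum, smul_smul]
  rw [← Finset.sum_smul, h0, zero_smul, zero_add, Finset.sum_comm]
  refine Finset.sum_eq_zero fun c _ => ?_
  rw [← Finset.sum_smul, h1, zero_smul]

theorem vol_le_of_Sm {I : (m → ℤ) → Set (T d)} {ρ : ℝ} (hρ : 0 ≤ ρ) (hρ' : ρ < 1 / 2) (hI : Sm I ρ)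
    (z : m → ℤ) : volume (I z) ≤ ENNReal.ofReal ((2 * ρ) ^ Fintype.card d) := by
  refine (measure_mono (hI z).2).trans (le_of_eq ?_)
  rw [(vol_pr_small (c := 0) hρ' Metric.isClosed_closedBall.measurableSet subset_rfl).2,
    Real.volume_pi_closedBall _ hρ]

end Crest.Agent.R225
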