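import Crest.Agent.R225.ChainL

set_option autoImplicit false

open MeasureTheory Set
open scoped ENNReal NNReal Matrix

namespace Crest.Agent.R225

namespace InnerX

theorem par {ψ : ℤ → ℝ} (hψ : ∀ m, ψ (m + 2) = ψ m) (m : ℕ) :
    ψ m = (ψ 0 + ψ 1) / 2 + (-1) ^ m * ((ψ 0 - ψ 1) / 2) := by
  induction m using Nat.twoStepInduction with
  | zero => simp; ring
  | one => simp; ring
  | more m ih _ =>
    push_cast
    rw [hψ, ih, pow_add]
    norm_num

theorem group {ι : Type} [Fintype ι] [DecidableEq ι] (w : ι → Bool → ℝ) (hw : ∀ i b, 0 ≤ w i b)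
    {β : ℝ} (h : ∏ i, |w i false - w i true| ≤ β * ∏ i, (w i false + w i true)) (ψ : ℤ → ℝ)
    (hψ0 : ∀ m, 0 ≤ ψ m) (hψ : ∀ m, ψ (m + 2) = ψ m) :
    (1 - β) * (∏ i, (w i false + w i true)) * ((ψ 0 + ψ 1) / 2) ≤
        ∑ b : ι → Bool, (∏ i, w i (b i)) * ψ (∑ i, if b i then 1 else 0) ∧
      ∀ b : ι → Bool, ∏ i, w i (b i) ≤ (1 + β) / 2 * ∏ i, (w i false + w i true) := by
  have hW : ∀ b : ι → Bool, 0 ≤ ∏ i, w i (b i) := fun b => Finset.prod_nonneg fun i _ => hw i _
  have eS : ∑ b : ι → Bool, ∏ i, w i (b i) = ∏ i, (w i false + w i true) := by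
    rw [← Fintype.prod_sum fun i c => w i c]
    exact Finset.prod_congr rfl fun i _ => by rw [Fintype.sum_bool, add_comm]
  have eD : ∑ b : ι → Bool, (∏ i, w i (b i)) * (-1) ^ (Finset.univ.filter fun i => b i).card =
      ∏ i, (w i false - w i true) := by
    have : ∀ b : ι → Bool, (∏ i, w i (b i)) * (-1) ^ (Finset.univ.filter fun i => b i).card =
        ∏ i, (w i (b i) * if b i then -1 else 1) := fun b => by
      rw [Finset.prod_mul_distrib, ← Finset.prod_filter, Finset.prod_const]
    simp only [this]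
    rw [← Fintype.prod_sum fun i c => w i c * if c then -1 else 1]
    exact Finset.prod_congr rfl fun i _ => by rw [Fintype.sum_bool]; simp; ring
  rw [← Finset.abs_prod, ← eD, ← eS] at h
  rw [← eS]
  obtain ⟨h1, h2⟩ := abs_le.1 h
  refine ⟨?_, fun b => ?_⟩
  · have e1 : ∀ b : ι → Bool, ψ (∑ i, if b i then 1 else 0) = (ψ 0 + ψ 1) / 2 +
        (-1) ^ (Finset.univ.filter fun i => b i).card * ((ψ 0 - ψ 1) / 2) := fun b => by
      rw [← par hψ, Finset.card_filter]
      push_cast
      rfl
    simp only [e1, mul_add, ← mul_assoc, Finset.sum_add_distrib, ← Finset.sum_mul]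
    have := mul_le_mul_of_nonneg_right h1 (hψ0 0)
    have := mul_le_mul_of_nonneg_right h2 (hψ0 1)
    linarith
  · have a1 := Finset.single_le_sum (f := fun b' : ι → Bool => (∏ i, w i (b' i)) *
      (1 + (-1) ^ (Finset.univ.filter fun i => b i).card *
        (-1) ^ (Finset.univ.filter fun i => b' i).card)) (fun b' _ => mul_nonneg (hW b') (by
          rw [← pow_add]
          rcases neg_one_pow_eq_or ℝ ((Finset.univ.filter fun i => b i).card +
            (Finset.univ.filter fun i => b' i).card) with e | e <;> rw [e] <;> norm_num))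
      (Finset.mem_univ b)
    simp only [mul_add, mul_one, Finset.sum_add_distrib,
      mul_left_comm _ ((-1 : ℝ) ^ (Finset.univ.filter fun i => b i).card), ← Finset.mul_sum] at a1
    rcases neg_one_pow_eq_or ℝ (Finset.univ.filter fun i => b i).card with e | e <;>
      rw [e] at a1 <;> linarith

theorem prod_off {ι : Type} [Fintype ι] (gm : ι → ℕ) {N g : ℕ} (hg : g < N) (f : ι → ℝ) :
    ∏ i ∈ Finset.univ.filter (fun i : {i // ¬ gm i = N} => gm i = g), f i =
      ∏ i ∈ Finset.univ.filter (fun i => gm i = g), f i := by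
  rw [Finset.prod_filter, Finset.prod_filter,
    ← Fintype.prod_subtype_mul_prod_subtype (fun i => gm i = N),
    Finset.prod_eq_one (s := Finset.univ) (f := fun i : {i // gm i = N} =>
      if gm i = g then f i else 1) fun i _ => if_neg (by have := i.2; omega), one_mul]

theorem prod_on {ι : Type} [Fintype ι] (gm : ι → ℕ) (N : ℕ) (f : ι → ℝ) :
    ∏ i : {i // gm i = N}, f i = ∏ i ∈ Finset.univ.filter (fun i => gm i = N), f i :=
  (Finset.prod_subtype _ (by simp) f).symm

theorem chain (N : ℕ) : ∀ {ι : Type} [Fintype ι] [DecidableEq ι] (gm : ι → ℕ) (_ : ∀ i, gm i < N)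
    (w : ι → Bool → ℝ) (_ : ∀ i b, 0 ≤ w i b) {β : ℝ} (_ : β ≤ 1)
    (_ : ∀ g < N, ∏ i ∈ Finset.univ.filter (fun i => gm i = g), |w i false - w i true| ≤
      β * ∏ i ∈ Finset.univ.filter (fun i => gm i = g), (w i false + w i true))
    (φ : (ℕ → ℤ) → ℝ) (v : ℝ) (s₀ : ℕ → ℤ) (_ : 0 ≤ v) (_ : Chain N φ v),
    (1 - β) ^ N * (∏ i, (w i false + w i true)) * v ≤ ∑ b : ι → Bool, (∏ i, w i (b i)) *
      φ (s₀ + ∑ i, if b i then Pi.single (gm i) 1 else 0) := by
  induction N with
  | zero =>
    intro ι _ _ gm hgm w hw β _ _ φ v s₀ _ hc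
    have : IsEmpty ι := ⟨fun i => absurd (hgm i) (Nat.not_lt_zero _)⟩
    simpa using hc s₀
  | succ N ih =>
    intro ι _ _ gm hgm w hw β hβ h φ v s₀ hv hc
    have h1 := ih (ι := {i // ¬ gm i = N}) (fun i => gm i)
      (fun i => by have := i.2; have := hgm i; omega) (fun i => w i) (fun i => hw i) hβ
      (fun g hg => by
        rw [prod_off gm hg fun i => |w i false - w i true|,
          prod_off gm hg fun i => w i false + w i true]
        exact h g (by omega)) _ v s₀ hv hc.2.2
    have h2 := fun s₁ : ℕ → ℤ => (group (ι := {i // gm i = N}) (fun i => w i) (fun i => hw i)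
      (β := β) (by
        rw [prod_on gm N fun i => |w i false - w i true|, prod_on gm N fun i => w i false + w i true]
        exact h N (by omega)) (fun m => φ (s₁ + Pi.single N m)) (fun _ => hc.1 _) fun m => by
        rw [Pi.single_add, ← add_assoc, hc.2.1]).1
    rw [← (Equiv.piEquivPiSubtypeProd (fun i => gm i = N) fun _ => Bool).symm.sum_comp,
      Fintype.sum_prod_type_right, ← Fintype.prod_subtype_mul_prod_subtype (fun i => gm i = N)]
    have p0 : 0 ≤ (1 - β) * ∏ i : {i // gm i = N}, (w i false + w i true) :=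
      mul_nonneg (by linarith) (Finset.prod_nonneg fun i _ => add_nonneg (hw _ _) (hw _ _))
    refine le_trans (le_of_eq (by ring)) ((mul_le_mul_of_nonneg_left h1 p0).trans ?_)
    rw [Finset.mul_sum]
    refine Finset.sum_le_sum fun b2 _ => ?_
    have h3 := mul_le_mul_of_nonneg_left (h2 (s₀ + ∑ i : {i // ¬ gm i = N},
      if b2 i then Pi.single (gm i) 1 else 0)) (Finset.prod_nonneg fun (i : {i // ¬ gm i = N})
        (_ : i ∈ Finset.univ) => hw i (b2 i))
    refine le_trans (le_of_eq ?_) (h3.trans_eq ?_)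
    · simp only [Tav, Pi.single_zero, add_zero]
      ring
    · rw [Finset.mul_sum]
      refine Finset.sum_congr rfl fun b1 _ => ?_
      rw [← Fintype.prod_subtype_mul_prod_subtype (fun i => gm i = N),
        ← Fintype.sum_subtype_add_sum_subtype (fun i => gm i = N)]
      have e1 : ∀ i : {i // gm i = N}, (Equiv.piEquivPiSubtypeProd (fun i => gm i = N)
          fun _ => Bool).symm (b1, b2) i = b1 i := fun i => by
        rw [Equiv.piEquivPiSubtypeProd_symm_apply, dif_pos i.2]
      have e2 : ∀ i : {i // ¬ gm i = N}, (Equiv.piEquivPiSubtypeProd (fun i => gm i = N)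
          fun _ => Bool).symm (b1, b2) i = b2 i := fun i => by
        rw [Equiv.piEquivPiSubtypeProd_symm_apply, dif_neg i.2]
      have e3 : (∑ i : {i // gm i = N}, if b1 i then Pi.single (gm i) 1 else 0 : ℕ → ℤ) =
          Pi.single N (∑ i, if b1 i then 1 else 0) := by
        refine Eq.trans (Finset.sum_congr rfl fun i _ => ?_)
          (map_sum (AddMonoidHom.single (fun _ : ℕ => ℤ) N) _ _).symm
        rw [i.2]
        split_ifs <;> simp
      simp only [e1, e2, e3]
      rw [add_assoc, add_comm (Pi.single N _), ← mul_assoc, mul_comm (Finset.prod _ _)]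

end InnerX

/-- one group: even and odd masses are `(S ± D)/2`, `S = ∏ (w f + w t)`, `D = ∏ (w f - w t)`
(`Finset.prod_add`/induction on `s`) -/
theorem group_parity {s : ℕ} (w : Fin s → Bool → ℝ) (hw : ∀ i b, 0 ≤ w i b) {β : ℝ}
    (h : ∏ i, |w i false - w i true| ≤ β * ∏ i, (w i false + w i true)) (ψ : ℤ → ℝ)
    (hψ0 : ∀ m, 0 ≤ ψ m) (hψ : ∀ m, ψ (m + 2) = ψ m) :
    (1 - β) * (∏ i, (w i false + w i true)) * ((ψ 0 + ψ 1) / 2) ≤
        ∑ b : Fin s → Bool, (∏ i, w i (b i)) * ψ (∑ i, if b i then 1 else 0) ∧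
      ∀ b : Fin s → Bool, ∏ i, w i (b i) ≤ (1 + β) / 2 * ∏ i, (w i false + w i true) :=
  InnerX.group w hw h ψ hψ0 hψ

/-- **inner chain.**  Reindex `Fin (N * s) ≃ Fin N × Fin s` (`finProdFinEquiv`: `i / s` is the first
component), prove the statement for `w : Fin N → Fin s → Bool → ℝ` by induction on `N` (last group innermost,
`Fin.snoc`, `group_parity` with `ψ m = φ (s₁ + Pi.single N m)`, then `Chain N (Tav N φ) v`). -/
theorem inner {N s : ℕ} (w : Fin (N * s) → Bool → ℝ) (hw : ∀ i b, 0 ≤ w i b) {β : ℝ}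
    (hβ0 : 0 ≤ β) (hβ : β ≤ 1)
    (h : ∀ g < N, ∏ i ∈ Finset.univ.filter (fun i : Fin (N * s) => i.val / s = g),
        |w i false - w i true| ≤
      β * ∏ i ∈ Finset.univ.filter (fun i : Fin (N * s) => i.val / s = g), (w i false + w i true)) :
    (∀ (φ : (ℕ → ℤ) → ℝ) (v : ℝ) (s₀ : ℕ → ℤ), 0 ≤ v → Chain N φ v →
      (1 - β) ^ N * (∏ i, (w i false + w i true)) * v ≤
        ∑ b : Fin (N * s) → Bool, (∏ i, w i (b i)) *
          φ (s₀ + fun g => ∑ i ∈ Finset.univ.filter (fun i : Fin (N * s) => i.val / s = g),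
            if b i then 1 else 0)) ∧
    ∀ b : Fin (N * s) → Bool,
      ∏ i, w i (b i) ≤ ((1 + β) / 2) ^ N * ∏ i, (w i false + w i true) := by
  have hg : ∀ i : Fin (N * s), i.val / s < N := fun i =>
    Nat.div_lt_of_lt_mul (i.2.trans_eq (mul_comm _ _))
  refine ⟨fun φ v s₀ hv hc => (InnerX.chain N _ hg w hw hβ h φ v s₀ hv hc).trans_eq ?_, fun b => ?_⟩
  · refine Finset.sum_congr rfl fun b _ => ?_
    congr 3
    funext g
    rw [Finset.sum_apply, Finset.sum_filter]
    refine Finset.sum_congr rfl fun i _ => ?_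
    split_ifs with h1 h2 h2
    · rw [h2, Pi.single_eq_same]
    · rw [Pi.single_eq_of_ne' h2]
    · rfl
    · rfl
  · have hm : ∀ i ∈ (Finset.univ : Finset (Fin (N * s))), i.val / s ∈ Finset.range N :=
      fun i _ => Finset.mem_range.2 (hg i)
    rw [← Finset.prod_fiberwise_of_maps_to hm, ← Finset.prod_fiberwise_of_maps_to hm
      (f := fun i => w i false + w i true), show ((1 + β) / 2) ^ N =
        ∏ _g ∈ Finset.range N, (1 + β) / 2 by rw [Finset.prod_const, Finset.card_range],
      ← Finset.prod_mul_distrib]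
    refine Finset.prod_le_prod (fun g _ => Finset.prod_nonneg fun i _ => hw _ _) fun g hg' => ?_
    have := (InnerX.group (ι := {i : Fin (N * s) // i.val / s = g}) (fun i => w i) (fun i => hw i)
      (β := β) (by
        rw [InnerX.prod_on (fun i : Fin (N * s) => i.val / s) g fun i => |w i false - w i true|,
          InnerX.prod_on (fun i : Fin (N * s) => i.val / s) g fun i => w i false + w i true]
        exact h g (Finset.mem_range.1 hg')) (fun _ => 0) (fun _ => le_rfl) fun _ => rfl).2
      fun i => b i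
    rwa [InnerX.prod_on (fun i : Fin (N * s) => i.val / s) g fun i => w i (b i),
      InnerX.prod_on (fun i : Fin (N * s) => i.val / s) g fun i => w i false + w i true] at this

end Crest.Agent.R225
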