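import Crest.Agent.R225.Cov
import Crest.Agent.Lib.Convex.BrunnMinkowski

set_option autoImplicit false

open MeasureTheory Set
open scoped ENNReal NNReal Matrix

namespace Crest.Agent.R225

namespace IsoX

theorem integrable_un' {ι : Type} [Fintype ι] {K : Set (ι → ℝ)} (h : Body K) {f : (ι → ℝ) → ℝ}
    (hf : Continuous f) : Integrable f (un K) := by
  unfold un ProbabilityTheory.cond
  exact (hf.continuousOn.integrableOn_compact h.cpt).smul_measure
    (ENNReal.inv_ne_top.2 h.vol_pos.1)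

theorem bil {n : ℕ} {K : Set (Fin n → ℝ)} (h : Body K) (a b : Fin n → ℝ) :
    ∫ x, (a ⬝ᵥ x) * (b ⬝ᵥ x) ∂(un K) =
      a ⬝ᵥ ((Matrix.of fun i j => ∫ x, x i * x j ∂(un K)) *ᵥ b) := by
  have h1 : ∀ x : Fin n → ℝ, (a ⬝ᵥ x) * (b ⬝ᵥ x) = ∑ i, ∑ j, a i * (x i * x j * b j) := by
    intro x
    rw [dotProduct, dotProduct, Finset.sum_mul_sum]
    exact Finset.sum_congr rfl fun i _ => Finset.sum_congr rfl fun j _ => by ring
  simp only [h1]
  rw [integral_finsetSum _ fun i _ => integrable_un' h (by fun_prop)]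
  simp only [dotProduct, Matrix.mulVec, Matrix.of_apply, Finset.mul_sum]
  refine Finset.sum_congr rfl fun i _ => ?_
  rw [integral_finsetSum _ fun j _ => integrable_un' h (by fun_prop)]
  refine Finset.sum_congr rfl fun j _ => ?_
  rw [integral_const_mul, integral_mul_const]

theorem pos {n : ℕ} {K : Set (Fin n → ℝ)} (h : Body K) {v : Fin n → ℝ} (hv : v ≠ 0) :
    0 < ∫ x, (v ⬝ᵥ x) * (v ⬝ᵥ x) ∂(un K) := by
  have := h.prob
  have hc : Continuous fun x : Fin n → ℝ => v ⬝ᵥ x := by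
    simp only [dotProduct]
    fun_prop
  rw [integral_pos_iff_support_of_nonneg (fun x => mul_self_nonneg _)
    (integrable_un' h (hc.mul hc))]
  let l : (Fin n → ℝ) →ₗ[ℝ] ℝ :=
    { toFun := fun x => v ⬝ᵥ x
      map_add' := fun x y => dotProduct_add _ _ _
      map_smul' := fun c x => by simp }
  have hk : LinearMap.ker l ≠ ⊤ := by
    intro ht
    have : v ∈ LinearMap.ker l := ht ▸ Submodule.mem_top
    exact hv (dotProduct_self_eq_zero.1 this)
  have h0 : un K (LinearMap.ker l : Set (Fin n → ℝ)) = 0 :=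
    ProbabilityTheory.cond_absolutelyContinuous (Measure.addHaar_submodule volume _ hk)
  have hs : (Function.support fun x => (v ⬝ᵥ x) * (v ⬝ᵥ x)) =
      (LinearMap.ker l : Set (Fin n → ℝ))ᶜ := by
    ext x
    simp only [Function.mem_support, mem_compl_iff, SetLike.mem_coe, LinearMap.mem_ker, ne_eq,
      mul_self_eq_zero]
    rfl
  rw [hs, pos_iff_ne_zero]
  intro h1
  have h2 := measure_union_le (μ := un K) (LinearMap.ker l : Set (Fin n → ℝ)) (LinearMap.ker l)ᶜ
  rw [union_compl_self, measure_univ, h0, h1] at h2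
  simp at h2

end IsoX

open scoped MatrixOrder in
/-- `Σ i j = ∫ x i * x j ∂(un K)` is positive definite (`vᵀ Σ v = ∫ (v ⬝ᵥ x)² > 0`: a hyperplane is null /
does not contain an open set); write `Σ = Bᵀ B` with `B` invertible
(`Matrix.posDef_iff_eq_conjTranspose_mul_self`, or `CFC.sqrt`/`LDL`), `Ψ = (Bᵀ)⁻¹`; transport the integral with
`un_image` (`Measure.map Ψ (un K) = un (Ψ '' K)`) -/
theorem exists_iso {n : ℕ} {K : Set (Fin n → ℝ)} (h : Body K) :
    ∃ Ψ : (Fin n → ℝ) ≃ₗ[ℝ] (Fin n → ℝ), Iso (Ψ '' K) := by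
  set S : Matrix (Fin n) (Fin n) ℝ := Matrix.of fun i j => ∫ x, x i * x j ∂(un K) with hS
  have hpd : S.PosDef := by
    refine Matrix.PosDef.of_dotProduct_mulVec_pos ?_ fun v hv => ?_
    · ext i j
      simp only [hS, Matrix.conjTranspose_apply, Matrix.of_apply, star_trivial, mul_comm]
    · rw [star_trivial, hS, ← IsoX.bil h]
      exact IsoX.pos h hv
  obtain ⟨b, hb, hSb⟩ :=
    CStarAlgebra.isStrictlyPositive_iff_eq_mul_star_self.mp hpd.isStrictlyPositive
  have hbd : IsUnit b.det := (Matrix.isUnit_iff_isUnit_det b).1 hb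
  have hone : b⁻¹ * S * b⁻¹ᵀ = 1 := by
    rw [hSb, Matrix.star_eq_conjTranspose, Matrix.conjTranspose_eq_transpose_of_trivial,
      ← Matrix.mul_assoc, Matrix.nonsing_inv_mul _ hbd, Matrix.one_mul, ← Matrix.transpose_mul,
      Matrix.nonsing_inv_mul _ hbd, Matrix.transpose_one]
  let Ψ : (Fin n → ℝ) ≃ₗ[ℝ] (Fin n → ℝ) :=
    Matrix.toLin'OfInv (Matrix.mul_nonsing_inv b hbd) (Matrix.nonsing_inv_mul b hbd)
  have hΨ : ∀ x, Ψ x = b⁻¹ *ᵥ x := fun x => rfl
  have hc : Continuous Ψ := Ψ.toLinearMap.continuous_of_finiteDimensional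
  have hmap : un (Ψ '' K) = Measure.map Ψ (un K) := by
    ext B hB
    rw [un_image Ψ h hB, Measure.map_apply hc.measurable hB]
  refine ⟨Ψ, fun i j => ?_⟩
  rw [hmap, integral_map hc.measurable.aemeasurable (Continuous.aestronglyMeasurable (by fun_prop))]
  have h1 := IsoX.bil h (b⁻¹ i) (b⁻¹ j)
  rw [← hS] at h1
  refine Eq.trans h1 ?_
  have h2 := congrFun (congrFun hone i) j
  rw [Matrix.one_apply, Matrix.mul_assoc] at h2
  rw [← h2]
  rfl

/-- Brunn–Minkowski (`Crest.Agent.Lib.BM.hasPL_pi`/`hasPL_haar`, `HasPL.measure_le`, `mul_le_sq_of_half`) for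
pieces of a convex set -/
theorem un_mul_le_sq {ι : Type} [Fintype ι] {K : Set (ι → ℝ)} (h : Body K) {A B M : Set (ι → ℝ)}
    (hA : MeasurableSet A) (hB : MeasurableSet B) (hM : MeasurableSet M)
    (hm : ∀ x ∈ A, ∀ y ∈ B, (1 / 2 : ℝ) • x + (1 / 2 : ℝ) • y ∈ M) :
    (un K A).toReal * (un K B).toReal ≤ (un K M).toReal ^ 2 := by
  have h1 := (Crest.Agent.Lib.BM.hasPL_haar (a := 1 / 2) (b := 1 / 2) (by norm_num) (by norm_num)
    (by norm_num) (volume : Measure (ι → ℝ))).measure_le (by norm_num) (by norm_num)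
    (h.cpt.measurableSet.inter hA) (h.cpt.measurableSet.inter hB) (h.cpt.measurableSet.inter hM)
    (fun x hx y hy => ⟨h.cvx hx.1 hy.1 (by norm_num) (by norm_num) (by norm_num),
      hm x hx.2 y hy.2⟩)
  have h2 := Crest.Agent.Lib.BM.mul_le_sq_of_half h1
  have := h.prob
  rw [← ENNReal.toReal_mul, ← ENNReal.toReal_pow]
  refine ENNReal.toReal_mono (ENNReal.pow_ne_top (measure_ne_top _ _)) ?_
  unfold un
  rw [ProbabilityTheory.cond_apply h.cpt.measurableSet,
    ProbabilityTheory.cond_apply h.cpt.measurableSet,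
    ProbabilityTheory.cond_apply h.cpt.measurableSet, mul_mul_mul_comm, mul_pow, ← sq]
  exact mul_le_mul_right h2 _

/-- bounded continuous functions are integrable -/
theorem integrable_un {ι : Type} [Fintype ι] {K : Set (ι → ℝ)} (h : Body K) {f : (ι → ℝ) → ℝ}
    (hf : Continuous f) : Integrable f (un K) := by
  exact IsoX.integrable_un' h hf

theorem iso_sq {n : ℕ} {K : Set (Fin n → ℝ)} (h : Body K) (hi : Iso K) :
    ∫ x, x ⬝ᵥ x ∂(un K) = n := by
  simp only [dotProduct]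
  rw [integral_finsetSum _ fun i _ => integrable_un h (by fun_prop)]
  simp [hi _ _]

theorem iso_lin {n : ℕ} {K : Set (Fin n → ℝ)} (h : Body K) (hi : Iso K) (v : Fin n → ℝ) :
    ∫ x, (x ⬝ᵥ v) ^ 2 ∂(un K) = v ⬝ᵥ v := by
  have h1 := IsoX.bil h v v
  have h2 : (Matrix.of fun i j => ∫ x, x i * x j ∂(un K)) = (1 : Matrix (Fin n) (Fin n) ℝ) := by
    ext i j
    rw [Matrix.of_apply, hi i j, Matrix.one_apply]
  rw [h2, Matrix.one_mulVec] at h1
  rw [← h1]
  simp only [sq, dotProduct_comm _ v]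

/-- Markov -/
theorem iso_large {n : ℕ} (hn : 1 ≤ n) {K : Set (Fin n → ℝ)} (h : Body K) (hi : Iso K) :
    (un K {x | 9 * (n : ℝ) ≤ x ⬝ᵥ x}).toReal ≤ 1 / 9 := by
  have hn' : (0 : ℝ) < n := by exact_mod_cast hn
  have h1 := mul_meas_ge_le_integral_of_nonneg (μ := un K) (f := fun x : Fin n → ℝ => x ⬝ᵥ x)
    (Filter.Eventually.of_forall fun x => Finset.sum_nonneg fun i _ => mul_self_nonneg _)
    (integrable_un h (by fun_prop)) (9 * (n : ℝ))
  rw [iso_sq h hi, Measure.real] at h1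
  rw [le_div_iff₀ (by norm_num)]
  refine le_of_mul_le_mul_left ?_ hn'
  linarith

end Crest.Agent.R225
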