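import Crest.Agent.R225.ChainL

set_option autoImplicit false

open MeasureTheory Set
open scoped ENNReal NNReal Matrix

namespace Crest.Agent.R225

namespace LapX

variable {Γ : Type} [AddCommGroup Γ]

/-- averaging operator -/
noncomputable def TT (u : Γ) (F : Γ → ℝ) : Γ → ℝ := fun x => (F x + F (x + u)) / 2

/-- group version of `Chain` -/
def GC (u : ℕ → Γ) : ℕ → (Γ → ℝ) → ℝ → Prop
  | 0, F, v => ∀ x, v ≤ F x
  | g + 1, F, v => Function.Periodic F (2 • u g) ∧ GC u g (TT (u g) F) v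

theorem TT_per {u : Γ} {F : Γ → ℝ} (h : Function.Periodic F (2 • u)) :
    Function.Periodic (TT u F) u := by
  intro x
  have := h x
  rw [two_nsmul, ← add_assoc] at this
  simp only [TT, this]
  ring

theorem TT_zero (F : Γ → ℝ) : TT 0 F = F := by
  funext x
  simp [TT]

theorem TT_comm (u w : Γ) (F : Γ → ℝ) : TT u (TT w F) = TT w (TT u F) := by
  funext x
  simp only [TT]
  rw [add_right_comm x u w]
  ring

theorem chain_of_GC (u : ℕ → Γ) (v : ℝ) (x₀ : Γ) : ∀ (N : ℕ) (F : Γ → ℝ), (∀ x, 0 ≤ F x) →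
    GC u N F v → Chain N (fun s => F (x₀ + ∑ g ∈ Finset.range N, s g • u g)) v := by
  intro N
  induction N with
  | zero => exact fun F _ h s => h _
  | succ N ih =>
    intro F hF h
    have hs : ∀ (s : ℕ → ℤ) (k : ℤ), x₀ + ∑ g ∈ Finset.range (N + 1), (s + Pi.single N k : ℕ → ℤ) g • u g
        = x₀ + ∑ g ∈ Finset.range (N + 1), s g • u g + k • u N := by
      intro s k
      simp only [Pi.add_apply, add_smul, Finset.sum_add_distrib]
      rw [Finset.sum_eq_single N (f := fun g => (Pi.single N k : ℕ → ℤ) g • u g)]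
      · simp [add_assoc]
      · intro b _ hb
        simp [Pi.single_eq_of_ne hb]
      · intro hn
        exact absurd (Finset.self_mem_range_succ N) hn
    refine ⟨fun s => hF _, fun s => ?_, ?_⟩
    · show F _ = F _
      rw [hs, two_zsmul, ← two_nsmul]
      exact h.1 _
    · have he : Tav N (fun s => F (x₀ + ∑ g ∈ Finset.range (N + 1), s g • u g)) =
          fun s => TT (u N) F (x₀ + ∑ g ∈ Finset.range N, s g • u g) := by
        funext s
        have h1 := (TT_per h.1).zsmul (s N) (x₀ + ∑ g ∈ Finset.range N, s g • u g)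
        rw [← h1]
        simp only [Tav, TT]
        rw [hs, one_zsmul, Finset.sum_range_succ, ← add_assoc x₀]
      rw [he]
      exact ih _ (fun x => div_nonneg (add_nonneg (hF _) (hF _)) zero_le_two) h.2

theorem GC_congr {u u' : ℕ → Γ} {c c' : ℝ} (hc : c' ≤ c) : ∀ (m : ℕ) (F : Γ → ℝ),
    (∀ g < m, u g = u' g) → GC u m F c → GC u' m F c' := by
  intro m
  induction m with
  | zero => exact fun F _ h x => hc.trans (h x)
  | succ m ih =>
    intro F hu h
    have h0 := hu m (Nat.lt_succ_self m)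
    refine ⟨h0 ▸ h.1, ?_⟩
    rw [← h0]
    exact ih _ (fun g hg => hu g (Nat.lt_succ_of_lt hg)) h.2

theorem GC_pad {u : ℕ → Γ} {c : ℝ} {m : ℕ} {F : Γ → ℝ} (hu : ∀ g, m ≤ g → u g = 0)
    (h : GC u m F c) : ∀ i, GC u (m + i) F c := by
  intro i
  induction i with
  | zero => exact h
  | succ i ih =>
    have h0 := hu (m + i) (Nat.le_add_right _ _)
    show Function.Periodic F (2 • u (m + i)) ∧ GC u (m + i) (TT (u (m + i)) F) c
    refine ⟨?_, ?_⟩
    · rw [h0, nsmul_zero]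
      exact fun x => by rw [add_zero]
    · rw [h0, TT_zero]
      exact ih

/-- `T_v T_{2v} ⋯ T_{2^(i-1) v}` -/
noncomputable def PP (v : Γ) : ℕ → (Γ → ℝ) → Γ → ℝ
  | 0, F => F
  | i + 1, F => PP v i (TT (2 ^ i • v) F)

theorem GC_blk {u : ℕ → Γ} {c : ℝ} {m : ℕ} {v : Γ} : ∀ (i : ℕ) (F : Γ → ℝ),
    (∀ r < i, u (m + r) = 2 ^ r • v) → Function.Periodic F (2 ^ i • v) → GC u m (PP v i F) c →
    GC u (m + i) F c := by
  intro i
  induction i with
  | zero => exact fun F _ _ h => h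
  | succ i ih =>
    intro F hu hp h
    have h0 := hu i (Nat.lt_succ_self i)
    have hp' : Function.Periodic F (2 • 2 ^ i • v) := by
      rwa [← mul_nsmul, ← pow_succ]
    show Function.Periodic F (2 • u (m + i)) ∧ GC u (m + i) (TT (u (m + i)) F) c
    rw [h0]
    exact ⟨hp', ih _ (fun r hr => hu r (Nat.lt_succ_of_lt hr)) (TT_per hp') h⟩

variable [Fintype Γ]

/-- Laplace sum -/
noncomputable def SS (F : Γ → ℝ) (μ : ℝ) : ℝ := ∑ x, Real.exp (-(μ * F x))

theorem SS_pos (F : Γ → ℝ) (μ : ℝ) : 0 < SS F μ :=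
  Finset.sum_pos (fun _ _ => Real.exp_pos _) ⟨0, Finset.mem_univ _⟩

theorem sum_shift (f : Γ → ℝ) (u : Γ) : ∑ x, f (x + u) = ∑ x, f x :=
  Fintype.sum_equiv (Equiv.addRight u) _ _ fun _ => rfl

theorem sum_shift' (f : Γ → ℝ) (u : Γ) : ∑ x, f (u + x) = ∑ x, f x :=
  Fintype.sum_equiv (Equiv.addLeft u) _ _ fun _ => rfl

theorem exp_mid (a b : ℝ) : Real.exp ((a + b) / 2) ≤ (Real.exp a + Real.exp b) / 2 := by
  have ha : Real.exp a = Real.exp (a / 2) ^ 2 := by rw [← Real.exp_nat_mul]; congr 1; push_cast; ring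
  have hb : Real.exp b = Real.exp (b / 2) ^ 2 := by rw [← Real.exp_nat_mul]; congr 1; push_cast; ring
  rw [ha, hb, add_div, Real.exp_add]
  nlinarith [sq_nonneg (Real.exp (a / 2) - Real.exp (b / 2))]

theorem SS_TT (u : Γ) (F : Γ → ℝ) (μ : ℝ) : SS (TT u F) μ ≤ SS F μ := by
  have h1 : SS (TT u F) μ ≤ ∑ x, (Real.exp (-(μ * F x)) + Real.exp (-(μ * F (x + u)))) / 2 := by
    refine Finset.sum_le_sum fun x _ => le_trans (le_of_eq ?_) (exp_mid _ _)
    congr 1
    simp only [TT]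
    ring
  rw [← Finset.sum_div, Finset.sum_add_distrib,
    sum_shift (fun x => Real.exp (-(μ * F x))) u] at h1
  unfold SS at h1 ⊢
  linarith

theorem SS_PP (v : Γ) (μ : ℝ) : ∀ (i : ℕ) (F : Γ → ℝ), SS (PP v (i + 1) F) μ ≤ SS (TT v F) μ := by
  intro i
  induction i with
  | zero => intro F; simp [PP]
  | succ i ih =>
    intro F
    refine (ih (TT (2 ^ (i + 1) • v) F)).trans ?_
    rw [TT_comm]
    exact SS_TT _ _ _

theorem exists_double (F : Γ → ℝ) (μ : ℝ) :
    ∃ v : Γ, SS (TT v F) (2 * μ) ≤ SS F μ ^ 2 / Fintype.card Γ := by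
  have hM : (0 : ℝ) < Fintype.card Γ := by exact_mod_cast Fintype.card_pos_iff.2 ⟨0⟩
  have h1 : ∑ v : Γ, SS (TT v F) (2 * μ) = SS F μ ^ 2 := by
    unfold SS
    rw [Finset.sum_comm, sq, Finset.sum_mul]
    refine Finset.sum_congr rfl fun x _ => ?_
    rw [← sum_shift' (fun y => Real.exp (-(μ * F y))) x, Finset.mul_sum]
    refine Finset.sum_congr rfl fun v _ => ?_
    rw [← Real.exp_add]
    congr 1
    simp only [TT]
    ring
  obtain ⟨v, -, hv⟩ := Finset.exists_le_of_sum_le (s := (Finset.univ : Finset Γ))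
    (f := fun v => SS (TT v F) (2 * μ)) (g := fun _ => SS F μ ^ 2 / Fintype.card Γ)
    ⟨0, Finset.mem_univ _⟩ (by
      rw [h1, Finset.sum_const, Finset.card_univ, nsmul_eq_mul, mul_div_cancel₀ _ hM.ne'])
  exact ⟨v, hv⟩

theorem main {e : ℕ} (he : 1 ≤ e) (h2 : ∀ x : Γ, (2 ^ e) • x = 0) : ∀ (j : ℕ) (F : Γ → ℝ) (μ : ℝ),
    0 < μ → ∃ u : ℕ → Γ, (∀ g, e * j ≤ g → u g = 0) ∧ GC u (e * j) F
      (-Real.log (SS F μ / Fintype.card Γ) / μ - Real.log (Fintype.card Γ) / (μ * 2 ^ j)) := by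
  have hM : (0 : ℝ) < Fintype.card Γ := by exact_mod_cast Fintype.card_pos_iff.2 ⟨0⟩
  intro j
  induction j with
  | zero =>
    intro F μ hμ
    refine ⟨0, fun _ _ => rfl, fun x => ?_⟩
    have h1 : Real.exp (-(μ * F x)) ≤ SS F μ :=
      Finset.single_le_sum (f := fun x => Real.exp (-(μ * F x))) (fun _ _ => (Real.exp_pos _).le)
        (Finset.mem_univ x)
    have h3 := (Real.le_log_iff_exp_le (SS_pos F μ)).2 h1
    rw [Real.log_div (SS_pos F μ).ne' hM.ne', pow_zero, mul_one, ← sub_div, div_le_iff₀ hμ]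
    linarith
  | succ j ih =>
    intro F μ hμ
    obtain ⟨v, hv⟩ := exists_double F μ
    obtain ⟨e', rfl⟩ : ∃ e', e = e' + 1 := ⟨e - 1, by omega⟩
    obtain ⟨u, -, hu⟩ := ih (PP v (e' + 1) F) (2 * μ) (by positivity)
    set m := (e' + 1) * j with hm
    have hm' : (e' + 1) * (j + 1) = m + (e' + 1) := by rw [hm]; ring
    refine ⟨fun g => if g < m then u g else if g < m + (e' + 1) then 2 ^ (g - m) • v else 0, ?_, ?_⟩
    · intro g hg
      rw [hm'] at hg
      show (if g < m then _ else _) = _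
      rw [if_neg (by omega), if_neg (by omega)]
    · rw [hm']
      refine GC_blk (v := v) _ _ (fun r hr => ?_) ?_ (GC_congr ?_ _ _ (fun g hg => ?_) hu)
      · show (if m + r < m then _ else _) = _
        rw [if_neg (by omega), if_pos (by omega), Nat.add_sub_cancel_left]
      · rw [h2]
        exact fun x => by rw [add_zero]
      · have h3 := (SS_PP v (2 * μ) e' F).trans hv
        have h4 : Real.log (SS (PP v (e' + 1) F) (2 * μ) / Fintype.card Γ) ≤
            2 * Real.log (SS F μ / Fintype.card Γ) := by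
          have h5 : Real.log ((SS F μ / Fintype.card Γ) ^ 2) =
              2 * Real.log (SS F μ / Fintype.card Γ) := by rw [Real.log_pow]; norm_num
          rw [← h5]
          refine Real.log_le_log (div_pos (SS_pos _ _) hM) ?_
          rw [div_pow, sq (Fintype.card Γ : ℝ), ← div_div]
          exact div_le_div_of_nonneg_right h3 hM.le
        have h6 : μ * 2 ^ (j + 1) = 2 * μ * 2 ^ j := by ring
        have h7 : -Real.log (SS F μ / Fintype.card Γ) / μ =
            -(2 * Real.log (SS F μ / Fintype.card Γ)) / (2 * μ) := by field_simp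
        rw [h6, h7]
        exact sub_le_sub_right (div_le_div_of_nonneg_right (neg_le_neg h4) (by positivity)) _
      · show u g = if g < m then _ else _
        rw [if_pos hg]

theorem exp_neg_le {t ε : ℝ} (h0 : 0 ≤ t) (h1 : t ≤ ε) : Real.exp (-t) ≤ 1 - (1 - ε) * t := by
  have h2 : 1 + t ≤ Real.exp t := by linarith [Real.add_one_le_exp t]
  have h3 : 0 ≤ 1 - t + t ^ 2 := by nlinarith [sq_nonneg (t - 1)]
  have h4 : Real.exp (-t) ≤ 1 - t + t ^ 2 := by
    rw [Real.exp_neg, inv_le_iff_one_le_mul₀ (Real.exp_pos t)]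
    calc (1 : ℝ) ≤ (1 - t + t ^ 2) * (1 + t) := by nlinarith [pow_nonneg h0 3]
      _ ≤ _ := mul_le_mul_of_nonneg_left h2 h3
  nlinarith [mul_le_mul_of_nonneg_right h1 h0]

end LapX

/-- **Laplace doubling.**  `T_u F x = (F x + F (x+u))/2`, `Φ(F, μ) = avg exp (-μ F)`.  For `v : Γ` let
`F' = T_v T_{2v} ⋯ T_{2^(e-1) v} F` (the `T`'s commute).  `Φ(T_u G, μ) ≤ Φ(G, μ)` (convexity + translation),
so `Φ(F', 2μ) ≤ Φ(T_v F, 2μ) = avg_x exp (-μ F x) exp (-μ F (x+v))`, whose average over `v` is `Φ(F, μ)²`.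
If `G` is `2u`-periodic then `T_u G` is `u`-periodic, and `F` is `2^e v`-periodic.  Start `μ₀ = ε/B`:
`e^{-t} ≤ 1 - (1-ε) t` on `[0, ε]`, so `Φ(F, μ₀) ≤ exp (-(1-ε) μ₀ avg F)`; after `j` steps
`exp (-2^j μ₀ F_j x) ≤ |Γ| Φ`.  Suggested route: a list version `GCh : List Γ → (Γ → ℝ) → ℝ → Prop`
(`GCh [] F v = ∀ x, v ≤ F x`, `GCh (u :: us) F v = (∀ x, F (x + 2•u) = F x) ∧ GCh us (T_u F) v`), produce a
list `L` of length `e j`, put `u g = L.reverse.getD g 0` (the highest index is used first; `T_0 F = F`). -/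
theorem lap {Γ : Type} [AddCommGroup Γ] [Fintype Γ] {e : ℕ} (he : 1 ≤ e) (h2 : ∀ x : Γ, (2 ^ e) • x = 0)
    (F : Γ → ℝ) {B ε : ℝ} (hB : 0 < B) (hε : 0 < ε) (hε1 : ε ≤ 1) (hF : ∀ x, 0 ≤ F x ∧ F x ≤ B)
    (j : ℕ) : ∃ u : ℕ → Γ, ∀ N, e * j ≤ N → ∀ x₀ : Γ,
      Chain N (fun s => F (x₀ + ∑ g ∈ Finset.range N, s g • u g))
        ((1 - ε) * ((∑ x, F x) / Fintype.card Γ) - B * Real.log (Fintype.card Γ) / (ε * 2 ^ j)) := by
  have _ := hε1
  have hM : (0 : ℝ) < Fintype.card Γ := by exact_mod_cast Fintype.card_pos_iff.2 ⟨0⟩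
  have hμ : 0 < ε / B := div_pos hε hB
  obtain ⟨u, hu0, hu⟩ := LapX.main he h2 j F (ε / B) hμ
  refine ⟨u, fun N hN x₀ => LapX.chain_of_GC u _ x₀ N F (fun x => (hF x).1) ?_⟩
  obtain ⟨i, rfl⟩ := Nat.exists_eq_add_of_le hN
  refine LapX.GC_pad hu0 (LapX.GC_congr ?_ _ _ (fun _ _ => rfl) hu) i
  have h1 : LapX.SS F (ε / B) ≤ ∑ x, (1 - (1 - ε) * (ε / B * F x)) := by
    refine Finset.sum_le_sum fun x _ => LapX.exp_neg_le (mul_nonneg hμ.le (hF x).1) ?_
    calc ε / B * F x ≤ ε / B * B := mul_le_mul_of_nonneg_left (hF x).2 hμ.le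
      _ = ε := div_mul_cancel₀ _ hB.ne'
  rw [Finset.sum_sub_distrib, ← Finset.mul_sum, ← Finset.mul_sum, Finset.sum_const, Finset.card_univ,
    nsmul_eq_mul, mul_one] at h1
  have h3 := Real.log_le_sub_one_of_pos (div_pos (LapX.SS_pos F (ε / B)) hM)
  have h4 : LapX.SS F (ε / B) / Fintype.card Γ - 1 ≤
      -((1 - ε) * ((∑ x, F x) / Fintype.card Γ) * (ε / B)) := by
    rw [sub_le_iff_le_add, div_le_iff₀ hM]
    refine h1.trans (le_of_eq ?_)
    field_simp
    ring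
  have h5 : B * Real.log (Fintype.card Γ) / (ε * 2 ^ j) =
      Real.log (Fintype.card Γ) / (ε / B * 2 ^ j) := by field_simp
  rw [h5]
  refine sub_le_sub_right ?_ _
  rw [le_div_iff₀ hμ]
  linarith

end Crest.Agent.R225
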