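import Crest.Agent.R225.Defs

set_option autoImplicit false

open MeasureTheory Set
open scoped ENNReal NNReal Matrix

namespace Crest.Agent.R225

variable {ι : Type} [Fintype ι]

omit [Fintype ι] in
theorem pr_add (s t : ι → ℝ) : pr (s + t) = pr s + pr t := by
  funext i
  exact AddCircle.coe_add 1 (s i) (t i)

omit [Fintype ι] in
theorem pr_sub (s t : ι → ℝ) : pr (s - t) = pr s - pr t := by
  funext i
  exact AddCircle.coe_sub 1 (s i) (t i)

omit [Fintype ι] in
theorem pr_rv (z : ι → ℤ) : pr (rv z) = 0 := by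
  funext i
  exact (AddCircle.coe_eq_zero_iff 1).2 ⟨z i, by simp [rv]⟩

omit [Fintype ι] in
theorem pr_zsmul (n : ℤ) (s : ι → ℝ) : pr ((n : ℝ) • s) = n • pr s := by
  funext i
  have h := AddCircle.coe_zsmul (1 : ℝ) (n := n) (x := s i)
  rw [zsmul_eq_mul] at h
  exact h

omit [Fintype ι] in
/-- `AddCircle.coe_eq_coe_iff..` / `QuotientAddGroup.eq` coordinatewise -/
theorem pr_eq_iff (s t : ι → ℝ) : pr s = pr t ↔ ∃ z : ι → ℤ, t = s + rv z := by
  constructor
  · intro h
    have h1 : pr (t - s) = 0 := by rw [pr_sub, h, sub_self]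
    have h2 : ∀ i, ∃ n : ℤ, n • (1 : ℝ) = (t - s) i := fun i =>
      (AddCircle.coe_eq_zero_iff 1).1 (congrFun h1 i)
    choose z hz using h2
    refine ⟨z, funext fun i => ?_⟩
    have := hz i
    simp only [zsmul_eq_mul, mul_one, Pi.sub_apply] at this
    simp only [Pi.add_apply, rv, this]
    ring
  · rintro ⟨z, rfl⟩
    rw [pr_add, pr_rv, add_zero]

omit [Fintype ι] in
theorem continuous_pr : Continuous (pr : (ι → ℝ) → T ι) := by
  exact continuous_pi fun i => (AddCircle.continuous_mk' 1).comp (continuous_apply i)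

omit [Fintype ι] in
theorem exists_pr_cube (τ : T ι) : ∃ s ∈ cube ι, pr s = τ := by
  choose s hs using fun i => AddCircle.eq_coe_Ico (τ i)
  exact ⟨s, fun i _ => (hs i).1, funext fun i => (hs i).2⟩

/-- `UnitAddCircle.measurePreserving_mk` (it is stated for `Ioc`; `Ioc =ᵐ Ico`), `measurePreserving_pi`,
`Measure.restrict_pi_pi` -/
theorem mp_pr : MeasurePreserving (pr : (ι → ℝ) → T ι) (volume.restrict (cube ι)) volume := by
  have h := measurePreserving_pi (fun _ : ι => (volume : Measure ℝ).restrict (Ico (0 : ℝ) 1))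
    (fun _ : ι => (volume : Measure UnitAddCircle)) (f := fun _ x => (x : UnitAddCircle))
    fun _ => by
      have := UnitAddCircle.measurePreserving_mk 0
      rwa [zero_add, ← Measure.restrict_congr_set Ico_ae_eq_Ioc] at this
  rw [← Measure.restrict_pi_pi] at h
  exact h

namespace TorX

/-- the half-open unit cube with corner `a` -/
def box (a : ι → ℝ) : Set (ι → ℝ) := Set.pi univ fun i => Ioc (a i) (a i + 1)

theorem mp_box (a : ι → ℝ) :
    MeasurePreserving (pr : (ι → ℝ) → T ι) (volume.restrict (box a)) volume := by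
  have h := measurePreserving_pi
    (fun i : ι => (volume : Measure ℝ).restrict (Ioc (a i) (a i + 1)))
    (fun _ : ι => (volume : Measure UnitAddCircle)) (f := fun _ x => (x : UnitAddCircle))
    fun i => UnitAddCircle.measurePreserving_mk (a i)
  rw [← Measure.restrict_pi_pi] at h
  exact h

omit [Fintype ι] in
theorem injOn_box (a : ι → ℝ) : InjOn (pr : (ι → ℝ) → T ι) (box a) := by
  intro s hs t ht h
  obtain ⟨z, rfl⟩ := (pr_eq_iff _ _).1 h
  funext i
  obtain ⟨a1, a2⟩ := hs i (mem_univ i)
  obtain ⟨a3, a4⟩ := ht i (mem_univ i)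
  simp only [Pi.add_apply, rv] at a3 a4 ⊢
  have h1 : (z i : ℝ) < 1 := by linarith
  have h2 : (-1 : ℝ) < z i := by linarith
  have h3 : z i < 1 := by exact_mod_cast h1
  have h4 : -1 < z i := by exact_mod_cast h2
  have h5 : z i = 0 := by omega
  rw [h5, Int.cast_zero, add_zero]

theorem ball_subset (c : ι → ℝ) {ρ : ℝ} (hρ : ρ < 1 / 2) :
    Metric.closedBall c ρ ⊆ box fun i => c i - 1 / 2 := by
  intro x hx i _
  have h1 := (dist_le_pi_dist x c i).trans (Metric.mem_closedBall.1 hx)
  rw [Real.dist_eq, abs_le] at h1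
  constructor <;> linarith [h1.1, h1.2]

end TorX

/-- `pr` is injective on the translate `cube - 1/2`; use `mp_pr`, translation invariance on both sides;
`pr '' A` is measurable (`MeasurableSet.image_of_continuousOn_injOn`) -/
theorem vol_pr_small {A : Set (ι → ℝ)} {c : ι → ℝ} {ρ : ℝ} (hρ : ρ < 1 / 2) (hA : MeasurableSet A)
    (h : A ⊆ Metric.closedBall c ρ) : MeasurableSet (pr '' A) ∧ volume (pr '' A) = volume A := by
  have hA' := h.trans (TorX.ball_subset c hρ)
  have hinj := TorX.injOn_box (fun i => c i - 1 / 2)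
  have hm : MeasurableSet (pr '' A) :=
    hA.image_of_continuousOn_injOn continuous_pr.continuousOn (hinj.mono hA')
  refine ⟨hm, ?_⟩
  rw [← (TorX.mp_box fun i => c i - 1 / 2).measure_preimage hm.nullMeasurableSet,
    Measure.restrict_apply (continuous_pr.measurable hm),
    hinj.preimage_image_inter hA']

/-- for a measurable set `I` of the torus, its lifts to a small ball have the measure at most `vol I` -/
theorem vol_lift_le {I : Set (T ι)} {c : ι → ℝ} {ρ : ℝ} (hρ : ρ < 1 / 2) (hI : MeasurableSet I) :
    volume (pr ⁻¹' I ∩ Metric.closedBall c ρ) ≤ volume I := by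
  rw [← (TorX.mp_box fun i => c i - 1 / 2).measure_preimage hI.nullMeasurableSet,
    Measure.restrict_apply (continuous_pr.measurable hI)]
  exact measure_mono (inter_subset_inter_right _ (TorX.ball_subset c hρ))

/-- `{s | g s ∈ S}` is the image of `S` under `g⁻¹` -/
theorem isCompact_cov [DecidableEq ι] {g : Matrix ι ι ℝ} (hg : g.det ≠ 0) {S : Set (ι → ℝ)}
    (hS : IsCompact S) : IsCompact (cov g S) := by
  have hu : IsUnit g.det := isUnit_iff_ne_zero.2 hg
  have h : {s | g *ᵥ s ∈ S} = (fun x => g⁻¹ *ᵥ x) '' S := by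
    ext s
    constructor
    · intro hs
      exact ⟨g *ᵥ s, hs, by simp only [Matrix.mulVec_mulVec, Matrix.nonsing_inv_mul g hu,
        Matrix.one_mulVec]⟩
    · rintro ⟨x, hx, rfl⟩
      simpa only [mem_ofPred_eq, Matrix.mulVec_mulVec, Matrix.mul_nonsing_inv g hu,
        Matrix.one_mulVec] using hx
  unfold cov
  rw [h]
  exact (hS.image (continuous_const.matrix_mulVec continuous_id)).image continuous_pr

theorem cov_mono (g : Matrix ι ι ℝ) {S S' : Set (ι → ℝ)} (h : S ⊆ S') : cov g S ⊆ cov g S' := by
  exact image_mono fun _ hs => h hs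

/-- `(N • ·)` preserves the Haar measure (`measurePreserving_zsmul`, or a surjective continuous hom
`AddMonoidHom.measurePreserving`); the preimage of `N • A` is the union of the `N ^ card` translates of
`A` by the `N`-torsion points `pr (j / N)`, `j : ι → Fin N` -/
theorem vol_nsmul_le {A : Set (T ι)} (hA : IsCompact A) {N : ℕ} (hN : 0 < N) :
    volume ((fun x => N • x) '' A) ≤ (N : ℝ≥0∞) ^ Fintype.card ι * volume A := by
  classical
  have hN' : (N : ℝ) ≠ 0 := by exact_mod_cast hN.ne'
  have hmp : MeasurePreserving (fun x : T ι => N • x) volume volume := by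
    have h := measurePreserving_pi (fun _ : ι => (volume : Measure UnitAddCircle))
      (fun _ : ι => (volume : Measure UnitAddCircle)) (f := fun _ x => (N : ℤ) • x)
      fun _ => Measure.measurePreserving_zsmul volume (by exact_mod_cast hN.ne')
    have e : (fun x : T ι => N • x) = fun (a : T ι) i => (N : ℤ) • a i := by
      funext a i
      rw [Pi.smul_apply, natCast_zsmul]
    rw [e]
    exact h
  have hc : IsCompact ((fun x : T ι => N • x) '' A) := hA.image (continuous_nsmul N)
  rw [← hmp.measure_preimage hc.measurableSet.nullMeasurableSet]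
  have hsub : (fun x : T ι => N • x) ⁻¹' ((fun x : T ι => N • x) '' A) ⊆
      ⋃ j : ι → Fin N, (fun x => x + -pr fun i => (j i : ℝ) / N) ⁻¹' A := by
    rintro x ⟨y, hy, hxy⟩
    obtain ⟨s, hs, hs'⟩ := exists_pr_cube (x - y)
    have h1 : pr (0 : ι → ℝ) = pr (((N : ℤ) : ℝ) • s) := by
      rw [pr_zsmul, hs', natCast_zsmul, smul_sub]
      simp only at hxy
      rw [hxy, sub_self]
      funext i
      exact AddCircle.coe_zero 1
    obtain ⟨z, hz⟩ := (pr_eq_iff _ _).1 h1
    have h2 : ∀ i, (z i : ℝ) = N * s i := fun i => by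
      have := congrFun hz i
      simp only [Pi.smul_apply, smul_eq_mul, Int.cast_natCast, zero_add, rv] at this
      exact this.symm
    have hNp : (0 : ℝ) < N := by exact_mod_cast hN
    have h3 : ∀ i, 0 ≤ z i ∧ z i < N := fun i => by
      obtain ⟨a1, a2⟩ := hs i (mem_univ i)
      constructor
      · have : (0 : ℝ) ≤ z i := by rw [h2]; positivity
        exact_mod_cast this
      · have : (z i : ℝ) < N := by rw [h2]; nlinarith
        exact_mod_cast this
    refine mem_iUnion.2 ⟨fun i => ⟨(z i).toNat, by have := h3 i; omega⟩, ?_⟩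
    have h4 : (fun i => (((z i).toNat : ℕ) : ℝ) / N) = s := by
      funext i
      have h5 : (((z i).toNat : ℕ) : ℝ) = z i := by
        exact_mod_cast Int.toNat_of_nonneg (h3 i).1
      rw [h5, h2]
      field_simp
    simp only [mem_preimage]
    rw [h4, hs']
    simpa using hy
  refine (measure_mono hsub).trans ((measure_iUnion_fintype_le _ _).trans (le_of_eq ?_))
  simp only [measure_preimage_add_right, Finset.sum_const, Finset.card_univ, Fintype.card_pi,
    Fintype.card_fin, Finset.prod_const, nsmul_eq_mul, Nat.cast_pow]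

theorem sec_compact {κ l : Type} [Fintype κ] [Fintype l] {S : Set (κ ⊕ l → ℝ)} (hS : IsCompact S)
    (y : κ → ℝ) : IsCompact (sec S y) := by
  have hc : Continuous fun w : l → ℝ => (Sum.elim y w : κ ⊕ l → ℝ) := by
    refine continuous_pi fun i => ?_
    rcases i with i | i
    · exact continuous_const
    · exact continuous_apply i
  have hc' : Continuous fun (x : κ ⊕ l → ℝ) (i : l) => x (Sum.inr i) :=
    continuous_pi fun i => continuous_apply _
  refine (hS.image hc').of_isClosed_subset (hS.isClosed.preimage hc) fun w hw => ?_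
  exact ⟨Sum.elim y w, hw, rfl⟩

/-- Fubini: `volume_measurePreserving_sumPiEquivProdPi` -/
theorem vol_eq_lintegral_sec {κ l : Type} [Fintype κ] [Fintype l] {S : Set (κ ⊕ l → ℝ)}
    (hS : MeasurableSet S) :
    Measurable (fun y => volume (sec S y)) ∧ volume S = ∫⁻ y, volume (sec S y) := by
  have h := volume_measurePreserving_sumPiEquivProdPi_symm (fun _ : κ ⊕ l => ℝ)
  have hm := h.measurable hS
  have e : ∀ y : κ → ℝ, Prod.mk y ⁻¹'
      ((MeasurableEquiv.sumPiEquivProdPi fun _ : κ ⊕ l => ℝ).symm ⁻¹' S) = sec S y := by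
    intro y
    ext w
    have : (MeasurableEquiv.sumPiEquivProdPi fun _ : κ ⊕ l => ℝ).symm (y, w) = Sum.elim y w := by
      funext i
      rcases i with i | i <;> rfl
    simp only [mem_preimage, this, sec, mem_ofPred_eq]
  constructor
  · have h1 := measurable_measure_prodMk_left (ν := (volume : Measure (l → ℝ))) hm
    simpa only [e] using h1
  · rw [← h.measure_preimage hS.nullMeasurableSet, Measure.volume_eq_prod, Measure.prod_apply hm]
    simp only [e]

end Crest.Agent.R225
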