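import Crest.Agent.R225.Iso
import Crest.Agent.R225.Tor
import Crest.Agent.R225.Cell

set_option autoImplicit false

open MeasureTheory Set
open scoped ENNReal NNReal Matrix

namespace Crest.Agent.R225

/-- a point is in every convex set that meets all the closed orthants around it (induction on the number of
coordinates, or separate `y` from the compact convex hull of the `q ε`: `geometric_hahn_banach_point_closed`) -/
theorem mem_of_orthants {κ : Type} [Fintype κ] {C : Set (κ → ℝ)} (hC : Convex ℝ C) (y : κ → ℝ)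
    (h : ∀ ε : κ → Bool, ∃ q ∈ C, ∀ i, if ε i then y i ≤ q i else q i ≤ y i) : y ∈ C := by
  classical
  have key : ∀ S : Finset κ, ∀ ε : κ → Bool, ∃ q ∈ C, (∀ i ∈ S, q i = y i) ∧
      ∀ i, if ε i then y i ≤ q i else q i ≤ y i := by
    intro S
    induction S using Finset.induction_on with
    | empty =>
      intro ε
      obtain ⟨q, hq, h'⟩ := h ε
      exact ⟨q, hq, by simp, h'⟩
    | insert j S hj ih =>
      intro ε
      obtain ⟨p, hp, hp1, hp2⟩ := ih (Function.update ε j true)
      obtain ⟨q, hq, hq1, hq2⟩ := ih (Function.update ε j false)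
      have hpj : y j ≤ p j := by simpa using hp2 j
      have hqj : q j ≤ y j := by simpa using hq2 j
      obtain ⟨a, b, ha, hb, hab, e⟩ : y j ∈ segment ℝ (q j) (p j) := by
        rw [segment_eq_Icc (hqj.trans hpj)]; exact ⟨hqj, hpj⟩
      have ej : (a • q + b • p) j = y j := by simpa using e
      have hy : ∀ i, a * y i + b * y i = y i := fun i => by rw [← add_mul, hab, one_mul]
      refine ⟨a • q + b • p, hC hq hp ha hb hab, ?_, ?_⟩
      · intro i hi
        rcases Finset.mem_insert.1 hi with rfl | hi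
        · exact ej
        · simp only [Pi.add_apply, Pi.smul_apply, smul_eq_mul, hp1 i hi, hq1 i hi, hy]
      · intro i
        by_cases hij : i = j
        · subst hij
          rw [ej]; split_ifs <;> exact le_rfl
        · have h1 := hp2 i
          have h2 := hq2 i
          rw [Function.update_of_ne hij] at h1 h2
          simp only [Pi.add_apply, Pi.smul_apply, smul_eq_mul]
          have := hy i
          split_ifs at h1 h2 ⊢
          · nlinarith [mul_le_mul_of_nonneg_left h1 hb, mul_le_mul_of_nonneg_left h2 ha]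
          · nlinarith [mul_le_mul_of_nonneg_left h1 hb, mul_le_mul_of_nonneg_left h2 ha]
  obtain ⟨q, hq, h1, -⟩ := key Finset.univ fun _ => true
  have : q = y := funext fun i => h1 i (Finset.mem_univ i)
  exact this ▸ hq

theorem PtX.sec_meas {κ l : Type} [Fintype κ] [Fintype l] {S : Set (κ ⊕ l → ℝ)}
    (hS : MeasurableSet S) (y : κ → ℝ) : MeasurableSet (sec S y) := by
  have : Measurable fun w : l → ℝ => (Sum.elim y w : κ ⊕ l → ℝ) := by
    refine measurable_pi_lambda _ fun i => ?_
    cases i with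
    | inl i => exact measurable_const
    | inr i => exact measurable_pi_apply i
  exact this hS

/-- Brunn: superlevel sets of the section volume are convex (`HasPL.measure_le` with weights `a, b`,
`hasPL_haar`; `λ^a λ^b = λ`) -/
theorem convex_superlevel {κ l : Type} [Fintype κ] [Fintype l] {K : Set (κ ⊕ l → ℝ)} (h : Body K)
    {c : ℝ≥0∞} (hc : c ≠ 0) : Convex ℝ {y : κ → ℝ | c ≤ volume (sec K y)} := by
  refine convex_iff_forall_pos.2 fun x hx y hy a b ha hb hab => ?_
  have hK : MeasurableSet K := h.cpt.measurableSet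
  have h1 := (Crest.Agent.Lib.BM.hasPL_haar ha hb hab (volume : Measure (l → ℝ))).measure_le ha hb
    (PtX.sec_meas hK x) (PtX.sec_meas hK y) (PtX.sec_meas hK (a • x + b • y)) (by
      intro u hu v hv
      have := h.cvx hu hv ha.le hb.le hab
      have e : a • Sum.elim x u + b • Sum.elim y v = Sum.elim (a • x + b • y) (a • u + b • v) := by
        funext i; cases i <;> simp
      rw [e] at this
      exact this)
  refine le_trans ?_ h1
  calc c = c ^ a * c ^ b := by
        rw [← ENNReal.rpow_add_of_nonneg _ _ ha.le hb.le, hab, ENNReal.rpow_one]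
    _ ≤ _ := mul_le_mul' (ENNReal.rpow_le_rpow hx ha.le) (ENNReal.rpow_le_rpow hy hb.le)

/-- **pointwise bound.**  For `y` and `ε` take the grid box with `a i = ⌈y i / s⌉` or `⌊y i / s⌋ - 1`; it lies in the
orthant and within `2s` of `y`, so `cw s (a i) ≥ s gau (|y i| + 2s) ≥ s gau (y i) e^{-2 s (R+1)}`
(`cw_ge`, `gau_le_mul`); the product of the losses is `≥ e^{-2}`, `e^{-2}/12 > 1/100`.  The mass of the box is
`∫_{box} vol (sec K q) dq / vol K` (`vol_eq_lintegral_sec`), so some `q` in the box has
`vol (sec K q) ≥ (1/100) ∏ gau (y i) * vol K`.  Then `mem_of_orthants`, `convex_superlevel`. -/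
theorem marg_of_boxes {k : ℕ} (hk : 1 ≤ k) {l : Type} [Fintype l] {K : Set (Fin k ⊕ l → ℝ)} (h : Body K)
    {R : ℝ} (hR : 1 ≤ R)
    (hb : ∀ a : Fin k → ℤ, (∀ i, |(a i : ℝ) * (1 / (k * (R + 2)))| ≤ R + 2) →
      (1 / 12) * ∏ i, cw (1 / (k * (R + 2))) (a i) ≤
        (un K {x | ∀ i, x (Sum.inl i) ∈
          Icc ((a i : ℝ) * (1 / (k * (R + 2)))) (((a i : ℝ) + 1) * (1 / (k * (R + 2))))}).toReal) :
    Marg K R := by
  intro y hy
  have hK : MeasurableSet K := h.cpt.measurableSet
  obtain ⟨hv0, hvt⟩ := h.vol_pos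
  have hk' : (1 : ℝ) ≤ k := by exact_mod_cast hk
  set s : ℝ := 1 / (k * (R + 2)) with hs
  have hden : (3 : ℝ) ≤ k * (R + 2) := by nlinarith
  have hs0 : 0 < s := by rw [hs]; positivity
  have hs3 : s ≤ 1 / 3 := by rw [hs]; exact one_div_le_one_div_of_le (by norm_num) hden
  have hsk : s * (k * (R + 2)) = 1 := by rw [hs]; field_simp
  have hg0 : 0 < ∏ i, gau (y i) := Finset.prod_pos fun i _ => gau_pos _
  set c : ℝ≥0∞ := ENNReal.ofReal ((1 / 100) * ∏ i, gau (y i)) * volume K with hc
  have hc0 : c ≠ 0 := mul_ne_zero (by simpa using hg0) hv0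
  refine mem_of_orthants (convex_superlevel h hc0) y fun ε => ?_
  let a : Fin k → ℤ := fun i => if ε i then ⌈y i / s⌉ else ⌊y i / s⌋ - 1
  have ha : ∀ i, y i - 2 * s ≤ (a i : ℝ) * s ∧ ((a i : ℝ) + 1) * s ≤ y i + 2 * s ∧
      (if ε i then y i ≤ (a i : ℝ) * s else ((a i : ℝ) + 1) * s ≤ y i) := fun i => by
    have e : y i = y i / s * s := by field_simp
    have c1 := mul_le_mul_of_nonneg_right (Int.le_ceil (y i / s)) hs0.le
    have c2 := mul_le_mul_of_nonneg_right (Int.ceil_lt_add_one (y i / s)).le hs0.le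
    have f1 := mul_le_mul_of_nonneg_right (Int.floor_le (y i / s)) hs0.le
    have f2 := mul_le_mul_of_nonneg_right (Int.lt_floor_add_one (y i / s)).le hs0.le
    by_cases hε : ε i
    · simp only [a, hε, if_true]
      refine ⟨by linarith, by linarith, by linarith⟩
    · simp only [a, hε, if_false, Bool.false_eq_true]
      push_cast
      refine ⟨by linarith, by linarith, by linarith⟩
  have hM1 : ∀ i, |(a i : ℝ) * s| ≤ |y i| + 2 * s := fun i => by
    have := ha i
    have := le_abs_self (y i)
    have := neg_abs_le (y i)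
    rw [abs_le]; constructor <;> nlinarith
  have hM2 : ∀ i, |((a i : ℝ) + 1) * s| ≤ |y i| + 2 * s := fun i => by
    have := ha i
    have := le_abs_self (y i)
    have := neg_abs_le (y i)
    rw [abs_le]; constructor <;> nlinarith
  have hbox := hb a fun i => (hM1 i).trans (by linarith [hy i])
  -- lower bound for the cells
  have hcw : ∀ i, s * gau (y i) ≤ Real.exp (2 * s * (R + 1)) * cw s (a i) := fun i => by
    have h1 := cw_ge hs0.le (hM1 i) (hM2 i)
    have h2 : gau (y i) ≤ gau |y i| := gau_anti (by rw [abs_abs])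
    have h3 : gau |y i| ≤ Real.exp (2 * s * (R + 1)) * gau (|y i| + 2 * s) := by
      refine gau_le_mul ?_ ?_
      · rw [abs_le]; constructor <;> linarith
      · rw [abs_of_nonneg (by positivity)]; linarith [hy i]
    have h4 := Real.exp_pos (2 * s * (R + 1))
    nlinarith [mul_le_mul_of_nonneg_left h1 h4.le, mul_le_mul_of_nonneg_left (h2.trans h3) hs0.le]
  have hcw0 : ∀ i, 0 < cw s (a i) := fun i =>
    lt_of_lt_of_le (mul_pos hs0 (gau_pos _)) (cw_ge hs0.le (hM1 i) (hM2 i))
  have hP0 : 0 < ∏ i, cw s (a i) := Finset.prod_pos fun i _ => hcw0 i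
  have hprod : s ^ k * ∏ i, gau (y i) ≤ 8 * ∏ i, cw s (a i) := by
    have h1 : ∏ i, s * gau (y i) ≤ ∏ i, Real.exp (2 * s * (R + 1)) * cw s (a i) :=
      Finset.prod_le_prod (fun i _ => (mul_pos hs0 (gau_pos _)).le) fun i _ => hcw i
    rw [Finset.prod_mul_distrib, Finset.prod_mul_distrib, Finset.prod_const, Finset.prod_const,
      Finset.card_univ, Fintype.card_fin, ← Real.exp_nat_mul] at h1
    have h2 : Real.exp (k * (2 * s * (R + 1))) ≤ 8 := by
      have h3 : (k : ℝ) * (2 * s * (R + 1)) ≤ 2 := by nlinarith [mul_pos hs0 (by linarith : (0 : ℝ) < k)]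
      have h4 : Real.exp 2 ≤ 8 := by
        have := Real.exp_one_lt_d9
        have e : Real.exp 2 = Real.exp 1 * Real.exp 1 := by rw [← Real.exp_add]; norm_num
        have := Real.exp_pos 1
        rw [e]; nlinarith
      exact (Real.exp_le_exp.2 h3).trans h4
    exact h1.trans (mul_le_mul_of_nonneg_right h2 hP0.le)
  -- some point of the box has a large section
  by_contra hne
  push Not at hne
  let B : Set (Fin k → ℝ) := Set.pi univ fun i => Icc ((a i : ℝ) * s) (((a i : ℝ) + 1) * s)
  have hBm : MeasurableSet B := MeasurableSet.univ_pi fun i => measurableSet_Icc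
  have hBv : volume B = ENNReal.ofReal (s ^ k) := by
    have : ∀ i, ((a i : ℝ) + 1) * s - (a i : ℝ) * s = s := fun i => by ring
    simp only [B, volume_pi_pi, Real.volume_Icc, this, Finset.prod_const, Finset.card_univ,
      Fintype.card_fin]
    rw [ENNReal.ofReal_pow hs0.le]
  have hlt : ∀ q ∈ B, volume (sec K q) ≤ c := fun q hq => by
    by_contra hcon
    obtain ⟨i, hi⟩ := hne q (not_le.1 hcon).le
    have h1 := hq i (mem_univ i)
    have h2 := (ha i).2.2
    by_cases hε : ε i
    · simp only [hε, if_true] at hi h2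
      exact hi (h2.trans h1.1)
    · simp only [hε, if_false, Bool.false_eq_true] at hi h2
      exact hi (h1.2.trans h2)
  let Z : Set (Fin k ⊕ l → ℝ) := {x | ∀ i, x (Sum.inl i) ∈
    Icc ((a i : ℝ) * s) (((a i : ℝ) + 1) * s)}
  have hZm : MeasurableSet Z := by
    have : Z = ⋂ i, (fun x : Fin k ⊕ l → ℝ => x (Sum.inl i)) ⁻¹'
        Icc ((a i : ℝ) * s) (((a i : ℝ) + 1) * s) := by ext x; simp [Z]
    rw [this]
    exact MeasurableSet.iInter fun i => measurable_pi_apply _ measurableSet_Icc
  have hKZ : volume (K ∩ Z) ≤ c * ENNReal.ofReal (s ^ k) := by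
    rw [(vol_eq_lintegral_sec (hK.inter hZm)).2, ← hBv, ← lintegral_indicator_const hBm]
    refine lintegral_mono fun q => ?_
    by_cases hq : q ∈ B
    · rw [indicator_of_mem hq]
      exact (measure_mono fun w hw => hw.1).trans (hlt q hq)
    · rw [indicator_of_notMem hq]
      have : sec (K ∩ Z) q = ∅ := by
        ext w
        simp only [mem_empty_iff_false, iff_false]
        exact fun hw => hq fun i _ => hw.2 i
      rw [this, measure_empty]
  have hun : un K Z ≤ ENNReal.ofReal ((1 / 100) * (∏ i, gau (y i)) * s ^ k) := by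
    unfold un
    rw [ProbabilityTheory.cond_apply hK, ENNReal.ofReal_mul (by positivity)]
    calc (volume K)⁻¹ * volume (K ∩ Z) ≤ (volume K)⁻¹ * (c * ENNReal.ofReal (s ^ k)) := by gcongr
      _ = ((volume K)⁻¹ * volume K) * (ENNReal.ofReal ((1 / 100) * ∏ i, gau (y i)) *
            ENNReal.ofReal (s ^ k)) := by rw [hc]; ring
      _ = _ := by rw [ENNReal.inv_mul_cancel hv0 hvt, one_mul]
  have hun' : (un K Z).toReal ≤ (1 / 100) * (∏ i, gau (y i)) * s ^ k :=
    ENNReal.toReal_le_of_le_ofReal (by positivity) hun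
  have : (1 / 12) * ∏ i, cw s (a i) ≤ (un K Z).toReal := hbox
  nlinarith

end Crest.Agent.R225
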