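import Crest.Agent.R225.Marg
import Crest.Agent.R225.Pt

set_option autoImplicit false

open MeasureTheory Set
open scoped ENNReal NNReal Matrix

namespace Crest.Agent.R225

/-- complete a surjective `G` to an equivalence (`LinearMap.exists_rightInverse_of_surjective`,
`LinearMap.equivProdOfSurjectiveOfIsCompl` or `finrank` of the kernel + `LinearEquiv.ofFinrankEq`,
`LinearEquiv.sumArrowLequivProdArrow`) -/
theorem exists_psi {k n : ℕ} {l : Type} [Fintype l] (hl : k + Fintype.card l = n)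
    (G : Fin k → Fin n → ℝ) (hG : ∀ y : Fin k → ℝ, ∃ x, ∀ i, G i ⬝ᵥ x = y i) :
    ∃ Ψ : (Fin n → ℝ) ≃ₗ[ℝ] (Fin k ⊕ l → ℝ), ∀ x i, Ψ x (Sum.inl i) = G i ⬝ᵥ x := by
  let g : (Fin n → ℝ) →ₗ[ℝ] (Fin k → ℝ) := (Matrix.of G).mulVecLin
  have hg : LinearMap.range g = ⊤ := LinearMap.range_eq_top.2 fun y =>
    (hG y).imp fun x hx => funext hx
  have hk := g.finrank_range_add_finrank_ker
  rw [hg, finrank_top, Module.finrank_fin_fun, Module.finrank_fin_fun] at hk
  let e : LinearMap.ker g ≃ₗ[ℝ] (l → ℝ) := LinearEquiv.ofFinrankEq _ _ (by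
    rw [Module.finrank_fintype_fun_eq_card]; omega)
  obtain ⟨π, hπ⟩ := (LinearMap.ker g).subtype.exists_leftInverse_of_injective
    (Submodule.ker_subtype _)
  let Φ : (Fin n → ℝ) →ₗ[ℝ] (Fin k → ℝ) × (l → ℝ) := g.prod (e.toLinearMap ∘ₗ π)
  have hΦ : Function.Injective Φ := by
    rw [injective_iff_map_eq_zero]
    intro x hx
    have h1 : g x = 0 := congrArg Prod.fst hx
    have h2 : e (π x) = 0 := congrArg Prod.snd hx
    have h3 : π x = ⟨x, h1⟩ := LinearMap.congr_fun hπ ⟨x, h1⟩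
    rw [h3, e.map_eq_zero_iff] at h2
    exact congrArg Subtype.val h2
  refine ⟨(Φ.linearEquivOfInjective hΦ ?_).trans
    (LinearEquiv.sumArrowLequivProdArrow _ _ ℝ ℝ).symm, fun x i => rfl⟩
  rw [Module.finrank_prod, Module.finrank_fin_fun, Module.finrank_fin_fun,
    Module.finrank_fintype_fun_eq_card, hl]

/-- shear.  Pick `P_i^± ∈ K` over `± e_i` (sections over `± e_i` have positive volume by `Marg`, `R ≥ 1`),
`ω_i = ` half the difference of their `l`-parts, `Sh (y, w) = (y, w - ∑ y_i ω_i)`.  Sections are translated, so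
`Marg` persists (`vol_eq_lintegral_sec`).  With `c₀` the average of the `2k` points `Sh P_i^±`,
`c₀ ± (e_i, 0)/k ∈ Sh K`, so `c₀ + (u, 0) ∈ Sh K` for `‖u‖ ≤ 1/k²` (convexity, `∑ |u_i| ≤ 1/k`);
`c = (c₀ + p)/2` with `p` an interior point gives `Box` with `1/(2k²)`. -/
theorem exists_shear {k : ℕ} (hk : 1 ≤ k) {l : Type} [Fintype l] {K : Set (Fin k ⊕ l → ℝ)} (h : Body K)
    {R : ℝ} (hR : 1 ≤ R) (hm : Marg K R) :
    ∃ (Ψ : (Fin k ⊕ l → ℝ) ≃ₗ[ℝ] (Fin k ⊕ l → ℝ)) (c : Fin k ⊕ l → ℝ),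
      Marg (Ψ '' K) R ∧ Box (Ψ '' K) (1 / (2 * k ^ 2)) c := by
  classical
  have hP : ∀ (i : Fin k) (t : ℝ), |t| ≤ 1 → ∃ w, Sum.elim (Pi.single i t) w ∈ K := fun i t ht => by
    refine nonempty_of_measure_ne_zero (μ := volume) (s := sec K (Pi.single i t))
      (ne_of_gt (lt_of_lt_of_le (pos_iff_ne_zero.2 (mul_ne_zero ?_ h.vol_pos.1)) (hm _ fun j => ?_)))
    · rw [ne_eq, ENNReal.ofReal_eq_zero, not_le]
      exact mul_pos (by norm_num) (Finset.prod_pos fun j _ => gau_pos _)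
    · rw [Pi.single_apply]
      split_ifs
      · exact ht.trans hR
      · rw [abs_zero]; linarith
  choose wp hp using fun i => hP i 1 (by simp)
  choose wm hm' using fun i => hP i (-1) (by simp)
  let S : (Fin k → ℝ) →ₗ[ℝ] (l → ℝ) :=
    Fintype.linearCombination ℝ fun i => (1 / 2 : ℝ) • (wp i - wm i)
  have hS : ∀ i t, S (Pi.single i t) = t • (1 / 2 : ℝ) • (wp i - wm i) := fun i t =>
    Fintype.linearCombination_apply_single _ _ _ _
  let Ψ : (Fin k ⊕ l → ℝ) ≃ₗ[ℝ] (Fin k ⊕ l → ℝ) :=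
    (LinearEquiv.sumArrowLequivProdArrow _ _ ℝ ℝ).trans
      (((LinearEquiv.refl ℝ _).skewProd (LinearEquiv.refl ℝ _) S).trans
        (LinearEquiv.sumArrowLequivProdArrow _ _ ℝ ℝ).symm)
  have hΨ : ∀ y w, Sum.elim y w ∈ Ψ.symm '' K ↔ Sum.elim y (w + S y) ∈ K := fun y w => by
    rw [Ψ.image_symm_eq_preimage]
    rfl
  have h' := h.image Ψ.symm
  have hsec : ∀ y, volume (sec (Ψ.symm '' K) y) = volume (sec K y) := fun y => by
    rw [← measure_preimage_add_right volume (S y) (sec K y)]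
    congr 1
    exact Set.ext fun w => hΨ y w
  have hvol : volume (Ψ.symm '' K) = volume K := by
    rw [(vol_eq_lintegral_sec h'.cpt.measurableSet).2, (vol_eq_lintegral_sec h.cpt.measurableSet).2]
    simp only [hsec]
  generalize Ψ.symm = Φ at hΨ h' hsec hvol
  have hseg : ∀ (i : Fin k) (t : ℝ), |t| ≤ 1 →
      Sum.elim (Pi.single i t) ((1 / 2 : ℝ) • (wp i + wm i)) ∈ Φ '' K := fun i t ht => by
    obtain ⟨h1, h2⟩ := abs_le.1 ht
    rw [hΨ, hS]
    convert h.cvx (hp i) (hm' i) (a := (1 + t) / 2) (b := (1 - t) / 2) (by linarith) (by linarith)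
      (by ring) using 1
    funext j
    rcases j with j | j
    · simp only [Sum.elim_inl, Pi.add_apply, Pi.smul_apply, Pi.single_apply, smul_eq_mul]
      split_ifs <;> ring
    · simp only [Sum.elim_inr, Pi.add_apply, Pi.smul_apply, Pi.sub_apply, smul_eq_mul]
      ring
  have hk' : (1 : ℝ) ≤ k := by exact_mod_cast hk
  obtain ⟨m, hm0⟩ : ∃ m : l → ℝ, ∀ u : Fin k → ℝ, (∀ i, |k * u i| ≤ 1) → Sum.elim u m ∈ Φ '' K := by
    refine ⟨∑ i, (k : ℝ)⁻¹ • (1 / 2 : ℝ) • (wp i + wm i), fun u hu => ?_⟩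
    convert h'.cvx.sum_mem (t := Finset.univ) (w := fun _ : Fin k => (k : ℝ)⁻¹)
      (fun _ _ => by positivity) (by simp; field_simp) fun i _ => hseg i _ (hu i) using 1
    funext j
    rcases j with j | j
    · simp only [Sum.elim_inl, Finset.sum_apply, Pi.smul_apply, Pi.single_apply, smul_eq_mul,
        mul_ite, mul_zero, Finset.sum_ite_eq, Finset.mem_univ, if_true]
      field_simp
    · simp only [Sum.elim_inr, Finset.sum_apply, Pi.smul_apply]
  obtain ⟨p, hp'⟩ := h'.int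
  obtain ⟨r, hr, hb⟩ := Metric.mem_nhds_iff.1 (mem_interior_iff_mem_nhds.1 hp')
  refine ⟨Φ, (1 / 2 : ℝ) • (Sum.elim (fun _ => 0) m + p), fun y hy => by rw [hsec, hvol]; exact hm y hy,
    r / 4, by positivity, fun u w hu hw => ?_⟩
  have a1 := hm0 ((2 : ℝ) • u) fun i => by
    have h1 : |u i| ≤ 1 / (2 * k ^ 2) := (norm_le_pi_norm u i).trans hu
    rw [le_div_iff₀ (by positivity)] at h1
    rw [Pi.smul_apply, smul_eq_mul, abs_mul, abs_mul, abs_of_pos (by linarith), abs_two]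
    nlinarith [mul_nonneg (abs_nonneg (u i)) (show 0 ≤ (k : ℝ) * (k - 1) by
      exact mul_nonneg (by linarith) (by linarith))]
  have a2 : p + Sum.elim (fun _ => 0) ((2 : ℝ) • w) ∈ Φ '' K := hb (by
    rw [mem_ball_iff_norm, add_sub_cancel_left, pi_norm_lt_iff hr]
    rintro (j | j)
    · simpa using hr
    · have h1 := (norm_le_pi_norm w j).trans hw
      rw [Sum.elim_inr, Pi.smul_apply, norm_smul, Real.norm_two]
      linarith)
  convert h'.cvx a1 a2 (a := 1 / 2) (b := 1 / 2) (by norm_num) (by norm_num) (by norm_num) using 1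
  funext j
  rcases j with j | j <;> simp <;> ring

/-- **good position.**  `exists_iso`, `good_matrix`; the range of `G` is a subspace (convex) meeting the boxes
`a i ∈ {1, -2}`-type in every orthant around any small point, so by `mem_of_orthants` it contains the points
`± s e_i`, hence everything (boxes have positive mass, `cw_ge`); `exists_psi`, `un_image`, `marg_of_boxes`,
`exists_shear`; compose the three equivalences. -/
theorem good_position {k n : ℕ} (hk : 1 ≤ k) {l : Type} [Fintype l] (hl : k + Fintype.card l = n)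
    {M R : ℝ} (hkM : (k : ℝ) ≤ M) (hR : 1 ≤ R) (hRM : R ≤ M)
    (hM : (10 : ℝ) ^ 20 * M ^ 5 ≤ Real.log n) {K : Set (Fin n → ℝ)} (h : Body K) :
    ∃ (Ψ : (Fin n → ℝ) ≃ₗ[ℝ] (Fin k ⊕ l → ℝ)) (c : Fin k ⊕ l → ℝ),
      Marg (Ψ '' K) R ∧ Box (Ψ '' K) (1 / (2 * k ^ 2)) c := by
  obtain ⟨Ψ₁, h1⟩ := exists_iso h
  have b1 := h.image Ψ₁
  obtain ⟨G, hG⟩ := good_matrix hk hkM hR hRM hM b1 h1
  have hk' : (1 : ℝ) ≤ k := by exact_mod_cast hk
  have hs0 : 0 < 1 / (k * (R + 2)) := by positivity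
  have hs1 : 1 / (k * (R + 2)) ≤ 1 / 3 := one_div_le_one_div_of_le (by norm_num) (by nlinarith)
  have hsurj : ∀ y : Fin k → ℝ, ∃ x, ∀ i, G i ⬝ᵥ x = y i := by
    generalize 1 / (k * (R + 2)) = s at hG hs0 hs1
    have key : ∀ y : Fin k → ℝ, ‖y‖ ≤ s → y ∈ LinearMap.range (Matrix.of G).mulVecLin := by
      intro y hy
      refine mem_of_orthants (Submodule.convex _) y fun ε => ?_
      have ha : ∀ i, |((if ε i then 1 else -2 : ℤ) : ℝ) * s| ≤ 1 ∧
          |(((if ε i then 1 else -2 : ℤ) : ℝ) + 1) * s| ≤ 1 := fun i => by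
        rw [abs_le, abs_le]
        split_ifs <;> push_cast <;> refine ⟨⟨?_, ?_⟩, ?_, ?_⟩ <;> linarith
      have h2 := hG (fun i => if ε i then 1 else -2) fun i => by linarith [(ha i).1]
      have h3 := (mul_pos (by norm_num) (Finset.prod_pos fun i _ =>
        (mul_pos hs0 (gau_pos 1)).trans_le (cw_ge hs0.le (ha i).1 (ha i).2))).trans_le h2
      obtain ⟨x, hx⟩ := nonempty_of_measure_ne_zero (ENNReal.toReal_pos_iff.1 h3).1.ne'
      refine ⟨_, ⟨x, rfl⟩, fun i => ?_⟩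
      have h4 := abs_le.1 ((norm_le_pi_norm y i).trans hy)
      have h5 := hx i
      change if ε i then y i ≤ G i ⬝ᵥ x else G i ⬝ᵥ x ≤ y i
      split_ifs at h5 ⊢
      · have := h5.1
        push_cast at this
        linarith
      · have := h5.2
        push_cast at this
        linarith
    intro y
    have hy : 0 < ‖y‖ + 1 := by positivity
    obtain ⟨x, hx⟩ := Submodule.smul_mem _ ((‖y‖ + 1) / s) (key ((s / (‖y‖ + 1)) • y) (by
      rw [norm_smul, Real.norm_of_nonneg (by positivity), div_mul_eq_mul_div, div_le_iff₀ hy]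
      nlinarith))
    rw [smul_smul, show (‖y‖ + 1) / s * (s / (‖y‖ + 1)) = 1 by field_simp, one_smul] at hx
    exact ⟨x, congrFun hx⟩
  obtain ⟨Ψ₂, h2⟩ := exists_psi hl G hsurj
  have b2 := b1.image Ψ₂
  obtain ⟨Ψ₃, c, h3⟩ := exists_shear hk b2 hR (marg_of_boxes hk b2 hR fun a ha => by
    rw [un_image Ψ₂ b1 (by
      simp only [ofPred_forall]
      exact MeasurableSet.iInter fun i => measurable_pi_apply _ measurableSet_Icc)]
    simpa only [preimage_ofPred_eq, h2] using hG a ha)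
  refine ⟨Ψ₁.trans (Ψ₂.trans Ψ₃), c, ?_⟩
  rw [image_image, image_image] at h3
  exact h3

end Crest.Agent.R225
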