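import Crest.Agent.R225.Step

set_option autoImplicit false

open MeasureTheory Set
open scoped ENNReal NNReal Matrix

namespace Crest.Agent.R225

namespace TowerX

theorem next_N {p : ℕ} (hp : 40 ≤ p) : 30 * (p + 1) * (5 * 2 ^ (15 * (p + 1))) ≤ NN p := by
  have h1 : p + 1 ≤ 2 ^ p := Nat.lt_two_pow_self
  have h2 : 2 ^ 40 ≤ 2 ^ p := Nat.pow_le_pow_right (by norm_num) hp
  have h3 : 150 * 2 ^ 15 ≤ 2 ^ p * 2 ^ p :=
    le_trans (by norm_num) (Nat.mul_le_mul h2 h2)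
  calc 30 * (p + 1) * (5 * 2 ^ (15 * (p + 1))) = (p + 1) * (150 * 2 ^ 15) * 2 ^ (15 * p) := by ring
    _ ≤ 2 ^ p * (2 ^ p * 2 ^ p) * 2 ^ (15 * p) := by gcongr
    _ = NN p := by unfold NN; ring

theorem dim_le (p : ℕ) : 2 ^ (29 * p) + 1 + dd p ≤ 2 ^ (29 * (p + 1)) := by
  have h1 : dd p ≤ 2 ^ (29 * p) := by
    unfold dd NN ss; rw [← pow_add]; exact Nat.pow_le_pow_right (by norm_num) (by omega)
  have h2 : 1 ≤ 2 ^ (29 * p) := Nat.one_le_two_pow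
  have h3 : 2 ^ (29 * (p + 1)) = 2 ^ 29 * 2 ^ (29 * p) := by ring
  omega

theorem big {p : ℕ} (hp : 40 ≤ p) : (1000 : ℝ) ≤ 2 ^ p :=
  le_trans (by norm_num) (pow_le_pow_right₀ (by norm_num : (1 : ℝ) ≤ 2) hp)

theorem loss {Y : ℝ} (hY : 1000 ≤ Y) : 1 / 2 + 20 / (Y * 2) ≤ (1 / 2 + 20 / Y) * (1 - 20 / (Y * 2)) := by
  have hY0 : 0 < Y := by linarith
  have e1 : 20 / (Y * 2) = 10 * (1 / Y) := by field_simp; ring
  have e2 : 20 / Y = 20 * (1 / Y) := by ring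
  have u0 : 0 < 1 / Y := by positivity
  have u1 : 1 / Y ≤ 1 / 1000 := one_div_le_one_div_of_le (by norm_num) hY
  rw [e1, e2]
  nlinarith

theorem loss0 {Y : ℝ} (hY : 1000 ≤ Y) : 1 / 2 + 20 / Y ≤ 1 - 20 / Y := by
  have : (20 : ℝ) / Y ≤ 1 / 4 := by rw [div_le_iff₀ (by linarith)]; linarith
  linarith

theorem pick (E : ℕ) : ∃ p : ℕ, 40 ≤ p ∧ E ≤ 2 ^ p ∧ 2 ^ p ≤ 2 ^ 41 * (E + 1) := by
  refine ⟨max 40 (Nat.log 2 E + 1), le_max_left _ _, ?_, ?_⟩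
  · exact (Nat.lt_pow_succ_log_self (by norm_num) E).le.trans
      (Nat.pow_le_pow_right (by norm_num) (le_max_right _ _))
  · rcases max_choice 40 (Nat.log 2 E + 1) with h | h <;> rw [h]
    · omega
    · have := Nat.pow_log_le_add_one 2 E
      rw [pow_succ]; omega

theorem exB : ∃ B : ℕ, 2 ^ 41 ≤ B ∧ ∀ E p : ℕ, 2 ^ p ≤ 2 ^ 41 * (E + 1) →
    2 ^ (29 * (p + 1)) ≤ B * (E + 1) ^ 29 := by
  refine ⟨2 ^ 29 * (2 ^ 41) ^ 29,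
    le_trans (Nat.le_self_pow (by norm_num) _) (Nat.le_mul_of_pos_left _ (by positivity)),
    fun E p e2 => ?_⟩
  calc 2 ^ (29 * (p + 1)) = 2 ^ 29 * (2 ^ p) ^ 29 := by rw [← pow_mul, ← pow_add]; congr 1; ring
    _ ≤ 2 ^ 29 * (2 ^ 41 * (E + 1)) ^ 29 := Nat.mul_le_mul_left _ (Nat.pow_le_pow_left e2 _)
    _ = 2 ^ 29 * (2 ^ 41) ^ 29 * (E + 1) ^ 29 := by rw [mul_pow, mul_assoc]

theorem aux {p₀ : ℕ} (h₀ : 40 ≤ p₀) {N₀ : ℕ} (hN : 30 * p₀ * (5 * 2 ^ (15 * p₀)) ≤ N₀) (p : ℕ)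
    (hp : p₀ ≤ p) : ∃ (k : ℕ) (H : ℕ → ℕ → ℝ) (gm : ℕ → ℕ), 1 ≤ k ∧ k ≤ N₀ + 2 ^ (29 * (p + 1)) ∧
      Stage k (NN p) ((2 / 5) ^ N₀ * (1 / 2 + 20 / 2 ^ p)) (Real.exp (-2 ^ (17 * p))) (2 ^ p) H gm := by
  have c0 : (0 : ℝ) < (2 / 5) ^ N₀ := by positivity
  induction p, hp using Nat.le_induction with
  | base =>
    obtain ⟨H, gm, h⟩ := step h₀ (stage0 N₀) hN c0.le zero_le_one
    have hY := big h₀
    have hd := dim_le p₀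
    have h0 := Nat.zero_le (2 ^ (29 * p₀))
    clear hN
    exact ⟨_, H, gm, by omega, by omega, h.mono (mul_le_mul_of_nonneg_left (loss0 hY) c0.le)
      (by rw [one_mul]) (max_le (one_le_pow₀ one_le_two) le_rfl)⟩
  | succ p hp ih =>
    obtain ⟨k, H, gm, k1, k2, h⟩ := ih
    have h40 : 40 ≤ p := h₀.trans hp
    obtain ⟨H', gm', h'⟩ := step (p := p + 1) (by omega) h (next_N h40) (by positivity) (by positivity)
    have hY := big h40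
    have hd := dim_le (p + 1)
    refine ⟨_, H', gm', by omega, by omega, h'.mono ?_ ?_ (max_le ?_ le_rfl)⟩
    · rw [mul_assoc]
      refine mul_le_mul_of_nonneg_left ?_ c0.le
      rw [pow_succ]
      exact loss hY
    · refine mul_le_of_le_one_left (Real.exp_pos _).le ?_
      rw [Real.exp_le_one_iff]
      exact neg_nonpos.2 (by positivity)
    · exact pow_le_pow_right₀ one_le_two (Nat.le_succ _)

theorem aux' : ∃ N₀ : ℕ, ∀ p, 40 ≤ p → ∃ (k : ℕ) (H : ℕ → ℕ → ℝ) (gm : ℕ → ℕ), 1 ≤ k ∧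
    k ≤ N₀ + 2 ^ (29 * (p + 1)) ∧
      Stage k (NN p) ((2 / 5) ^ N₀ * (1 / 2 + 20 / 2 ^ p)) (Real.exp (-2 ^ (17 * p))) (2 ^ p) H gm :=
  ⟨_, aux le_rfl le_rfl⟩

end TowerX

open TowerX

/-- iteration: `N₀ = 30 * 40 * (5 * 2^(15*40))` (keep it as an opaque constant, never `norm_num` it),
`stage0 N₀`; induction on `p ≥ 40`: a stage with `k ≤ N₀ + 2^(29 (p+1))`, `1 ≤ k`, `N = NN p`,
`c = (2/5)^N₀ (1/2 + 20/2^p)` (`(1/2 + 40/Y)(1 - 20/Y) ≥ 1/2 + 20/Y`; first step `1 - 20/Y ≥ 1/2 + 20/Y`),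
`Tc = exp (-2^(17 p))`, `R = 2^p`; `30 (p+1) * 5 * 2^(15 (p+1)) ≤ 2^(18 p)`.
Finally `p = max 40 (Nat.log 2 E + 1)`, so `E ≤ 2^p ≤ 2^41 (E+1)`; `chain_one`. -/
theorem tower : ∃ (c : ℝ) (C : ℕ), 0 < c ∧ c ≤ 1 ∧ 1 ≤ C ∧ ∀ E : ℕ,
    ∃ (k N : ℕ) (H : ℕ → ℕ → ℝ) (gm : ℕ → ℕ), 1 ≤ k ∧ k ≤ C * (E + 1) ^ 29 ∧
      Stage k N c (Real.exp (-E)) (C * (E + 1)) H gm := by
  obtain ⟨N₀, hN⟩ := aux'
  obtain ⟨B, hB1, hB⟩ := exB
  have c0 : (0 : ℝ) < (2 / 5) ^ N₀ := by positivity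
  have c1 : ((2 : ℝ) / 5) ^ N₀ ≤ 1 := pow_le_one₀ (by norm_num) (by norm_num)
  have hB0 : 1 ≤ B := le_trans Nat.one_le_two_pow hB1
  refine ⟨(2 / 5) ^ N₀ * (1 / 2), N₀ + B, by positivity, by linarith, by omega, fun E => ?_⟩
  obtain ⟨p, hp, e1, e2⟩ := pick E
  obtain ⟨k, H, gm, k1, k2, h⟩ := hN p hp
  refine ⟨k, NN p, H, gm, k1, ?_, h.mono ?_ ?_ ?_⟩
  · have a1 := hB E p e2
    have a2 : N₀ ≤ N₀ * (E + 1) ^ 29 := Nat.le_mul_of_pos_right _ (Nat.pow_pos (Nat.succ_pos E))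
    rw [add_mul]
    exact k2.trans (Nat.add_le_add a2 a1)
  · exact mul_le_mul_of_nonneg_left (le_add_of_nonneg_right (by positivity)) c0.le
  · have : E ≤ 2 ^ (17 * p) := e1.trans (Nat.pow_le_pow_right two_pos (Nat.le_mul_of_pos_left _ (by norm_num)))
    have : (E : ℝ) ≤ 2 ^ (17 * p) := by exact_mod_cast this
    exact Real.exp_le_exp.2 (neg_le_neg this)
  · have : 2 ^ p ≤ (N₀ + B) * (E + 1) :=
      e2.trans (Nat.mul_le_mul_right _ (hB1.trans (Nat.le_add_left _ _)))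
    exact_mod_cast this

end Crest.Agent.R225
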