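import Crest.Agent.R225.MainA
import Crest.Agent.R225.Psi
import Crest.Agent.R225.Tower

set_option autoImplicit false

open MeasureTheory Set
open scoped ENNReal NNReal Matrix

namespace Crest.Agent.R225

/-- `u = log n ≥ 10^20 M^5`; `2^k ≤ e^M ≤ √n`, `N₁ ≤ 3 M^4 n ≤ n²`, the logarithm of the first factor is
`≤ √n * 20 M log n ≤ n log n` -/
theorem main_num {k n N₁ : ℕ} {M R : ℝ} (hk : 1 ≤ k) (hkM : (k : ℝ) ≤ M) (hR : 1 ≤ R) (hRM : R ≤ M)
    (hM : (10 : ℝ) ^ 20 * M ^ 5 ≤ Real.log n) (hN₁ : N₁ = ⌈2 * (k : ℝ) ^ 3 * R * n⌉₊) :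
    (15 * ((N₁ : ℝ) ^ k * 2 ^ k + 1) ^ 2) ^ 2 ^ k * Real.exp (-(3 * n * Real.log n)) *
      ((n : ℝ) ^ n + 1) < 1 ∧ 2 * k ≤ n ∧ 2000 ≤ n := by
  have hk' : (1 : ℝ) ≤ k := by exact_mod_cast hk
  have hM1 : (1 : ℝ) ≤ M := hk'.trans hkM
  have hM4 : M ^ 4 ≤ M ^ 5 := pow_le_pow_right₀ hM1 (by norm_num)
  have hM5 : M ≤ M ^ 5 := le_self_pow₀ hM1 (by norm_num)
  have hM40 : 1 ≤ M ^ 4 := one_le_pow₀ hM1
  set u := Real.log n with hu
  have hu0 : 0 < u := by linarith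
  have hn0 : (0 : ℝ) < n := by
    rcases Nat.eq_zero_or_pos n with h | h
    · rw [hu, h] at hu0; simp at hu0
    · exact_mod_cast h
  have hx : Real.exp u = n := Real.exp_log hn0
  have hxu : u + 1 ≤ n := hx ▸ Real.add_one_le_exp u
  have h2k : 2 * k ≤ n := by
    have : (2 : ℝ) * k ≤ n := by linarith
    exact_mod_cast this
  have h2000 : (2000 : ℝ) ≤ n := by linarith
  refine ⟨?_, h2k, by exact_mod_cast h2000⟩
  have hn1 : (1 : ℝ) ≤ n := by linarith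
  have a1 : (N₁ : ℝ) ≤ 2 * (k : ℝ) ^ 3 * R * n + 1 := by
    rw [hN₁]; exact (Nat.ceil_lt_add_one (by positivity)).le
  have a2 : (k : ℝ) ^ 3 * R ≤ M ^ 4 := by
    rw [show M ^ 4 = M ^ 3 * M by ring]
    exact mul_le_mul (pow_le_pow_left₀ (by positivity) hkM 3) hRM (by linarith) (by positivity)
  have a3 : (N₁ : ℝ) * 2 ≤ (n : ℝ) ^ 2 := by
    have b1 : (k : ℝ) ^ 3 * R * n ≤ M ^ 4 * n := mul_le_mul_of_nonneg_right a2 hn0.le
    have b2 : 1 * (n : ℝ) ≤ M ^ 4 * n := mul_le_mul_of_nonneg_right hM40 hn0.le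
    have b3 : 6 * M ^ 4 * n ≤ n * n := mul_le_mul_of_nonneg_right (by linarith) hn0.le
    nlinarith
  have a4 : (N₁ : ℝ) ^ k * 2 ^ k ≤ ((n : ℝ) ^ k) ^ 2 := by
    rw [← mul_pow, ← pow_mul, mul_comm k 2, pow_mul]
    exact pow_le_pow_left₀ (by positivity) a3 k
  have a5 : (n : ℝ) ≤ (n : ℝ) ^ k := le_self_pow₀ hn1 (by omega)
  set y := (n : ℝ) ^ k with hy
  have a6 : 15 * ((N₁ : ℝ) ^ k * 2 ^ k + 1) ^ 2 ≤ y ^ 5 := by
    have b1 : (N₁ : ℝ) ^ k * 2 ^ k + 1 ≤ 2 * y ^ 2 := by nlinarith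
    have b2 : ((N₁ : ℝ) ^ k * 2 ^ k + 1) ^ 2 ≤ (2 * y ^ 2) ^ 2 :=
      pow_le_pow_left₀ (by positivity) b1 2
    have b3 : 60 * y ^ 4 ≤ y * y ^ 4 := mul_le_mul_of_nonneg_right (by linarith) (by positivity)
    nlinarith
  have a7 : k * 5 * 2 ^ k ≤ n := by
    have b1 : (2 : ℝ) ^ k ≤ Real.exp M := by
      refine le_trans ?_ (Real.exp_le_exp.2 hkM)
      rw [← mul_one (k : ℝ), Real.exp_nat_mul]
      exact pow_le_pow_left₀ (by norm_num) (by linarith [Real.add_one_le_exp (1 : ℝ)]) k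
    have b2 : (k : ℝ) * 5 ≤ Real.exp (5 * M) := by linarith [Real.add_one_le_exp (5 * M)]
    have b3 : (k : ℝ) * 5 * 2 ^ k ≤ Real.exp (5 * M) * Real.exp M :=
      mul_le_mul b2 b1 (by positivity) (by positivity)
    rw [← Real.exp_add] at b3
    have b4 : Real.exp (5 * M + M) ≤ Real.exp u := Real.exp_le_exp.2 (by linarith)
    have b5 : (k : ℝ) * 5 * 2 ^ k ≤ n := by linarith
    exact_mod_cast b5
  have a8 : (15 * ((N₁ : ℝ) ^ k * 2 ^ k + 1) ^ 2) ^ 2 ^ k ≤ (n : ℝ) ^ n := by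
    refine (pow_le_pow_left₀ (by positivity) a6 _).trans ?_
    rw [hy, ← pow_mul, ← pow_mul, ← mul_assoc]
    exact pow_le_pow_right₀ hn1 a7
  have a9 : Real.exp (-(3 * n * u)) * ((n : ℝ) ^ n) ^ 3 = 1 := by
    rw [← hx, ← Real.exp_nat_mul, ← Real.exp_nat_mul, ← Real.exp_add, hx, ← Real.exp_zero]
    congr 1
    push_cast
    ring
  have a10 : (n : ℝ) ≤ (n : ℝ) ^ n := le_self_pow₀ hn1 (by
    have : 2000 ≤ n := by exact_mod_cast h2000
    omega)
  set z := (n : ℝ) ^ n with hz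
  have he := Real.exp_pos (-(3 * n * u))
  set e := Real.exp (-(3 * n * u))
  have hz2 : 2 ≤ z := by linarith
  calc _ ≤ z * e * (z + 1) :=
        mul_le_mul_of_nonneg_right (mul_le_mul_of_nonneg_right a8 he.le) (by positivity)
    _ = e * (z * (z + 1)) := by ring
    _ < e * z ^ 3 := by
        refine mul_lt_mul_of_pos_left ?_ he
        have b1 : z + 1 < z * z := by nlinarith
        calc z * (z + 1) < z * (z * z) := mul_lt_mul_of_pos_left b1 (by linarith)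
          _ = z ^ 3 := by ring
    _ = 1 := a9

/-- large dimensions.  `A = n / 1000`, `m = Fin (17 A)`, `d = Fin (n - k - 17 A)`, `good_position`,
`V = 300 / c₀ * n log n`, `void_le`, `main_num`, `rogers_lemma` (with `N = n`, card `= n`), `hom_hom`, `vol_hom`,
`((1+1/n)²)^n ≤ e² ≤ 8`, `covers_of_hom`, `covers_of_equiv` -/
theorem main_large {k N n : ℕ} {c₀ Tc R M : ℝ} {H : ℕ → ℕ → ℝ} {gm : ℕ → ℕ}
    (hS : Stage k N c₀ Tc R H gm) (hc : 0 < c₀) (hk : 1 ≤ k) (hkM : (k : ℝ) ≤ M) (hR : 1 ≤ R)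
    (hRM : R ≤ M) (hM : (10 : ℝ) ^ 20 * M ^ 5 ≤ Real.log n)
    (hT : Tc * Real.log n ≤ c₀ / 6000) {K : Set (Fin n → ℝ)} (h : Body K) :
    Covers K (2400 / c₀ * n * Real.log n) := by
  obtain ⟨hnum, h2k, h2000⟩ := main_num hk hkM hR hRM hM rfl
  set A := n / 1000 with hA
  have hcard : k + Fintype.card (Fin (17 * A) ⊕ Fin (n - k - 17 * A)) = n := by
    simp only [Fintype.card_sum, Fintype.card_fin]
    omega
  obtain ⟨Ψ, c, hm, hb⟩ := good_position hk hcard hkM hR hRM hM h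
  have hK' := h.image Ψ
  have hn0 : (0 : ℝ) < n := by exact_mod_cast (by omega : 0 < n)
  have hlog : 0 < Real.log n := Real.log_pos (by exact_mod_cast (by omega : 1 < n))
  have hk0 : (0 : ℝ) < k := by exact_mod_cast hk
  set V : ℝ := 300 / c₀ * n * Real.log n with hV
  have hV0 : 0 < V := by positivity
  have hVA : V * Tc / 100 ≤ A := by
    have b1 : V * Tc / 100 = 3 * n / c₀ * (Tc * Real.log n) := by rw [hV]; ring
    have b2 : 3 * n / c₀ * (Tc * Real.log n) ≤ 3 * n / c₀ * (c₀ / 6000) :=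
      mul_le_mul_of_nonneg_left hT (by positivity)
    have b3 : 3 * n / c₀ * (c₀ / 6000) = n / 2000 := by field_simp; norm_num
    have b4 : (n : ℝ) ≤ 2000 * A := by exact_mod_cast (by omega : n ≤ 2000 * A)
    linarith
  obtain ⟨g, hg, hvoid⟩ := void_le hS hk hK' hm hb (A := A) (n := n)
    (N₁ := ⌈2 * (k : ℝ) ^ 3 * R * n⌉₊) (by omega) (by rw [Fintype.card_fin]; omega)
    (by rw [Fintype.card_fin]; omega) (by omega) (Nat.le_ceil _)
    (Nat.ceil_pos.2 (by positivity)) hV0 hVA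
  have hvol : 0 < (volume (Ψ '' K)).toReal := ENNReal.toReal_pos hK'.vol_pos.1 hK'.vol_pos.2
  have hdet : 0 < g.det := by rw [hg]; positivity
  have hc' : Fintype.card (Fin k ⊕ (Fin (17 * A) ⊕ Fin (n - k - 17 * A))) = n := by
    rw [Fintype.card_sum, Fintype.card_fin, hcard]
  have e1 : V * c₀ / 100 = 3 * n * Real.log n := by rw [hV]; field_simp; norm_num
  rw [e1] at hvoid
  have hrog := rogers_lemma hdet.ne' (hom_compact hK'.cpt c (1 + 1 / n))
    (hom_convex hK'.cvx c (1 + 1 / n)) c (N := n) (by omega) (by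
      rw [hc']
      have e2 : ((n : ℝ≥0∞) ^ n + 1) = ENNReal.ofReal ((n : ℝ) ^ n + 1) := by
        rw [ENNReal.ofReal_add (by positivity) (by norm_num), ENNReal.ofReal_pow hn0.le,
          ENNReal.ofReal_natCast, ENNReal.ofReal_one]
      refine (mul_le_mul_left hvoid _).trans_lt ?_
      rw [e2, ← ENNReal.ofReal_mul (by positivity)]
      exact ENNReal.ofReal_lt_one.2 hnum)
  simp only [hom_hom] at hrog
  have hl : (0 : ℝ) < (1 + 1 / n) * (1 + 1 / n) := by positivity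
  refine covers_of_equiv Ψ (covers_of_hom (c := c) hl ⟨g, hdet.ne', hrog, ?_⟩)
  rw [vol_hom _ _ hl, hc', ENNReal.toReal_mul, ENNReal.toReal_ofReal (by positivity),
    abs_of_pos hdet, hg]
  have e3 : (((1 : ℝ) + 1 / n) * (1 + 1 / n)) ^ n ≤ 8 := by
    have b1 : ((1 : ℝ) + 1 / n) ^ n ≤ Real.exp 1 := by
      have b2 : (1 : ℝ) + 1 / n ≤ Real.exp (1 / n) := by
        linarith [Real.add_one_le_exp (1 / (n : ℝ))]
      refine (pow_le_pow_left₀ (by positivity) b2 n).trans (le_of_eq ?_)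
      rw [← Real.exp_nat_mul]
      congr 1
      field_simp
    have b3 := Real.exp_one_lt_d9
    have b4 : (0 : ℝ) ≤ (1 + 1 / n) ^ n := by positivity
    rw [mul_pow]
    nlinarith
  have e4 : (((1 : ℝ) + 1 / n) * (1 + 1 / n)) ^ n * (volume (Ψ '' K)).toReal /
      ((volume (Ψ '' K)).toReal / V) = (((1 : ℝ) + 1 / n) * (1 + 1 / n)) ^ n * V := by
    field_simp
  rw [e4]
  refine (mul_le_mul_of_nonneg_right e3 hV0.le).trans (le_of_eq ?_)
  rw [hV]
  ring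

/-- `E = ⌈log (log n)⌉₊ + E₀`, `e^{E₀} ≥ 6000 / c`; `M = C (E+1)^29`; `(log u + const)^145 = o(u)`
(`isLittleO_pow_log_id_atTop` / `Real.isLittleO_pow_log_id_atTop`) with `u = log n → ∞` -/
theorem eventually_num (c : ℝ) (C : ℕ) (hc : 0 < c) : ∃ n₀ : ℕ, ∀ n : ℕ, n₀ ≤ n → ∃ E : ℕ,
    Real.exp (-E) * Real.log n ≤ c / 6000 ∧
      (10 : ℝ) ^ 20 * ((C : ℝ) * (E + 1) ^ 29) ^ 5 ≤ Real.log n := by
  obtain ⟨E₀, hE₀⟩ := exists_nat_ge (-Real.log (c / 6000))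
  set B : ℝ := 10 ^ 20 * ((C : ℝ) * 2 ^ 29) ^ 5 + 1 with hB
  have hB0 : 0 < B := by positivity
  have h1 := (Real.isLittleO_pow_log_id_atTop (n := 145)).bound (c := 1 / B) (by positivity)
  have h2 := Real.tendsto_log_atTop.eventually (Filter.eventually_ge_atTop ((E₀ : ℝ) + 2))
  have h3 := (Real.tendsto_log_atTop.comp tendsto_natCast_atTop_atTop).eventually
    (h1.and (h2.and (Filter.eventually_gt_atTop 0)))
  obtain ⟨n₀, hn₀⟩ := Filter.eventually_atTop.1 h3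
  refine ⟨n₀, fun n hn => ?_⟩
  obtain ⟨a1, a2, a3⟩ := hn₀ n hn
  simp only [Function.comp, id] at a1 a2 a3
  set u := Real.log n with hu
  have hE0 : (0 : ℝ) ≤ E₀ := Nat.cast_nonneg _
  have hl0 : 0 ≤ Real.log u := by linarith
  refine ⟨⌈Real.log u⌉₊ + E₀, ?_, ?_⟩
  · have b1 := Nat.le_ceil (Real.log u)
    conv_lhs => rw [← Real.exp_log a3]
    rw [Real.log_exp, ← Real.exp_add, ← Real.exp_log (by positivity : 0 < c / 6000)]
    refine Real.exp_le_exp.2 ?_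
    push_cast
    linarith
  · have b1 := (Nat.ceil_lt_add_one hl0).le
    have b2 : ((⌈Real.log u⌉₊ + E₀ : ℕ) : ℝ) + 1 ≤ 2 * Real.log u := by
      push_cast
      linarith
    have b3 : ((C : ℝ) * (((⌈Real.log u⌉₊ + E₀ : ℕ) : ℝ) + 1) ^ 29) ^ 5 ≤
        ((C : ℝ) * (2 * Real.log u) ^ 29) ^ 5 :=
      pow_le_pow_left₀ (by positivity) (mul_le_mul_of_nonneg_left
        (pow_le_pow_left₀ (by positivity) b2 29) (by positivity)) 5
    have b4 : (10 : ℝ) ^ 20 * ((C : ℝ) * (2 * Real.log u) ^ 29) ^ 5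
        = (B - 1) * Real.log u ^ 145 := by
      rw [hB, add_sub_cancel_right, mul_pow 2, ← mul_assoc (C : ℝ), mul_pow _ (Real.log u ^ 29),
        ← pow_mul, ← mul_assoc]
    rw [Real.norm_of_nonneg (by positivity), Real.norm_of_nonneg a3.le, one_div,
      le_inv_mul_iff₀ hB0] at a1
    have b5 : 0 ≤ Real.log u ^ 145 := by positivity
    have b6 := mul_le_mul_of_nonneg_left b3 (by positivity : (0 : ℝ) ≤ 10 ^ 20)
    linarith

/-- `tower`, `eventually_num`, `main_large` for `n ≥ n₀`; `covers_crude` for `2 ≤ n < n₀`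
(`1 ≤ n log n`) -/
theorem main : ∃ C : ℝ, ∀ n : ℕ, 2 ≤ n → ∀ K : Set (Fin n → ℝ), Body K →
    Covers K (C * n * Real.log n) := by
  obtain ⟨c, C, hc, -, hC, ht⟩ := tower
  obtain ⟨n₀, hn₀⟩ := eventually_num c C hc
  refine ⟨2400 / c + (2 * n₀ : ℝ) ^ n₀, fun n hn K hK => ?_⟩
  have hn2 : (2 : ℝ) ≤ n := by exact_mod_cast hn
  have hlog : Real.log 2 ≤ Real.log n := Real.log_le_log (by norm_num) hn2
  have hl2 := Real.log_two_gt_d9
  have h1 : (1 : ℝ) ≤ n * Real.log n := by nlinarith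
  have h2 : (0 : ℝ) ≤ 2400 / c := by positivity
  have h3 : (0 : ℝ) ≤ (2 * n₀ : ℝ) ^ n₀ := by positivity
  rcases le_or_gt n₀ n with h | h
  · obtain ⟨E, hE1, hE2⟩ := hn₀ n h
    obtain ⟨k, N, H, gm, hk, hk2, hS⟩ := ht E
    have hC' : (1 : ℝ) ≤ C := by exact_mod_cast hC
    have hE' : (1 : ℝ) ≤ E + 1 := by linarith [(Nat.cast_nonneg E : (0 : ℝ) ≤ E)]
    have b1 : (k : ℝ) ≤ (C : ℝ) * (E + 1) ^ 29 := by exact_mod_cast hk2
    have b2 : (1 : ℝ) ≤ (C : ℝ) * (E + 1) := one_le_mul_of_one_le_of_one_le hC' hE'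
    have b3 : (C : ℝ) * (E + 1) ≤ (C : ℝ) * (E + 1) ^ 29 :=
      mul_le_mul_of_nonneg_left (le_self_pow₀ hE' (by norm_num)) (by positivity)
    refine (main_large hS hc hk b1 b2 b3 hE2 hE1 hK).mono ?_
    rw [mul_assoc, mul_assoc]
    exact mul_le_mul_of_nonneg_right (le_add_of_nonneg_right h3) (by linarith)
  · refine (covers_crude (by omega) hK).mono ?_
    have h4 : (n : ℝ) ≤ n₀ := by exact_mod_cast h.le
    have h5 : (2 * n : ℝ) ^ n ≤ (2 * n₀ : ℝ) ^ n₀ :=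
      (pow_le_pow_left₀ (by positivity) (by linarith) n).trans
        (pow_le_pow_right₀ (by linarith) h.le)
    rw [mul_assoc]
    exact (h5.trans (le_add_of_nonneg_left h2)).trans
      (le_mul_of_one_le_right (add_nonneg h2 h3) h1)

end Crest.Agent.R225
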