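import Crest.Agent.R225.Tor

set_option autoImplicit false

open MeasureTheory Set
open scoped ENNReal NNReal Matrix

namespace Crest.Agent.R225

theorem RogX.hom_eq {ι : Type} (K : Set (ι → ℝ)) (c : ι → ℝ) (l : ℝ) :
    hom c l K = AffineMap.homothety c l '' K := by
  unfold hom
  congr 1
  funext x
  rw [AffineMap.homothety_apply, vsub_eq_sub, vadd_eq_add, add_comm]

theorem hom_compact {ι : Type} {K : Set (ι → ℝ)} (hK : IsCompact K) (c : ι → ℝ) (l : ℝ) :
    IsCompact (hom c l K) := by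
  exact hK.image (by fun_prop)

theorem hom_convex {ι : Type} {K : Set (ι → ℝ)} (hK : Convex ℝ K) (c : ι → ℝ) (l : ℝ) :
    Convex ℝ (hom c l K) := by
  rw [RogX.hom_eq]
  exact hK.affine_image _

theorem hom_hom {ι : Type} (K : Set (ι → ℝ)) (c : ι → ℝ) (l l' : ℝ) :
    hom c l (hom c l' K) = hom c (l * l') K := by
  unfold hom
  rw [image_image]
  simp only [add_sub_cancel_left, smul_smul]

/-- `Measure.addHaar_image_homothety` or `addHaar_smul` + translation -/
theorem vol_hom {ι : Type} [Fintype ι] (K : Set (ι → ℝ)) (c : ι → ℝ) {l : ℝ} (hl : 0 < l) :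
    volume (hom c l K) = ENNReal.ofReal (l ^ Fintype.card ι) * volume K := by
  rw [RogX.hom_eq, Measure.addHaar_image_homothety, Module.finrank_fintype_fun_eq_card,
    abs_of_pos (pow_pos hl _)]

/-- `x + (y - c)/N ∈ hom c (1+1/N) K` -/
theorem add_mem_hom {ι : Type} {K : Set (ι → ℝ)} (hK : Convex ℝ K) {c x v : ι → ℝ} {N : ℝ}
    (hN : 0 < N) (hx : x ∈ K) (hv : c + v ∈ K) : x + (1 / N) • v ∈ hom c (1 + 1 / N) K := by
  have h1 : 0 < N + 1 := by linarith
  refine ⟨_, hK hx hv (a := N / (N + 1)) (b := 1 / (N + 1)) (by positivity) (by positivity)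
    (by field_simp), funext fun i => ?_⟩
  simp only [Pi.add_apply, Pi.smul_apply, Pi.sub_apply, smul_eq_mul]
  field_simp
  ring

/-- use the lattice `l⁻¹ • g` -/
theorem covers_of_hom {ι : Type} [Fintype ι] [DecidableEq ι] {K : Set (ι → ℝ)} {c : ι → ℝ} {l V : ℝ}
    (hl : 0 < l) (h : Covers (hom c l K) V) : Covers K V := by
  obtain ⟨g, h1, h2, h3⟩ := h
  have hp := pow_pos hl (Fintype.card ι)
  refine ⟨l⁻¹ • g, ?_, fun x => ?_, le_of_eq_of_le ?_ h3⟩
  · rw [Matrix.det_smul]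
    exact mul_ne_zero (pow_ne_zero _ (inv_ne_zero hl.ne')) h1
  · obtain ⟨z, y, hy, e⟩ := h2 (c + l • (x - c))
    refine ⟨z, ?_⟩
    convert hy using 1
    funext i
    have := congrFun e i
    simp only [Pi.add_apply, Pi.smul_apply, Pi.sub_apply, smul_eq_mul, Matrix.smul_mulVec] at this ⊢
    field_simp
    linarith
  · rw [vol_hom K c hl, ENNReal.toReal_mul, ENNReal.toReal_ofReal hp.le, Matrix.det_smul, abs_mul,
      inv_pow, abs_inv, abs_of_pos hp]
    field_simp

/-- **Rogers' lemma.**  If `p = g s` is not in `hom c (1+1/N) K + g ℤ^ι`, then `p + c/N - K/N` misses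
`K + gℤ^ι` (convexity: `x + (y - c)/N = c + (1+1/N)(w - c)` with `w = (N x + y)/(N+1) ∈ K`), so the void set
contains `q - A`, `A = pr '' ((1/N) • g⁻¹ K)`, `N • A = cov g K`; `vol_nsmul_le` gives
`1 - δ ≤ vol (cov) ≤ N^card * vol A ≤ N^card * δ` (negation invariance of Haar measure). -/
theorem rogers_lemma {ι : Type} [Fintype ι] [DecidableEq ι] {g : Matrix ι ι ℝ} (hg : g.det ≠ 0)
    {K : Set (ι → ℝ)} (hK : IsCompact K) (hc : Convex ℝ K) (c : ι → ℝ) {N : ℕ} (hN : 0 < N)
    (h : volume (cov g K)ᶜ * ((N : ℝ≥0∞) ^ Fintype.card ι + 1) < 1) (x : ι → ℝ) :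
    ∃ z : ι → ℤ, x - g *ᵥ rv z ∈ hom c (1 + 1 / N) K := by
  by_contra hx
  push Not at hx
  have hN' : (0 : ℝ) < N := by exact_mod_cast hN
  have hu : IsUnit g.det := isUnit_iff_ne_zero.2 hg
  have hA := isCompact_cov hg (hK.image (f := fun y => (1 / N : ℝ) • y) (by fun_prop))
  have h1 : cov g K ⊆ (fun x => N • x) '' cov g ((fun y => (1 / N : ℝ) • y) '' K) := by
    rintro _ ⟨t, ht, rfl⟩
    refine ⟨pr ((1 / N : ℝ) • t), ⟨_, ⟨_, ht, (Matrix.mulVec_smul _ _ _).symm⟩, rfl⟩, ?_⟩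
    have := pr_zsmul (N : ℤ) ((1 / N : ℝ) • t)
    rw [natCast_zsmul, Int.cast_natCast, smul_smul, mul_one_div_cancel hN'.ne', one_smul] at this
    exact this.symm
  have h2 : cov g ((fun y => (1 / N : ℝ) • y) '' K) ⊆
      (fun a => pr (g⁻¹ *ᵥ (x + (1 / N : ℝ) • c)) - a) ⁻¹' (cov g K)ᶜ := by
    rintro _ ⟨t, ⟨y, hy, e⟩, rfl⟩ ⟨u, hu', e'⟩
    obtain ⟨z, hz⟩ := (pr_eq_iff _ _).1 (e'.trans (pr_sub _ _).symm)
    have e2 := congrArg (g *ᵥ ·) hz
    simp only [Matrix.mulVec_sub, Matrix.mulVec_add g u, Matrix.mulVec_mulVec,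
      Matrix.mul_nonsing_inv g hu, Matrix.one_mulVec] at e2 e
    refine hx z ?_
    have := add_mem_hom hc (c := c) (v := y - c) hN' hu' (by rwa [add_sub_cancel])
    convert this using 1
    rw [smul_sub, e, eq_sub_of_add_eq e2.symm]
    abel
  haveI : (volume : Measure (T ι)).IsNegInvariant :=
    Measure.IsAddHaarMeasure.isNegInvariant_of_regular _
  have h3 := (measure_mono (μ := volume) h2).trans_eq
    ((Measure.measurePreserving_sub_left volume _).measure_preimage
      (isCompact_cov hg hK).measurableSet.compl.nullMeasurableSet)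
  have h4 := (measure_mono h1).trans ((vol_nsmul_le hA hN).trans (mul_le_mul_right h3 _))
  have h5 := measure_add_measure_compl (μ := volume) (isCompact_cov hg hK).measurableSet
  rw [measure_univ] at h5
  rw [mul_add, mul_one, mul_comm, ← h5] at h
  exact absurd (add_le_add_left h4 _) (not_le.2 h)

end Crest.Agent.R225
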