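import Crest.Agent.R225.Tor
import Crest.Agent.R225.ChainL

set_option autoImplicit false

open MeasureTheory Set
open scoped ENNReal NNReal Matrix

namespace Crest.Agent.R225

/-- two layers with a uniformly random shift are independent:
substitute `θ ↦ θ - a • u`, then Fubini (`lintegral_lintegral_swap`) and translation invariance -/
theorem two_layer {l : Type} [Fintype l] {U V : Set (T l)} (hU : MeasurableSet U)
    (hV : MeasurableSet V) (a : ℤ) :
    Measurable (fun u : T l => volume {θ : T l | θ + a • u ∈ U ∧ θ + (a + 1) • u ∈ V}) ∧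
    ∫⁻ u, volume {θ : T l | θ + a • u ∈ U ∧ θ + (a + 1) • u ∈ V} = volume U * volume V := by
  have e : ∀ u : T l, volume {θ : T l | θ + a • u ∈ U ∧ θ + (a + 1) • u ∈ V} =
      volume (Prod.mk u ⁻¹' {p : T l × T l | p.2 ∈ U ∧ p.2 + p.1 ∈ V}) := fun u => by
    rw [← measure_preimage_add_right volume (a • u) (Prod.mk u ⁻¹' _)]
    congr 1
    ext θ
    simp only [mem_ofPred_eq, mem_preimage, add_smul, one_smul, add_assoc]
  have hS : MeasurableSet {p : T l × T l | p.2 ∈ U ∧ p.2 + p.1 ∈ V} :=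
    (measurable_snd hU).inter ((measurable_snd.add measurable_fst) hV)
  simp only [e]
  refine ⟨measurable_measure_prodMk_left hS, ?_⟩
  rw [← Measure.prod_apply hS, Measure.prod_apply_symm hS, mul_comm, ← setLIntegral_const,
    ← lintegral_indicator hU]
  refine lintegral_congr fun θ => ?_
  by_cases h : θ ∈ U
  · rw [indicator_of_mem h, ← measure_preimage_add volume θ V]
    congr 1
    ext u
    simp [h]
  · rw [indicator_of_notMem h]
    convert measure_empty (μ := (volume : Measure (T l)))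
    ext u
    simp [h]

theorem TreeX.exists_all {X ι : Type} [MeasurableSpace X] (μ : Measure X) [IsProbabilityMeasure μ]
    (I : Finset ι) (δ : ι → X → ℝ≥0∞) (b : ι → ℝ) (n : ℝ) (hn : (I.card : ℝ) ≤ n)
    (hm : ∀ i ∈ I, Measurable (δ i)) (hb : ∀ i ∈ I, 0 < b i)
    (h : ∀ i ∈ I, ∫⁻ u, δ i u ∂μ ≤ ENNReal.ofReal (b i)) :
    ∃ u, ∀ i ∈ I, δ i u ≤ ENNReal.ofReal ((n + 1) * b i) := by
  by_contra hc
  push Not at hc
  have hn0 : 0 < n + 1 := by have : (0 : ℝ) ≤ I.card := Nat.cast_nonneg _; linarith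
  have h1 : (1 : ℝ≥0∞) ≤ ∑ i ∈ I, μ {u | ENNReal.ofReal ((n + 1) * b i) ≤ δ i u} := by
    rw [← measure_univ (μ := μ)]
    refine le_trans (measure_mono fun u _ => ?_) (measure_biUnion_finset_le I _)
    obtain ⟨i, hi, h⟩ := hc u
    exact mem_biUnion hi h.le
  have h2 : ∀ i ∈ I, μ {u | ENNReal.ofReal ((n + 1) * b i) ≤ δ i u} ≤
      ENNReal.ofReal (1 / (n + 1)) := fun i hi => by
    have hp : 0 < (n + 1) * b i := mul_pos hn0 (hb i hi)
    refine (meas_ge_le_lintegral_div (hm i hi).aemeasurable (ENNReal.ofReal_pos.2 hp).ne'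
      ENNReal.ofReal_ne_top).trans ((ENNReal.div_le_div_right (h i hi) _).trans (le_of_eq ?_))
    rw [← ENNReal.ofReal_div_of_pos hp]
    congr 1
    have := (hb i hi).ne'
    field_simp
  have h3 := h1.trans (Finset.sum_le_sum h2)
  rw [Finset.sum_const, nsmul_eq_mul, ← ENNReal.ofReal_natCast,
    ← ENNReal.ofReal_mul (Nat.cast_nonneg _), ENNReal.one_le_ofReal, mul_one_div,
    one_le_div hn0] at h3
  linarith

/-- **Rogers' tree.**  Induction on `k`, generalising `U β`.  Step `k+1 → k`: for a node `z ∈ lv (a t) k` with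
children `z0, z1` let `δ t z u = vol {θ | θ + a•u ∈ U t z0 ∧ θ + (a+1)•u ∈ U t z1}`.  By `two_layer`,
`∫ ∑_{t, z} δ t z u / (β t z0 β t z1) ≤ card τ * 2^k =: n`, so some `u` has all `δ t z u ≤ (n+1) β β`
(`exists_le_lintegral`-type lemma / by contradiction).  Apply the induction hypothesis to
`U' t z = {θ | ..}`, `β' t z = (n+1) β t z0 β t z1`, and update the `k`-th shift with `u`
(`lv_prod_succ`, `mem_lv_succ`, `lv_length`, `Finset.sum_range_succ`). -/
theorem rogers_tree {l τ : Type} [Fintype l] [Fintype τ] (k : ℕ) (a : τ → ℕ → (ℕ → ℤ) → ℤ)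
    (U : τ → (ℕ → ℤ) → Set (T l)) (β : τ → (ℕ → ℤ) → ℝ) (hU : ∀ t z, MeasurableSet (U t z))
    (hβ : ∀ t z, 0 < β t z) (h : ∀ t, ∀ z ∈ lv (a t) k, volume (U t z) ≤ ENNReal.ofReal (β t z)) :
    ∃ u : ℕ → T l, ∀ t,
      volume {θ : T l | ∀ z ∈ lv (a t) k, θ + ∑ i ∈ Finset.range k, z i • u i ∈ U t z} ≤
        ENNReal.ofReal (((Fintype.card τ : ℝ) * 2 ^ k + 1) ^ 2 ^ k * ((lv (a t) k).map (β t)).prod) := by
  classical
  induction k generalizing U β with
  | zero =>
    refine ⟨0, fun t => ?_⟩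
    have h0 := h t 0 (by simp [lv])
    simp only [lv, List.mem_singleton, forall_eq, Finset.range_zero, Finset.sum_empty, add_zero,
      ofPred_mem_eq, pow_zero, mul_one, pow_one, List.map_cons, List.map_nil, List.prod_cons,
      List.prod_nil]
    refine h0.trans (ENNReal.ofReal_le_ofReal ?_)
    have := hβ t 0
    have : (0 : ℝ) ≤ Fintype.card τ := Nat.cast_nonneg _
    nlinarith
  | succ k ih =>
    set n : ℝ := (Fintype.card τ : ℝ) * 2 ^ k with hn
    have hn0 : 0 ≤ n := by positivity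
    set z0 : τ → (ℕ → ℤ) → ℕ → ℤ := fun t z => Function.update z k (a t k z) with hz0
    set z1 : τ → (ℕ → ℤ) → ℕ → ℤ := fun t z => Function.update z k (a t k z + 1) with hz1
    obtain ⟨u, hu⟩ := TreeX.exists_all (volume : Measure (T l))
      (Finset.univ.sigma fun t : τ => (lv (a t) k).toFinset)
      (fun i u => volume {θ : T l | θ + a i.1 k i.2 • u ∈ U i.1 (z0 i.1 i.2) ∧
        θ + (a i.1 k i.2 + 1) • u ∈ U i.1 (z1 i.1 i.2)})
      (fun i => β i.1 (z0 i.1 i.2) * β i.1 (z1 i.1 i.2)) n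
      (by
        rw [Finset.card_sigma, hn]
        have : ∑ t : τ, (lv (a t) k).toFinset.card ≤ ∑ _t : τ, 2 ^ k :=
          Finset.sum_le_sum fun t _ => (List.toFinset_card_le _).trans (lv_length _ _).le
        rw [Finset.sum_const, Finset.card_univ, smul_eq_mul] at this
        exact_mod_cast this)
      (fun i _ => (two_layer (hU _ _) (hU _ _) _).1) (fun i _ => mul_pos (hβ _ _) (hβ _ _))
      (fun i hi => by
        have hi2 := List.mem_toFinset.1 (Finset.mem_sigma.1 hi).2
        rw [(two_layer (hU _ _) (hU _ _) _).2, ENNReal.ofReal_mul (hβ _ _).le]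
        exact mul_le_mul' (h _ _ (mem_lv_succ.2 ⟨_, hi2, Or.inl rfl⟩))
          (h _ _ (mem_lv_succ.2 ⟨_, hi2, Or.inr rfl⟩)))
    obtain ⟨w, hw⟩ := ih (fun t z => {θ : T l | θ + a t k z • u ∈ U t (z0 t z) ∧
        θ + (a t k z + 1) • u ∈ U t (z1 t z)})
      (fun t z => (n + 1) * (β t (z0 t z) * β t (z1 t z)))
      (fun t z => ((measurable_add_const _) (hU _ _)).inter ((measurable_add_const _) (hU _ _)))
      (fun t z => mul_pos (by linarith) (mul_pos (hβ _ _) (hβ _ _)))
      (fun t z hz => hu ⟨t, z⟩ (Finset.mem_sigma.2 ⟨Finset.mem_univ _, List.mem_toFinset.2 hz⟩))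
    refine ⟨Function.update w k u, fun t => ?_⟩
    have hs : ∀ (z : ℕ → ℤ) (m : ℤ), ∑ i ∈ Finset.range (k + 1),
        Function.update z k m i • Function.update w k u i =
        ∑ i ∈ Finset.range k, z i • w i + m • u := fun z m => by
      rw [Finset.sum_range_succ, Function.update_self, Function.update_self]
      congr 1
      refine Finset.sum_congr rfl fun i hi => ?_
      have := (Finset.mem_range.1 hi).ne
      rw [Function.update_of_ne this, Function.update_of_ne this]
    refine le_trans (measure_mono ?_) ((hw t).trans (ENNReal.ofReal_le_ofReal ?_))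
    · intro θ hθ z hz
      have a0 := hθ _ (mem_lv_succ.2 ⟨_, hz, Or.inl rfl⟩)
      have a1 := hθ _ (mem_lv_succ.2 ⟨_, hz, Or.inr rfl⟩)
      rw [hs, ← add_assoc] at a0 a1
      exact ⟨a0, a1⟩
    · rw [lv_prod_succ, List.prod_map_mul, List.map_const', List.prod_replicate, lv_length,
        ← mul_assoc, ← pow_add, ← two_mul, ← pow_succ']
      refine mul_le_mul_of_nonneg_right (pow_le_pow_left₀ (by linarith) ?_ _)
        (List.prod_nonneg fun x hx => ?_)
      · rw [pow_succ, ← mul_assoc, ← hn]; linarith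
      · obtain ⟨z, -, rfl⟩ := List.mem_map.1 hx
        exact (mul_pos (hβ _ _) (hβ _ _)).le

end Crest.Agent.R225
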