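import Crest.Agent.R225.Base
import Crest.Agent.R225.Tree
import Crest.Agent.R225.Rog
import Crest.Agent.R225.Cov

set_option autoImplicit false

open MeasureTheory Set
open scoped ENNReal NNReal Matrix

namespace Crest.Agent.R225

namespace MainAX

theorem prod_beta {α : Type} (l : List α) (C : ℝ) (f : α → ℝ) :
    (l.map fun z => C * Real.exp (-f z)).prod = C ^ l.length * Real.exp (-(l.map f).sum) := by
  induction l with
  | nil => simp
  | cons a l ih =>
    simp only [List.map_cons, List.prod_cons, List.sum_cons, List.length_cons, ih, neg_add,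
      Real.exp_add, pow_succ]
    ring

theorem pr_sum {l : Type} [Fintype l] (s : ℕ → l → ℝ) (z : ℕ → ℤ) (k : ℕ) :
    pr (∑ i ∈ Finset.range k, (z i : ℝ) • s i) = ∑ i ∈ Finset.range k, z i • pr (s i) := by
  induction k with
  | zero => funext i; simp [pr]
  | succ k ih => rw [Finset.sum_range_succ, Finset.sum_range_succ, pr_add, ih, pr_zsmul]

theorem vol_cube (κ : Type) [Fintype κ] : volume (cube κ) = 1 := by
  unfold cube
  rw [volume_pi, Measure.pi_pi]
  simp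

theorem meas_cube (κ : Type) [Fintype κ] : MeasurableSet (cube κ) :=
  MeasurableSet.univ_pi fun _ => measurableSet_Ico

end MainAX

open MainAX

/-- the lower triangular matrix of a stage -/
def Hm (k : ℕ) (H : ℕ → ℕ → ℝ) : Matrix (Fin k) (Fin k) ℝ :=
  fun i j => if j ≤ i then H i j else 0

/-- extension by zero -/
def ext0 {k : ℕ} (t : Fin k → ℝ) : ℕ → ℝ := fun i => if h : i < k then t ⟨i, h⟩ else 0

/-- `Matrix.det_of_lowerTriangular` -/
theorem det_Hm (k : ℕ) (H : ℕ → ℕ → ℝ) : (Hm k H).det = ∏ i ∈ Finset.range k, H i i := by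
  rw [Matrix.det_of_isLowerTriangular, ← Fin.prod_univ_eq_prod_range (fun i => H i i) k]
  · simp [Hm]
  · intro i j hij
    have : ¬ j ≤ i := not_le.2 hij
    simp [Hm, this]

theorem yy_eq {k : ℕ} (H : ℕ → ℕ → ℝ) (t : Fin k → ℝ) (z : ℕ → ℤ) (i : Fin k) :
    yy H (ext0 t) z i = (t + Hm k H *ᵥ rv (fun j : Fin k => z j)) i := by
  have e : ∀ j : ℕ, j ∈ Finset.range k → (if j ≤ (i : ℕ) then H i j * (z j : ℝ) else 0) =
      if j ∈ Finset.range (i + 1) then H i j * (z j : ℝ) else 0 := by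
    intro j _; simp [Nat.lt_succ_iff]
  have hs : Finset.range k ∩ Finset.range (i + 1) = Finset.range (i + 1) :=
    Finset.inter_eq_right.2 (Finset.range_subset_range.2 i.2)
  simp only [yy, ext0, i.2, dif_pos, Pi.add_apply, Matrix.mulVec, dotProduct, Hm, rv, ite_mul, zero_mul,
    Fin.le_def]
  rw [Fin.sum_univ_eq_sum_range (fun j => if j ≤ (i : ℕ) then H i j * (z j : ℝ) else 0) k,
    Finset.sum_congr rfl e, Finset.sum_ite_mem, hs]

/-- **void fraction of the full lattice.**  Net `τ₁ = Fin k → Fin N₁`, `ŝ q = q / N₁`, `t q = Hm *ᵥ ŝ q`; policies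
`a q`, weights `w q` from the stage at `ext0 (t q)`.  For a leaf `z` put `ŷ = t q + Hm *ᵥ z`,
`S₀ = sec K ŷ`, `S = S₀ + closedBall 0 (r₂/n)` (compact), `V_z = V * w q z / 100 ≤ A`;
`V_z D ≤ vol S₀` by `Marg`, `det_Hm`, `yy_eq` (trivial if `w = 0`).  `base` for the family indexed by
`τ₁ × Fin (2^k)` (leaves as `(lv (a q) k).getD i 0`, `lv_length`) gives `g'`; `rogers_tree` with
`U q z = (cov g' (S q z))ᶜ`, `β q z = W * (15 exp (-V_z))` gives `u`; lift `u i = pr (Ũ · i)`; `layer` for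
`K⁺ = hom c (1+1/n) K`: for `σ ∈ cube` take `q i = ⌊N₁ σ i⌋`, `‖Hm *ᵥ (σ - ŝ q)‖ ≤ k R/N₁ ≤ 1/(2k² n)`, and
`S q z ⊆ sec K⁺ (Hm *ᵥ (σ + z))` by `Box`, `add_mem_hom`.  The product of the `β` is
`(15 W)^(2^k) exp (-V/100 ∑ w)`, `∑ w ≥ c₀` by `chain_one`. -/
theorem void_le {k N : ℕ} {m d : Type} [Fintype m] [Fintype d] [DecidableEq m] [DecidableEq d]
    {c₀ Tc R : ℝ} {H : ℕ → ℕ → ℝ} {gm : ℕ → ℕ} (hS : Stage k N c₀ Tc R H gm) (hk : 1 ≤ k)
    {K : Set (Fin k ⊕ (m ⊕ d) → ℝ)} (h : Body K) (hm : Marg K R) {c : Fin k ⊕ (m ⊕ d) → ℝ}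
    (hb : Box K (1 / (2 * k ^ 2)) c) {A n N₁ : ℕ} (hA : 1 ≤ A) (hmA : 16 * A < Fintype.card m)
    (hdA : 250 * A ≤ Fintype.card d) (hn : 1 ≤ n) (hN₁ : 2 * (k : ℝ) ^ 3 * R * n ≤ N₁) (hN₁' : 1 ≤ N₁)
    {V : ℝ} (hV : 0 < V) (hVA : V * Tc / 100 ≤ A) :
    ∃ g : Matrix (Fin k ⊕ (m ⊕ d)) (Fin k ⊕ (m ⊕ d)) ℝ, g.det = (volume K).toReal / V ∧
      volume (cov g (hom c (1 + 1 / n) K))ᶜ ≤
        ENNReal.ofReal ((15 * ((N₁ : ℝ) ^ k * 2 ^ k + 1) ^ 2) ^ 2 ^ k * Real.exp (-(V * c₀ / 100))) := by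
  classical
  obtain ⟨r₂, hr₂, hb⟩ := hb
  choose a w hw0 hw hsum using hS.main
  have hP : 0 < ∏ i ∈ Finset.range k, H i i :=
    Finset.prod_pos fun i hi => hS.pos i (Finset.mem_range.1 hi)
  set P := ∏ i ∈ Finset.range k, H i i with hPdef
  have hR : 0 ≤ R := (abs_nonneg _).trans (hS.bd 0 hk 0 le_rfl)
  have hvK : 0 < (volume K).toReal := ENNReal.toReal_pos h.vol_pos.1 h.vol_pos.2
  set vK := (volume K).toReal with hvKdef
  have hn' : (0 : ℝ) < n := by exact_mod_cast hn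
  have hk' : (0 : ℝ) < k := by exact_mod_cast hk
  have hN' : (0 : ℝ) < N₁ := by exact_mod_cast hN₁'
  let sh : (Fin k → Fin N₁) → Fin k → ℝ := fun q i => ((q i : ℕ) : ℝ) / N₁
  let tt : (Fin k → Fin N₁) → ℕ → ℝ := fun q => ext0 (Hm k H *ᵥ sh q)
  let yh : (Fin k → Fin N₁) → (ℕ → ℤ) → Fin k → ℝ := fun q z =>
    Hm k H *ᵥ sh q + Hm k H *ᵥ rv (fun j : Fin k => z j)
  let S : (Fin k → Fin N₁) → (ℕ → ℤ) → Set (m ⊕ d → ℝ) := fun q z =>
    (fun p : (m ⊕ d → ℝ) × (m ⊕ d → ℝ) => p.1 + p.2) '' (sec K (yh q z) ×ˢ Metric.closedBall 0 (r₂ / n))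
  have hSc : ∀ q z, IsCompact (S q z) := fun q z =>
    ((sec_compact h.1 _).prod (isCompact_closedBall _ _)).image continuous_add
  let Vz : (Fin k → Fin N₁) → (ℕ → ℤ) → ℝ := fun q z => V * w (tt q) z / 100
  let lf : (Fin k → Fin N₁) × Fin (2 ^ k) → ℕ → ℤ := fun t =>
    (lv (a (tt t.1)) k)[(t.2 : ℕ)]'(by rw [lv_length]; exact t.2.2)
  have hlf : ∀ t, lf t ∈ lv (a (tt t.1)) k := fun t => List.getElem_mem _
  have hvol : ∀ q, ∀ z ∈ lv (a (tt q)) k,
      ENNReal.ofReal (Vz q z * (vK / (V * P))) ≤ volume (sec K (yh q z)) := by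
    intro q z hz
    rcases (hw0 (tt q) z).eq_or_lt with h0 | h0
    · simp [Vz, ← h0]
    obtain ⟨b1, b2⟩ := (hw _ z hz).2 h0
    have ey : ∀ i : Fin k, yy H (tt q) z i = yh q z i := fun i => yy_eq H _ z i
    refine le_trans ?_ (hm (yh q z) fun i => ey i ▸ b1 i i.2)
    have g0 : ∀ y, 0 ≤ gau y := fun y => by unfold gau; positivity
    rw [← ENNReal.ofReal_toReal h.vol_pos.2, ← ENNReal.ofReal_mul
      (mul_nonneg (by norm_num) (Finset.prod_nonneg fun i _ => g0 _))]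
    refine ENNReal.ofReal_le_ofReal ?_
    rw [Finset.prod_mul_distrib, ← Fin.prod_univ_eq_prod_range (fun i => gau (yy H (tt q) z i)) k] at b2
    simp only [ey] at b2
    calc V * w (tt q) z / 100 * (vK / (V * P)) = 1 / 100 * (w (tt q) z / P) * vK := by field_simp
      _ ≤ _ := by
        gcongr
        rwa [div_le_iff₀' hP]
  obtain ⟨g', hg', hg⟩ := base (τ := (Fin k → Fin N₁) × Fin (2 ^ k)) hA hmA hdA
    (D := vK / (V * P)) (η₀ := r₂ / n) (by positivity) (by positivity)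
    (fun t => S t.1 (lf t)) (fun t => sec K (yh t.1 (lf t))) (fun t => hSc _ _)
    (fun t => (sec_compact h.1 _).measurableSet)
    (fun t x hx u hu => ⟨(x, Sum.elim u 0), ⟨hx, by
      rw [mem_closedBall_zero_iff, pi_norm_le_iff_of_nonneg (by positivity)]
      rintro (i | i)
      · exact (norm_le_pi_norm u i).trans hu
      · simp only [Sum.elim_inr, Pi.zero_apply, norm_zero]; positivity⟩, rfl⟩)
    (fun t => Vz t.1 (lf t)) (fun t => by have := hw0 (tt t.1) (lf t); positivity)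
    (fun t => le_trans (by have := (hw _ _ (hlf t)).1; simp only [Vz]; gcongr) hVA)
    (fun t => hvol _ _ (hlf t))
  have hg0 : g'.det ≠ 0 := by rw [hg']; positivity
  set W : ℝ := (N₁ : ℝ) ^ k * 2 ^ k + 1 with hW
  have hW0 : 0 < W := by positivity
  have c1 : (Fintype.card (Fin k → Fin N₁) : ℝ) = (N₁ : ℝ) ^ k := by simp
  have c2 : (Fintype.card ((Fin k → Fin N₁) × Fin (2 ^ k)) : ℝ) + 1 = W := by simp [hW]
  obtain ⟨u, hu⟩ := rogers_tree (l := m ⊕ d) k (fun q => a (tt q)) (fun q z => (cov g' (S q z))ᶜ)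
    (fun q z => W * 15 * Real.exp (-Vz q z))
    (fun q z => (isCompact_cov hg0 (hSc q z)).measurableSet.compl) (fun q z => by positivity)
    (fun q z hz => by
      obtain ⟨i, hi, rfl⟩ := List.getElem_of_mem hz
      have := hg (q, ⟨i, by rwa [lv_length] at hi⟩)
      rw [c2, ← mul_assoc] at this
      exact this)
  choose s hs1 hs using fun i => exists_pr_cube (u i)
  let U : Matrix (m ⊕ d) (Fin k) ℝ := fun r i => s i r
  have hU : ∀ z : ℕ → ℤ, pr (U *ᵥ rv fun j : Fin k => z j) = ∑ i ∈ Finset.range k, z i • u i := by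
    intro z
    simp only [← hs]
    rw [← pr_sum]
    congr 1
    funext r
    rw [← Fin.sum_univ_eq_sum_range (fun i => (z i : ℝ) • s i) k]
    simp [U, Matrix.mulVec, dotProduct, rv, mul_comm]
  have hH : (Hm k H).det = P := det_Hm k H
  refine ⟨Matrix.fromBlocks (Hm k H) 0 (g' * U) g', ?_, ?_⟩
  · rw [Matrix.det_fromBlocks_zero₁₂, hH, hg']; field_simp
  refine (layer _ _ _ (by rw [hH]; exact hP.ne') hg0 (hom_compact h.1 c _)).trans ?_
  refine (setLIntegral_mono' (meas_cube _) (g := fun _ => ENNReal.ofReal ((15 * W ^ 2) ^ 2 ^ k *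
    Real.exp (-(V * c₀ / 100)))) fun σ hσ => ?_).trans (by rw [setLIntegral_const, vol_cube, mul_one])
  have hσ' : ∀ i, 0 ≤ σ i ∧ σ i < 1 := fun i => hσ i (mem_univ i)
  let q : Fin k → Fin N₁ := fun i => ⟨⌊N₁ * σ i⌋₊, by
    rw [Nat.floor_lt (by have := (hσ' i).1; positivity)]
    have := (hσ' i).2
    nlinarith⟩
  have hδ : ∀ i, |σ i - sh q i| ≤ 1 / N₁ := by
    intro i
    have a1 : ((⌊N₁ * σ i⌋₊ : ℕ) : ℝ) ≤ N₁ * σ i := Nat.floor_le (by have := (hσ' i).1; positivity)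
    have a2 := Nat.lt_floor_add_one (N₁ * σ i)
    have e : σ i - sh q i = (N₁ * σ i - ⌊N₁ * σ i⌋₊) / N₁ := by simp only [sh, q]; field_simp
    rw [e, abs_div, abs_of_pos hN', abs_of_nonneg (by linarith)]
    gcongr
    linarith
  have hnorm : ‖(n : ℝ) • (Hm k H *ᵥ (σ - sh q))‖ ≤ 1 / (2 * k ^ 2) := by
    have b1 : ‖Hm k H *ᵥ (σ - sh q)‖ ≤ k * (R * (1 / N₁)) := by
      rw [pi_norm_le_iff_of_nonneg (by positivity)]
      intro i
      calc ‖(Hm k H *ᵥ (σ - sh q)) i‖ ≤ ∑ j : Fin k, ‖Hm k H i j * (σ - sh q) j‖ :=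
            norm_sum_le Finset.univ fun j : Fin k => Hm k H i j * (σ - sh q) j
        _ ≤ ∑ _j : Fin k, R * (1 / N₁) := Finset.sum_le_sum fun j _ => by
            rw [Real.norm_eq_abs, abs_mul]
            refine mul_le_mul ?_ (hδ j) (abs_nonneg _) hR
            unfold Hm
            split_ifs with hj
            · exact hS.bd i i.2 j hj
            · simpa using hR
        _ = _ := by simp
    rw [norm_smul, Real.norm_of_nonneg hn'.le]
    calc (n : ℝ) * ‖Hm k H *ᵥ (σ - sh q)‖ ≤ n * (k * (R * (1 / N₁))) := by gcongr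
      _ = (2 * k ^ 3 * R * n) / N₁ * (1 / (2 * k ^ 2)) := by field_simp
      _ ≤ 1 * (1 / (2 * k ^ 2)) := by gcongr; rwa [div_le_one hN']
      _ = _ := one_mul _
  have hsub : ∀ z : ℕ → ℤ, S q z ⊆
      sec (hom c (1 + 1 / n) K) (Hm k H *ᵥ (σ + rv fun j : Fin k => z j)) := by
    rintro z _ ⟨⟨x, b⟩, ⟨hx, hb'⟩, rfl⟩
    have b2 : ‖(n : ℝ) • b‖ ≤ r₂ := by
      rw [mem_closedBall_zero_iff, le_div_iff₀' hn'] at hb'
      rwa [norm_smul, Real.norm_of_nonneg hn'.le]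
    have := add_mem_hom h.cvx hn' (show Sum.elim (yh q z) x ∈ K from hx) (hb _ _ hnorm b2)
    show Sum.elim (Hm k H *ᵥ (σ + rv fun j : Fin k => z j)) (x + b) ∈ hom c (1 + 1 / n) K
    convert this using 1
    funext i
    rcases i with i | i
    · simp only [Sum.elim_inl, Pi.add_apply, Pi.smul_apply, smul_eq_mul, yh, Matrix.mulVec_add,
        Matrix.mulVec_sub, Pi.sub_apply]
      field_simp
      ring
    · simp only [Sum.elim_inr, Pi.add_apply, Pi.smul_apply, smul_eq_mul]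
      field_simp
  refine le_trans (measure_mono ?_) ((hu q).trans (ENNReal.ofReal_le_ofReal ?_))
  · intro θ hθ z _ hc
    refine hθ (fun j : Fin k => z j) ?_
    rw [hU]
    exact cov_mono _ (hsub z) hc
  · rw [prod_beta, lv_length, c1, ← hW, ← mul_assoc, ← mul_pow]
    have e1 : W * (W * 15) = 15 * W ^ 2 := by ring
    rw [e1]
    gcongr
    have := hsum (tt q) (fun _ => 1) 1 zero_le_one (chain_one N)
    simp only [mul_one] at this
    have e2 : ((lv (a (tt q)) k).map (Vz q)).sum =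
        V / 100 * ((lv (a (tt q)) k).map fun z => w (tt q) z).sum := by
      rw [← List.sum_map_mul_left]
      congr 2
      funext z
      simp only [Vz]; ring
    rw [e2]
    calc V * c₀ / 100 = V / 100 * c₀ := by ring
      _ ≤ _ := by gcongr

end Crest.Agent.R225
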