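import Crest.Agent.R225.Shell

set_option autoImplicit false

open MeasureTheory Set
open scoped ENNReal NNReal Matrix

namespace Crest.Agent.R225

namespace MargAux

theorem mG_nonneg {l n : ℕ} (ν : Measure (Fin n → ℝ)) (a b : Fin l → ℝ) (G : Fin l → Fin n → ℝ) :
    0 ≤ mG ν a b G := ENNReal.toReal_nonneg

theorem mG_le {l n : ℕ} (ν : Measure (Fin n → ℝ)) [IsFiniteMeasure ν] (a b : Fin l → ℝ)
    (G : Fin l → Fin n → ℝ) : mG ν a b G ≤ (ν univ).toReal :=
  ENNReal.toReal_mono (measure_ne_top _ _) (measure_mono (subset_univ _))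

theorem mG_memLp {l n : ℕ} (ν : Measure (Fin n → ℝ)) [IsFiniteMeasure ν] (a b : Fin l → ℝ) :
    MemLp (mG ν a b) 2 (gmx l n) :=
  MemLp.of_bound (mG_meas ν a b).aestronglyMeasurable (ν univ).toReal
    (Filter.Eventually.of_forall fun G => by
      rw [Real.norm_eq_abs, abs_of_nonneg (mG_nonneg ν a b G)]; exact mG_le ν a b G)

/-- variance bound -/
theorem var_le {l n : ℕ} (hn : 1 ≤ n) {K : Set (Fin n → ℝ)} (h : Body K) (hi : Iso K)
    {W : Set (Fin n → ℝ)} (hW : MeasurableSet W) (a b : Fin l → ℝ) :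
    Integrable (fun G => (mG ((un K).restrict W) a b G - gQ ((un K).restrict W) a b) ^ 2) (gmx l n) ∧
    ∫ G, (mG ((un K).restrict W) a b G - gQ ((un K).restrict W) a b) ^ 2 ∂(gmx l n) ≤
      60 * l * (n : ℝ) ^ (-(1 / 10) : ℝ) := by
  have := h.prob
  set ν := (un K).restrict W with hν
  have h2 := mG_memLp ν a b
  have h1 : Integrable (mG ν a b) (gmx l n) := h2.integrable (by norm_num)
  have hsq : Integrable (fun G => mG ν a b G * mG ν a b G) (gmx l n) := by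
    simpa [sq] using h2.integrable_sq
  have hE := int_mG ν a b
  have ht := two_point hn h hi hW a b a b
  rw [← hν] at ht
  set q := gQ ν a b
  have he : (fun G => (mG ν a b G - q) ^ 2) =
      fun G => mG ν a b G * mG ν a b G - (2 * q) * mG ν a b G + q ^ 2 := by
    funext G; ring
  have hi1 : Integrable (fun G => mG ν a b G * mG ν a b G - (2 * q) * mG ν a b G) (gmx l n) :=
    hsq.sub (h1.const_mul _)
  rw [he]
  refine ⟨hi1.add (integrable_const _), ?_⟩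
  rw [integral_add hi1 (integrable_const _), integral_sub hsq (h1.const_mul _), integral_const_mul, hE]
  simp only [integral_const, probReal_univ, smul_eq_mul, one_mul]
  have := (abs_le.1 ht).2
  nlinarith

/-- lower bound of the Gaussian mixture on the shell -/
theorem gQ_ge {k n : ℕ} (hk : 1 ≤ k) {K : Set (Fin n → ℝ)} (h : Body K) {σ s : ℝ} (hσ : 0 < σ)
    (hs : 0 ≤ s)
    (hW : 1 / 2 ≤ (un K {x | σ ≤ √(x ⬝ᵥ x) ∧ √(x ⬝ᵥ x) ≤ σ * (1 + 1 / k)}).toReal) (a : Fin k → ℤ) :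
    (1 / 6) * ∏ i, cw s (a i) ≤
      gQ ((un K).restrict {x | σ ≤ √(x ⬝ᵥ x) ∧ √(x ⬝ᵥ x) ≤ σ * (1 + 1 / k)})
        (fun i => σ * ((a i : ℝ) * s)) (fun i => σ * (((a i : ℝ) + 1) * s)) := by
  have := h.prob
  set W : Set (Fin n → ℝ) := {x | σ ≤ √(x ⬝ᵥ x) ∧ √(x ⬝ᵥ x) ≤ σ * (1 + 1 / k)} with hWd
  have hc : Continuous fun x : Fin n → ℝ => x ⬝ᵥ x := by unfold dotProduct; fun_prop
  have hWm : MeasurableSet W := by
    have hc' : Continuous fun x : Fin n → ℝ => √(x ⬝ᵥ x) := hc.sqrt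
    exact ((isClosed_le continuous_const hc').inter (isClosed_le hc' continuous_const)).measurableSet
  have hk0 : (0 : ℝ) < k := by exact_mod_cast hk
  have hτ : (0 : ℝ) < 1 + 1 / k := by positivity
  have hP : 0 ≤ ∏ i, cw s (a i) := Finset.prod_nonneg fun i _ => cw_nonneg hs _
  have he : (1 + 1 / k : ℝ) ^ k ≤ 3 := by
    calc (1 + 1 / k : ℝ) ^ k ≤ (Real.exp (1 / k)) ^ k := by
          gcongr
          have := Real.add_one_le_exp (1 / k : ℝ); linarith
      _ = Real.exp 1 := by rw [← Real.exp_nat_mul]; congr 1; field_simp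
      _ ≤ 3 := by have := Real.exp_one_lt_d9; linarith
  have hlow : ∀ x ∈ W, (∏ i, cw s (a i)) / 3 ≤
      ∏ r, gI (x ⬝ᵥ x) (σ * ((a r : ℝ) * s)) (σ * (((a r : ℝ) + 1) * s)) := by
    intro x hx
    have hxx : 0 ≤ x ⬝ᵥ x := Finset.sum_nonneg fun i _ => mul_self_nonneg _
    calc (∏ i, cw s (a i)) / 3 ≤ (∏ i, cw s (a i)) / (1 + 1 / k : ℝ) ^ k := by
          gcongr
      _ = ∏ i, (cw s (a i) / (1 + 1 / k : ℝ)) := by
          rw [Finset.prod_div_distrib]; simp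
      _ ≤ _ := by
          refine Finset.prod_le_prod (fun i _ => div_nonneg (cw_nonneg hs _) hτ.le) fun i _ => ?_
          have := gI_scale (a := (a i : ℝ) * s) (b := ((a i : ℝ) + 1) * s) hσ hx.1 hx.2 (by nlinarith)
          rw [Real.sq_sqrt hxx] at this
          rw [cw_eq_gI hs]
          exact this
  have hint : Integrable (fun x : Fin n → ℝ =>
      ∏ r, gI (x ⬝ᵥ x) (σ * ((a r : ℝ) * s)) (σ * (((a r : ℝ) + 1) * s))) ((un K).restrict W) := by
    refine Integrable.of_bound (C := 1) ?_ (Filter.Eventually.of_forall fun x => ?_)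
    · exact (Finset.measurable_prod _ fun r _ =>
        (measurable_gI _ _).comp hc.measurable).aestronglyMeasurable
    · rw [Real.norm_eq_abs, abs_of_nonneg (Finset.prod_nonneg fun r _ => gI_nonneg _ _ _)]
      exact Finset.prod_le_one (fun r _ => gI_nonneg _ _ _) fun r _ => gI_le_one _ _ _
  have := setIntegral_ge_of_const_le_real hWm (measure_ne_top (un K) W) hlow hint
  unfold gQ
  refine le_trans ?_ this
  have h2 : 1 / 2 ≤ (un K).real W := hW
  nlinarith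

theorem le_exp (x : ℝ) : x ≤ Real.exp x := by
  have := Real.add_one_le_exp x; linarith

/-- the numerical inequality of the union bound -/
theorem num {k n : ℕ} (hk : 1 ≤ k) {M R : ℝ} (hkM : (k : ℝ) ≤ M) (hR : 1 ≤ R) (hRM : R ≤ M)
    (hM : (10 : ℝ) ^ 20 * M ^ 5 ≤ Real.log n) :
    ((2 * ⌈(k : ℝ) * (R + 2) ^ 2⌉₊ + 1 : ℕ) : ℝ) ^ k * (60 * k * (n : ℝ) ^ (-(1 / 10) : ℝ)) ≤
      ((1 / 12) * (1 / (k * (R + 2)) * gau (R + 3)) ^ k) ^ 2 := by
  have hk1 : (1 : ℝ) ≤ k := by exact_mod_cast hk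
  have hM1 : 1 ≤ M := hk1.trans hkM
  have hM2 : 1 ≤ M ^ 2 := one_le_pow₀ hM1
  have hM3 : 1 ≤ M ^ 3 := one_le_pow₀ hM1
  have hM23 : M ^ 2 * k ≤ M ^ 3 := by
    calc M ^ 2 * k ≤ M ^ 2 * M := by gcongr
      _ = M ^ 3 := by ring
  have hMM3 : M ≤ M ^ 3 := le_self_pow₀ hM1 (by norm_num)
  have hM35 : M ^ 3 ≤ M ^ 5 := pow_le_pow_right₀ hM1 (by norm_num)
  have hlog : 0 < Real.log n := by nlinarith
  have hn : (0 : ℝ) < n := by
    rcases Nat.eq_zero_or_pos n with h0 | h0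
    · subst h0; simp at hlog
    · exact_mod_cast h0
  -- the number of boxes
  have h1 : ((2 * ⌈(k : ℝ) * (R + 2) ^ 2⌉₊ + 1 : ℕ) : ℝ) ≤ Real.exp (24 * M ^ 2) := by
    have hc : (⌈(k : ℝ) * (R + 2) ^ 2⌉₊ : ℝ) < k * (R + 2) ^ 2 + 1 :=
      Nat.ceil_lt_add_one (by positivity)
    have hb : (k : ℝ) * (R + 2) ^ 2 ≤ M * (3 * M) ^ 2 := by
      gcongr; linarith
    have hM' : M ≤ Real.exp (M ^ 2) := by
      refine le_trans ?_ (le_exp _); nlinarith
    have h21 : (21 : ℝ) ≤ Real.exp (21 * M ^ 2) := by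
      refine le_trans ?_ (le_exp _); nlinarith
    push_cast
    calc 2 * (⌈(k : ℝ) * (R + 2) ^ 2⌉₊ : ℝ) + 1 ≤ 21 * M ^ 3 := by nlinarith
      _ ≤ Real.exp (21 * M ^ 2) * (Real.exp (M ^ 2)) ^ 3 := by gcongr
      _ = Real.exp (24 * M ^ 2) := by
        rw [← Real.exp_nat_mul, ← Real.exp_add]; congr 1; push_cast; ring
  have h1' : ((2 * ⌈(k : ℝ) * (R + 2) ^ 2⌉₊ + 1 : ℕ) : ℝ) ^ k ≤ Real.exp (24 * M ^ 3) := by
    calc _ ≤ (Real.exp (24 * M ^ 2)) ^ k := by gcongr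
      _ = Real.exp (k * (24 * M ^ 2)) := by rw [← Real.exp_nat_mul]
      _ ≤ _ := Real.exp_le_exp.2 (by nlinarith)
  have h2 : (60 * k : ℝ) ≤ Real.exp (60 * M ^ 3) := by
    refine le_trans ?_ (le_exp _); nlinarith
  have h3 : (n : ℝ) ^ (-(1 / 10) : ℝ) ≤ Real.exp (-(1000 * M ^ 3)) := by
    rw [Real.rpow_def_of_pos hn]
    gcongr
    nlinarith
  have h4 : Real.exp (-(17 * M ^ 2)) ≤ 1 / (k * (R + 2)) * gau (R + 3) := by
    have hg := gau_ge (R + 3)
    have hg' : Real.exp (-(8 * M ^ 2)) ≤ Real.exp (-(R + 3) ^ 2 / 2) := by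
      gcongr
      have : (R + 3) ^ 2 ≤ (4 * M) ^ 2 := by gcongr; linarith
      nlinarith
    have h9 : 9 * M ^ 2 ≤ Real.exp (9 * M ^ 2) := le_exp _
    have hkR : (k : ℝ) * (R + 2) ≤ 3 * M ^ 2 := by
      calc (k : ℝ) * (R + 2) ≤ M * (3 * M) := by gcongr; linarith
        _ = _ := by ring
    have hpos : (0 : ℝ) < k * (R + 2) := by positivity
    calc Real.exp (-(17 * M ^ 2)) = Real.exp (-(8 * M ^ 2)) / Real.exp (9 * M ^ 2) := by
          rw [← Real.exp_sub]; congr 1; ring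
      _ ≤ Real.exp (-(8 * M ^ 2)) / (3 * (k * (R + 2))) := by
          gcongr; linarith
      _ = 1 / (k * (R + 2)) * (Real.exp (-(8 * M ^ 2)) / 3) := by field_simp
      _ ≤ _ := by gcongr; linarith
  have h5 : Real.exp (-(29 * M ^ 3)) ≤ (1 / 12) * (1 / (k * (R + 2)) * gau (R + 3)) ^ k := by
    have h12 : (12 : ℝ) ≤ Real.exp (12 * M ^ 3) := by
      refine le_trans ?_ (le_exp _); nlinarith
    calc Real.exp (-(29 * M ^ 3)) = 1 / Real.exp (12 * M ^ 3) * Real.exp (-(17 * M ^ 3)) := by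
          rw [one_div, ← Real.exp_neg, ← Real.exp_add]; congr 1; ring
      _ ≤ 1 / 12 * Real.exp (k * (-(17 * M ^ 2))) := by
          gcongr; nlinarith
      _ = 1 / 12 * (Real.exp (-(17 * M ^ 2))) ^ k := by rw [← Real.exp_nat_mul]
      _ ≤ _ := by gcongr
  calc _ ≤ Real.exp (24 * M ^ 3) * (Real.exp (60 * M ^ 3) * Real.exp (-(1000 * M ^ 3))) := by
        gcongr
    _ = Real.exp (-(916 * M ^ 3)) := by
        rw [← Real.exp_add, ← Real.exp_add]; congr 1; ring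
    _ ≤ Real.exp (-(29 * M ^ 3)) ^ 2 := by
        rw [← Real.exp_nat_mul]; gcongr; push_cast; nlinarith
    _ ≤ _ := by gcongr

end MargAux

open MargAux in
/-- **a good Gaussian matrix.**  `s = 1/(k (R+2))`, `W` = the shell of `shell`, `ν = (un K).restrict W`, boxes
`Q_a = ∏ [σ a_i s, σ (a_i+1) s]` for `a` in the finite set `{a | ∀ i, |a i * s| ≤ R + 2}` (at most
`(3k(R+2)²)^k` elements).  `gQ ν Q_a ≥ (1/2) (1+1/k)^(-k) ∏ cw s (a i) ≥ (1/6) ∏ cw` (`gI_scale`, `cw_eq_gI`),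
`∏ cw ≥ (s gau (R+3))^k` (`cw_ge`).  Chebyshev with `int_mG`, `two_point`:
`P(mG < gQ/2) ≤ 4 err / gQ²`; the union bound is `< 1` by `10^20 M^5 ≤ log n`.  Take `G / σ`. -/
theorem good_matrix {k n : ℕ} (hk : 1 ≤ k) {M R : ℝ} (hkM : (k : ℝ) ≤ M) (hR : 1 ≤ R) (hRM : R ≤ M)
    (hM : (10 : ℝ) ^ 20 * M ^ 5 ≤ Real.log n) {K : Set (Fin n → ℝ)} (h : Body K) (hi : Iso K) :
    ∃ G : Fin k → Fin n → ℝ, ∀ a : Fin k → ℤ, (∀ i, |(a i : ℝ) * (1 / (k * (R + 2)))| ≤ R + 2) →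
      (1 / 12) * ∏ i, cw (1 / (k * (R + 2))) (a i) ≤
        (un K {x | ∀ i, G i ⬝ᵥ x ∈
          Icc ((a i : ℝ) * (1 / (k * (R + 2)))) (((a i : ℝ) + 1) * (1 / (k * (R + 2))))}).toReal := by
  have := h.prob
  have hk1 : (1 : ℝ) ≤ k := by exact_mod_cast hk
  have hM1 : 1 ≤ M := hk1.trans hkM
  have hn : 1 ≤ n := by
    rcases Nat.eq_zero_or_pos n with h0 | h0
    · subst h0
      have : 1 ≤ M ^ 5 := one_le_pow₀ hM1
      simp only [Nat.cast_zero, Real.log_zero] at hM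
      nlinarith
    · exact h0
  have hnum := num hk hkM hR hRM hM
  obtain ⟨σ, hσ, hW⟩ := shell hk hkM hM h hi
  set s : ℝ := 1 / (k * (R + 2)) with hsd
  have hkR : (1 : ℝ) ≤ k * (R + 2) := by nlinarith
  have hs : 0 < s := by positivity
  have hs1 : s ≤ 1 := by rw [hsd, div_le_one (by positivity)]; exact hkR
  have hq := gQ_ge hk h hσ hs.le hW
  set W : Set (Fin n → ℝ) := {x | σ ≤ √(x ⬝ᵥ x) ∧ √(x ⬝ᵥ x) ≤ σ * (1 + 1 / k)} with hWd
  have hc : Continuous fun x : Fin n → ℝ => x ⬝ᵥ x := by unfold dotProduct; fun_prop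
  have hWm : MeasurableSet W := by
    have hc' : Continuous fun x : Fin n → ℝ => √(x ⬝ᵥ x) := hc.sqrt
    exact ((isClosed_le continuous_const hc').inter (isClosed_le hc' continuous_const)).measurableSet
  set N : ℕ := ⌈(k : ℝ) * (R + 2) ^ 2⌉₊ with hN
  set S : Finset (Fin k → ℤ) := Fintype.piFinset fun _ => Finset.Icc (-(N : ℤ)) N with hS
  have hcard : S.card = (2 * N + 1) ^ k := by
    rw [hS, Fintype.card_piFinset]
    simp only [Int.card_Icc, Finset.prod_const, Finset.card_univ, Fintype.card_fin]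
    congr 1
    omega
  set ν := (un K).restrict W with hν
  let lo : (Fin k → ℤ) → Fin k → ℝ := fun a i => σ * ((a i : ℝ) * s)
  let up : (Fin k → ℤ) → Fin k → ℝ := fun a i => σ * (((a i : ℝ) + 1) * s)
  let Φ : (Fin k → Fin n → ℝ) → ℝ := fun G =>
    ∑ a ∈ S, (mG ν (lo a) (up a) G - gQ ν (lo a) (up a)) ^ 2
  have hΦi : Integrable Φ (gmx k n) :=
    integrable_finsetSum _ fun a _ => (var_le hn h hi hWm (lo a) (up a)).1
  have hΦ : ∫ G, Φ G ∂(gmx k n) ≤ ((2 * N + 1 : ℕ) : ℝ) ^ k * (60 * k * (n : ℝ) ^ (-(1 / 10) : ℝ)) := by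
    rw [integral_finsetSum _ fun a _ => (var_le hn h hi hWm (lo a) (up a)).1]
    refine (Finset.sum_le_sum fun a _ => (var_le hn h hi hWm (lo a) (up a)).2).trans ?_
    rw [Finset.sum_const, nsmul_eq_mul, hcard]
    push_cast
    exact le_rfl
  obtain ⟨G, hG⟩ := exists_le_integral hΦi
  refine ⟨fun i => σ⁻¹ • G i, fun a ha => ?_⟩
  have haS : a ∈ S := by
    rw [hS, Fintype.mem_piFinset]
    intro i
    have h1 := ha i
    rw [abs_mul, abs_of_pos hs, hsd, mul_one_div, div_le_iff₀ (by positivity)] at h1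
    have h2 : (k : ℝ) * (R + 2) ^ 2 ≤ N := Nat.le_ceil _
    have h3 : |(a i : ℝ)| ≤ N := by nlinarith
    have h4 : |a i| ≤ (N : ℤ) := by exact_mod_cast h3
    rw [Finset.mem_Icc]
    exact abs_le.1 h4
  have hone : (mG ν (lo a) (up a) G - gQ ν (lo a) (up a)) ^ 2 ≤ Φ G :=
    Finset.single_le_sum (f := fun a => (mG ν (lo a) (up a) G - gQ ν (lo a) (up a)) ^ 2)
      (fun a _ => sq_nonneg _) haS
  have hg0 : 0 < gau (R + 3) := gau_pos _
  have hP : (s * gau (R + 3)) ^ k ≤ ∏ i, cw s (a i) := by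
    calc (s * gau (R + 3)) ^ k = ∏ _i : Fin k, (s * gau (R + 3)) := by simp
      _ ≤ _ := by
        refine Finset.prod_le_prod (fun i _ => by positivity) fun i _ => ?_
        refine cw_ge hs.le ((ha i).trans (by linarith)) ?_
        rw [add_mul, one_mul]
        refine (abs_add_le _ _).trans ?_
        rw [abs_of_pos hs]
        linarith [ha i]
  have hsq : (mG ν (lo a) (up a) G - gQ ν (lo a) (up a)) ^ 2 ≤ ((1 / 12) * ∏ i, cw s (a i)) ^ 2 := by
    refine hone.trans (hG.trans (hΦ.trans (hnum.trans ?_)))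
    gcongr
  have hP0 : 0 ≤ (1 / 12) * ∏ i, cw s (a i) :=
    mul_nonneg (by norm_num) (Finset.prod_nonneg fun i _ => cw_nonneg hs.le _)
  have hab := (abs_le_of_sq_le_sq' hsq hP0).1
  have hqa : (1 / 6) * ∏ i, cw s (a i) ≤ gQ ν (lo a) (up a) := hq a
  have hfin : mG ν (lo a) (up a) G ≤ (un K {x | ∀ i, (σ⁻¹ • G i) ⬝ᵥ x ∈
      Icc ((a i : ℝ) * s) (((a i : ℝ) + 1) * s)}).toReal := by
    unfold mG
    refine ENNReal.toReal_mono (measure_ne_top _ _) ?_
    refine (Measure.restrict_apply_le _ _).trans (measure_mono fun x hx i => ?_)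
    have := hx i
    simp only [lo, up, mem_Icc] at this
    rw [smul_dotProduct, smul_eq_mul, mem_Icc]
    constructor
    · rw [le_inv_mul_iff₀ hσ]; exact this.1
    · rw [inv_mul_le_iff₀ hσ]; exact this.2
  linarith

end Crest.Agent.R225
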