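import Crest.Agent.R225.Young1
import Crest.Agent.R225.Tor

set_option autoImplicit false

open MeasureTheory Set
open scoped ENNReal NNReal Matrix

namespace Crest.Agent.R225

namespace YoungNX

/-- Young's inequality with constant `c` on `E` -/
def YP (E : Type) [MeasureSpace E] [Add E] (c : ℝ≥0∞) : Prop :=
  ∀ f g h : E → ℝ≥0∞, Measurable f → Measurable g → Measurable h →
    ∫⁻ x, ∫⁻ y, f x ^ (2 / 3 : ℝ) * g y ^ (2 / 3 : ℝ) * h (x + y) ^ (2 / 3 : ℝ) ≤
      c * ((∫⁻ x, f x) * (∫⁻ x, g x) * ∫⁻ x, h x) ^ (2 / 3 : ℝ)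

theorem YP.equiv {E F : Type} [MeasureSpace E] [Add E] [MeasureSpace F] [Add F] {c : ℝ≥0∞}
    (e : E ≃ᵐ F) (he : MeasurePreserving e volume volume) (ha : ∀ x y, e (x + y) = e x + e y)
    (H : YP E c) : YP F c := by
  intro f g h hf hg hh
  have := H (fun x => f (e x)) (fun x => g (e x)) (fun x => h (e x)) (hf.comp e.measurable)
    (hg.comp e.measurable) (hh.comp e.measurable)
  rw [he.lintegral_map_equiv f, he.lintegral_map_equiv g, he.lintegral_map_equiv h,
    he.lintegral_map_equiv]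
  refine le_of_eq_of_le ?_ this
  refine lintegral_congr fun x => ?_
  rw [he.lintegral_map_equiv]
  simp only [ha]

theorem YP.prod {E F : Type} [MeasureSpace E] [Add E] [MeasureSpace F] [Add F] [MeasurableAdd₂ E]
    [MeasurableAdd₂ F] [SFinite (volume : Measure E)] [SFinite (volume : Measure F)] {c c' : ℝ≥0∞}
    (hc' : c' ≠ ∞) (H : YP E c) (H' : YP F c') : YP (E × F) (c' * c) := by
  intro f g h hf hg hh
  have hadd : Measurable fun q : (E × F) × (E × F) => q.1 + q.2 :=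
    (measurable_fst.fst.add measurable_snd.fst).prodMk (measurable_fst.snd.add measurable_snd.snd)
  have hΦ : Measurable fun q : (E × F) × (E × F) =>
      f q.1 ^ (2 / 3 : ℝ) * g q.2 ^ (2 / 3 : ℝ) * h (q.1 + q.2) ^ (2 / 3 : ℝ) :=
    (((hf.comp measurable_fst).pow_const _).mul ((hg.comp measurable_snd).pow_const _)).mul
      ((hh.comp hadd).pow_const _)
  have hF := hf.lintegral_prod_right' (ν := (volume : Measure F))
  have hG := hg.lintegral_prod_right' (ν := (volume : Measure F))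
  have hH := hh.lintegral_prod_right' (ν := (volume : Measure F))
  simp only [Measure.volume_eq_prod]
  rw [lintegral_prod _ hf.aemeasurable, lintegral_prod _ hg.aemeasurable,
    lintegral_prod _ hh.aemeasurable,
    lintegral_prod _ (hΦ.lintegral_prod_right' (ν := (volume : Measure E).prod volume)).aemeasurable,
    mul_assoc c']
  refine le_trans ?_ (mul_le_mul_right (H _ _ _ hF hG hH) c')
  rw [← lintegral_const_mul' _ _ hc']
  refine lintegral_mono fun x1 => ?_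
  rw [← lintegral_const_mul' _ _ hc']
  have e1 : ∀ x2 : F, ∫⁻ y : E × F,
      f (x1, x2) ^ (2 / 3 : ℝ) * g y ^ (2 / 3 : ℝ) * h ((x1, x2) + y) ^ (2 / 3 : ℝ)
        ∂((volume : Measure E).prod volume) = ∫⁻ y1 : E, ∫⁻ y2 : F,
      f (x1, x2) ^ (2 / 3 : ℝ) * g (y1, y2) ^ (2 / 3 : ℝ) * h (x1 + y1, x2 + y2) ^ (2 / 3 : ℝ) :=
    fun x2 => lintegral_prod _ (hΦ.comp (measurable_const.prodMk measurable_id)).aemeasurable
  simp only [e1]
  have hm : Measurable fun q : (F × E) × F =>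
      f (x1, q.1.1) ^ (2 / 3 : ℝ) * g (q.1.2, q.2) ^ (2 / 3 : ℝ) *
        h (x1 + q.1.2, q.1.1 + q.2) ^ (2 / 3 : ℝ) :=
    hΦ.comp ((measurable_const.prodMk measurable_fst.fst).prodMk
      (measurable_fst.snd.prodMk measurable_snd))
  rw [lintegral_lintegral_swap (hm.lintegral_prod_right' (ν := (volume : Measure F))).aemeasurable]
  refine lintegral_mono fun y1 => ?_
  refine (H' (fun x2 => f (x1, x2)) (fun y2 => g (y1, y2)) (fun z => h (x1 + y1, z))
    (hf.comp (measurable_const.prodMk measurable_id))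
    (hg.comp (measurable_const.prodMk measurable_id))
    (hh.comp (measurable_const.prodMk measurable_id))).trans (le_of_eq ?_)
  rw [ENNReal.mul_rpow_of_nonneg _ _ (by norm_num), ENNReal.mul_rpow_of_nonneg _ _ (by norm_num)]

theorem yp_fin (n : ℕ) : YP (Fin n → ℝ) (ENNReal.ofReal ((7 / 8) ^ n)) := by
  induction n with
  | zero =>
    intro f g h _ _ _
    have hu : (volume : Measure (Fin 0 → ℝ)) univ = 1 := by
      rw [volume_pi, Measure.pi_of_empty, Measure.dirac_apply_of_mem (mem_univ _)]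
    simp only [lintegral_unique, hu, mul_one, pow_zero, ENNReal.ofReal_one, one_mul]
    rw [ENNReal.mul_rpow_of_nonneg _ _ (by norm_num), ENNReal.mul_rpow_of_nonneg _ _ (by norm_num)]
    refine le_of_eq ?_
    congr 3
    exact Subsingleton.elim _ _
  | succ n ih =>
    have h1 : YP ℝ (ENNReal.ofReal (7 / 8)) := fun f g h hf hg hh => young1 hf hg hh
    have h2 := YP.prod ENNReal.ofReal_ne_top h1 ih
    rw [← ENNReal.ofReal_mul (by positivity), ← pow_succ] at h2
    refine YP.equiv (MeasurableEquiv.piFinSuccAbove (fun _ : Fin (n + 1) => ℝ) 0).symm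
      (volume_preserving_piFinSuccAbove (fun _ : Fin (n + 1) => ℝ) 0).symm (fun x y => ?_) h2
    apply (MeasurableEquiv.piFinSuccAbove (fun _ : Fin (n + 1) => ℝ) 0).injective
    have ha : ∀ u v : Fin (n + 1) → ℝ,
        MeasurableEquiv.piFinSuccAbove (fun _ : Fin (n + 1) => ℝ) 0 (u + v) =
          MeasurableEquiv.piFinSuccAbove (fun _ : Fin (n + 1) => ℝ) 0 u +
            MeasurableEquiv.piFinSuccAbove (fun _ : Fin (n + 1) => ℝ) 0 v := fun u v => rfl
    rw [ha]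
    simp only [MeasurableEquiv.apply_symm_apply]

end YoungNX

/-- tensorisation: induction on `n` for `Fin n → ℝ` (`measurePreserving_piFinSuccAbove` /
`MeasurableEquiv.piFinSuccAbove`, Tonelli: apply `young1` in the new coordinate, then the induction
hypothesis to the fibre integrals), then `Fintype.equivFin` -/
theorem youngN {d : Type} [Fintype d] {f g h : (d → ℝ) → ℝ≥0∞} (hf : Measurable f)
    (hg : Measurable g) (hh : Measurable h) :
    ∫⁻ x, ∫⁻ y, f x ^ (2 / 3 : ℝ) * g y ^ (2 / 3 : ℝ) * h (x + y) ^ (2 / 3 : ℝ) ≤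
      ENNReal.ofReal ((7 / 8) ^ Fintype.card d) *
        ((∫⁻ x, f x) * (∫⁻ x, g x) * ∫⁻ x, h x) ^ (2 / 3 : ℝ) :=
  YoungNX.YP.equiv
    (MeasurableEquiv.arrowCongr' (Fintype.equivFin d).symm (MeasurableEquiv.refl ℝ))
    (volume_preserving_arrowCongr' _ _ (MeasurePreserving.id _)) (fun _ _ => rfl)
    (YoungNX.yp_fin _) f g h hf hg hh

namespace YoungNX

theorem core {d : Type} [Fintype d] {I₁ I₂ I : Set (T d)} {ρ : ℝ} (hρ : ρ ≤ 1 / 8)
    (h₁ : MeasurableSet I₁) (h₂ : MeasurableSet I₂) (h : MeasurableSet I)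
    (s₁ : I₁ ⊆ pr '' Metric.closedBall (0 : d → ℝ) ρ) (s₂ : I₂ ⊆ pr '' Metric.closedBall (0 : d → ℝ) ρ) :
    ((volume : Measure (T d)).prod (volume : Measure (T d)))
        {q | q.1 ∈ I₁ ∧ q.2 ∈ I₂ ∧ q.1 + q.2 ∈ I} ≤
      ENNReal.ofReal ((7 / 8) ^ Fintype.card d) *
        (volume I₁ * volume I₂ * volume I) ^ (2 / 3 : ℝ) := by
  have hS : MeasurableSet {q : T d × T d | q.1 ∈ I₁ ∧ q.2 ∈ I₂ ∧ q.1 + q.2 ∈ I} :=
    (measurable_fst h₁).inter ((measurable_snd h₂).inter ((measurable_fst.add measurable_snd) h))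
  set a : d → ℝ := fun i => (0 : d → ℝ) i - 1 / 2 with ha
  have hmp := (TorX.mp_box a).prod (TorX.mp_box a)
  have hpm : Measurable (pr : (d → ℝ) → T d) := continuous_pr.measurable
  rw [← hmp.measure_preimage hS.nullMeasurableSet, Measure.prod_restrict,
    Measure.restrict_apply (hmp.measurable hS)]
  set J₁ := pr ⁻¹' I₁ ∩ Metric.closedBall (0 : d → ℝ) ρ with hJ₁
  set J₂ := pr ⁻¹' I₂ ∩ Metric.closedBall (0 : d → ℝ) ρ with hJ₂
  set J := pr ⁻¹' I ∩ Metric.closedBall (0 : d → ℝ) (2 * ρ) with hJ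
  have m₁ : MeasurableSet J₁ := (hpm h₁).inter measurableSet_closedBall
  have m₂ : MeasurableSet J₂ := (hpm h₂).inter measurableSet_closedBall
  have m : MeasurableSet J := (hpm h).inter measurableSet_closedBall
  have hS' : MeasurableSet {q : (d → ℝ) × (d → ℝ) | q.1 ∈ J₁ ∧ q.2 ∈ J₂ ∧ q.1 + q.2 ∈ J} :=
    (measurable_fst m₁).inter ((measurable_snd m₂).inter ((measurable_fst.add measurable_snd) m))
  have hb : ∀ {K : Set (T d)}, K ⊆ pr '' Metric.closedBall (0 : d → ℝ) ρ → ∀ x ∈ TorX.box a,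
      pr x ∈ K → x ∈ Metric.closedBall (0 : d → ℝ) ρ := by
    intro K hK x hx hxK
    obtain ⟨s, hs, e⟩ := hK hxK
    rwa [← TorX.injOn_box a (TorX.ball_subset 0 (by linarith) hs) hx e]
  have hsub : (Prod.map pr pr ⁻¹' {q : T d × T d | q.1 ∈ I₁ ∧ q.2 ∈ I₂ ∧ q.1 + q.2 ∈ I}) ∩
      TorX.box a ×ˢ TorX.box a ⊆
      {q : (d → ℝ) × (d → ℝ) | q.1 ∈ J₁ ∧ q.2 ∈ J₂ ∧ q.1 + q.2 ∈ J} := by
    rintro ⟨x, y⟩ ⟨⟨k1, k2, k3⟩, k4, k5⟩
    have b1 := hb s₁ x k4 k1
    have b2 := hb s₂ y k5 k2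
    refine ⟨⟨k1, b1⟩, ⟨k2, b2⟩, ?_, ?_⟩
    · show pr (x + y) ∈ I
      rw [pr_add]; exact k3
    · rw [mem_closedBall_zero_iff] at b1 b2 ⊢
      exact (norm_add_le x y).trans (by linarith)
  refine (measure_mono hsub).trans ?_
  have hY := youngN (f := J₁.indicator 1) (g := J₂.indicator 1) (h := J.indicator 1)
    (measurable_one.indicator m₁) (measurable_one.indicator m₂) (measurable_one.indicator m)
  rw [lintegral_indicator_one m₁, lintegral_indicator_one m₂, lintegral_indicator_one m] at hY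
  rw [← lintegral_indicator_one hS', lintegral_prod _ (measurable_one.indicator hS').aemeasurable]
  refine le_trans (lintegral_mono fun x => lintegral_mono fun y => ?_) (hY.trans ?_)
  · by_cases hq : (x, y) ∈ {q : (d → ℝ) × (d → ℝ) | q.1 ∈ J₁ ∧ q.2 ∈ J₂ ∧ q.1 + q.2 ∈ J}
    · rw [indicator_of_mem hq, indicator_of_mem hq.1, indicator_of_mem hq.2.1,
        indicator_of_mem hq.2.2]
      simp
    · rw [indicator_of_notMem hq]
      exact zero_le
  · have v₁ : volume J₁ ≤ volume I₁ := vol_lift_le (by linarith) h₁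
    have v₂ : volume J₂ ≤ volume I₂ := vol_lift_le (by linarith) h₂
    have v : volume J ≤ volume I := vol_lift_le (by linarith) h
    gcongr

theorem mp_eps {d : Type} [Fintype d] {ε : ℤ} (e : ε = 1 ∨ ε = -1) :
    MeasurePreserving (fun x : T d => ε • x) volume volume :=
  measurePreserving_pi (fun _ : d => (volume : Measure UnitAddCircle))
    (fun _ : d => (volume : Measure UnitAddCircle)) (f := fun _ x => ε • x)
    fun _ => Measure.measurePreserving_zsmul volume (by rcases e with rfl | rfl <;> norm_num)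

theorem eps_eps {d : Type} {ε : ℤ} (e : ε = 1 ∨ ε = -1) (x : T d) : ε • ε • x = x := by
  rcases e with rfl | rfl <;> simp

theorem eps_sub {d : Type} [Fintype d] {ε : ℤ} (e : ε = 1 ∨ ε = -1) {K : Set (T d)} {ρ : ℝ}
    (s : K ⊆ pr '' Metric.closedBall (0 : d → ℝ) ρ) :
    (fun x : T d => ε • x) ⁻¹' K ⊆ pr '' Metric.closedBall (0 : d → ℝ) ρ := by
  intro x hx
  obtain ⟨u, hu, h⟩ := s hx
  refine ⟨(ε : ℝ) • u, ?_, by rw [pr_zsmul, h, eps_eps e]⟩
  rw [mem_closedBall_zero_iff] at hu ⊢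
  rcases e with rfl | rfl <;> simpa using hu

end YoungNX

/-- torus version for small sets.  Replace `I₁` by `ε₁ • I₁` etc. (negation invariance) to get `ε = 1`;
lift: `J_i = pr ⁻¹' I_i ∩ closedBall 0 ρ`, `J = pr ⁻¹' I ∩ closedBall 0 (2ρ)`; `pr` restricted to
`closedBall 0 ρ` is injective and measure preserving onto its image (`vol_pr_small`, `vol_lift_le`, `mp_pr`),
apply `youngN` to the indicator functions. -/
theorem youngT {d : Type} [Fintype d] {I₁ I₂ I : Set (T d)} {ρ : ℝ} (hρ : ρ ≤ 1 / 8)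
    (h₁ : MeasurableSet I₁) (h₂ : MeasurableSet I₂) (h : MeasurableSet I)
    (s₁ : I₁ ⊆ pr '' Metric.closedBall (0 : d → ℝ) ρ) (s₂ : I₂ ⊆ pr '' Metric.closedBall (0 : d → ℝ) ρ)
    {ε₁ ε₂ : ℤ} (e₁ : ε₁ = 1 ∨ ε₁ = -1) (e₂ : ε₂ = 1 ∨ ε₂ = -1) :
    (((volume : Measure (T d)).prod (volume : Measure (T d)))
        {q | q.1 ∈ I₁ ∧ q.2 ∈ I₂ ∧ ε₁ • q.1 + ε₂ • q.2 ∈ I}).toReal ≤
      (7 / 8) ^ Fintype.card d *
        ((volume I₁).toReal * (volume I₂).toReal * (volume I).toReal) ^ (2 / 3 : ℝ) := by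
  have p₁ := YoungNX.mp_eps (d := d) e₁
  have p₂ := YoungNX.mp_eps (d := d) e₂
  have m₁ := p₁.measurable h₁
  have m₂ := p₂.measurable h₂
  have hc := YoungNX.core hρ m₁ m₂ h (YoungNX.eps_sub e₁ s₁) (YoungNX.eps_sub e₂ s₂)
  have hS : MeasurableSet {q : T d × T d | q.1 ∈ (fun x : T d => ε₁ • x) ⁻¹' I₁ ∧
      q.2 ∈ (fun x : T d => ε₂ • x) ⁻¹' I₂ ∧ q.1 + q.2 ∈ I} :=
    (measurable_fst m₁).inter ((measurable_snd m₂).inter ((measurable_fst.add measurable_snd) h))
  rw [← (p₁.prod p₂).measure_preimage hS.nullMeasurableSet,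
    p₁.measure_preimage h₁.nullMeasurableSet, p₂.measure_preimage h₂.nullMeasurableSet] at hc
  have e : {q : T d × T d | q.1 ∈ I₁ ∧ q.2 ∈ I₂ ∧ ε₁ • q.1 + ε₂ • q.2 ∈ I} =
      Prod.map (fun x : T d => ε₁ • x) (fun x : T d => ε₂ • x) ⁻¹'
        {q : T d × T d | q.1 ∈ (fun x : T d => ε₁ • x) ⁻¹' I₁ ∧
          q.2 ∈ (fun x : T d => ε₂ • x) ⁻¹' I₂ ∧ q.1 + q.2 ∈ I} := by
    ext q
    simp only [mem_preimage, mem_ofPred_eq, Prod.map_fst, Prod.map_snd, YoungNX.eps_eps e₁,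
      YoungNX.eps_eps e₂]
  rw [e]
  refine (ENNReal.toReal_mono ?_ hc).trans (le_of_eq ?_)
  · refine ENNReal.mul_ne_top ENNReal.ofReal_ne_top (ENNReal.rpow_ne_top_of_nonneg (by norm_num) ?_)
    exact ENNReal.mul_ne_top (ENNReal.mul_ne_top (measure_ne_top _ _) (measure_ne_top _ _))
      (measure_ne_top _ _)
  · rw [ENNReal.toReal_mul, ENNReal.toReal_ofReal (by positivity), ← ENNReal.toReal_rpow,
      ENNReal.toReal_mul, ENNReal.toReal_mul]

open Classical in
/-- trivial Young inequality for counting measure: `(abc)^(2/3) = (ab)^(1/3) (ac)^(1/3) (bc)^(1/3) ≤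
(ab + ac + bc)/3`, and for fixed `z₁` the map `z₂ ↦ φ z₁ z₂` is injective (and symmetrically) -/
theorem young_count {α : Type} (P : Finset α) (p : α → ℝ) (hp : ∀ z, 0 ≤ p z) (φ : α → α → α)
    (h₁ : ∀ a, Function.Injective (φ a)) (h₂ : ∀ b, Function.Injective fun a => φ a b) :
    ∑ a ∈ P, ∑ b ∈ P.filter (fun b => φ a b ∈ P), (p a * p b * p (φ a b)) ^ (2 / 3 : ℝ) ≤
      (∑ z ∈ P, p z) ^ 2 := by
  have am : ∀ a b c : ℝ, 0 ≤ a → 0 ≤ b → 0 ≤ c →
      (a * b * c) ^ (2 / 3 : ℝ) ≤ 1 / 3 * (a * b) + 1 / 3 * (a * c) + 1 / 3 * (b * c) := by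
    intro a b c ha hb hc
    have h := Real.geom_mean_le_arith_mean3_weighted (w₁ := 1 / 3) (w₂ := 1 / 3) (w₃ := 1 / 3)
      (p₁ := a * b) (p₂ := a * c) (p₃ := b * c) (by norm_num) (by norm_num) (by norm_num)
      (by positivity) (by positivity) (by positivity) (by norm_num)
    refine le_of_eq_of_le ?_ h
    rw [← Real.mul_rpow (by positivity) (by positivity),
      ← Real.mul_rpow (by positivity) (by positivity),
      show a * b * (a * c) * (b * c) = (a * b * c) ^ (2 : ℝ) by rw [Real.rpow_two]; ring,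
      ← Real.rpow_mul (by positivity)]
    norm_num
  have inj : ∀ ψ : α → α, Function.Injective ψ →
      ∑ b ∈ P.filter (fun b => ψ b ∈ P), p (ψ b) ≤ ∑ z ∈ P, p z := by
    intro ψ hψ
    rw [← Finset.sum_image (f := p) (g := ψ) (fun _ _ _ _ e => hψ e)]
    refine Finset.sum_le_sum_of_subset_of_nonneg (fun z hz => ?_) fun z _ _ => hp z
    obtain ⟨b, hb, rfl⟩ := Finset.mem_image.1 hz
    exact (Finset.mem_filter.1 hb).2
  set S := ∑ z ∈ P, p z with hS
  have t1 : ∑ a ∈ P, ∑ b ∈ P.filter (fun b => φ a b ∈ P), p a * p b ≤ S * S := by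
    rw [hS, Finset.sum_mul]
    refine Finset.sum_le_sum fun a _ => ?_
    rw [← Finset.mul_sum]
    exact mul_le_mul_of_nonneg_left (Finset.sum_le_sum_of_subset_of_nonneg
      (Finset.filter_subset _ _) fun z _ _ => hp z) (hp a)
  have t2 : ∑ a ∈ P, ∑ b ∈ P.filter (fun b => φ a b ∈ P), p a * p (φ a b) ≤ S * S := by
    rw [hS, Finset.sum_mul]
    refine Finset.sum_le_sum fun a _ => ?_
    rw [← Finset.mul_sum]
    exact mul_le_mul_of_nonneg_left (inj _ (h₁ a)) (hp a)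
  have t3 : ∑ a ∈ P, ∑ b ∈ P.filter (fun b => φ a b ∈ P), p b * p (φ a b) ≤ S * S := by
    rw [Finset.sum_comm' (t' := P) (s' := fun b => P.filter (fun a => φ a b ∈ P))
      (by intro a b; simp only [Finset.mem_filter]; tauto), hS, Finset.sum_mul]
    refine Finset.sum_le_sum fun b _ => ?_
    rw [← Finset.mul_sum]
    exact mul_le_mul_of_nonneg_left (inj _ (h₂ b)) (hp b)
  refine (Finset.sum_le_sum fun a _ => Finset.sum_le_sum fun b _ =>
    am _ _ _ (hp a) (hp b) (hp _)).trans ?_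
  simp only [Finset.sum_add_distrib, ← Finset.mul_sum] at t1 t2 t3 ⊢
  rw [sq]
  linarith

end Crest.Agent.R225
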