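import Crest.Agent.R225.Indep
import Crest.Agent.R225.YoungN
import Crest.Agent.R225.Bonf

set_option autoImplicit false

open MeasureTheory Set
open scoped ENNReal NNReal Matrix

namespace Crest.Agent.R225

namespace OneX

theorem hat_inj {m : Type} {z w : m → ℤ} (h : hat z = hat w) : z = w := by
  funext c
  have := congrFun h (some c)
  simp only [hat, Option.elim] at this
  exact_mod_cast this

theorem rel_none {m : Type} {F₀ : Finset (m → ℤ)} {z₁ z₂ j : m → ℤ} {b : (m → ℤ) → ℤ} {ε₁ ε₂ : ℤ}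
    (hj : hat j = (ε₁ : ℚ) • hat z₁ + (ε₂ : ℚ) • hat z₂ + ∑ y ∈ F₀, (b y : ℚ) • hat y) :
    ε₁ + ε₂ + ∑ y ∈ F₀, b y = 1 := by
  have := congrFun hj none
  simp only [hat, Option.elim, Pi.add_apply, Pi.smul_apply, Finset.sum_apply, smul_eq_mul,
    mul_one] at this
  exact_mod_cast this.symm

theorem rel_some {m : Type} {F₀ : Finset (m → ℤ)} {z₁ z₂ j : m → ℤ} {b : (m → ℤ) → ℤ} {ε₁ ε₂ : ℤ}
    (hj : hat j = (ε₁ : ℚ) • hat z₁ + (ε₂ : ℚ) • hat z₂ + ∑ y ∈ F₀, (b y : ℚ) • hat y) :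
    j = ε₁ • z₁ + ε₂ • z₂ + ∑ y ∈ F₀, b y • y := by
  funext c
  have := congrFun hj (some c)
  simp only [hat, Option.elim, Pi.add_apply, Pi.smul_apply, Finset.sum_apply, smul_eq_mul] at this ⊢
  exact_mod_cast this

theorem XX_comb {m d : Type} [Fintype m] {F₀ : Finset (m → ℤ)} {z₁ z₂ j : m → ℤ}
    {b : (m → ℤ) → ℤ} {ε₁ ε₂ : ℤ}
    (hj : hat j = (ε₁ : ℚ) • hat z₁ + (ε₂ : ℚ) • hat z₂ + ∑ y ∈ F₀, (b y : ℚ) • hat y)
    (ω : Option m → T d) :
    XX ω j = ε₁ • XX ω z₁ + ε₂ • XX ω z₂ + ∑ y ∈ F₀, b y • XX ω y := by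
  have h0 := rel_none hj
  have h1 := rel_some hj
  let L : (m → ℤ) →ₗ[ℤ] T d := Fintype.linearCombination ℤ fun c => ω (some c)
  have hL : ∀ z, XX ω z = ω none + L z := fun z => by
    simp only [XX, L, Fintype.linearCombination_apply]
  simp only [hL, smul_add, Finset.sum_add_distrib]
  rw [← Finset.sum_smul]
  have h2 : L j = ε₁ • L z₁ + ε₂ • L z₂ + ∑ y ∈ F₀, b y • L y := by
    conv_lhs => rw [h1]
    simp only [map_add, map_smul, map_sum]
  have h3 : ω none = ε₁ • ω none + ε₂ • ω none + (∑ y ∈ F₀, b y) • ω none := by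
    rw [← add_smul, ← add_smul, h0, one_smul]
  rw [h2]
  conv_lhs => rw [h3]
  abel

theorem borel {m d : Type} [Fintype d] (F₀ : Finset (m → ℤ)) :
    BorelSpace ((F₀ → T d) × (T d × T d)) := by
  have h1 : BorelSpace (T d) := inferInstance
  have h2 : SecondCountableTopology (T d) := inferInstance
  have h3 : BorelSpace (T d × T d) := Prod.borelSpace
  have h4 : BorelSpace (F₀ → T d) := Pi.borelSpace
  have h5 : SecondCountableTopology (F₀ → T d) := inferInstance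
  exact Prod.borelSpace

theorem haar {m d : Type} [Fintype d] (F : Finset (m → ℤ)) :
    (volume : Measure (F → T d)).IsAddHaarMeasure := by
  have h1 : MeasurableAdd (T d) := inferInstance
  have h2 : SigmaFinite (volume : Measure (T d)) := inferInstance
  have h3 : (volume : Measure (T d)).IsAddHaarMeasure := inferInstance
  exact Measure.pi.isAddHaarMeasure _

theorem haar2 {m d : Type} [Fintype d] (F : Finset (m → ℤ)) :
    ((volume : Measure (F → T d)).prod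
      ((volume : Measure (T d)).prod (volume : Measure (T d)))).IsAddHaarMeasure := by
  have h1 : MeasurableAdd (T d) := inferInstance
  have h2 : SigmaFinite (volume : Measure (T d)) := inferInstance
  have h3 : (volume : Measure (T d)).IsAddHaarMeasure := inferInstance
  have h4 := haar (d := d) F
  have h5 : ((volume : Measure (T d)).prod (volume : Measure (T d))).IsAddHaarMeasure :=
    Measure.prod.instIsAddHaarMeasure _ _
  have h6 : MeasurableAdd (F → T d) := Pi.measurableAdd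
  have h8 : SecondCountableTopology (T d) := inferInstance
  have h9 : BorelSpace (T d × T d) := Prod.borelSpace
  have h7 : MeasurableAdd (T d × T d) := ContinuousAdd.measurableAdd
  have : IsProbabilityMeasure (volume : Measure (F → T d)) := by
    rw [volume_pi]; infer_instance
  exact Measure.prod.instIsAddHaarMeasure _ _

open Classical in
theorem split_mp {m d : Type} [Fintype m] [Fintype d] {F₀ : Finset (m → ℤ)} {z₁ z₂ : m → ℤ}
    (h₁ : z₁ ∉ F₀) (h₂ : z₂ ∉ F₀) (h₁₂ : z₁ ≠ z₂)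
    (hF : LinearIndepOn ℚ hat ((insert z₁ (insert z₂ F₀) : Finset (m → ℤ)) : Set (m → ℤ))) :
    MeasurePreserving
      (fun ω : Option m → T d => ((fun y : F₀ => XX ω y), (XX ω z₁, XX ω z₂))) volume
      ((volume : Measure (F₀ → T d)).prod ((volume : Measure (T d)).prod volume)) := by
  set F : Finset (m → ℤ) := insert z₁ (insert z₂ F₀) with hFdef
  have m₁ : z₁ ∈ F := Finset.mem_insert_self _ _
  have m₂ : z₂ ∈ F := Finset.mem_insert_of_mem (Finset.mem_insert_self _ _)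
  have m₀ : ∀ y : F₀, y.1 ∈ F := fun y => Finset.mem_insert_of_mem (Finset.mem_insert_of_mem y.2)
  let f : (F → T d) →+ (F₀ → T d) × (T d × T d) :=
    { toFun := fun x => (fun y => x ⟨y.1, m₀ y⟩, (x ⟨z₁, m₁⟩, x ⟨z₂, m₂⟩))
      map_zero' := rfl
      map_add' := fun _ _ => rfl }
  have hc : Continuous f := by
    change Continuous fun x : F → T d =>
      ((fun y : F₀ => x ⟨y.1, m₀ y⟩, (x ⟨z₁, m₁⟩, x ⟨z₂, m₂⟩)) : (F₀ → T d) × (T d × T d))
    fun_prop
  have hs : Function.Surjective f := by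
    rintro ⟨a, u, v⟩
    refine ⟨fun z => if h : z.1 ∈ F₀ then a ⟨z.1, h⟩ else if z.1 = z₁ then u else v, ?_⟩
    change ((fun y : F₀ => _), (_, _)) = _
    simp [h₁, h₂, h₁₂.symm]
  have hmp : MeasurePreserving f (volume : Measure (F → T d))
      ((volume : Measure (F₀ → T d)).prod ((volume : Measure (T d)).prod volume)) := by
    have : IsProbabilityMeasure (volume : Measure (F → T d)) := by
      rw [volume_pi]; infer_instance
    have : IsProbabilityMeasure (volume : Measure (F₀ → T d)) := by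
      rw [volume_pi]; infer_instance
    have := borel (d := d) F₀
    have := haar (d := d) F
    have := haar2 (d := d) F₀
    exact AddMonoidHom.measurePreserving hc hs (by simp)
  exact hmp.comp (XX_mp hF)

theorem sum_le_of_cover {α β : Type} (S : Finset α) (D : Finset β) (f : α → ℝ) (g : β → ℝ)
    (π : β → α) (hg : ∀ x ∈ D, 0 ≤ g x) (h : ∀ s ∈ S, ∃ x ∈ D, π x = s ∧ f s ≤ g x) :
    ∑ s ∈ S, f s ≤ ∑ x ∈ D, g x := by
  classical
  calc ∑ s ∈ S, f s ≤ ∑ s ∈ S, ∑ x ∈ D with π x = s, g x := by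
        refine Finset.sum_le_sum fun s hs => ?_
        obtain ⟨x, hx, hπ, hle⟩ := h s hs
        exact hle.trans (Finset.single_le_sum (f := g)
          (fun y hy => hg y (Finset.mem_filter.1 hy).1) (Finset.mem_filter.2 ⟨hx, hπ⟩))
    _ = ∑ x ∈ D with π x ∈ S, g x := Finset.sum_fiberwise_eq_sum_filter _ _ _ _
    _ ≤ ∑ x ∈ D, g x :=
        Finset.sum_le_sum_of_subset_of_nonneg (Finset.filter_subset _ _) fun x hx _ => hg x hx

theorem two {m : Type} [DecidableEq (m → ℤ)] {F : Finset (m → ℤ)} {j : m → ℤ} (hR : Rel F j 1) (hj : j ∉ F) :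
    ∃ (F₀ : Finset (m → ℤ)) (z₁ z₂ : m → ℤ) (b : (m → ℤ) → ℤ) (ε₁ ε₂ : ℤ),
      z₁ ∉ F₀ ∧ z₂ ∉ F₀ ∧ z₁ ≠ z₂ ∧ F = insert z₁ (insert z₂ F₀) ∧
      (∀ y, b y ∈ ({-1, 0, 1} : Finset ℤ)) ∧ (ε₁ = 1 ∨ ε₁ = -1) ∧ (ε₂ = 1 ∨ ε₂ = -1) ∧
      hat j = (ε₁ : ℚ) • hat z₁ + (ε₂ : ℚ) • hat z₂ + ∑ y ∈ F₀, (b y : ℚ) • hat y := by
  obtain ⟨-, b, hb, hrel, -⟩ := hR
  have hb' : ∀ y, -1 ≤ b y ∧ b y ≤ 1 := fun y => by
    have := abs_le.1 (hb y)
    push_cast at this
    exact this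
  simp only [Nat.cast_one, one_smul] at hrel
  have hcard : 1 < (F.filter fun y => b y ≠ 0).card := by
    by_contra hle
    have hsum : ∑ y ∈ F, (b y : ℚ) • hat y = ∑ y ∈ F.filter fun y => b y ≠ 0, (b y : ℚ) • hat y := by
      rw [Finset.sum_filter_of_ne]
      intro y _ hy h0
      exact hy (by rw [h0]; simp)
    rw [hsum] at hrel
    rcases Nat.le_one_iff_eq_zero_or_eq_one.1 (not_lt.1 hle) with h0 | h1
    · rw [Finset.card_eq_zero.1 h0, Finset.sum_empty, add_zero] at hrel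
      have := congrFun hrel none
      simp [hat] at this
    · obtain ⟨z, hz⟩ := Finset.card_eq_one.1 h1
      have hzF : z ∈ F := by
        have : z ∈ F.filter fun y => b y ≠ 0 := by rw [hz]; exact Finset.mem_singleton_self z
        exact (Finset.mem_filter.1 this).1
      rw [hz, Finset.sum_singleton] at hrel
      have h1 := congrFun hrel none
      simp only [hat, Option.elim, Pi.add_apply, Pi.smul_apply, smul_eq_mul, mul_one,
        Pi.zero_apply] at h1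
      have h2 : (b z : ℚ) = -1 := by linarith
      rw [h2, neg_smul, one_smul, add_neg_eq_zero] at hrel
      exact hj (hat_inj hrel ▸ hzF)
  obtain ⟨z₁, hz₁, z₂, hz₂, hne⟩ := Finset.one_lt_card.1 hcard
  obtain ⟨hz₁F, hb₁⟩ := Finset.mem_filter.1 hz₁
  obtain ⟨hz₂F, hb₂⟩ := Finset.mem_filter.1 hz₂
  have hFe : F = insert z₁ (insert z₂ ((F.erase z₁).erase z₂)) := by
    rw [Finset.insert_erase (Finset.mem_erase.2 ⟨hne.symm, hz₂F⟩), Finset.insert_erase hz₁F]
  have n₁ : z₁ ∉ (F.erase z₁).erase z₂ := fun h =>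
    Finset.notMem_erase z₁ F (Finset.mem_of_mem_erase h)
  have n₂ : z₂ ∉ (F.erase z₁).erase z₂ := Finset.notMem_erase _ _
  refine ⟨(F.erase z₁).erase z₂, z₁, z₂, fun y => -b y, -b z₁, -b z₂, n₁, n₂, hne, hFe, ?_, ?_, ?_, ?_⟩
  · intro y
    have := hb' y
    simp only [Finset.mem_insert, Finset.mem_singleton]
    omega
  · have := hb' z₁
    omega
  · have := hb' z₂
    omega
  · have hs : ∑ y ∈ F, (b y : ℚ) • hat y = (b z₁ : ℚ) • hat z₁ + ((b z₂ : ℚ) • hat z₂ +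
        ∑ y ∈ (F.erase z₁).erase z₂, (b y : ℚ) • hat y) := by
      conv_lhs => rw [hFe]
      rw [Finset.sum_insert (by simp [hne]), Finset.sum_insert n₂]
    rw [hs] at hrel
    simp only [Int.cast_neg, neg_smul, Finset.sum_neg_distrib]
    rw [eq_neg_of_add_eq_zero_left hrel]
    abel

open Classical in
/-- the possible `{-1,0,1}`-combinations of `F₀` -/
noncomputable def W {m : Type} (F₀ : Finset (m → ℤ)) : Finset (m → ℤ) :=
  (Fintype.piFinset fun _ : F₀ => ({-1, 0, 1} : Finset ℤ)).image fun β => ∑ y : F₀, β y • y.1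

theorem card_W {m : Type} (F₀ : Finset (m → ℤ)) : (W F₀).card ≤ 3 ^ F₀.card := by
  classical
  unfold W
  refine Finset.card_image_le.trans ?_
  rw [Fintype.card_piFinset]
  simp

theorem mem_W {m : Type} (F₀ : Finset (m → ℤ)) {b : (m → ℤ) → ℤ}
    (hb : ∀ y, b y ∈ ({-1, 0, 1} : Finset ℤ)) : ∑ y ∈ F₀, b y • y ∈ W F₀ := by
  classical
  unfold W
  refine Finset.mem_image.2 ⟨fun y => b y.1, Fintype.mem_piFinset.2 fun y => hb _, ?_⟩
  exact Finset.sum_coe_sort F₀ fun y => b y • y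

end OneX

open OneX

open Classical in
/-- one unit relation: by `XX_mp` for `F = insert z₁ (insert z₂ F₀)` the vector of positions is uniform, and
by `XX_rel` `XX ω j = -(∑_{F₀} b y • XX ω y) - b₁ • XX ω z₁ - b₂ • XX ω z₂`; integrate first over the
coordinates `z₁, z₂` (`youngT` with the translated target `I j + w`), then over those in `F₀`.
(Alternative without product decomposition: translate `ω` by elements which move only `XX ω z₁`, `XX ω z₂`
(`exists_fun`) and average over `(u,v) ∈ T d × T d`.) -/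
theorem one_rel {m d : Type} [Fintype m] [Fintype d] {I : (m → ℤ) → Set (T d)} {ρ : ℝ}
    (hρ : ρ ≤ 1 / 8) (hI : Sm I ρ) {F₀ : Finset (m → ℤ)} {z₁ z₂ j : m → ℤ} (h₁ : z₁ ∉ F₀)
    (h₂ : z₂ ∉ F₀) (h₁₂ : z₁ ≠ z₂)
    (hF : LinearIndepOn ℚ hat ((insert z₁ (insert z₂ F₀) : Finset (m → ℤ)) : Set (m → ℤ)))
    (b : (m → ℤ) → ℤ) {ε₁ ε₂ : ℤ} (e₁ : ε₁ = 1 ∨ ε₁ = -1) (e₂ : ε₂ = 1 ∨ ε₂ = -1)
    (hj : hat j = (ε₁ : ℚ) • hat z₁ + (ε₂ : ℚ) • hat z₂ + ∑ y ∈ F₀, (b y : ℚ) • hat y) :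
    (volume (Hit I (insert j (insert z₁ (insert z₂ F₀))))).toReal ≤
      (∏ z ∈ F₀, (volume (I z)).toReal) * ((7 / 8) ^ Fintype.card d *
        ((volume (I z₁)).toReal * (volume (I z₂)).toReal * (volume (I j)).toReal) ^ (2 / 3 : ℝ)) := by
  set C : ℝ := (7 / 8) ^ Fintype.card d *
    ((volume (I z₁)).toReal * (volume (I z₂)).toReal * (volume (I j)).toReal) ^ (2 / 3 : ℝ) with hC
  have hC0 : 0 ≤ C := by positivity
  let A : Set (F₀ → T d) := Set.pi univ fun y => I y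
  have hA : MeasurableSet A := MeasurableSet.univ_pi fun y => (hI y).1
  let E : Set ((F₀ → T d) × (T d × T d)) := {q | q.1 ∈ A ∧ q.2.1 ∈ I z₁ ∧ q.2.2 ∈ I z₂ ∧
    ε₁ • q.2.1 + ε₂ • q.2.2 + ∑ y : F₀, b y • q.1 y ∈ I j}
  have hE : MeasurableSet E := by
    have := borel (d := d) F₀
    have c : Continuous fun q : (F₀ → T d) × (T d × T d) =>
        ε₁ • q.2.1 + ε₂ • q.2.2 + ∑ y : F₀, b y • q.1 y := by fun_prop
    exact (measurable_fst hA).inter (((measurable_fst.comp measurable_snd) (hI z₁).1).inter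
      (((measurable_snd.comp measurable_snd) (hI z₂).1).inter (c.measurable (hI j).1)))
  have hsub : Hit I (insert j (insert z₁ (insert z₂ F₀))) ⊆
      (fun ω : Option m → T d => ((fun y : F₀ => XX ω y), (XX ω z₁, XX ω z₂))) ⁻¹' E := by
    intro ω hω
    refine ⟨fun y _ => hω _ (by simp), hω _ (by simp), hω _ (by simp), ?_⟩
    have h := hω j (Finset.mem_insert_self _ _)
    rw [XX_comb hj, ← Finset.sum_coe_sort F₀ fun y => b y • XX ω y] at h
    exact h
  have hslice : ∀ x : F₀ → T d, ((volume : Measure (T d)).prod (volume : Measure (T d)))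
      (Prod.mk x ⁻¹' E) ≤ A.indicator (fun _ => ENNReal.ofReal C) x := by
    intro x
    by_cases hx : x ∈ A
    · rw [indicator_of_mem hx]
      have hm : MeasurableSet ((fun u => u + ∑ y : F₀, b y • x y) ⁻¹' I j) :=
        (measurable_add_const _) (hI j).1
      have hy := youngT hρ (hI z₁).1 (hI z₂).1 hm (hI z₁).2 (hI z₂).2 e₁ e₂
      rw [measure_preimage_add_right] at hy
      have he : Prod.mk x ⁻¹' E = {q : T d × T d | q.1 ∈ I z₁ ∧ q.2 ∈ I z₂ ∧
          ε₁ • q.1 + ε₂ • q.2 ∈ (fun u => u + ∑ y : F₀, b y • x y) ⁻¹' I j} := by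
        ext q
        simp only [E, mem_preimage, mem_ofPred_eq, hx, true_and]
      rw [he, ← ENNReal.ofReal_toReal (measure_ne_top _ _)]
      exact ENNReal.ofReal_le_ofReal hy
    · have he : Prod.mk x ⁻¹' E = ∅ := by
        ext q
        simp only [E, mem_preimage, mem_ofPred_eq, hx, false_and, mem_empty_iff_false]
      rw [he, measure_empty]
      exact zero_le
  have hle : volume (Hit I (insert j (insert z₁ (insert z₂ F₀)))) ≤
      ENNReal.ofReal C * ∏ y : F₀, volume (I y) := by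
    refine (measure_mono hsub).trans ?_
    rw [(split_mp h₁ h₂ h₁₂ hF).measure_preimage hE.nullMeasurableSet, Measure.prod_apply hE]
    refine (lintegral_mono hslice).trans ?_
    rw [lintegral_indicator_const hA, volume_pi_pi]
  refine (ENNReal.toReal_mono ?_ hle).trans ?_
  · exact ENNReal.mul_ne_top ENNReal.ofReal_ne_top
      (ENNReal.prod_ne_top fun y _ => measure_ne_top _ _)
  · rw [ENNReal.toReal_mul, ENNReal.toReal_ofReal hC0, ENNReal.toReal_prod,
      Finset.prod_coe_sort F₀ fun y => (volume (I y)).toReal, mul_comm]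

open Classical in
/-- **unit relations.**  If `Rel F j 1` with `j ∉ F`, at least two coefficients on `F` are `±1` (first
coordinate of `hat`: the coefficients sum to `-1`; a single one would give `j ∈ F`).  So `(F, j)` is
determined by `(F₀, b|F₀ ∈ {-1,0,1}^F₀, ε₁, ε₂, z₁, z₂)`, `|F₀| = r - 2`, with
`j = ε₁ z₁ + ε₂ z₂ + ∑ b y • y`.  Sum `one_rel` with `young_count` (`φ z₁ z₂ = ε₁ z₁ + ε₂ z₂ + w`) and
`esym_le`.  For `r < 2` the sum is empty. -/
theorem unit_rels {m d : Type} [Fintype m] [Fintype d] {I : (m → ℤ) → Set (T d)} {ρ V : ℝ}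
    (hρ : ρ ≤ 1 / 8) (hI : Sm I ρ) (P : Finset (m → ℤ))
    (hV : ∑ z ∈ P, (volume (I z)).toReal ≤ V) (r : ℕ) :
    ∑ F ∈ (P.powersetCard r).filter (fun F : Finset (m → ℤ) => LinearIndepOn ℚ hat (F : Set (m → ℤ))),
        ∑ j ∈ (P \ F).filter (fun j => Rel F j 1), (volume (Hit I (insert j F))).toReal ≤
      if 2 ≤ r then 4 * 3 ^ r * V ^ r / ((r - 2).factorial : ℝ) * (7 / 8) ^ Fintype.card d else 0 := by
  have hcard : ∀ {F₀ : Finset (m → ℤ)} {z₁ z₂ : m → ℤ}, z₁ ∉ F₀ → z₂ ∉ F₀ → z₁ ≠ z₂ →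
      (insert z₁ (insert z₂ F₀)).card = F₀.card + 2 := by
    intro F₀ z₁ z₂ h₁ h₂ h₁₂
    rw [Finset.card_insert_of_notMem (by simp [h₁, h₁₂]), Finset.card_insert_of_notMem h₂]
  split_ifs with hr
  swap
  · refine le_of_eq (Finset.sum_eq_zero fun F hF => Finset.sum_eq_zero fun j hj => ?_)
    exfalso
    obtain ⟨hjP, hR⟩ := Finset.mem_filter.1 hj
    obtain ⟨F₀, z₁, z₂, b, ε₁, ε₂, h₁, h₂, h₁₂, rfl, -⟩ := two hR (Finset.mem_sdiff.1 hjP).2
    have := (Finset.mem_powersetCard.1 (Finset.mem_filter.1 hF).1).2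
    rw [hcard h₁ h₂ h₁₂] at this
    omega
  obtain ⟨k, rfl⟩ : ∃ k, r = k + 2 := ⟨r - 2, by omega⟩
  rw [Nat.add_sub_cancel]
  set p : (m → ℤ) → ℝ := fun z => (volume (I z)).toReal with hp
  have hp0 : ∀ z, 0 ≤ p z := fun z => ENNReal.toReal_nonneg
  set c : ℝ := (7 / 8) ^ Fintype.card d with hc
  have hc0 : 0 ≤ c := by positivity
  have hS0 : 0 ≤ ∑ z ∈ P, p z := Finset.sum_nonneg fun z _ => hp0 z
  have hV0 : 0 ≤ V := hS0.trans hV
  let Sg : Finset (ℤ × ℤ) := ({1, -1} : Finset ℤ) ×ˢ ({1, -1} : Finset ℤ)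
  let φ : (m → ℤ) → ℤ × ℤ → (m → ℤ) → (m → ℤ) → (m → ℤ) := fun w e a b => e.1 • a + e.2 • b + w
  let D : Finset (Σ _ : Finset (m → ℤ), Σ _ : m → ℤ, Σ _ : ℤ × ℤ, Σ _ : m → ℤ, m → ℤ) :=
    (P.powersetCard k).sigma fun F₀ => (W F₀).sigma fun w => Sg.sigma fun e =>
      P.sigma fun a => P.filter fun b => φ w e a b ∈ P
  let g : (Σ _ : Finset (m → ℤ), Σ _ : m → ℤ, Σ _ : ℤ × ℤ, Σ _ : m → ℤ, m → ℤ) → ℝ := fun x =>
    (∏ z ∈ x.1, p z) * (c * (p x.2.2.2.1 * p x.2.2.2.2 *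
      p (φ x.2.1 x.2.2.1 x.2.2.2.1 x.2.2.2.2)) ^ (2 / 3 : ℝ))
  let π : (Σ _ : Finset (m → ℤ), Σ _ : m → ℤ, Σ _ : ℤ × ℤ, Σ _ : m → ℤ, m → ℤ) →
      (Σ _ : Finset (m → ℤ), m → ℤ) := fun x =>
    ⟨insert x.2.2.2.1 (insert x.2.2.2.2 x.1), φ x.2.1 x.2.2.1 x.2.2.2.1 x.2.2.2.2⟩
  rw [Finset.sum_sigma']
  refine (sum_le_of_cover _ D _ g π (fun x _ => ?_) ?_).trans ?_
  · exact mul_nonneg (Finset.prod_nonneg fun z _ => hp0 z) (mul_nonneg hc0
      (Real.rpow_nonneg (mul_nonneg (mul_nonneg (hp0 _) (hp0 _)) (hp0 _)) _))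
  · rintro ⟨F, j⟩ hs
    obtain ⟨hF, hj⟩ := Finset.mem_sigma.1 hs
    obtain ⟨hjP', hR⟩ := Finset.mem_filter.1 hj
    obtain ⟨hjP, hjF⟩ := Finset.mem_sdiff.1 hjP'
    obtain ⟨hF, hind⟩ := Finset.mem_filter.1 hF
    obtain ⟨hFP, hFc⟩ := Finset.mem_powersetCard.1 hF
    dsimp only at hjP hR hjF hind hFP hFc
    obtain ⟨F₀, z₁, z₂, b, ε₁, ε₂, h₁, h₂, h₁₂, rfl, hb, e₁, e₂, hrel⟩ := two hR hjF
    have hje : φ (∑ y ∈ F₀, b y • y) (ε₁, ε₂) z₁ z₂ = j := (rel_some hrel).symm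
    refine ⟨⟨F₀, ∑ y ∈ F₀, b y • y, (ε₁, ε₂), z₁, z₂⟩, ?_, ?_, ?_⟩
    · simp only [D, Finset.mem_sigma, Finset.mem_powersetCard, Finset.mem_filter]
      refine ⟨⟨fun y hy => hFP (by simp [hy]), ?_⟩, mem_W F₀ hb, ?_, hFP (by simp), hFP (by simp),
        hje ▸ hjP⟩
      · rw [hcard h₁ h₂ h₁₂] at hFc
        omega
      · simp only [Sg, Finset.mem_product, Finset.mem_insert, Finset.mem_singleton]
        exact ⟨e₁, e₂⟩
    · simp only [π, hje]
    · simp only [g, hje]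
      exact one_rel hρ hI h₁ h₂ h₁₂ hind b e₁ e₂ hrel
  · have hin : ∀ (w : m → ℤ), ∀ e ∈ Sg,
        ∑ a ∈ P, ∑ b ∈ P.filter (fun b => φ w e a b ∈ P),
          (p a * p b * p (φ w e a b)) ^ (2 / 3 : ℝ) ≤ V ^ 2 := by
      intro w e he
      simp only [Sg, Finset.mem_product, Finset.mem_insert, Finset.mem_singleton] at he
      have n₁ : e.1 ≠ 0 := by omega
      have n₂ : e.2 ≠ 0 := by omega
      refine le_trans ?_ (pow_le_pow_left₀ hS0 hV 2)
      have := young_count P p hp0 (φ w e) (fun a b b' h => ?_) (fun b a a' h => ?_)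
      · refine le_trans (le_of_eq (Finset.sum_congr rfl fun a _ => ?_)) this
        exact Finset.sum_congr (Finset.filter_congr_decidable _ _ _).symm fun _ _ => rfl
      · exact smul_right_injective _ n₂ (add_left_cancel (add_right_cancel h))
      · exact smul_right_injective _ n₁ (add_right_cancel (add_right_cancel h))
    have hSg : (Sg.card : ℝ) ≤ 4 := by
      have : Sg.card = 4 := by decide
      rw [this]; norm_num
    have hF₀ : ∀ F₀ ∈ P.powersetCard k,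
        ∑ w ∈ W F₀, ∑ e ∈ Sg, ∑ a ∈ P, ∑ b ∈ P.filter (fun b => φ w e a b ∈ P),
          g ⟨F₀, w, e, a, b⟩ ≤ (∏ z ∈ F₀, p z) * (3 ^ k * (4 * (c * V ^ 2))) := by
      intro F₀ hF₀
      have hπ : 0 ≤ ∏ z ∈ F₀, p z := Finset.prod_nonneg fun z _ => hp0 z
      have hW : ((W F₀).card : ℝ) ≤ 3 ^ k := by
        have := card_W F₀
        rw [(Finset.mem_powersetCard.1 hF₀).2] at this
        exact_mod_cast this
      calc _ ≤ ∑ _w ∈ W F₀, ∑ _e ∈ Sg, (∏ z ∈ F₀, p z) * (c * V ^ 2) := by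
            refine Finset.sum_le_sum fun w _ => Finset.sum_le_sum fun e he => ?_
            simp only [g, ← Finset.mul_sum]
            exact mul_le_mul_of_nonneg_left (mul_le_mul_of_nonneg_left (hin w e he) hc0) hπ
        _ = (W F₀).card * (Sg.card * ((∏ z ∈ F₀, p z) * (c * V ^ 2))) := by
            simp only [Finset.sum_const, nsmul_eq_mul]
        _ ≤ 3 ^ k * (4 * ((∏ z ∈ F₀, p z) * (c * V ^ 2))) := by gcongr
        _ = _ := by ring
    have he := esym_le P p hp0 k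
    have hk : (∑ z ∈ P, p z) ^ k / (k.factorial : ℝ) ≤ V ^ k / (k.factorial : ℝ) := by gcongr
    calc ∑ x ∈ D, g x
        = ∑ F₀ ∈ P.powersetCard k, ∑ w ∈ W F₀, ∑ e ∈ Sg, ∑ a ∈ P,
            ∑ b ∈ P.filter (fun b => φ w e a b ∈ P), g ⟨F₀, w, e, a, b⟩ := by
          simp only [D, Finset.sum_sigma]
      _ ≤ ∑ F₀ ∈ P.powersetCard k, (∏ z ∈ F₀, p z) * (3 ^ k * (4 * (c * V ^ 2))) :=
          Finset.sum_le_sum hF₀
      _ = (∑ F₀ ∈ P.powersetCard k, ∏ z ∈ F₀, p z) * (3 ^ k * (4 * (c * V ^ 2))) := by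
          rw [Finset.sum_mul]
      _ ≤ V ^ k / (k.factorial : ℝ) * (3 ^ (k + 2) * (4 * (c * V ^ 2))) := by
          refine mul_le_mul (he.trans hk) ?_ (by positivity) (by positivity)
          gcongr
          · norm_num
          · omega
      _ = _ := by ring

end Crest.Agent.R225
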