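import Crest.Agent.R225.Defs

set_option autoImplicit false

open MeasureTheory Set
open scoped ENNReal NNReal Matrix

namespace Crest.Agent.R225

namespace SpanX

theorem hat_inj {m : Type} {z z' : m → ℤ} (h : hat z = hat z') : z = z' := by
  funext c
  have := congrFun h (some c)
  simpa [hat] using this

/-- a set of at most `finrank U` coordinates on which the projection of `U` is injective -/
theorem exists_coords {ι : Type} [Fintype ι] (U : Submodule ℚ (ι → ℚ)) :
    ∃ b : Finset ι, b.card ≤ Module.finrank ℚ U ∧ ∀ u ∈ U, (∀ o ∈ b, u o = 0) → u = 0 := by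
  classical
  let v : ι → Module.Dual ℚ U := fun o => (LinearMap.proj o).comp U.subtype
  obtain ⟨b, -, -, hsp, hli⟩ :=
    exists_linearIndepOn_extension (K := ℚ) (v := v) (linearIndepOn_empty ℚ v) (empty_subset univ)
  refine ⟨b.toFinset, ?_, fun u hu h0 => ?_⟩
  · have h1 := LinearIndependent.fintype_card_le_finrank hli
    rw [Subspace.dual_finrank_eq] at h1
    rwa [Set.toFinset_card]
  · funext o
    have h2 : v o ∈ Submodule.span ℚ (v '' b) := hsp ⟨o, mem_univ _, rfl⟩
    have h3 : ∀ f ∈ Submodule.span ℚ (v '' b), f ⟨u, hu⟩ = 0 := by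
      intro f hf
      induction hf using Submodule.span_induction with
      | mem x hx =>
        obtain ⟨o', ho', rfl⟩ := hx
        simpa [v] using h0 o' (by simpa using ho')
      | zero => simp
      | add x y _ _ hx hy => simp [hx, hy]
      | smul a x _ hx => simp [hx]
    simpa [v] using h3 _ h2

theorem card_pi_Icc (κ : Type) [Fintype κ] [DecidableEq κ] (B : ℕ) :
    ((Fintype.piFinset fun _ : κ => Finset.Icc (-(B : ℤ)) B).card : ℝ) =
      (2 * B + 1 : ℝ) ^ Fintype.card κ := by
  rw [Fintype.card_piFinset]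
  have : (Finset.Icc (-(B : ℤ)) B).card = 2 * B + 1 := by
    rw [Int.card_Icc]; omega
  simp only [this, Finset.prod_const, Finset.card_univ]
  push_cast
  rfl

/-- primitive integer relation on `insert z F` with nonzero coefficient at `z` -/
theorem exists_prim {m : Type} [DecidableEq (m → ℤ)] {F : Finset (m → ℤ)} {z : m → ℤ} (hz : z ∉ F)
    (hs : hat z ∈ Submodule.span ℚ (hat '' (F : Set (m → ℤ)))) :
    ∃ g : (m → ℤ) → ℤ, g z ≠ 0 ∧ ∑ y ∈ insert z F, (g y : ℚ) • hat y = 0 ∧
      ∃ f : (m → ℤ) → ℤ, ∑ y ∈ insert z F, g y * f y = 1 := by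
  obtain ⟨l, hl⟩ := (Submodule.mem_span_image_finset_iff_exists_fun' ℚ).1 hs
  let c : (m → ℤ) → ℚ := fun y => if y = z then -1 else l y
  have hc : ∑ y ∈ insert z F, c y • hat y = 0 := by
    rw [Finset.sum_insert hz]
    have : ∑ y ∈ F, c y • hat y = ∑ y ∈ F, l y • hat y := by
      refine Finset.sum_congr rfl fun y hy => ?_
      have : y ≠ z := fun h => hz (h ▸ hy)
      simp [c, this]
    rw [this, hl]
    simp [c]
  obtain ⟨D, hD⟩ := IsLocalization.exist_integer_multiples (nonZeroDivisors ℤ) (insert z F) c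
  have hD0 : (D : ℤ) ≠ 0 := nonZeroDivisors.coe_ne_zero D
  have hD' : ∀ y, ∃ a : ℤ, y ∈ insert z F → (a : ℚ) = ((D : ℤ) : ℚ) * c y := by
    intro y
    by_cases hy : y ∈ insert z F
    · obtain ⟨a, ha⟩ := hD y hy
      exact ⟨a, fun _ => by simpa using ha⟩
    · exact ⟨0, fun h => (hy h).elim⟩
  choose a ha using hD'
  have haz : a z ≠ 0 := by
    intro h
    have := ha z (Finset.mem_insert_self _ _)
    rw [h] at this
    simp [c, hD0] at this
  obtain ⟨g, hg, hg1⟩ := Finset.extract_gcd a (Finset.insert_nonempty z F)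
  have hd0 : (insert z F).gcd a ≠ 0 := by
    intro h
    exact haz ((Finset.gcd_eq_zero_iff.1 h) z (Finset.mem_insert_self _ _))
  refine ⟨g, fun h => haz (by rw [hg z (Finset.mem_insert_self _ _), h, mul_zero]), ?_, ?_⟩
  · have h1 : ((((insert z F).gcd a : ℤ) : ℚ)) • ∑ y ∈ insert z F, (g y : ℚ) • hat y =
        ((D : ℤ) : ℚ) • ∑ y ∈ insert z F, c y • hat y := by
      rw [Finset.smul_sum, Finset.smul_sum]
      refine Finset.sum_congr rfl fun y hy => ?_
      rw [smul_smul, smul_smul, ← ha y hy, hg y hy]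
      push_cast
      rfl
    rw [hc, smul_zero, smul_eq_zero] at h1
    rcases h1 with h1 | h1
    · exact absurd (by exact_mod_cast h1) hd0
    · exact h1
  · obtain ⟨f, hf⟩ := Finset.gcd_eq_sum_mul (insert z F) g
    exact ⟨f, by rw [← hf, hg1]⟩

/-- exchange -/
theorem exchange {m : Type} [DecidableEq (m → ℤ)] {F : Finset (m → ℤ)} (hF : LinearIndepOn ℚ hat (F : Set (m → ℤ)))
    {z j : m → ℤ} (hz : z ∉ F) (hj : j ∈ insert z F) {g : (m → ℤ) → ℚ} (hgz : g z ≠ 0)
    (hgj : g j ≠ 0) (hg : ∑ y ∈ insert z F, g y • hat y = 0) :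
    LinearIndepOn ℚ hat (((insert z F).erase j : Finset (m → ℤ)) : Set (m → ℤ)) := by
  rw [linearIndepOn_finset_iff] at hF ⊢
  intro e he
  let e' : (m → ℤ) → ℚ := fun y => if y = j then 0 else e y
  have he' : ∑ y ∈ insert z F, e' y • hat y = 0 := by
    rw [← Finset.add_sum_erase _ _ hj, ← he]
    have : ∑ y ∈ (insert z F).erase j, e' y • hat y = ∑ y ∈ (insert z F).erase j, e y • hat y :=
      Finset.sum_congr rfl fun y hy => by simp [e', Finset.ne_of_mem_erase hy]
    rw [this]
    simp [e']
  have key : ∀ y ∈ F, g z * e' y - e' z * g y = 0 := by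
    refine hF (fun y => g z * e' y - e' z * g y) ?_
    rw [Finset.sum_insert hz] at hg he'
    have h1 : ∑ y ∈ F, (g z * e' y - e' z * g y) • hat y =
        g z • ∑ y ∈ F, e' y • hat y - e' z • ∑ y ∈ F, g y • hat y := by
      rw [Finset.smul_sum, Finset.smul_sum, ← Finset.sum_sub_distrib]
      refine Finset.sum_congr rfl fun y _ => ?_
      rw [smul_smul, smul_smul, sub_smul]
    rw [h1, eq_neg_of_add_eq_zero_right hg, eq_neg_of_add_eq_zero_right he', smul_neg, smul_neg,
      smul_smul, smul_smul, mul_comm (g z), sub_self]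
  have hez : e' z = 0 := by
    rcases Finset.mem_insert.1 hj with h | h
    · simp [e', h]
    · have := key j h
      have h0 : e' j = 0 := by simp [e']
      rw [h0, mul_zero, zero_sub, neg_eq_zero, mul_eq_zero] at this
      exact this.resolve_right hgj
  intro y hy
  have hyj := Finset.ne_of_mem_erase hy
  have hy' : e y = e' y := by simp [e', hyj]
  rw [hy']
  rcases Finset.mem_insert.1 (Finset.mem_of_mem_erase hy) with h | h
  · rw [h, hez]
  · have := key y h
    rw [hez, zero_mul, sub_zero, mul_eq_zero] at this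
    exact this.resolve_left hgz

end SpanX

open Classical in
/-- the span `U` of at most `s` vectors has dimension `≤ s`; there is a set of at most `s` coordinates on which
the projection of `U` is injective (a basis of the span of the coordinate functionals restricted to `U`,
`exists_linearIndependent`; or induction); each coordinate of `hat z` takes at most `2B+1` values -/
theorem card_span_le {m : Type} [Fintype m] (P F : Finset (m → ℤ)) {B s : ℕ}
    (hP : ∀ z ∈ P, ∀ c, |z c| ≤ B) (hF : F.card ≤ s) :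
    ((P.filter fun z => hat z ∈ Submodule.span ℚ (hat '' (F : Set (m → ℤ)))).card : ℝ) ≤
      (2 * B + 1 : ℝ) ^ s := by
  set U := Submodule.span ℚ (hat '' (F : Set (m → ℤ))) with hU
  obtain ⟨b, hb, hinj⟩ := SpanX.exists_coords U
  have hr : Module.finrank ℚ U ≤ F.card := by
    have h1 : hat '' (F : Set (m → ℤ)) = ((F.image hat : Finset (Option m → ℚ)) : Set _) := by
      simp
    have h2 := finrank_span_finset_le_card (R := ℚ) (F.image hat)
    rw [hU, h1]
    exact h2.trans Finset.card_image_le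
  have hcard : (P.filter fun z => hat z ∈ U).card ≤
      (Fintype.piFinset fun _ : b => Finset.Icc (-(B : ℤ)) B).card := by
    refine Finset.card_le_card_of_injOn (fun z (o : b) => o.1.elim 0 z) ?_ ?_
    · intro z hz
      have hzP : z ∈ P := (Finset.mem_filter.1 (Finset.mem_coe.1 hz)).1
      refine Finset.mem_coe.2 (Fintype.mem_piFinset.2 fun o => ?_)
      rcases o with ⟨_ | c, ho⟩
      · simp
      · simpa [Finset.mem_Icc, abs_le] using hP z hzP c
    · intro z hz z' hz' h
      have h1 := (Finset.mem_filter.1 (Finset.mem_coe.1 hz)).2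
      have h2 := (Finset.mem_filter.1 (Finset.mem_coe.1 hz')).2
      have h3 := hinj _ (U.sub_mem h1 h2) fun o ho => by
        have := congrFun h ⟨o, ho⟩
        rcases o with _ | c
        · simp [hat]
        · simp only [Option.elim] at this
          simp [hat, this]
      exact SpanX.hat_inj (sub_eq_zero.1 h3)
  calc ((P.filter fun z => hat z ∈ U).card : ℝ)
      ≤ ((Fintype.piFinset fun _ : b => Finset.Icc (-(B : ℤ)) B).card : ℝ) := by exact_mod_cast hcard
    _ = (2 * B + 1 : ℝ) ^ Fintype.card b := SpanX.card_pi_Icc _ _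
    _ ≤ (2 * B + 1 : ℝ) ^ s := by
        refine pow_le_pow_right₀ (by have : (0 : ℝ) ≤ B := Nat.cast_nonneg _; linarith) ?_
        rw [Fintype.card_coe]
        exact hb.trans (hr.trans hF)

open Classical in
/-- **normalisation of a relation.**  Write `hat z` as a rational combination of `F`, clear denominators,
divide by the gcd (`Finset.gcd`, `Finset.extract_gcd`), let `j` maximise the absolute value of the coefficient,
change the sign; exchange: `(insert z F).erase j` is independent because the coefficients of `z` and of `j`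
are nonzero; Bezout `Finset.gcd_eq_sum_mul` gives `n`; put `b y = 0` outside. -/
theorem exists_rel {m : Type} [Fintype m] {F : Finset (m → ℤ)}
    (hF : LinearIndepOn ℚ hat (F : Set (m → ℤ))) {z : m → ℤ} (hz : z ∉ F)
    (hs : hat z ∈ Submodule.span ℚ (hat '' (F : Set (m → ℤ)))) :
    ∃ j ∈ insert z F, ∃ H : ℕ, LinearIndepOn ℚ hat (((insert z F).erase j : Finset (m → ℤ)) : Set (m → ℤ)) ∧
      Rel ((insert z F).erase j) j H := by
  obtain ⟨g, hgz, hg, f, hf⟩ := SpanX.exists_prim hz hs
  obtain ⟨j, hj, hmax⟩ := Finset.exists_max_image (insert z F) (fun y => |g y|)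
    (Finset.insert_nonempty z F)
  have hgj : g j ≠ 0 := by
    intro h
    have := hmax z (Finset.mem_insert_self _ _)
    simp only [h, abs_zero] at this
    exact hgz (abs_nonpos_iff.1 this)
  refine ⟨j, hj, (g j).natAbs, SpanX.exchange hF hz hj (g := fun y => (g y : ℚ))
    (by exact_mod_cast hgz) (by exact_mod_cast hgj) hg, Int.natAbs_pos.2 hgj, ?_⟩
  obtain ⟨ε, hε, hεj⟩ : ∃ ε : ℤ, ε * ε = 1 ∧ ε * g j = ((g j).natAbs : ℤ) := by
    rcases le_total 0 (g j) with h | h
    · exact ⟨1, by norm_num, by omega⟩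
    · exact ⟨-1, by norm_num, by omega⟩
  have hεa : |ε| = 1 := by
    rcases Int.eq_one_or_neg_one_of_mul_eq_one hε with h | h <;> simp [h]
  refine ⟨fun y => if y ∈ insert z F then ε * g y else 0, fun y => ?_, ?_, fun y => -(ε * f y), ?_⟩
  · by_cases hy : y ∈ insert z F
    · simp only [hy, if_true, abs_mul, hεa, one_mul, Int.natCast_natAbs]
      exact hmax y hy
    · simp [hy]
  · have h1 : (ε : ℚ) • ∑ y ∈ insert z F, (g y : ℚ) • hat y = 0 := by rw [hg, smul_zero]
    rw [← Finset.add_sum_erase _ _ hj, smul_add, smul_smul, Finset.smul_sum] at h1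
    have h2 : (((g j).natAbs : ℕ) : ℚ) = (ε : ℚ) * (g j : ℚ) := by
      have : ((((g j).natAbs : ℕ) : ℤ) : ℚ) = ((ε * g j : ℤ) : ℚ) := by rw [hεj]
      rw [Int.cast_natCast] at this
      rw [this]; push_cast; rfl
    rw [h2, ← h1]
    congr 1
    refine Finset.sum_congr rfl fun y hy => ?_
    simp only [Finset.mem_of_mem_erase hy, if_true, smul_smul]
    push_cast
    rfl
  · have h1 : ∑ y ∈ (insert z F).erase j, (if y ∈ insert z F then ε * g y else 0) * -(ε * f y) =
        -∑ y ∈ (insert z F).erase j, g y * f y := by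
      rw [← Finset.sum_neg_distrib]
      refine Finset.sum_congr rfl fun y hy => ?_
      simp only [Finset.mem_of_mem_erase hy, if_true]
      linear_combination (-(g y * f y)) * hε
    rw [h1]
    rw [← Finset.add_sum_erase _ _ hj] at hf
    have h2 : -∑ y ∈ (insert z F).erase j, g y * f y + 1 = g j * f j := by linear_combination -hf
    rw [h2]
    exact Dvd.dvd.mul_right (Int.natAbs_dvd.2 dvd_rfl) _

open Classical in
/-- the coefficients on `F` determine `j` (`hat` is injective) -/
theorem card_rel_le {m : Type} [Fintype m] (P F : Finset (m → ℤ)) (H : ℕ) :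
    ((P.filter fun j => Rel F j H).card : ℝ) ≤ (2 * H + 1 : ℝ) ^ F.card := by
  have hex : ∀ j, ∃ b : (m → ℤ) → ℤ, Rel F j H → 0 < H ∧ (∀ y, |b y| ≤ H) ∧
      (H : ℚ) • hat j + ∑ y ∈ F, (b y : ℚ) • hat y = 0 := by
    intro j
    by_cases h : Rel F j H
    · obtain ⟨h0, b, h1, h2, -⟩ := h
      exact ⟨b, fun _ => ⟨h0, h1, h2⟩⟩
    · exact ⟨0, fun h' => (h h').elim⟩
  choose b hb using hex
  have hcard : (P.filter fun j => Rel F j H).card ≤
      (Fintype.piFinset fun _ : F => Finset.Icc (-(H : ℤ)) H).card := by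
    refine Finset.card_le_card_of_injOn (fun j (y : F) => b j y.1) ?_ ?_
    · intro j hj
      have h1 := (hb j (Finset.mem_filter.1 (Finset.mem_coe.1 hj)).2).2.1
      refine Finset.mem_coe.2 (Fintype.mem_piFinset.2 fun y => ?_)
      simpa [Finset.mem_Icc, abs_le] using h1 y.1
    · intro j hj j' hj' h
      obtain ⟨h0, -, h1⟩ := hb j (Finset.mem_filter.1 (Finset.mem_coe.1 hj)).2
      obtain ⟨-, -, h2⟩ := hb j' (Finset.mem_filter.1 (Finset.mem_coe.1 hj')).2
      have h3 : ∑ y ∈ F, (b j y : ℚ) • hat y = ∑ y ∈ F, (b j' y : ℚ) • hat y :=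
        Finset.sum_congr rfl fun y hy => by
          have : b j y = b j' y := congrFun h ⟨y, hy⟩
          rw [this]
      rw [h3] at h1
      have h4 : (H : ℚ) • hat j = (H : ℚ) • hat j' := add_right_cancel (h1.trans h2.symm)
      have hH : (H : ℚ) ≠ 0 := by exact_mod_cast h0.ne'
      exact SpanX.hat_inj (smul_right_injective _ hH h4)
  calc ((P.filter fun j => Rel F j H).card : ℝ)
      ≤ ((Fintype.piFinset fun _ : F => Finset.Icc (-(H : ℤ)) H).card : ℝ) := by exact_mod_cast hcard
    _ = (2 * H + 1 : ℝ) ^ Fintype.card F := SpanX.card_pi_Icc _ _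
    _ = (2 * H + 1 : ℝ) ^ F.card := by rw [Fintype.card_coe]

theorem Rel.mem_span {m : Type} {F : Finset (m → ℤ)} {j : m → ℤ} {H : ℕ} (h : Rel F j H) :
    hat j ∈ Submodule.span ℚ (hat '' (F : Set (m → ℤ))) := by
  obtain ⟨h0, b, -, h2, -⟩ := h
  have hH : (H : ℚ) ≠ 0 := by exact_mod_cast h0.ne'
  have h3 : (H : ℚ) • hat j ∈ Submodule.span ℚ (hat '' (F : Set (m → ℤ))) := by
    rw [eq_neg_of_add_eq_zero_left h2]
    exact Submodule.neg_mem _ (Submodule.sum_mem _ fun y hy =>
      Submodule.smul_mem _ _ (Submodule.subset_span ⟨y, hy, rfl⟩))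
  exact (Submodule.smul_mem_iff _ hH).1 h3

end Crest.Agent.R225
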