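import Crest.Agent.R225.Tors
import Crest.Agent.R225.Span
import Crest.Agent.R225.One

set_option autoImplicit false

open MeasureTheory Set
open scoped ENNReal NNReal Matrix

namespace Crest.Agent.R225

namespace RelBX

theorem pw_le {ρ : ℝ} (hρ : 0 ≤ ρ) {H D d₁ : ℕ} (hH : 2 ≤ H) (h₁ : 5 * d₁ ≤ D) :
    (1 / (H : ℝ) + 2 * ρ) ^ D ≤ ((H : ℝ) ^ (2 * d₁))⁻¹ + (6 * ρ) ^ D := by
  have H2 : (2 : ℝ) ≤ H := by exact_mod_cast hH
  have H0 : (0 : ℝ) < H := by linarith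
  rcases le_total (4 * ρ) (1 / H) with h | h
  · refine le_add_of_le_of_nonneg ?_ (by positivity)
    have a1 : 1 / (H : ℝ) ≤ 1 / 2 := one_div_le_one_div_of_le (by norm_num) H2
    have a2 : (3 / 2 * (1 / (H : ℝ))) ^ 5 ≤ ((H : ℝ) ^ 2)⁻¹ := by
      have a3 : (2 : ℝ) ^ 3 ≤ (H : ℝ) ^ 3 := pow_le_pow_left₀ (by norm_num) H2 3
      have e : ((H : ℝ) ^ 2)⁻¹ = (H : ℝ) ^ 3 * (1 / (H : ℝ)) ^ 5 := by field_simp
      rw [e, mul_pow]
      exact mul_le_mul_of_nonneg_right (by linarith) (by positivity)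
    calc (1 / (H : ℝ) + 2 * ρ) ^ D ≤ (3 / 2 * (1 / (H : ℝ))) ^ D :=
          pow_le_pow_left₀ (by positivity) (by linarith) D
      _ ≤ (3 / 2 * (1 / (H : ℝ))) ^ (5 * d₁) :=
          pow_le_pow_of_le_one (by positivity) (by linarith) h₁
      _ ≤ _ := by
          rw [pow_mul, pow_mul, ← inv_pow]
          exact pow_le_pow_left₀ (by positivity) a2 _
  · exact le_add_of_nonneg_of_le (by positivity) (pow_le_pow_left₀ (by positivity) (by linarith) D)

theorem cnt_le {H r d₁ : ℕ} (hH : 2 ≤ H) (h₂ : 3 * r + 2 ≤ d₁) :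
    (2 * H + 1 : ℝ) ^ r * ((H : ℝ) ^ (2 * d₁))⁻¹ ≤ (1 / 2) ^ d₁ * ((H : ℝ) ^ 2)⁻¹ := by
  have H2 : (2 : ℝ) ≤ H := by exact_mod_cast hH
  have H0 : (0 : ℝ) < H := by linarith
  have a1 : (2 * H + 1 : ℝ) ≤ (H : ℝ) ^ 3 := by nlinarith [mul_le_mul H2 H2 (by norm_num) H0.le]
  have a2 : (2 * H + 1 : ℝ) ^ r * (2 ^ d₁ * (H : ℝ) ^ 2) ≤ (H : ℝ) ^ (2 * d₁) :=
    calc (2 * H + 1 : ℝ) ^ r * (2 ^ d₁ * (H : ℝ) ^ 2)
        ≤ ((H : ℝ) ^ 3) ^ r * ((H : ℝ) ^ d₁ * (H : ℝ) ^ 2) := by gcongr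
      _ = (H : ℝ) ^ (3 * r + (d₁ + 2)) := by rw [← pow_mul, ← pow_add, ← pow_add]
      _ ≤ _ := pow_le_pow_right₀ (by linarith) (by omega)
  rw [one_div, inv_pow, ← mul_inv, ← div_eq_mul_inv, div_le_iff₀ (by positivity),
    le_inv_mul_iff₀' (by positivity)]
  exact a2

theorem dc {α : Type} [DecidableEq α] (A B : Finset (Σ _ : Finset α, α)) (f : Finset α → ℝ)
    (hf : ∀ s, 0 ≤ f s) (r : ℕ)
    (hA : ∀ a ∈ A, a.2 ∉ a.1 ∧ ∃ b ∈ B, insert a.2 a.1 = insert b.2 b.1)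
    (hB : ∀ b ∈ B, b.1.card = r) :
    ∑ a ∈ A, f (insert a.2 a.1) ≤ (r + 1 : ℝ) * ∑ b ∈ B, f (insert b.2 b.1) := by
  calc ∑ a ∈ A, f (insert a.2 a.1)
      ≤ ∑ a ∈ A, ∑ b ∈ B, if insert a.2 a.1 = insert b.2 b.1 then f (insert b.2 b.1) else 0 := by
        refine Finset.sum_le_sum fun a ha => ?_
        obtain ⟨-, b, hb, e⟩ := hA a ha
        refine le_trans (le_of_eq ?_) (Finset.single_le_sum (f := fun b : Σ _ : Finset α, α =>
          if insert a.2 a.1 = insert b.2 b.1 then f (insert b.2 b.1) else 0)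
          (fun b _ => by split_ifs; exacts [hf _, le_rfl]) hb)
        simp only [if_pos e]
        rw [e]
    _ ≤ _ := by
        rw [Finset.sum_comm, Finset.mul_sum]
        refine Finset.sum_le_sum fun b hb => ?_
        rw [← Finset.sum_filter, Finset.sum_const, nsmul_eq_mul]
        refine mul_le_mul_of_nonneg_right ?_ (hf _)
        have : (A.filter fun a => insert a.2 a.1 = insert b.2 b.1).card ≤ (insert b.2 b.1).card := by
          refine Finset.card_le_card_of_injOn (fun a => a.2) (fun a ha => ?_) fun a ha a' ha' e => ?_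
          · have := (Finset.mem_filter.1 (Finset.mem_coe.1 ha)).2
            rw [← this]
            exact Finset.mem_coe.2 (Finset.mem_insert_self _ _)
          · obtain ⟨a1, a2⟩ := Finset.mem_filter.1 (Finset.mem_coe.1 ha)
            obtain ⟨b1, b2⟩ := Finset.mem_filter.1 (Finset.mem_coe.1 ha')
            have e1 := Finset.erase_insert (hA a a1).1
            have e2 := Finset.erase_insert (hA a' b1).1
            obtain ⟨F, z⟩ := a
            obtain ⟨F', z'⟩ := a'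
            simp only at e e1 e2 a2 b2
            subst e
            rw [a2] at e1
            rw [b2, e1] at e2
            rw [e2]
        have h2 := Finset.card_insert_le b.2 b.1
        rw [hB b hb] at h2
        exact_mod_cast this.trans h2

end RelBX

open Classical in
/-- relations of height `≥ 2` over a fixed independent `F`.  For `j` choose `H j ≥ 2` with `Rel F j (H j)`;
`tors`.  If `4 ρ H ≤ 1`: `1/H + 2ρ ≤ 3/(2H)`, `(3/(2H))^5 ≤ H^(-2)`, at most `(2H+1)^r ≤ H^(3r)` such `j`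
(`card_rel_le`), `∑_{H ≥ 2} H^(3r - 2 d₁) ≤ 2^(-d₁) ∑_{H≥2} H^(-2) ≤ 2^(-d₁)`.  Otherwise `1/H + 2ρ ≤ 6ρ` and
there are at most `(2B+1)^r` such `j` (`card_span_le`, `Rel.mem_span`). -/
theorem high_rels {m d : Type} [Fintype m] [Fintype d] {I : (m → ℤ) → Set (T d)} {ρ : ℝ}
    (hρ : 0 ≤ ρ) (hI : Sm I ρ) (P : Finset (m → ℤ)) {B d₁ : ℕ} (hP : ∀ z ∈ P, ∀ c, |z c| ≤ B)
    {F : Finset (m → ℤ)} (hF : LinearIndepOn ℚ hat (F : Set (m → ℤ)))
    (h₁ : 5 * d₁ ≤ Fintype.card d) (h₂ : 3 * F.card + 2 ≤ d₁) :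
    ∑ j ∈ (P \ F).filter (fun j => ∃ H, 2 ≤ H ∧ Rel F j H), (volume (Hit I (insert j F))).toReal ≤
      (∏ z ∈ F, (volume (I z)).toReal) *
        ((1 / 2) ^ d₁ + (2 * B + 1 : ℝ) ^ F.card * (6 * ρ) ^ Fintype.card d) := by
  obtain ⟨S, hS⟩ : ∃ S, S = (P \ F).filter (fun j => ∃ H, 2 ≤ H ∧ Rel F j H) := ⟨_, rfl⟩
  have hm : ∀ j ∈ S, j ∈ P ∧ ∃ H, 2 ≤ H ∧ Rel F j H := fun j hj => by
    rw [hS, Finset.mem_filter, Finset.mem_sdiff] at hj
    exact ⟨hj.1.1, hj.2⟩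
  rw [← hS]
  choose! hP' H h2 hR using hm
  have p0 : 0 ≤ ∏ z ∈ F, (volume (I z)).toReal := Finset.prod_nonneg fun _ _ => ENNReal.toReal_nonneg
  refine (Finset.sum_le_sum fun j hj => (tors hρ hI hF (hR j hj)).trans
    (mul_le_mul_of_nonneg_left (RelBX.pw_le hρ (h2 j hj) h₁) p0)).trans ?_
  rw [← Finset.mul_sum, Finset.sum_add_distrib, Finset.sum_const, nsmul_eq_mul]
  refine mul_le_mul_of_nonneg_left (add_le_add ?_ (mul_le_mul_of_nonneg_right
    (le_trans ?_ (card_span_le P F hP le_rfl)) (by positivity))) p0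
  · rw [← Finset.sum_fiberwise_of_maps_to (t := Finset.Ioc 1 (S.sup H + 1)) (g := H)
      fun j hj => Finset.mem_Ioc.2 ⟨h2 j hj, (Finset.le_sup hj).trans (Nat.le_succ _)⟩]
    have a1 := sum_Ioc_inv_sq_le_sub (α := ℝ) one_ne_zero (show 1 ≤ S.sup H + 1 by omega)
    have a2 : (0 : ℝ) ≤ ((S.sup H + 1 : ℕ) : ℝ)⁻¹ := by positivity
    refine le_trans (Finset.sum_le_sum (g := fun h : ℕ => (1 / 2 : ℝ) ^ d₁ * ((h : ℝ) ^ 2)⁻¹)
      fun h hh => ?_) ?_
    · rw [Finset.sum_congr rfl fun j hj => by rw [(Finset.mem_filter.1 hj).2], Finset.sum_const,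
        nsmul_eq_mul]
      refine le_trans (mul_le_mul_of_nonneg_right (le_trans ?_ (card_rel_le P F h)) (by positivity))
        (RelBX.cnt_le (Finset.mem_Ioc.1 hh).1 h₂)
      refine Nat.cast_le.2 (Finset.card_le_card fun j hj => ?_)
      obtain ⟨b1, b2⟩ := Finset.mem_filter.1 hj
      exact Finset.mem_filter.2 ⟨hP' j b1, b2 ▸ hR j b1⟩
    · rw [← Finset.mul_sum]
      refine mul_le_of_le_one_right (by positivity) ?_
      rw [Nat.cast_one, inv_one] at a1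
      linarith
  · exact Nat.cast_le.2 (Finset.card_le_card fun j hj =>
      Finset.mem_filter.2 ⟨hP' j hj, (hR j hj).mem_span⟩)

open Classical in
/-- all relations.  By `exists_rel` the pair `(F, z)` gives `(F', j)` with `insert j F' = insert z F`,
`F' ⊆ P` independent of the same size, `j ∈ P \ F'`, `Rel F' j H` with `H = 1` or `2 ≤ H`; the fibre over
`(F', j)` has at most `r + 1` elements (`z ∈ insert j F'` determines `F`).  Then `unit_rels`, `high_rels`,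
`esym_le`. -/
theorem all_rels {m d : Type} [Fintype m] [Fintype d] {I : (m → ℤ) → Set (T d)} {ρ V : ℝ}
    (hρ0 : 0 ≤ ρ) (hρ : ρ ≤ 1 / 8) (hI : Sm I ρ) (P : Finset (m → ℤ)) {B d₁ : ℕ}
    (hP : ∀ z ∈ P, ∀ c, |z c| ≤ B) (hV : ∑ z ∈ P, (volume (I z)).toReal ≤ V) (r : ℕ)
    (h₁ : 5 * d₁ ≤ Fintype.card d) (h₂ : 3 * r + 2 ≤ d₁) :
    ∑ F ∈ (P.powersetCard r).filter (fun F : Finset (m → ℤ) => LinearIndepOn ℚ hat (F : Set (m → ℤ))),
        ∑ z ∈ (P \ F).filter (fun z => hat z ∈ Submodule.span ℚ (hat '' (F : Set (m → ℤ)))),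
          (volume (Hit I (insert z F))).toReal ≤
      (r + 1 : ℝ) * (V ^ r / (r.factorial : ℝ) *
          ((1 / 2) ^ d₁ + (2 * B + 1 : ℝ) ^ r * (6 * ρ) ^ Fintype.card d) +
        if 2 ≤ r then 4 * 3 ^ r * V ^ r / ((r - 2).factorial : ℝ) * (7 / 8) ^ Fintype.card d else 0) := by
  have hc : ∀ F ∈ (P.powersetCard r).filter
      (fun F : Finset (m → ℤ) => LinearIndepOn ℚ hat (F : Set (m → ℤ))), F.card = r :=
    fun F hF => (Finset.mem_powersetCard.1 (Finset.mem_filter.1 hF).1).2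
  rw [Finset.sum_sigma']
  refine (RelBX.dc _ (((P.powersetCard r).filter
      (fun F : Finset (m → ℤ) => LinearIndepOn ℚ hat (F : Set (m → ℤ)))).sigma fun F =>
        (P \ F).filter (fun j => (∃ H, 2 ≤ H ∧ Rel F j H) ∨ Rel F j 1))
    (fun s => (volume (Hit I s)).toReal) (fun _ => ENNReal.toReal_nonneg) r (fun a ha => ?_)
    fun b hb => hc _ (Finset.mem_sigma.1 hb).1).trans
      (mul_le_mul_of_nonneg_left ?_ (by positivity))
  · obtain ⟨a1, a2⟩ := Finset.mem_sigma.1 ha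
    obtain ⟨a3, a4⟩ := Finset.mem_filter.1 a1
    obtain ⟨a5, a6⟩ := Finset.mem_filter.1 a2
    obtain ⟨a7, a8⟩ := Finset.mem_sdiff.1 a5
    obtain ⟨a9, a10⟩ := Finset.mem_powersetCard.1 a3
    obtain ⟨j, hj, H, b1, b2⟩ := exists_rel a4 a8 a6
    have hs : insert a.2 a.1 ⊆ P := Finset.insert_subset a7 a9
    refine ⟨a8, ⟨(insert a.2 a.1).erase j, j⟩, Finset.mem_sigma.2 ⟨Finset.mem_filter.2
      ⟨Finset.mem_powersetCard.2 ⟨(Finset.erase_subset _ _).trans hs, ?_⟩, b1⟩,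
      Finset.mem_filter.2 ⟨Finset.mem_sdiff.2 ⟨hs hj, Finset.notMem_erase _ _⟩, ?_⟩⟩,
      (Finset.insert_erase hj).symm⟩
    · simp only
      rw [Finset.card_erase_of_mem hj, Finset.card_insert_of_notMem a8, a10, Nat.add_sub_cancel]
    · rcases Nat.lt_or_ge H 2 with h | h
      · have := b2.1
        obtain rfl : H = 1 := by omega
        exact Or.inr b2
      · exact Or.inl ⟨H, h, b2⟩
  rw [← Finset.sum_sigma' _ _ fun F j => (volume (Hit I (insert j F))).toReal]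
  refine le_trans ?_ (add_le_add_right (unit_rels hρ hI P hV r) _)
  have c0 : 0 ≤ (1 / 2 : ℝ) ^ d₁ + (2 * B + 1 : ℝ) ^ r * (6 * ρ) ^ Fintype.card d := by positivity
  have e1 : ∑ F ∈ (P.powersetCard r).filter
      (fun F : Finset (m → ℤ) => LinearIndepOn ℚ hat (F : Set (m → ℤ))),
        ∏ z ∈ F, (volume (I z)).toReal ≤ V ^ r / (r.factorial : ℝ) := by
    refine (Finset.sum_le_sum_of_subset_of_nonneg (Finset.filter_subset _ _) fun F _ _ =>
      Finset.prod_nonneg fun _ _ => ENNReal.toReal_nonneg).trans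
      ((esym_le P _ (fun _ => ENNReal.toReal_nonneg) r).trans ?_)
    exact div_le_div_of_nonneg_right (pow_le_pow_left₀
      (Finset.sum_nonneg fun _ _ => ENNReal.toReal_nonneg) hV r) (Nat.cast_nonneg _)
  refine le_trans ?_ (add_le_add_left (mul_le_mul_of_nonneg_right e1 c0) _)
  rw [Finset.sum_mul, ← Finset.sum_add_distrib]
  refine Finset.sum_le_sum fun F hF => ?_
  have h := high_rels hρ0 hI P hP (Finset.mem_filter.1 hF).2 h₁ ((hc F hF).symm ▸ h₂)
  rw [hc F hF] at h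
  refine le_trans ?_ (add_le_add_left h _)
  rw [Finset.filter_or, ← Finset.sum_union_inter]
  exact le_add_of_nonneg_right (Finset.sum_nonneg fun _ _ => ENNReal.toReal_nonneg)

end Crest.Agent.R225
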