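import Crest.Agent.R225.Two

set_option autoImplicit false

open MeasureTheory Set
open scoped ENNReal NNReal Matrix

namespace Crest.Agent.R225

namespace ShellX

theorem meas_box {l n : ℕ} (G : Fin l → Fin n → ℝ) (a b : Fin l → ℝ) :
    MeasurableSet {x : Fin n → ℝ | ∀ r, G r ⬝ᵥ x ∈ Icc (a r) (b r)} := by
  rw [ofPred_forall]
  refine MeasurableSet.iInter fun r => ?_
  have : Continuous fun x : Fin n → ℝ => G r ⬝ᵥ x := by fun_prop
  exact measurableSet_Icc.preimage this.measurable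

theorem mG_bd {l n : ℕ} (ν : Measure (Fin n → ℝ)) [IsProbabilityMeasure ν] (a b : Fin l → ℝ)
    (G : Fin l → Fin n → ℝ) : 0 ≤ mG ν a b G ∧ mG ν a b G ≤ 1 :=
  ⟨ENNReal.toReal_nonneg, measureReal_le_one⟩

theorem int_mm {l n : ℕ} (ν : Measure (Fin n → ℝ)) [IsProbabilityMeasure ν]
    (a b a' b' : Fin l → ℝ) : Integrable (fun G => mG ν a b G * mG ν a' b' G) (gmx l n) := by
  refine Integrable.of_bound ((mG_meas ν a b).mul (mG_meas ν a' b')).aestronglyMeasurable 1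
    (ae_of_all _ fun G => ?_)
  have h1 := mG_bd ν a b G
  have h2 := mG_bd ν a' b' G
  rw [Real.norm_of_nonneg (mul_nonneg h1.1 h2.1)]
  exact mul_le_one₀ h1.2 h2.1 h2.2

theorem int_gI {l n : ℕ} (ν : Measure (Fin n → ℝ)) [IsProbabilityMeasure ν] (a b : Fin l → ℝ) :
    Integrable (fun x : Fin n → ℝ => ∏ r, gI (x ⬝ᵥ x) (a r) (b r)) ν := by
  have hc : Continuous fun x : Fin n → ℝ => x ⬝ᵥ x := by fun_prop
  refine Integrable.of_bound (Finset.measurable_prod _ fun r _ =>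
    (measurable_gI (a r) (b r)).comp hc.measurable).aestronglyMeasurable 1
    (ae_of_all _ fun x => ?_)
  rw [Real.norm_of_nonneg (Finset.prod_nonneg fun r _ => gI_nonneg _ _ _)]
  exact Finset.prod_le_one (fun r _ => gI_nonneg _ _ _) fun r _ => gI_le_one _ _ _

theorem gQ_upper {l n : ℕ} (ν : Measure (Fin n → ℝ)) [IsProbabilityMeasure ν] {u w : ℝ}
    (hu : 0 < u) (hw : 0 < w) : 0 ≤ gQ (l := l) ν (fun _ => u) (fun _ => u + w) ∧
      gQ (l := l) ν (fun _ => u) (fun _ => u + w) ≤ (w * gau 1 / u) ^ l := by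
  refine ⟨integral_nonneg fun x => Finset.prod_nonneg fun r _ => gI_nonneg _ _ _, ?_⟩
  have := integral_mono (int_gI (l := l) ν (fun _ => u) (fun _ => u + w))
    (integrable_const ((w * gau 1 / u) ^ l)) fun x => by
      simp only [Finset.prod_const, Finset.card_univ, Fintype.card_fin]
      exact pow_le_pow_left₀ (gI_nonneg _ _ _) (gI_upper _ hu hw.le) _
  simpa [gQ] using this

theorem meas_win {n : ℕ} (a b : ℝ) :
    MeasurableSet {x : Fin n → ℝ | a ≤ √(x ⬝ᵥ x) ∧ √(x ⬝ᵥ x) ≤ b} := by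
  have : Continuous fun x : Fin n → ℝ => √(x ⬝ᵥ x) := by fun_prop
  exact measurableSet_Icc.preimage this.measurable

theorem dot_nonneg {n : ℕ} (x : Fin n → ℝ) : 0 ≤ x ⬝ᵥ x :=
  Finset.sum_nonneg fun _ _ => mul_self_nonneg _

theorem gQ_lower {l n : ℕ} (hl : 1 ≤ l) (ν : Measure (Fin n → ℝ)) [IsProbabilityMeasure ν]
    {u w β : ℝ} (hw : 0 < w) (hu : w * l ≤ u)
    (hb : β ≤ (ν {x | u ≤ √(x ⬝ᵥ x) ∧ √(x ⬝ᵥ x) ≤ u + w}).toReal) :
    β * (Real.exp (-3) * (w * gau 1 / u) ^ l) ≤ gQ (l := l) ν (fun _ => u) (fun _ => u + w) := by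
  have hl' : (1 : ℝ) ≤ l := by exact_mod_cast hl
  have hu0 : 0 < u := lt_of_lt_of_le (by positivity) hu
  have hwu : w ≤ u / l := by rwa [le_div_iff₀ (by positivity)]
  have hg := gau_pos 1
  have e : Real.exp (-3) * (w * gau 1 / u) ^ l = (w * gau 1 / u * Real.exp (-3 / l)) ^ l := by
    rw [mul_pow, ← Real.exp_nat_mul, mul_comm]
    congr 2
    field_simp
  have h1 := integral_mono ((integrable_const (μ := ν)
    (Real.exp (-3) * (w * gau 1 / u) ^ l)).indicator (meas_win (n := n) u (u + w)))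
    (int_gI (l := l) ν (fun _ => u) (fun _ => u + w)) fun x => by
      by_cases hx : x ∈ {x : Fin n → ℝ | u ≤ √(x ⬝ᵥ x) ∧ √(x ⬝ᵥ x) ≤ u + w}
      · rw [indicator_of_mem hx, e]
        simp only [Finset.prod_const, Finset.card_univ, Fintype.card_fin]
        refine pow_le_pow_left₀ (by positivity) ?_ _
        have := gI_lower (r := √(x ⬝ᵥ x)) hu0 hl' hw.le hwu hx.1 (hx.2.trans (by
          rw [mul_add, mul_one, mul_one_div]; linarith))
        rwa [Real.sq_sqrt (dot_nonneg x)] at this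
      · rw [indicator_of_notMem hx]
        exact Finset.prod_nonneg fun r _ => gI_nonneg _ _ _
  rw [integral_indicator (meas_win u (u + w)), setIntegral_const, smul_eq_mul] at h1
  exact (mul_le_mul_of_nonneg_right hb (by positivity)).trans h1

end ShellX

open ShellX

/-- two heavy windows are close.  Cubes `Q_j = [u_j, u_j + w]^l`, `Q_m` with `u_m = (u₁+u₂)/2`.  For every `G`,
`mG Q₁ * mG Q₂ ≤ (mG Q_m)²` (`un_mul_le_sq`), so by `two_point` (`W = univ`)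
`gQ Q₁ gQ Q₂ ≤ (gQ Q_m)² + 2 err`.  `gQ Q_j ≥ β (w gau 1 / u_j)^l e^{-3}` (`gI_lower` on the window),
`gQ Q_m ≤ (w gau 1 / u_m)^l` (`gI_upper`). -/
theorem two_windows {l n : ℕ} (hn : 1 ≤ n) (hl : 1 ≤ l) {K : Set (Fin n → ℝ)} (h : Body K) (hi : Iso K)
    {u₁ u₂ w β : ℝ} (hw : 0 < w) (h₁ : w * l ≤ u₁) (h₂ : w * l ≤ u₂) (hβ : 0 ≤ β)
    (b₁ : β ≤ (un K {x | u₁ ≤ √(x ⬝ᵥ x) ∧ √(x ⬝ᵥ x) ≤ u₁ + w}).toReal)
    (b₂ : β ≤ (un K {x | u₂ ≤ √(x ⬝ᵥ x) ∧ √(x ⬝ᵥ x) ≤ u₂ + w}).toReal) :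
    β ^ 2 * Real.exp (-6) * ((w * gau 1 / u₁) ^ l * (w * gau 1 / u₂) ^ l) ≤
      ((w * gau 1 / ((u₁ + u₂) / 2)) ^ l) ^ 2 + 120 * l * (n : ℝ) ^ (-(1 / 10) : ℝ) := by
  have := h.prob
  have hl' : (1 : ℝ) ≤ l := by exact_mod_cast hl
  have hu₁ : 0 < u₁ := lt_of_lt_of_le (by positivity) h₁
  have hu₂ : 0 < u₂ := lt_of_lt_of_le (by positivity) h₂
  have hg := gau_pos 1
  have t1 := two_point (l := l) hn h hi MeasurableSet.univ (fun _ => u₁) (fun _ => u₁ + w)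
    (fun _ => u₂) (fun _ => u₂ + w)
  have t2 := two_point (l := l) hn h hi MeasurableSet.univ (fun _ => (u₁ + u₂) / 2)
    (fun _ => (u₁ + u₂) / 2 + w) (fun _ => (u₁ + u₂) / 2) (fun _ => (u₁ + u₂) / 2 + w)
  rw [Measure.restrict_univ] at t1 t2
  have t3 := integral_mono (int_mm (l := l) (un K) (fun _ => u₁) (fun _ => u₁ + w)
    (fun _ => u₂) (fun _ => u₂ + w)) (int_mm (l := l) (un K) (fun _ => (u₁ + u₂) / 2)
    (fun _ => (u₁ + u₂) / 2 + w) (fun _ => (u₁ + u₂) / 2) (fun _ => (u₁ + u₂) / 2 + w)) fun G => by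
      simp only
      rw [← sq]
      refine un_mul_le_sq h (meas_box G _ _) (meas_box G _ _) (meas_box G _ _) ?_
      intro x hx y hy r
      have a := hx r
      have b := hy r
      simp only [dotProduct_add, dotProduct_smul, smul_eq_mul, mem_Icc] at a b ⊢
      constructor <;> linarith [a.1, a.2, b.1, b.2]
  have g1 := gQ_lower hl (un K) hw h₁ b₁
  have g2 := gQ_lower hl (un K) hw h₂ b₂
  have g3 := gQ_upper (l := l) (un K) (u := (u₁ + u₂) / 2) (by positivity) hw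
  have g4 := mul_le_mul g1 g2 (by positivity) (le_trans (by positivity) g1)
  have g5 := mul_le_mul g3.2 g3.2 g3.1 (g3.1.trans g3.2)
  have e : Real.exp (-6) = Real.exp (-3) * Real.exp (-3) := by rw [← Real.exp_add]; norm_num
  have a1 := (abs_le.1 t1).1
  have a2 := (abs_le.1 t2).2
  rw [e]
  linarith

/-- numerical contradiction: `l = 10^13 k³`, `w l = r₀`, `r₀ ≤ u_j ≤ 12001 r₀`, `u₂ - u₁ ≥ r₀/(2k)`,
`β = 1/(48000 l)`.  With `a = w gau 1 / u_m ≥ 1/(60000 l)` and `u_m²/(u₁u₂) = 1 + x`,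
`x ≥ 1/(16 k² 12001²)`, `(1+x)^l ≥ 2 e^6 / β²`, the inequality of `two_windows` gives `a^(2l) ≤ 120 l n^(-1/10)`,
which contradicts `10^20 M^5 ≤ log n`. -/
theorem windows_num {k n : ℕ} (hk : 1 ≤ k) {M : ℝ} (hkM : (k : ℝ) ≤ M)
    (hM : (10 : ℝ) ^ 20 * M ^ 5 ≤ Real.log n) {l : ℕ} (hl : l = 10 ^ 13 * k ^ 3) {u₁ u₂ w : ℝ}
    (hw : 0 < w) (h₁ : w * l ≤ u₁) (h₂ : u₂ ≤ 12001 * (w * l)) (h₁₂ : u₁ + w * l / (2 * k) ≤ u₂) :
    ((w * gau 1 / ((u₁ + u₂) / 2)) ^ l) ^ 2 + 120 * l * (n : ℝ) ^ (-(1 / 10) : ℝ) <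
      (1 / (48000 * l : ℝ)) ^ 2 * Real.exp (-6) * ((w * gau 1 / u₁) ^ l * (w * gau 1 / u₂) ^ l) := by
  have hk' : (1 : ℝ) ≤ k := by exact_mod_cast hk
  have hlr : (l : ℝ) = 10 ^ 13 * k ^ 3 := by rw [hl]; push_cast; ring
  have hl0 : (0 : ℝ) < l := by rw [hlr]; positivity
  have hr : 0 < w * l := by positivity
  have hu₁ : 0 < u₁ := hr.trans_le h₁
  have hd : 0 < w * l / (2 * k) := by positivity
  have hu₂ : 0 < u₂ := by linarith
  have hg : 1 / 6 ≤ gau 1 := by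
    have h1 := gau_ge 1
    have h2 := Real.add_one_le_exp (-(1 : ℝ) ^ 2 / 2)
    linarith
  have hg0 := gau_pos 1
  set a := w * gau 1 / ((u₁ + u₂) / 2) with ha
  have ha0 : 0 < a := by positivity
  set N : ℕ := 16 * 12001 ^ 2 * k ^ 2 with hN
  have hNr : (N : ℝ) = 16 * 12001 ^ 2 * k ^ 2 := by rw [hN]; push_cast; ring
  have hN0 : (0 : ℝ) < N := by rw [hNr]; positivity
  have s1 : a ^ 2 * (1 + (N : ℝ)⁻¹) ≤ (w * gau 1 / u₁) * (w * gau 1 / u₂) := by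
    have h1 : u₁ * u₂ ≤ (12001 * (w * l)) ^ 2 := by
      rw [sq]; exact mul_le_mul (by linarith) h₂ hu₂.le (by positivity)
    have h2 : (w * l / (2 * k)) ^ 2 ≤ (u₂ - u₁) ^ 2 := pow_le_pow_left₀ hd.le (by linarith) 2
    have h3 : (N : ℝ)⁻¹ * (12001 * (w * l)) ^ 2 = (w * l / (2 * k)) ^ 2 / 4 := by
      rw [hNr]; field_simp; norm_num
    have h4 : (N : ℝ)⁻¹ * (u₁ * u₂) ≤ (N : ℝ)⁻¹ * (12001 * (w * l)) ^ 2 :=
      mul_le_mul_of_nonneg_left h1 (by positivity)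
    have h5 : u₁ * u₂ * (1 + (N : ℝ)⁻¹) ≤ ((u₁ + u₂) / 2) ^ 2 := by nlinarith
    rw [ha, div_pow, div_mul_div_comm, ← sq, div_mul_eq_mul_div, div_le_div_iff₀ (by positivity)
      (by positivity), mul_assoc]
    exact mul_le_mul_of_nonneg_left (by linarith) (by positivity)
  have s2 : (2 : ℝ) ^ (200 * k) ≤ (1 + (N : ℝ)⁻¹) ^ l := by
    have h0 : (1 : ℝ) ≤ 1 + (N : ℝ)⁻¹ := le_add_of_nonneg_right (by positivity)
    have h1 : (2 : ℝ) ≤ (1 + (N : ℝ)⁻¹) ^ N := by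
      have := one_add_mul_le_pow (a := (N : ℝ)⁻¹) (by linarith) N
      rwa [mul_inv_cancel₀ hN0.ne', one_add_one_eq_two] at this
    have h2 : N * (200 * k) ≤ l := by
      rw [hN, hl]
      nlinarith [Nat.zero_le (k ^ 3)]
    calc (2 : ℝ) ^ (200 * k) ≤ ((1 + (N : ℝ)⁻¹) ^ N) ^ (200 * k) :=
          pow_le_pow_left₀ (by norm_num) h1 _
      _ = (1 + (N : ℝ)⁻¹) ^ (N * (200 * k)) := by rw [← pow_mul]
      _ ≤ _ := pow_le_pow_right₀ h0 h2
  have s3 : 2 * (Real.exp 6 * (48000 * l) ^ 2) ≤ (2 : ℝ) ^ (200 * k) := by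
    have h1 : Real.exp 6 ≤ 2 ^ 10 := by
      have : Real.exp 6 = Real.exp 1 ^ 6 := by rw [← Real.exp_nat_mul]; norm_num
      rw [this]
      exact (pow_le_pow_left₀ (Real.exp_pos _).le (Real.exp_one_lt_d9.le.trans
        (by norm_num : _ ≤ (3 : ℝ))) 6).trans (by norm_num)
    have h2 : (k : ℝ) ≤ 2 ^ k := by exact_mod_cast Nat.lt_two_pow_self.le
    have h3 : (48000 * l : ℝ) ≤ 2 ^ 60 * (2 ^ k) ^ 3 := by
      rw [hlr, ← mul_assoc]
      exact mul_le_mul (by norm_num) (pow_le_pow_left₀ (by positivity) h2 3) (by positivity)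
        (by positivity)
    calc 2 * (Real.exp 6 * (48000 * l) ^ 2) ≤ 2 * (2 ^ 10 * (2 ^ 60 * (2 ^ k) ^ 3) ^ 2 : ℝ) := by
          gcongr
      _ = 2 ^ (131 + 6 * k) := by ring
      _ ≤ _ := pow_le_pow_right₀ (by norm_num) (by omega)
  have s4 : 2 ≤ (1 / (48000 * l : ℝ)) ^ 2 * Real.exp (-6) * (1 + (N : ℝ)⁻¹) ^ l := by
    have h1 := s3.trans s2
    rw [Real.exp_neg, one_div, inv_pow, ← mul_inv, mul_comm, ← div_eq_mul_inv,
      le_div_iff₀ (by positivity)]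
    linarith
  have s5 : 120 * l * (n : ℝ) ^ (-(1 / 10) : ℝ) < (a ^ l) ^ 2 := by
    have hM5 : (k : ℝ) ^ 5 ≤ M ^ 5 := pow_le_pow_left₀ (by positivity) hkM 5
    have hk5 : (1 : ℝ) ≤ k ^ 5 := one_le_pow₀ hk'
    have hn0 : (0 : ℝ) < n := by
      rcases Nat.eq_zero_or_pos n with rfl | h
      · simp only [Nat.cast_zero, Real.log_zero] at hM; linarith
      · exact_mod_cast h
    have h1 : (10 : ℝ) ^ 5 * l ≤ Real.exp (57 * k) := by
      have a1 : (10 : ℝ) ≤ Real.exp 3 := by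
        have : Real.exp 3 = Real.exp 1 ^ 3 := by rw [← Real.exp_nat_mul]; norm_num
        rw [this]
        exact le_trans (by norm_num) (pow_le_pow_left₀ (by norm_num)
          ((by norm_num : (2.7 : ℝ) ≤ _).trans Real.exp_one_gt_d9.le) 3)
      have a2 : (k : ℝ) ≤ Real.exp k := by linarith [Real.add_one_le_exp (k : ℝ)]
      calc (10 : ℝ) ^ 5 * l = 10 ^ 18 * k ^ 3 := by rw [hlr]; ring
        _ ≤ Real.exp 3 ^ 18 * Real.exp k ^ 3 := by gcongr
        _ = Real.exp (54 + 3 * k) := by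
          rw [← Real.exp_nat_mul, ← Real.exp_nat_mul, ← Real.exp_add]; norm_num
        _ ≤ _ := Real.exp_le_exp.2 (by linarith)
    have h2 : Real.exp (-(57 * k)) ≤ a := by
      rw [Real.exp_neg]
      refine (inv_anti₀ (by positivity) h1).trans ?_
      rw [ha, inv_eq_one_div, div_le_div_iff₀ (by positivity) (by positivity)]
      have : w * l * (1 / 6) ≤ w * l * gau 1 := mul_le_mul_of_nonneg_left hg hr.le
      linarith
    have h3 : Real.exp (-(57 * k) * (2 * l)) ≤ (a ^ l) ^ 2 := by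
      rw [← pow_mul, mul_comm l 2, mul_comm (-(57 * k : ℝ)), ← Nat.cast_two, ← Nat.cast_mul,
        Real.exp_nat_mul]
      exact pow_le_pow_left₀ (Real.exp_pos _).le h2 _
    refine lt_of_lt_of_le ?_ h3
    rw [Real.rpow_def_of_pos hn0]
    have h4 : 120 * (l : ℝ) ≤ Real.exp (57 * k) := by linarith
    refine (mul_le_mul_of_nonneg_right h4 (Real.exp_pos _).le).trans_lt ?_
    rw [← Real.exp_add, Real.exp_lt_exp, hlr]
    have h5 : (k : ℝ) ≤ k ^ 5 := le_self_pow₀ hk' (by norm_num)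
    have h6 : (k : ℝ) ^ 4 ≤ k ^ 5 := pow_le_pow_right₀ hk' (by norm_num)
    nlinarith
  have s6 : (a ^ l) ^ 2 * (1 + (N : ℝ)⁻¹) ^ l ≤ (w * gau 1 / u₁) ^ l * (w * gau 1 / u₂) ^ l := by
    rw [← mul_pow, ← pow_mul, mul_comm l 2, pow_mul, ← mul_pow]
    exact pow_le_pow_left₀ (by positivity) s1 _
  have s7 := mul_le_mul_of_nonneg_left s6
    (by positivity : 0 ≤ (1 / (48000 * l : ℝ)) ^ 2 * Real.exp (-6))
  have s8 := mul_le_mul_of_nonneg_left s4 (by positivity : 0 ≤ (a ^ l) ^ 2)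
  linarith

/-- **thin shell.**  `r₀ = √n / 4000`, `w = r₀ / l`, windows `[r₀ + i w, r₀ + (i+1) w]`, `i < 12000 l`, cover
`[r₀, 3√n]`, which has mass `≥ 7/9` (`small_ball` with `ε² = 1/180`, `iso_large`).  Windows of mass
`< 1/(48000 l)` carry at most `1/4`.  Let `i₀` be the least index of a heavy window, `σ = r₀ + i₀ w`.  By
`two_windows` and `windows_num` every heavy index `i` has `(i - i₀) w < r₀/(2k)`, so its window lies in
`[σ, σ + r₀/(2k) + w] ⊆ [σ, σ (1 + 1/k)]`. -/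
theorem shell {k n : ℕ} (hk : 1 ≤ k) {M : ℝ} (hkM : (k : ℝ) ≤ M)
    (hM : (10 : ℝ) ^ 20 * M ^ 5 ≤ Real.log n) {K : Set (Fin n → ℝ)} (h : Body K) (hi : Iso K) :
    ∃ σ : ℝ, 0 < σ ∧
      1 / 2 ≤ (un K {x | σ ≤ √(x ⬝ᵥ x) ∧ √(x ⬝ᵥ x) ≤ σ * (1 + 1 / k)}).toReal := by
  have := h.prob
  have hk' : (1 : ℝ) ≤ k := by exact_mod_cast hk
  have hn : 1 ≤ n := by
    rcases Nat.eq_zero_or_pos n with rfl | h
    · have : (1 : ℝ) ≤ M ^ 5 := one_le_pow₀ (hk'.trans hkM)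
      simp only [Nat.cast_zero, Real.log_zero] at hM; linarith
    · exact h
  have hn' : (0 : ℝ) < n := by exact_mod_cast hn
  obtain ⟨l, hl⟩ : ∃ l : ℕ, l = 10 ^ 13 * k ^ 3 := ⟨_, rfl⟩
  have hlr : (l : ℝ) = 10 ^ 13 * k ^ 3 := by rw [hl]; push_cast; ring
  have hkl : 2 * (k : ℝ) ≤ l := by
    have : (k : ℝ) ≤ k ^ 3 := le_self_pow₀ hk' (by norm_num)
    rw [hlr]; linarith
  have hl0 : (0 : ℝ) < l := by linarith
  have hl1 : 1 ≤ l := by exact_mod_cast (show (1 : ℝ) ≤ l by linarith)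
  have hs : 0 < √(n : ℝ) := Real.sqrt_pos.2 hn'
  obtain ⟨w, hw⟩ : ∃ w : ℝ, w = √n / 4000 / l := ⟨_, rfl⟩
  have hw0 : 0 < w := by rw [hw]; positivity
  have hwl : w * l = √n / 4000 := by rw [hw]; field_simp
  let W : ℕ → Set (Fin n → ℝ) := fun i =>
    {x | w * l + i * w ≤ √(x ⬝ᵥ x) ∧ √(x ⬝ᵥ x) ≤ w * l + i * w + w}
  let L := (Finset.range (12000 * l)).filter fun i => (un K).real (W i) < 1 / (48000 * l : ℝ)
  obtain ⟨σ, hσ, hH⟩ : ∃ σ : ℝ, 0 < σ ∧ ∀ i < 12000 * l, i ∉ L →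
      W i ⊆ {x | σ ≤ √(x ⬝ᵥ x) ∧ √(x ⬝ᵥ x) ≤ σ * (1 + 1 / k)} := by
    by_cases hex : ∃ i, i < 12000 * l ∧ i ∉ L
    · classical
      have hb : ∀ i < 12000 * l, i ∉ L → 1 / (48000 * l : ℝ) ≤ (un K (W i)).toReal :=
        fun i hi hL => not_lt.1 fun c => hL (Finset.mem_filter.2 ⟨Finset.mem_range.2 hi, c⟩)
      obtain ⟨h1, h2⟩ := Nat.find_spec hex
      have hp : ∀ i : ℕ, 0 ≤ i * w := fun i => by positivity
      refine ⟨w * l + Nat.find hex * w, by positivity, fun i hi' hL x hx => ?_⟩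
      have h3 : (Nat.find hex : ℝ) ≤ i := by exact_mod_cast Nat.find_min' hex ⟨hi', hL⟩
      have h4 : w * l + i * w < w * l + Nat.find hex * w + w * l / (2 * k) := by
        by_contra c
        have a1 := two_windows hn hl1 h hi hw0 (le_add_of_nonneg_right (hp _))
          (le_add_of_nonneg_right (hp _)) (by positivity) (hb _ h1 h2) (hb _ hi' hL)
        have a2 := windows_num hk hkM hM hl hw0 (le_add_of_nonneg_right (hp (Nat.find hex)))
          (u₂ := w * l + i * w) (by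
            have : (i : ℝ) ≤ 12000 * l := by exact_mod_cast hi'.le
            nlinarith) (not_lt.1 c)
        exact absurd a1 (not_le.2 a2)
      refine ⟨le_trans ?_ hx.1, hx.2.trans ?_⟩
      · nlinarith
      · have a1 : w ≤ w * l / (2 * k) := by
          rw [le_div_iff₀ (by positivity)]; exact mul_le_mul_of_nonneg_left hkl hw0.le
        have a2 : w * l / (2 * k) + w * l / (2 * k) = w * l * (1 / k) := by field_simp; ring
        have a3 : 0 ≤ Nat.find hex * w * (1 / k) := by positivity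
        linarith
    · exact ⟨1, one_pos, fun i hi hL => absurd ⟨i, hi, hL⟩ hex⟩
  refine ⟨σ, hσ, ?_⟩
  have he : (0 : ℝ) < √(1 / 180) := by positivity
  have he2 : √(1 / 180 : ℝ) ^ 2 = 1 / 180 := Real.sq_sqrt (by norm_num)
  have he6 : √(1 / 180 : ℝ) ^ 6 = (1 / 180) ^ 3 := by
    rw [show 6 = 2 * 3 from rfl, pow_mul, he2]
  have m1 := small_ball hn h hi he
  rw [he2, he6] at m1
  have m2 := iso_large hn h hi
  have cover : (univ : Set (Fin n → ℝ)) ⊆ ({x | x ⬝ᵥ x ≤ (1 / 180) ^ 3 * n / 2} ∪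
      {x | 9 * (n : ℝ) ≤ x ⬝ᵥ x}) ∪ ({x | σ ≤ √(x ⬝ᵥ x) ∧ √(x ⬝ᵥ x) ≤ σ * (1 + 1 / k)} ∪
        ⋃ i ∈ L, W i) := by
    intro x _
    by_cases c1 : x ⬝ᵥ x ≤ (1 / 180) ^ 3 * n / 2
    · exact Or.inl (Or.inl c1)
    by_cases c2 : 9 * (n : ℝ) ≤ x ⬝ᵥ x
    · exact Or.inl (Or.inr c2)
    right
    have hsq : √(n : ℝ) ^ 2 = n := Real.sq_sqrt hn'.le
    have a1 : w * l ≤ √(x ⬝ᵥ x) := by
      rw [hwl]
      refine Real.le_sqrt_of_sq_le ?_
      rw [div_pow, hsq]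
      linarith
    have a2 : √(x ⬝ᵥ x) < 12000 * (w * l) := by
      rw [hwl, Real.sqrt_lt' (by positivity)]
      nlinarith
    have a3 : 0 ≤ (√(x ⬝ᵥ x) - w * l) / w := div_nonneg (by linarith) hw0.le
    have a4 := Nat.floor_le a3
    have a5 := Nat.lt_floor_add_one ((√(x ⬝ᵥ x) - w * l) / w)
    have a6 : ⌊(√(x ⬝ᵥ x) - w * l) / w⌋₊ < 12000 * l := by
      rw [Nat.floor_lt a3, div_lt_iff₀ hw0]
      push_cast
      nlinarith
    rw [le_div_iff₀ hw0] at a4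
    rw [div_lt_iff₀ hw0] at a5
    have a7 : x ∈ W ⌊(√(x ⬝ᵥ x) - w * l) / w⌋₊ := ⟨by linarith, by linarith⟩
    by_cases c3 : ⌊(√(x ⬝ᵥ x) - w * l) / w⌋₊ ∈ L
    · exact Or.inr (mem_biUnion c3 a7)
    · exact Or.inl (hH _ a6 c3 a7)
  have m3 : (un K).real (⋃ i ∈ L, W i) ≤ 1 / 4 := by
    refine (measureReal_biUnion_finset_le _ _).trans ((Finset.sum_le_card_nsmul _ _
      (1 / (48000 * l : ℝ)) fun i hi => (Finset.mem_filter.1 hi).2.le).trans ?_)
    have : (L.card : ℝ) ≤ 12000 * l := by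
      exact_mod_cast (Finset.card_filter_le _ _).trans_eq (Finset.card_range _)
    rw [nsmul_eq_mul, mul_one_div, div_le_iff₀ (by positivity)]
    linarith
  have m4 := ((measureReal_mono cover).trans (measureReal_union_le (μ := un K) _ _)).trans
    (add_le_add (measureReal_union_le _ _) (measureReal_union_le _ _))
  rw [probReal_univ] at m4
  simp only [Measure.real] at m3 m4
  linarith

end Crest.Agent.R225
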