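import Crest.Agent.R225.Iso

set_option autoImplicit false

open MeasureTheory Set
open scoped ENNReal NNReal Matrix

namespace Crest.Agent.R225

namespace SmallX

theorem tail {n : ℕ} {K : Set (Fin n → ℝ)} (h : Body K) (i : Fin n) (s : ℝ) {η q : ℝ} (hη : 0 < η)
    (hq0 : 0 ≤ q) (hq1 : q ≤ 1) (hq : q ≤ (un K).real {x | -η ≤ s * x i ∧ s * x i < η}) (j : ℕ) :
    (un K).real {x | (2 * j + 1) * η ≤ s * x i} ≤ (1 - q) ^ j := by
  have := h.prob
  let S : ℕ → Set (Fin n → ℝ) := fun j => {x | (2 * (j : ℝ) - 1) * η ≤ s * x i}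
  have hS : ∀ j, MeasurableSet (S j) := fun j =>
    measurableSet_le measurable_const (by fun_prop)
  let G : ℕ → ℝ := fun j => (un K).real (S j)
  have hG0 : ∀ j, 0 ≤ G j := fun j => measureReal_nonneg
  have hG1 : ∀ j, G j ≤ 1 := fun j => measureReal_le_one
  have hmono : ∀ j, G (j + 2) ≤ G j := fun j => by
    refine measureReal_mono fun x hx => ?_
    simp only [S, mem_ofPred_eq] at hx ⊢
    push_cast at hx
    nlinarith
  have hlc : ∀ j, G (j + 2) * G j ≤ G (j + 1) ^ 2 := fun j => by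
    refine un_mul_le_sq h (hS _) (hS _) (hS _) fun x hx y hy => ?_
    simp only [S, mem_ofPred_eq, Pi.add_apply, Pi.smul_apply, smul_eq_mul] at hx hy ⊢
    push_cast at hx ⊢
    nlinarith
  have hstep : ∀ j, G (j + 1) ≤ (1 - q) * G j := by
    intro j
    induction j with
    | zero =>
      have hd : Disjoint {x : Fin n → ℝ | -η ≤ s * x i ∧ s * x i < η} (S 1) := by
        rw [Set.disjoint_left]
        intro x hx hx'
        simp only [S, mem_ofPred_eq] at hx hx'
        push_cast at hx'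
        linarith [hx.2]
      have hu := measureReal_union (μ := un K) hd (hS 1)
      have hsub : (un K).real ({x : Fin n → ℝ | -η ≤ s * x i ∧ s * x i < η} ∪ S 1) ≤ G 0 := by
        refine measureReal_mono fun x hx => ?_
        simp only [S, mem_union, mem_ofPred_eq] at hx ⊢
        push_cast at hx ⊢
        rcases hx with hx | hx
        · linarith [hx.1]
        · linarith
      have h1 : G 1 ≤ G 0 - q := by
        have : G 1 = (un K).real (S 1) := rfl
        linarith
      have h2 := mul_le_mul_of_nonneg_left (hG1 0) hq0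
      change G 1 ≤ (1 - q) * G 0
      linarith
    | succ j ih =>
      rcases (hG0 j).eq_or_lt with h0 | h0
      · have := hmono j
        have h2 : 0 ≤ (1 - q) * G (j + 1) := mul_nonneg (by linarith) (hG0 _)
        change G (j + 2) ≤ (1 - q) * G (j + 1)
        linarith
      · refine le_of_mul_le_mul_right ((hlc j).trans ?_) h0
        calc G (j + 1) ^ 2 = G (j + 1) * G (j + 1) := sq _
          _ ≤ G (j + 1) * ((1 - q) * G j) := mul_le_mul_of_nonneg_left ih (hG0 _)
          _ = _ := by ring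
  have hpow : ∀ j, G (j + 1) ≤ (1 - q) ^ j := by
    intro j
    induction j with
    | zero => simpa using hG1 1
    | succ j ih =>
      refine (hstep (j + 1)).trans ?_
      rw [pow_succ']
      exact mul_le_mul_of_nonneg_left ih (by linarith)
  have he : S (j + 1) = {x | (2 * j + 1) * η ≤ s * x i} := by
    ext x
    simp only [S, mem_ofPred_eq]
    push_cast
    rw [show 2 * ((j : ℝ) + 1) - 1 = 2 * j + 1 by ring]
  rw [← he]
  exact hpow j

theorem sq_le {η : ℝ} (hη : 0 < η) (N : ℕ) (y : ℝ) (hy : |y| < (2 * N + 1) * η) :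
    y ^ 2 ≤ η ^ 2 + ∑ j ∈ Finset.range N,
      if (2 * (j : ℝ) + 1) * η ≤ |y| then η ^ 2 * (2 * (j : ℝ) + 3) ^ 2 else 0 := by
  induction N with
  | zero =>
    simp only [Nat.cast_zero, mul_zero, zero_add, one_mul] at hy
    rw [Finset.range_zero, Finset.sum_empty, add_zero, ← sq_abs]
    exact pow_le_pow_left₀ (abs_nonneg _) hy.le 2
  | succ N ih =>
    rw [Finset.sum_range_succ]
    split_ifs with hN
    · have h1 : 0 ≤ ∑ j ∈ Finset.range N,
          if (2 * (j : ℝ) + 1) * η ≤ |y| then η ^ 2 * (2 * (j : ℝ) + 3) ^ 2 else 0 :=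
        Finset.sum_nonneg fun j _ => by split_ifs <;> positivity
      have h2 : y ^ 2 ≤ η ^ 2 * (2 * (N : ℝ) + 3) ^ 2 := by
        rw [← sq_abs, ← mul_pow]
        refine pow_le_pow_left₀ (abs_nonneg _) ?_ 2
        push_cast at hy
        linarith
      nlinarith [sq_nonneg η]
    · rw [add_zero]
      exact ih (not_le.1 hN)

theorem geo {q : ℝ} (hq0 : 0 < q) (hq1 : q ≤ 1) (N : ℕ) :
    ∑ j ∈ Finset.range N, (2 * (j : ℝ) + 3) ^ 2 * (1 - q) ^ j ≤ 9 / q ^ 3 := by
  have hr : ‖1 - q‖ < 1 := by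
    rw [Real.norm_eq_abs, abs_of_nonneg (by linarith)]
    linarith
  have h := hasSum_choose_mul_geometric_of_norm_lt_one 2 hr
  have h1 := sum_le_hasSum (Finset.range N)
    (fun j _ => mul_nonneg (Nat.cast_nonneg _) (pow_nonneg (by linarith) j)) h
  rw [sub_sub_cancel] at h1
  calc ∑ j ∈ Finset.range N, (2 * (j : ℝ) + 3) ^ 2 * (1 - q) ^ j
      ≤ ∑ j ∈ Finset.range N, 9 * ((((j + 2).choose 2 : ℕ) : ℝ) * (1 - q) ^ j) := by
        refine Finset.sum_le_sum fun j _ => ?_
        rw [← mul_assoc]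
        refine mul_le_mul_of_nonneg_right ?_ (pow_nonneg (by linarith) j)
        rw [Nat.cast_choose_two]
        push_cast
        have : (0 : ℝ) ≤ j := Nat.cast_nonneg j
        nlinarith
    _ ≤ 9 * (1 / q ^ (2 + 1)) := by
        rw [← Finset.mul_sum]
        exact mul_le_mul_of_nonneg_left h1 (by norm_num)
    _ = 9 / q ^ 3 := by ring

end SmallX

open SmallX

/-- **small ball in one coordinate.**  `q = un K {|x i| ≤ ε}`, `F j = un K {x i > (2j - 1) ε}` for `j ≥ 1` and
`F 0 = un K {x i ≥ -ε}` (midpoint log-concavity `un_mul_le_sq` holds for these half-spaces):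
`F 1 ≤ F 0 - q ≤ (1 - q) F 0`, `F (j+1) F (j-1) ≤ (F j)²`, `F` decreasing, hence `F (j+1) ≤ (1-q) F j`,
`F (j+1) ≤ (1-q)^j`; same for `-x i`.  `x² ≤ ε² + ∑_{j ≥ 0} ε² (2j+3)² 1[|x| > (2j+1) ε]` (finite sum, `K` is
bounded), `∑ (2j+3)² r^j ≤ 9 ∑ (j+1)(j+2) r^j = 18/(1-r)³`; so `1 ≤ 37 ε² / q³`. -/
theorem small_coord {n : ℕ} {K : Set (Fin n → ℝ)} (h : Body K) (hi : Iso K) (i : Fin n) {ε : ℝ}
    (hε : 0 < ε) : (un K {x | |x i| ≤ ε}).toReal ^ 3 ≤ 1000 * ε ^ 2 := by
  have := h.prob
  set q := (un K {x | |x i| ≤ ε}).toReal with hq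
  have hq0 : 0 ≤ q := ENNReal.toReal_nonneg
  have hq1 : q ≤ 1 := measureReal_le_one (μ := un K)
  rcases hq0.eq_or_lt with h0 | h0
  · rw [← h0, zero_pow (by norm_num)]; positivity
  set η := 2 * ε with hη
  have hη0 : 0 < η := by positivity
  have hqs : ∀ s : ℝ, |s| = 1 → q ≤ (un K).real {x | -η ≤ s * x i ∧ s * x i < η} := by
    intro s hs
    refine measureReal_mono (μ := un K) (s₁ := {x | |x i| ≤ ε}) fun x hx => ?_
    have h1 : |s * x i| ≤ ε := by rw [abs_mul, hs, one_mul]; exact hx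
    have h2 := abs_le.1 h1
    exact ⟨by linarith [h2.1], by linarith [h2.2]⟩
  let S : ℕ → Set (Fin n → ℝ) := fun j => {x | (2 * (j : ℝ) + 1) * η ≤ |x i|}
  have hS : ∀ j, MeasurableSet (S j) := fun j =>
    measurableSet_le measurable_const (by fun_prop)
  have hSle : ∀ j, (un K).real (S j) ≤ 2 * (1 - q) ^ j := by
    intro j
    have h1 := tail h i 1 hη0 hq0 hq1 (hqs 1 (by simp)) j
    have h2 := tail h i (-1) hη0 hq0 hq1 (hqs (-1) (by simp)) j
    have h3 : (un K).real (S j) ≤ (un K).real ({x | (2 * j + 1) * η ≤ 1 * x i} ∪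
        {x | (2 * j + 1) * η ≤ -1 * x i}) := by
      refine measureReal_mono fun x hx => ?_
      simp only [S, mem_union, mem_ofPred_eq, one_mul, neg_mul] at hx ⊢
      exact le_abs.1 hx
    have h4 := measureReal_union_le (μ := un K) {x | (2 * j + 1) * η ≤ 1 * x i}
      {x | (2 * j + 1) * η ≤ -1 * x i}
    linarith
  obtain ⟨R, hR⟩ := h.cpt.isBounded.exists_norm_le
  obtain ⟨N, hN⟩ := exists_nat_gt (R / η)
  have hint : ∀ j, Integrable ((S j).indicator fun _ => η ^ 2 * (2 * (j : ℝ) + 3) ^ 2) (un K) :=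
    fun j => (integrable_const _).indicator (hS j)
  have hle : ∫ x, x i * x i ∂(un K) ≤ ∫ x, (η ^ 2 + ∑ j ∈ Finset.range N,
      (S j).indicator (fun _ => η ^ 2 * (2 * (j : ℝ) + 3) ^ 2) x) ∂(un K) := by
    refine integral_mono_ae (integrable_un h (by fun_prop))
      ((integrable_const _).add (integrable_finsetSum _ fun j _ => hint j)) ?_
    filter_upwards [ProbabilityTheory.ae_cond_mem (μ := volume) h.cpt.measurableSet] with x hx
    have h1 : |x i| < (2 * N + 1) * η := by
      have a1 : |x i| ≤ R := (norm_le_pi_norm x i).trans (hR x hx)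
      rw [div_lt_iff₀ hη0] at hN
      have a2 : (0 : ℝ) ≤ N * η := by positivity
      linarith
    have h2 := sq_le hη0 N (x i) h1
    rw [← sq]
    refine h2.trans (le_of_eq ?_)
    simp only [S, indicator_apply, mem_ofPred_eq]
  rw [hi i i, if_pos rfl, integral_add (integrable_const _)
    (integrable_finsetSum _ fun j _ => hint j), integral_finsetSum _ fun j _ => hint j] at hle
  simp only [integral_const, probReal_univ, smul_eq_mul, one_mul,
    integral_indicator_const _ (hS _)] at hle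
  have h5 : ∑ j ∈ Finset.range N, (un K).real (S j) * (η ^ 2 * (2 * (j : ℝ) + 3) ^ 2) ≤
      2 * η ^ 2 * (9 / q ^ 3) := by
    refine le_trans ?_ (mul_le_mul_of_nonneg_left (geo h0 hq1 N) (by positivity))
    rw [Finset.mul_sum]
    refine Finset.sum_le_sum fun j _ => ?_
    calc _ ≤ 2 * (1 - q) ^ j * (η ^ 2 * (2 * (j : ℝ) + 3) ^ 2) :=
          mul_le_mul_of_nonneg_right (hSle j) (by positivity)
      _ = _ := by ring
  have hq3 : 0 < q ^ 3 := by positivity
  have hq4 : q ^ 3 ≤ 1 := pow_le_one₀ hq0 hq1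
  have h6 : 1 * q ^ 3 ≤ (η ^ 2 + 2 * η ^ 2 * (9 / q ^ 3)) * q ^ 3 :=
    mul_le_mul_of_nonneg_right (hle.trans (by linarith)) hq3.le
  have h7 : (η ^ 2 + 2 * η ^ 2 * (9 / q ^ 3)) * q ^ 3 = 4 * (ε ^ 2 * q ^ 3) + 72 * ε ^ 2 := by
    rw [hη]; field_simp; ring
  have h8 : ε ^ 2 * q ^ 3 ≤ ε ^ 2 * 1 := mul_le_mul_of_nonneg_left hq4 (sq_nonneg ε)
  have h9 := sq_nonneg ε
  linarith

/-- if `x ⬝ᵥ x ≤ ε^6 n / 2` then at least `n/2` coordinates satisfy `|x i| ≤ ε³`; Markov for the number of such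
coordinates, whose mean is `≤ 10 ε² n` by `small_coord` -/
theorem small_ball {n : ℕ} (hn : 1 ≤ n) {K : Set (Fin n → ℝ)} (h : Body K) (hi : Iso K) {ε : ℝ}
    (hε : 0 < ε) : (un K {x | x ⬝ᵥ x ≤ ε ^ 6 * n / 2}).toReal ≤ 20 * ε ^ 2 := by
  have := h.prob
  have hn' : (0 : ℝ) < n := by exact_mod_cast hn
  let A : Set (Fin n → ℝ) := {x | x ⬝ᵥ x ≤ ε ^ 6 * n / 2}
  have hA : MeasurableSet A := by
    refine measurableSet_le ?_ measurable_const
    unfold dotProduct
    fun_prop
  let S : Fin n → Set (Fin n → ℝ) := fun i => {x | |x i| ≤ ε ^ 3}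
  have hS : ∀ i, MeasurableSet (S i) := fun i =>
    measurableSet_le (by fun_prop) measurable_const
  have hq : ∀ i, (un K).real (S i) ≤ 10 * ε ^ 2 := fun i => by
    have h1 := small_coord h hi i (pow_pos hε 3)
    refine le_of_pow_le_pow_left₀ (n := 3) (by norm_num) (by positivity) (h1.trans (le_of_eq ?_))
    ring
  have hint : ∀ i, Integrable ((S i).indicator fun _ => (1 : ℝ)) (un K) :=
    fun i => (integrable_const _).indicator (hS i)
  have hle : ∫ x, A.indicator (fun _ => (n : ℝ) / 2) x ∂(un K) ≤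
      ∫ x, ∑ i, (S i).indicator (fun _ => (1 : ℝ)) x ∂(un K) := by
    refine integral_mono ((integrable_const _).indicator hA)
      (integrable_finsetSum _ fun i _ => hint i) fun x => ?_
    by_cases hx : x ∈ A
    · simp only [indicator_of_mem hx]
      have h1 : ∑ i, ε ^ 6 * (1 - (S i).indicator (fun _ => (1 : ℝ)) x) ≤ x ⬝ᵥ x := by
        refine Finset.sum_le_sum fun i _ => ?_
        by_cases hi : x ∈ S i
        · rw [indicator_of_mem hi, sub_self, mul_zero]
          exact mul_self_nonneg _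
        · rw [indicator_of_notMem hi, sub_zero, mul_one, ← sq, ← sq_abs,
            show ε ^ 6 = (ε ^ 3) ^ 2 by ring]
          exact pow_le_pow_left₀ (by positivity) (not_le.1 hi).le 2
      rw [← Finset.mul_sum, Finset.sum_sub_distrib] at h1
      simp only [Finset.sum_const, Finset.card_univ, Fintype.card_fin, nsmul_eq_mul, mul_one] at h1
      have h2 : ε ^ 6 * (n - ∑ i, (S i).indicator (fun _ => (1 : ℝ)) x) ≤ ε ^ 6 * (n / 2) := by
        refine (h1.trans hx).trans (le_of_eq ?_)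
        ring
      have h3 := le_of_mul_le_mul_left h2 (pow_pos hε 6)
      linarith
    · simp only [indicator_of_notMem hx]
      exact Finset.sum_nonneg fun i _ => indicator_nonneg (fun _ _ => zero_le_one) x
  rw [integral_finsetSum _ fun i _ => hint i] at hle
  simp only [integral_indicator_const _ hA, integral_indicator_const _ (hS _), smul_eq_mul,
    mul_one] at hle
  have h4 : ∑ i, (un K).real (S i) ≤ n * (10 * ε ^ 2) := by
    refine (Finset.sum_le_sum fun i _ => hq i).trans (le_of_eq ?_)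
    simp
  have h5 : (un K).real A * (n / 2) ≤ 20 * ε ^ 2 * (n / 2) := by linarith
  exact le_of_mul_le_mul_right h5 (by positivity)

end Crest.Agent.R225
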