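import Crest.Agent.R225.StepA

set_option autoImplicit false

open MeasureTheory Set
open scoped ENNReal NNReal Matrix

namespace Crest.Agent.R225

namespace StepX

/-- the new array -/
noncomputable def HH (p k N P0 : ℕ) (η : ℝ) (κ : Fin (dd p) → ℤ) (u : ℕ → Gam p) (H : ℕ → ℕ → ℝ)
    (gm : ℕ → ℕ) : ℕ → ℕ → ℝ := fun i j =>
  if i < k then H i j else if i = k then (if j = k then η else 0) else
    if hi : i - (k + 1) < dd p then
      (if j = i then hh p else if j = k then hh p * κ ⟨i - (k + 1), hi⟩ / (QQ p * P0) else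
        if j < k ∧ gm j < N then rho p * ((u (gm j) ⟨i - (k + 1), hi⟩).val : ℝ) else 0)
    else 0

/-- the new group map -/
def gmm (p k : ℕ) : ℕ → ℕ := fun j => if k + 1 ≤ j then (j - (k + 1)) / ss p else NN p

/-- integer shift coming from the old block -/
def SS (p k N : ℕ) (u : ℕ → Gam p) (gm : ℕ → ℕ) (z : ℕ → ℤ) (i : Fin (dd p)) : ℤ :=
  ∑ g ∈ Finset.range N, sig k gm z g * ((u g i).val : ℤ)

variable {p k N P0 : ℕ} {η : ℝ} {κ : Fin (dd p) → ℤ} {u : ℕ → Gam p} {H : ℕ → ℕ → ℝ} {gm : ℕ → ℕ}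

theorem HH_old {i : ℕ} (hi : i < k) (j : ℕ) : HH p k N P0 η κ u H gm i j = H i j := by
  simp [HH, hi]

theorem HH_info (j : ℕ) : HH p k N P0 η κ u H gm k j = if j = k then η else 0 := by
  simp [HH]

theorem HH_bit (i : Fin (dd p)) (j : ℕ) : HH p k N P0 η κ u H gm (k + 1 + i) j =
    if j = k + 1 + i then hh p else if j = k then hh p * κ i / (QQ p * P0) else
      if j < k ∧ gm j < N then rho p * ((u (gm j) i).val : ℝ) else 0 := by
  have h1 : ¬ (k + 1 + (i : ℕ) < k) := by omega
  have h2 : ¬ (k + 1 + (i : ℕ) = k) := by omega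
  have h3 : k + 1 + (i : ℕ) - (k + 1) = i := by omega
  have h4 : k + 1 + (i : ℕ) - (k + 1) < dd p := by rw [h3]; exact i.2
  have h5 : (⟨k + 1 + (i : ℕ) - (k + 1), h4⟩ : Fin (dd p)) = i := Fin.ext h3
  simp only [HH, if_neg h1, if_neg h2, dif_pos h4, h5]

theorem yy_old (t : ℕ → ℝ) {z z' : ℕ → ℤ} (hz : ∀ j < k, z' j = z j) {i : ℕ} (hi : i < k) :
    yy (HH p k N P0 η κ u H gm) t z' i = yy H t z i := by
  unfold yy
  congr 1
  refine Finset.sum_congr rfl fun j hj => ?_
  rw [HH_old hi, hz j (by have := Finset.mem_range.1 hj; omega)]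

theorem yy_info (t : ℕ → ℝ) (z' : ℕ → ℤ) :
    yy (HH p k N P0 η κ u H gm) t z' k = t k + η * z' k := by
  unfold yy
  congr 1
  rw [Finset.sum_range_succ, Finset.sum_eq_zero, HH_info]
  · simp
  · intro j hj
    have : j ≠ k := by have := Finset.mem_range.1 hj; omega
    rw [HH_info]; simp [this]

theorem SS_eq (z : ℕ → ℤ) (i : Fin (dd p)) :
    (SS p k N u gm z i : ℝ) = ∑ j ∈ Finset.range k,
      (if gm j < N then ((u (gm j) i).val : ℝ) else 0) * (z j : ℝ) := by
  unfold SS sig
  push_cast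
  simp only [Finset.sum_filter, Finset.sum_mul]
  rw [Finset.sum_comm]
  refine Finset.sum_congr rfl fun j _ => ?_
  by_cases h : gm j < N
  · rw [if_pos h, Finset.sum_eq_single (gm j)]
    · simp [mul_comm]
    · intro g _ hg; simp [Ne.symm hg]
    · intro hg; exact absurd (Finset.mem_range.2 h) hg
  · rw [if_neg h, zero_mul]
    refine Finset.sum_eq_zero fun g hg => ?_
    have : gm j ≠ g := by have := Finset.mem_range.1 hg; omega
    simp [this]

theorem yy_bit (t : ℕ → ℝ) {z z' : ℕ → ℤ} (hz : ∀ j < k, z' j = z j) (i : Fin (dd p)) :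
    yy (HH p k N P0 η κ u H gm) t z' (k + 1 + i) =
      t (k + 1 + i) + rho p * SS p k N u gm z i + z' k * (hh p * κ i / (QQ p * P0)) +
        hh p * z' (k + 1 + i) := by
  unfold yy
  rw [Finset.sum_range_succ, Finset.sum_range_add, Finset.sum_range_succ, SS_eq, Finset.mul_sum]
  have e1 : ∑ j ∈ Finset.range k, HH p k N P0 η κ u H gm (k + 1 + i) j * (z' j : ℝ) =
      ∑ j ∈ Finset.range k, rho p * ((if gm j < N then ((u (gm j) i).val : ℝ) else 0) * (z j : ℝ)) := by
    refine Finset.sum_congr rfl fun j hj => ?_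
    have hj' := Finset.mem_range.1 hj
    rw [HH_bit, if_neg (by omega), if_neg (by omega), hz j hj']
    by_cases h : gm j < N
    · simp [h, hj', mul_assoc]
    · simp [h]
  have e2 : ∑ x ∈ Finset.range (i : ℕ),
      HH p k N P0 η κ u H gm (k + 1 + i) (k + 1 + x) * (z' (k + 1 + x) : ℝ) = 0 := by
    refine Finset.sum_eq_zero fun x hx => ?_
    have hx' := Finset.mem_range.1 hx
    rw [HH_bit, if_neg (by omega), if_neg (by omega), if_neg (by omega), zero_mul]
  rw [e1, e2, HH_bit, HH_bit, if_neg (by omega), if_pos rfl, if_pos rfl]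
  ring

theorem glue_lt {k' d : ℕ} (z l : ℕ → ℤ) (b : Fin d → Bool) {j : ℕ} (hj : j < k') :
    glue k' d z l b j = z j := by
  unfold glue
  rw [dif_neg (by omega)]

theorem glue_bit {k' d : ℕ} (z l : ℕ → ℤ) (b : Fin d → Bool) (i : Fin d) :
    glue k' d z l b (k' + i) = l i + if b i then 1 else 0 := by
  unfold glue
  have h3 : k' + (i : ℕ) - k' = i := by omega
  have h4 : k' ≤ k' + (i : ℕ) ∧ k' + (i : ℕ) - k' < d := ⟨by omega, by rw [h3]; exact i.2⟩
  have h5 : (⟨k' + (i : ℕ) - k', h4.2⟩ : Fin d) = i := Fin.ext h3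
  rw [dif_pos h4]
  simp only [h5, h3]

theorem sig_glue (z l : ℕ → ℤ) : ∃ s₀ : ℕ → ℤ, ∀ b : Fin (dd p) → Bool,
    sig (k + 1 + dd p) (gmm p k) (glue (k + 1) (dd p) z l b) =
      s₀ + fun g => ∑ i ∈ Finset.univ.filter (fun i : Fin (dd p) => i.val / ss p = g),
        if b i then 1 else 0 := by
  refine ⟨fun g => (∑ j ∈ Finset.range (k + 1), if gmm p k j = g then z j else 0) +
    ∑ i : Fin (dd p), if i.val / ss p = g then l i else 0, fun b => ?_⟩
  funext g
  simp only [sig, Pi.add_apply, Finset.sum_filter]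
  rw [Finset.sum_range_add, add_assoc, ← Finset.sum_add_distrib,
    ← Fin.sum_univ_eq_sum_range (fun x => if gmm p k (k + 1 + x) = g then
      glue (k + 1) (dd p) z l b (k + 1 + x) else 0)]
  congr 1
  · refine Finset.sum_congr rfl fun j hj => ?_
    rw [glue_lt _ _ _ (Finset.mem_range.1 hj)]
  · refine Finset.sum_congr rfl fun i _ => ?_
    have : gmm p k (k + 1 + i) = i.val / ss p := by
      unfold gmm; rw [if_pos (by omega)]; congr 1; omega
    rw [this, glue_bit]
    split_ifs <;> simp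

theorem trunc_trunc (z : ℕ → ℤ) : trunc k (trunc (k + 1) z) = trunc k z := by
  funext j
  unfold trunc
  by_cases h : j < k
  · simp [h, Nat.lt_succ_of_lt h]
  · simp [h]

theorem list_sum_le {α : Type} (L : List α) (f g : α → ℝ) (h : ∀ x ∈ L, f x ≤ g x) :
    (L.map f).sum ≤ (L.map g).sum := List.sum_le_sum h

end StepX

open StepX in
/-- **one block of the tower.**  Data from `cand_lap`.  With `d = dd p`, `Q = QQ p`, `ρ = rho p`, `h = hh p`:
`H' i j = H i j` for `i < k`; `H' k k = η`, `H' k j = 0` (`j < k`); for `i < d`: `H' (k+1+i) (k+1+i) = h`,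
`H' (k+1+i) k = h κ_i/(Q P0)`, `H' (k+1+i) j = ρ * (u (gm j) i).val` if `j < k ∧ gm j < N`, else `0`.
`gm' j = (j - (k+1)) / ss p` for `k+1 ≤ j`, `= NN p` otherwise.
Given `t`, take `a, w` from the old stage; `j₀ = -⌊t k / η⌋`;
`x̂_i = ⌊(t (k+1+i) + j₀ hκ_i/(Q P0) - hξ_i/(Q P0))/ρ⌋`, `S_i z = ∑_{g<N} sig k gm z g * (u g i).val`
(`= ∑_{j<k, gm j<N} (u (gm j) i).val z j`, `Finset.sum_fiberwise`), `x z = fun i => (x̂_i + S_i z : ZMod Q)`
`= x̂ + ∑ sig g • u g`, `ι z = sel (x z)`, `n_i z = x̂_i + S_i z + (ξ_i + ι z κ_i)/P0`.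
Policy: `a' i = a i` (`i < k`), `a' k z = j₀ + ι (trunc k z)`, `a' (k+1+i) z = -(n_i (trunc k z) / Q) - 1`.
Weights: `w' z' = w z * θ * cw η (ι z) * ∏_i wb (n_i z) (b_i)` if `0 < F (x z)` and `z' k = j₀ + ι z`
(`z = trunc k z'`, `b_i = decide (z' (k+1+i) = -(n_i z / Q))`), else `0`.
Use `lv_ext_sum`/`lv_ext_mem` (with `k+1` and `d`), `lv_sum_succ`, `mem_lv_succ`, `lv_congr`, `inner` (note
`dd p = NN p * ss p` by `rfl`, `(n_i z : ZMod Q) = (x z + rsh .. (ι z)) i`), `round_shift`, `bit_point`,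
`cw_le_point` for the info coordinate (`t k + η (j₀ + ι) ∈ [ι η, (ι+1) η]`), `step_num`; the old chain property
is applied to `φ_old s = F (x̂ + ∑ s g • u g)` with `v_old = 1 - 9/Y`. -/
theorem step {p : ℕ} (hp : 40 ≤ p) {k N : ℕ} {c Tc R : ℝ} {H : ℕ → ℕ → ℝ} {gm : ℕ → ℕ}
    (h : Stage k N c Tc R H gm) (hN : 30 * p * (5 * 2 ^ (15 * p)) ≤ N) (hc : 0 ≤ c) (hT : 0 ≤ Tc) :
    ∃ (H' : ℕ → ℕ → ℝ) (gm' : ℕ → ℕ), Stage (k + 1 + dd p) (NN p) (c * (1 - 20 / 2 ^ p))
      (Tc * Real.exp (-2 ^ (17 * p))) (max R (2 ^ p)) H' gm' := by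
  classical
  obtain ⟨η, P0, ξ, κ, sel, F, u, hη0, hη, hP0, hκ, hF, hF', hch⟩ := cand_lap hp
  obtain ⟨n1, n2, n3, n4, n5, n6, n7⟩ := step_num hp hη0 hη
  have hh0 : 0 < hh p := lt_of_lt_of_le (by norm_num) (hh_ge hp)
  have hρ0 : 0 < rho p := rho_pos hp
  have hQ0 : (0 : ℝ) < QQ p := by unfold QQ; positivity
  have hP0' : (0 : ℝ) < P0 := by exact_mod_cast hP0
  have hη1 : η ≤ 1 := hη.trans (inv_le_one_of_one_le₀ (one_le_pow₀ (by norm_num)))
  have hY1 : (1 : ℝ) ≤ 2 ^ p := one_le_pow₀ (by norm_num)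
  refine ⟨HH p k N P0 η κ u H gm, gmm p k, ?_, ?_, fun t => ?_⟩
  · intro i hi
    rcases lt_trichotomy i k with h1 | h1 | h1
    · rw [HH_old h1]; exact h.pos i h1
    · subst h1; rw [HH_info]; simpa using hη0
    · obtain ⟨i', rfl⟩ : ∃ i' : Fin (dd p), i = k + 1 + i' := ⟨⟨i - (k + 1), by omega⟩, by simp; omega⟩
      rw [HH_bit, if_pos rfl]; exact hh0
  · intro i hi j hj
    rcases lt_trichotomy i k with h1 | h1 | h1
    · rw [HH_old h1]; exact (h.bd i h1 j hj).trans (le_max_left _ _)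
    · subst h1; rw [HH_info]
      refine le_trans ?_ (le_max_right _ _)
      split_ifs
      · rw [abs_of_pos hη0]; linarith
      · simp
    · obtain ⟨i', rfl⟩ : ∃ i' : Fin (dd p), i = k + 1 + i' := ⟨⟨i - (k + 1), by omega⟩, by simp; omega⟩
      rw [HH_bit]
      refine le_trans ?_ (le_max_right _ _)
      split_ifs
      · rw [abs_of_pos hh0]; linarith
      · have k0 : (0 : ℝ) ≤ κ i' := by exact_mod_cast (hκ i').1
        have k1 : (κ i' : ℝ) ≤ QQ p * P0 := by exact_mod_cast (hκ i').2.le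
        rw [abs_of_nonneg (by positivity), div_le_iff₀ (by positivity)]
        nlinarith [mul_pos hQ0 hP0']
      · have v1 : ((u (gm j) i').val : ℝ) ≤ QQ p := by exact_mod_cast (ZMod.val_lt _).le
        rw [abs_of_nonneg (by positivity)]
        have := rho_mul p
        nlinarith
      · simp
  obtain ⟨a, w, hw0, hw, hsum⟩ := h.main t
  set j₀ : ℤ := -⌊t k / η⌋ with hj₀
  set xh : Fin (dd p) → ℤ := fun i => ⌊(t (k + 1 + i) + j₀ * (hh p * κ i / (QQ p * P0)) -
    hh p * ξ i / (QQ p * P0)) / rho p⌋ with hxh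
  set x : (ℕ → ℤ) → Gam p := fun z => (fun i => (xh i : ZMod (QQ p))) +
    ∑ g ∈ Finset.range N, sig k gm z g • u g with hx
  set nn : (ℕ → ℤ) → Fin (dd p) → ℤ := fun z i =>
    xh i + SS p k N u gm z i + (ξ i + sel (x z) * κ i) / (P0 : ℤ) with hnn
  set lab : (ℕ → ℤ) → ℕ → ℤ := fun z i =>
    if hi : i < dd p then -(nn (trunc k z) ⟨i, hi⟩ / (QQ p : ℤ)) - 1 else 0 with hlab
  set a' : ℕ → (ℕ → ℤ) → ℤ := fun i z =>
    if i < k then a i z else if i = k then j₀ + sel (x (trunc k z)) else lab z (i - (k + 1)) with ha'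
  set θ : ℝ := Real.exp (-(2 * η * (hh p + 1) + dd p * (2 * rho p * (hh p + 1)))) with hθ
  set w' : (ℕ → ℤ) → ℝ := fun z' =>
    if 0 < F (x (trunc k z')) ∧ z' k = j₀ + sel (x (trunc k z')) then
      w (trunc k z') * θ * cw η (sel (x (trunc k z'))) *
        ∏ i : Fin (dd p), wb p (nn (trunc k z') i : ZMod (QQ p))
          (decide (z' (k + 1 + i) = -(nn (trunc k z') i / (QQ p : ℤ))))
    else 0 with hw'
  have hθ0 : 0 < θ := Real.exp_pos _
  have hθ1 : θ ≤ 1 := by
    rw [hθ, Real.exp_le_one_iff]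
    have : (0 : ℝ) ≤ 2 * η * (hh p + 1) + dd p * (2 * rho p * (hh p + 1)) := by positivity
    linarith
  have hcast : ∀ z i, (nn z i : ZMod (QQ p)) = (x z + rsh (QQ p) P0 ξ κ (sel (x z))) i := by
    intro z i
    simp only [hnn, hx, SS, rsh, Pi.add_apply, Finset.sum_apply, Pi.smul_apply, zsmul_eq_mul]
    push_cast
    simp
  have hlv : lv a' k = lv a k := lv_congr fun i hi => by funext z; simp [ha', hi]
  have hak : ∀ z ∈ lv a k, a' k z = j₀ + sel (x z) := by
    intro z hz; simp [ha', trunc_of_mem hz]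
  have hext : ∀ i < dd p, ∀ z, a' (k + 1 + i) z = lab (trunc (k + 1) z) i := by
    intro i _ z
    have h1 : ¬ (k + 1 + i < k) := by omega
    have h2 : ¬ (k + 1 + i = k) := by omega
    have h3 : k + 1 + i - (k + 1) = i := by omega
    simp only [ha', if_neg h1, if_neg h2, h3, hlab, trunc_trunc]
  -- structure of a glued leaf
  have hg1 : ∀ z ∈ lv a k, ∀ (m : ℤ) (l : ℕ → ℤ) (b : Fin (dd p) → Bool), ∀ j < k,
      glue (k + 1) (dd p) (Function.update z k m) l b j = z j := by
    intro z _ m l b j hj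
    rw [glue_lt _ _ _ (by omega), Function.update_of_ne (by omega)]
  have hg2 : ∀ z ∈ lv a k, ∀ (m : ℤ) (l : ℕ → ℤ) (b : Fin (dd p) → Bool),
      trunc k (glue (k + 1) (dd p) (Function.update z k m) l b) = z := by
    intro z hz m l b
    funext j
    unfold trunc
    split_ifs with hj
    · exact hg1 z hz m l b j hj
    · exact (lv_zero_of_mem hz j (by omega)).symm
  have hg3 : ∀ (z : ℕ → ℤ) (m : ℤ) (l : ℕ → ℤ) (b : Fin (dd p) → Bool),
      glue (k + 1) (dd p) (Function.update z k m) l b k = m := by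
    intro z m l b
    rw [glue_lt _ _ _ (by omega), Function.update_self]
  have hg4 : ∀ z ∈ lv a k, ∀ (m : ℤ) (b : Fin (dd p) → Bool) (i : Fin (dd p)),
      glue (k + 1) (dd p) (Function.update z k m) (lab (Function.update z k m)) b (k + 1 + i) =
        -(nn z i / (QQ p : ℤ)) - 1 + if b i then 1 else 0 := by
    intro z hz m b i
    have : trunc k (Function.update z k m) = z := by
      funext j
      unfold trunc
      split_ifs with hj
      · rw [Function.update_of_ne (by omega)]
      · exact (lv_zero_of_mem hz j (by omega)).symm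
    rw [glue_bit]
    simp only [hlab, dif_pos i.2, this, Fin.eta]
  have hwA : ∀ z ∈ lv a k, ∀ (b : Fin (dd p) → Bool),
      w' (glue (k + 1) (dd p) (Function.update z k (j₀ + sel (x z)))
        (lab (Function.update z k (j₀ + sel (x z)))) b) =
      if 0 < F (x z) then w z * θ * cw η (sel (x z)) *
        ∏ i : Fin (dd p), wb p (nn z i : ZMod (QQ p)) (b i) else 0 := by
    intro z hz b
    simp only [hw', hg2 z hz, hg3, and_true, hg4 z hz]
    split_ifs with hF0
    · congr 1
      refine Finset.prod_congr rfl fun i _ => ?_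
      congr 1
      cases b i <;> simp
    · rfl
  have hwB : ∀ z ∈ lv a k, ∀ (l : ℕ → ℤ) (b : Fin (dd p) → Bool),
      w' (glue (k + 1) (dd p) (Function.update z k (j₀ + sel (x z) + 1)) l b) = 0 := by
    intro z hz l b
    simp only [hw', hg2 z hz, hg3]
    rw [if_neg]
    rintro ⟨_, h2⟩
    omega
  have hin : ∀ z, 0 < F (x z) →
      (∀ (φ : (ℕ → ℤ) → ℝ) (v : ℝ) (s₀ : ℕ → ℤ), 0 ≤ v → Chain (NN p) φ v →
        (1 - be p) ^ NN p * MM p (x z + rsh (QQ p) P0 ξ κ (sel (x z))) * v ≤
          ∑ b : Fin (dd p) → Bool, (∏ i, wb p (nn z i : ZMod (QQ p)) (b i)) *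
            φ (s₀ + fun g => ∑ i ∈ Finset.univ.filter (fun i : Fin (dd p) => i.val / ss p = g),
              if b i then 1 else 0)) ∧
      ∀ b : Fin (dd p) → Bool, ∏ i, wb p (nn z i : ZMod (QQ p)) (b i) ≤
        ((1 + be p) / 2) ^ NN p * MM p (x z + rsh (QQ p) P0 ξ κ (sel (x z))) := by
    intro z hz
    have hU := (hF' _ hz).2.2.2
    have := inner (N := NN p) (s := ss p)
      (fun i b => wb p ((x z + rsh (QQ p) P0 ξ κ (sel (x z))) i) b)
      (fun i b => wb_nonneg hp _ _) n5 n6 hU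
    simp only [hcast]
    exact this
  refine ⟨a', w', fun z' => ?_, fun z' hz' => ?_, fun φ v hv hφ => ?_⟩
  · simp only [hw']
    split_ifs
    · exact mul_nonneg (mul_nonneg (mul_nonneg (hw0 _) hθ0.le) (cw_nonneg hη0.le _))
        (Finset.prod_nonneg fun i _ => wb_nonneg hp _ _)
    · exact le_rfl
  · obtain ⟨z1, hz1, b, rfl⟩ := lv_ext_mem lab hext hz'
    obtain ⟨z, hz, hz1'⟩ := mem_lv_succ.1 hz1
    rw [hlv] at hz
    rw [hak z hz] at hz1'
    have hT0 : 0 ≤ Tc * Real.exp (-2 ^ (17 * p)) := by positivity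
    rcases hz1' with rfl | rfl
    swap
    · rw [hwB z hz]; exact ⟨hT0, fun h0 => absurd h0 (lt_irrefl _)⟩
    rw [hwA z hz]
    split_ifs with hF0
    swap
    · exact ⟨hT0, fun h0 => absurd h0 (lt_irrefl _)⟩
    obtain ⟨s1, s2, s3, _⟩ := hF' _ hF0
    have hcw := cw_nonneg hη0.le (sel (x z))
    have hpr : 0 ≤ ∏ i : Fin (dd p), wb p (nn z i : ZMod (QQ p)) (b i) :=
      Finset.prod_nonneg fun i _ => wb_nonneg hp _ _
    constructor
    · have c1 := (hin z hF0).2 b
      have hb2 : 0 ≤ ((1 + be p) / 2) ^ NN p := by positivity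
      calc w z * θ * cw η (sel (x z)) * ∏ i : Fin (dd p), wb p (nn z i : ZMod (QQ p)) (b i)
          ≤ Tc * 1 * cw η (sel (x z)) *
            (((1 + be p) / 2) ^ NN p * MM p (x z + rsh (QQ p) P0 ξ κ (sel (x z)))) := by
            gcongr
            exact (hw z hz).1
        _ = Tc * (F (x z) * ((1 + be p) / 2) ^ NN p) := by rw [s3]; ring
        _ ≤ Tc * (Real.exp (3 * De p) * ((1 + be p) / 2) ^ NN p) := by
            gcongr
            exact (hF _).2
        _ ≤ Tc * Real.exp (-2 ^ (17 * p)) := by gcongr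
    · intro hpos
      have hwz : 0 < w z := by
        by_contra hne
        have : w z = 0 := le_antisymm (not_lt.1 hne) (hw0 z)
        rw [this] at hpos; simp at hpos
      obtain ⟨o1, o2⟩ := (hw z hz).2 hwz
      set z' := glue (k + 1) (dd p) (Function.update z k (j₀ + sel (x z)))
        (lab (Function.update z k (j₀ + sel (x z)))) b with hz'def
      have e0 : ∀ j < k, z' j = z j := hg1 z hz _ _ b
      have ek : z' k = j₀ + sel (x z) := hg3 z _ _ b
      have eb : ∀ i : Fin (dd p), z' (k + 1 + i) =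
          -(nn z i / (QQ p : ℤ)) - 1 + if b i then 1 else 0 := hg4 z hz _ b
      -- info coordinate
      have i1 : (sel (x z) : ℝ) * η ≤ yy (HH p k N P0 η κ u H gm) t z' k ∧
          yy (HH p k N P0 η κ u H gm) t z' k ≤ ((sel (x z) : ℝ) + 1) * η := by
        rw [yy_info, ek, hj₀]
        push_cast
        have f1 := Int.floor_le (t k / η)
        have f2 := Int.lt_floor_add_one (t k / η)
        rw [le_div_iff₀ hη0] at f1
        rw [div_lt_iff₀ hη0] at f2
        constructor <;> nlinarith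
      have i2 : |yy (HH p k N P0 η κ u H gm) t z' k| ≤ hh p + 1 := by
        rw [abs_le] at s1 s2 ⊢
        constructor <;> linarith [i1.1, i1.2]
      have i3 := cw_le_point hη0.le i1.1 (i1.2.trans (by nlinarith)) i2
      -- bit coordinates
      have hbit : ∀ i : Fin (dd p), |yy (HH p k N P0 η κ u H gm) t z' (k + 1 + i)| ≤ hh p + 1 ∧
          wb p (nn z i : ZMod (QQ p)) (b i) ≤ Real.exp (2 * rho p * (hh p + 1)) *
            (hh p * gau (yy (HH p k N P0 η κ u H gm) t z' (k + 1 + i))) := by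
        intro i
        have r := round_shift hp hP0 (t (k + 1 + i)) (ξ i) (κ i) j₀ (sel (x z)) (SS p k N u gm z i)
        have bp := bit_point hp (nn z i) r.1 r.2 (b i)
        rw [yy_bit t e0, ek, eb]
        have e : t (k + 1 + ↑i) + rho p * ↑(SS p k N u gm z i) +
            ((j₀ + sel (x z) : ℤ) : ℝ) * (hh p * ↑(κ i) / (↑(QQ p) * ↑P0)) =
            t (k + 1 + ↑i) + rho p * ↑(SS p k N u gm z i) +
            ((j₀ : ℝ) + (sel (x z) : ℝ)) * (hh p * ↑(κ i) / (↑(QQ p) * ↑P0)) := by push_cast; ring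
        rw [e]
        exact bp
      constructor
      · intro i hi
        rcases lt_trichotomy i k with h1 | h1 | h1
        · rw [yy_old t e0 h1]; exact (o1 i h1).trans (le_max_left _ _)
        · subst h1; exact (i2.trans n3).trans (le_max_right _ _)
        · obtain ⟨i', rfl⟩ : ∃ i' : Fin (dd p), i = k + 1 + i' :=
            ⟨⟨i - (k + 1), by omega⟩, by simp; omega⟩
          exact ((hbit i').1.trans n3).trans (le_max_right _ _)
      · rw [Finset.prod_range_add, Finset.prod_range_succ,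
          ← Fin.prod_univ_eq_prod_range (fun i => HH p k N P0 η κ u H gm (k + 1 + i) (k + 1 + i) *
            gau (yy (HH p k N P0 η κ u H gm) t z' (k + 1 + i)))]
        have p1 : ∏ i ∈ Finset.range k, HH p k N P0 η κ u H gm i i *
            gau (yy (HH p k N P0 η κ u H gm) t z' i) = ∏ i ∈ Finset.range k, H i i * gau (yy H t z i) := by
          refine Finset.prod_congr rfl fun i hi => ?_
          have hi' := Finset.mem_range.1 hi
          rw [HH_old hi', yy_old t e0 hi']
        have p2 : ∏ i : Fin (dd p), wb p (nn z i : ZMod (QQ p)) (b i) ≤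
            Real.exp (dd p * (2 * rho p * (hh p + 1))) *
            ∏ i : Fin (dd p), HH p k N P0 η κ u H gm (k + 1 + i) (k + 1 + i) *
              gau (yy (HH p k N P0 η κ u H gm) t z' (k + 1 + i)) := by
          calc _ ≤ ∏ i : Fin (dd p), Real.exp (2 * rho p * (hh p + 1)) *
                (hh p * gau (yy (HH p k N P0 η κ u H gm) t z' (k + 1 + i))) :=
                Finset.prod_le_prod (fun i _ => wb_nonneg hp _ _) fun i _ => (hbit i).2
            _ = _ := by
                rw [Finset.prod_mul_distrib, Finset.prod_const, Finset.card_univ, Fintype.card_fin,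
                  ← Real.exp_nat_mul]
                congr 1
                refine Finset.prod_congr rfl fun i _ => ?_
                rw [HH_bit, if_pos rfl]
        rw [p1, HH_info, if_pos rfl]
        set A := ∏ i ∈ Finset.range k, H i i * gau (yy H t z i)
        set Bp := ∏ i : Fin (dd p), HH p k N P0 η κ u H gm (k + 1 + i) (k + 1 + i) *
              gau (yy (HH p k N P0 η κ u H gm) t z' (k + 1 + i))
        set g0 := gau (yy (HH p k N P0 η κ u H gm) t z' k)
        have hA0 : 0 ≤ A := hwz.le.trans o2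
        have hg0 : 0 ≤ g0 := (gau_pos _).le
        have hone : θ * (Real.exp (2 * η * (hh p + 1)) * Real.exp (dd p * (2 * rho p * (hh p + 1)))) = 1 := by
          rw [hθ, ← Real.exp_add, ← Real.exp_add]; simp
        calc w z * θ * cw η (sel (x z)) * ∏ i : Fin (dd p), wb p (nn z i : ZMod (QQ p)) (b i)
            ≤ A * θ * (η * (Real.exp (2 * η * (hh p + 1)) * g0)) *
              (Real.exp (dd p * (2 * rho p * (hh p + 1))) * Bp) := by gcongr
          _ = A * (η * g0) * Bp * (θ * (Real.exp (2 * η * (hh p + 1)) *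
              Real.exp (dd p * (2 * rho p * (hh p + 1))))) := by ring
          _ = A * (η * g0) * Bp := by rw [hone, mul_one]
  · rw [lv_ext_sum lab hext, lv_sum_succ, hlv]
    have hv9 : (0 : ℝ) ≤ 1 - 9 / 2 ^ p := by
      have : (9 : ℝ) / 2 ^ p ≤ 20 / 2 ^ p := by gcongr; norm_num
      linarith
    have hold := hsum _ _ hv9 (hch N hN (fun i => (xh i : ZMod (QQ p))))
    have hK0 : 0 ≤ (1 - be p) ^ NN p * θ * v := by
      have : 0 ≤ 1 - be p := by linarith
      positivity
    calc c * (1 - 20 / 2 ^ p) * v ≤ c * ((1 - 9 / 2 ^ p) * ((1 - be p) ^ NN p * θ)) * v := by gcongr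
      _ = (c * (1 - 9 / 2 ^ p)) * ((1 - be p) ^ NN p * θ * v) := by ring
      _ ≤ ((lv a k).map fun z => w z * F (x z)).sum * ((1 - be p) ^ NN p * θ * v) :=
          mul_le_mul_of_nonneg_right hold hK0
      _ = ((lv a k).map fun z => w z * F (x z) * ((1 - be p) ^ NN p * θ * v)).sum := by
          rw [List.sum_map_mul_right]
      _ ≤ _ := by
          refine list_sum_le _ _ _ fun z hz => ?_
          rw [hak z hz]
          simp only [hwA z hz, hwB z hz, zero_mul, Finset.sum_const_zero, add_zero]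
          by_cases hF0 : 0 < F (x z)
          · simp only [if_pos hF0]
            obtain ⟨s₀, hs₀⟩ := sig_glue (p := p) (k := k) (Function.update z k (j₀ + sel (x z)))
              (lab (Function.update z k (j₀ + sel (x z))))
            simp only [hs₀]
            have c1 := (hin z hF0).1 φ v s₀ hv hφ
            have s3 := (hF' _ hF0).2.2.1
            have hcw := cw_nonneg hη0.le (sel (x z))
            have hc0 : 0 ≤ w z * θ * cw η (sel (x z)) :=
              mul_nonneg (mul_nonneg (hw0 _) hθ0.le) hcw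
            calc w z * F (x z) * ((1 - be p) ^ NN p * θ * v)
                = w z * θ * cw η (sel (x z)) *
                  ((1 - be p) ^ NN p * MM p (x z + rsh (QQ p) P0 ξ κ (sel (x z))) * v) := by
                  rw [s3]; ring
              _ ≤ _ := mul_le_mul_of_nonneg_left c1 hc0
              _ = _ := by
                  rw [Finset.mul_sum]
                  refine Finset.sum_congr rfl fun b _ => ?_
                  ring
          · have : F (x z) = 0 := le_antisymm (not_lt.1 hF0) (hF _).1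
            simp [hF0, this]

end Crest.Agent.R225
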