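import Crest.Agent.R225.Cand
import Crest.Agent.R225.Lap
import Crest.Agent.R225.Inner

set_option autoImplicit false

open MeasureTheory Set
open scoped ENNReal NNReal Matrix

namespace Crest.Agent.R225

namespace StepAX

theorem two_pow_ge {p : ℕ} (hp : 40 ≤ p) : (1000000 : ℝ) ≤ 2 ^ p :=
  le_trans (by norm_num) (pow_le_pow_right₀ (by norm_num : (1 : ℝ) ≤ 2) hp)

theorem p_le {p : ℕ} (hp : 40 ≤ p) : (100 * p : ℝ) ≤ 2 ^ p := by
  have : ∀ q : ℕ, 100 * (q + 40) ≤ 2 ^ (q + 40) := by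
    intro q
    induction q with
    | zero => norm_num
    | succ q ih => rw [show q + 1 + 40 = (q + 40) + 1 by ring, pow_succ]; omega
  obtain ⟨q, rfl⟩ : ∃ q, p = q + 40 := ⟨p - 40, by omega⟩
  exact_mod_cast this q

theorem pw (a p : ℕ) : (2 : ℝ) ^ (a * p) = (2 ^ p) ^ a := by rw [← pow_mul, mul_comm]

theorem hh_small {p : ℕ} (hp : 40 ≤ p) : 10 * (hh p + 1) ^ 2 ≤ 2 ^ p := by
  have h1 := hh_ge hp
  have h2 := hh_le hp
  have : (hh p + 1) ^ 2 ≤ 4 * hh p ^ 2 := by nlinarith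
  have h3 : hh p ^ 2 ≤ hh p ^ 4 := pow_le_pow_right₀ (by linarith) (by norm_num)
  nlinarith

end StepAX

open StepAX

/-! numerical and geometric pieces of the step -/

/-- `cand` + `lap` with `ε = 1/Y`, `B = e^{3 De}`, `e = 30 p`, `j = 5 * 2^(15 p)`;
`log |Γ| = dd * 30 p log 2 ≤ Y^29`, `e^{3 De} Y^30 / 2^(5 De) ≤ 1/Y`; `Chain.mono` -/
theorem cand_lap {p : ℕ} (hp : 40 ≤ p) :
    ∃ (η : ℝ) (P0 : ℕ) (ξ κ : Fin (dd p) → ℤ) (sel : Gam p → ℤ) (F : Gam p → ℝ) (u : ℕ → Gam p),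
      0 < η ∧ η ≤ ((2 : ℝ) ^ (2 * p))⁻¹ ∧ 0 < P0 ∧ (∀ i, 0 ≤ κ i ∧ κ i < QQ p * P0) ∧
      (∀ x, 0 ≤ F x ∧ F x ≤ Real.exp (3 * De p)) ∧
      (∀ x, 0 < F x → |(sel x : ℝ) * η| ≤ hh p + 1 ∧ |((sel x : ℝ) + 1) * η| ≤ hh p + 1 ∧
        F x = cw η (sel x) * MM p (x + rsh (QQ p) P0 ξ κ (sel x)) ∧
        Unb p (x + rsh (QQ p) P0 ξ κ (sel x))) ∧
      ∀ N, 30 * p * (5 * 2 ^ (15 * p)) ≤ N → ∀ x₀ : Gam p,
        Chain N (fun s => F (x₀ + ∑ g ∈ Finset.range N, s g • u g)) (1 - 9 / 2 ^ p) := by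
  obtain ⟨η, P0, ξ, κ, sel, F, h1, h2, h3, h4, h5, h6, h7⟩ := cand hp
  have hY := two_pow_ge hp
  have hp100 := p_le hp
  set Y : ℝ := 2 ^ p with hYdef
  have hY0 : 0 < Y := by positivity
  have hε1 : 1 / Y ≤ 1 := by rw [div_le_one hY0]; linarith
  obtain ⟨u, hu⟩ := lap (Γ := Gam p) (e := 30 * p) (by omega) (fun x => by
      funext i
      simp only [Pi.smul_apply, Pi.zero_apply, nsmul_eq_mul]
      have : ((2 ^ (30 * p) : ℕ) : ZMod (QQ p)) = 0 := ZMod.natCast_self (QQ p)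
      rw [this, zero_mul]) F (Real.exp_pos (3 * De p)) (ε := 1 / Y) (by positivity) hε1 h5
      (5 * 2 ^ (15 * p))
  refine ⟨η, P0, ξ, κ, sel, F, u, h1, h2, h3, h4, h5, h7, fun N hN x₀ => (hu N hN x₀).mono ?_⟩
  have hc0 : (0 : ℝ) < Fintype.card (Gam p) := by exact_mod_cast Fintype.card_pos
  have a1 : 1 - 7 / Y ≤ (∑ x, F x) / Fintype.card (Gam p) := by rwa [le_div_iff₀ hc0]
  have a2 : Real.log (Fintype.card (Gam p)) ≤ Y ^ 29 := by
    have : (Fintype.card (Gam p) : ℝ) = 2 ^ (30 * p * dd p) := by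
      rw [Fintype.card_fun, ZMod.card, Fintype.card_fin, QQ, ← pow_mul]; push_cast; rfl
    rw [this, Real.log_pow]
    have hd : ((30 * p * dd p : ℕ) : ℝ) = 30 * p * Y ^ 28 := by
      unfold dd NN ss; push_cast; rw [pw, pw]; ring
    rw [hd]
    have l2 : Real.log 2 ≤ 1 := by have := Real.log_two_lt_d9; linarith
    have l0 : 0 ≤ Real.log 2 := Real.log_nonneg (by norm_num)
    have : (30 * p * Real.log 2) ≤ Y := by nlinarith [(Nat.cast_nonneg p : (0 : ℝ) ≤ p)]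
    calc 30 * p * Y ^ 28 * Real.log 2 = (30 * p * Real.log 2) * Y ^ 28 := by ring
      _ ≤ Y * Y ^ 28 := by gcongr
      _ = Y ^ 29 := by ring
  have hDe : De p = Y ^ 15 := by unfold De; rw [pw]
  have a3 : Real.exp (3 * De p) * Y ^ 31 ≤ 2 ^ (5 * 2 ^ (15 * p)) := by
    have e1 : (2 : ℝ) ^ (5 * 2 ^ (15 * p)) = Real.exp (5 * De p * Real.log 2) := by
      rw [mul_comm (5 * De p), Real.exp_mul, Real.exp_log two_pos, ← Real.rpow_natCast]
      congr 1; unfold De; push_cast; ring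
    have e2 : Y ^ 31 ≤ Real.exp (31 * Y) := by
      rw [show (31 : ℝ) * Y = (31 : ℕ) * Y by norm_num, Real.exp_nat_mul]
      gcongr
      linarith [Real.add_one_le_exp Y]
    rw [e1]
    calc Real.exp (3 * De p) * Y ^ 31 ≤ Real.exp (3 * De p) * Real.exp (31 * Y) := by gcongr
      _ = Real.exp (3 * De p + 31 * Y) := by rw [Real.exp_add]
      _ ≤ _ := by
          gcongr
          have l2 := Real.log_two_gt_d9
          have : Y * Y ≤ De p := by
            rw [hDe, ← sq]; exact pow_le_pow_right₀ (by linarith) (by norm_num)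
          nlinarith
  have a4 : Real.exp (3 * De p) * Real.log (Fintype.card (Gam p)) /
      (1 / Y * 2 ^ (5 * 2 ^ (15 * p))) ≤ 1 / Y := by
    rw [div_le_iff₀ (by positivity)]
    calc Real.exp (3 * De p) * Real.log (Fintype.card (Gam p)) ≤ Real.exp (3 * De p) * Y ^ 29 := by gcongr
      _ = 1 / Y * (1 / Y * (Real.exp (3 * De p) * Y ^ 31)) := by field_simp
      _ ≤ _ := by gcongr
  have a5 : (1 - 1 / Y) * (1 - 7 / Y) ≤ (1 - 1 / Y) * ((∑ x, F x) / Fintype.card (Gam p)) :=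
    mul_le_mul_of_nonneg_left a1 (by linarith)
  have a6 : 1 - 8 / Y ≤ (1 - 1 / Y) * (1 - 7 / Y) := by
    have : 0 ≤ 1 / Y * (7 / Y) := by positivity
    have e : (8 : ℝ) / Y = 1 / Y + 7 / Y := by ring
    nlinarith
  have e : (9 : ℝ) / Y = 8 / Y + 1 / Y := by ring
  linarith

/-- the loss factor `θ = exp (-(2 η (hh+1) + dd * (2 ρ (hh+1))))` -/
theorem step_num {p : ℕ} (hp : 40 ≤ p) {η : ℝ} (h0 : 0 < η) (hη : η ≤ ((2 : ℝ) ^ (2 * p))⁻¹) :
    1 - 20 / 2 ^ p ≤ (1 - 9 / 2 ^ p) * ((1 - be p) ^ NN p *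
        Real.exp (-(2 * η * (hh p + 1) + dd p * (2 * rho p * (hh p + 1))))) ∧
      Real.exp (3 * De p) * ((1 + be p) / 2) ^ NN p ≤ Real.exp (-2 ^ (17 * p)) ∧
      hh p + 1 ≤ 2 ^ p ∧ 2 * rho p ≤ 1 ∧ 0 ≤ be p ∧ be p ≤ 1 ∧ (0 : ℝ) ≤ 1 - 20 / 2 ^ p := by
  have hY := two_pow_ge hp
  have hs := hh_small hp
  have h40 := hh_ge hp
  set Y : ℝ := 2 ^ p with hYdef
  have hY0 : 0 < Y := by positivity
  have hbe : be p = (Y ^ 19)⁻¹ := by unfold be; rw [pw]
  have hNN : (NN p : ℝ) = Y ^ 18 := by unfold NN; push_cast; rw [pw]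
  have hdd : (dd p : ℝ) = Y ^ 28 := by unfold dd NN ss; push_cast; rw [pw, pw]; ring
  have hQ : (QQ p : ℝ) = Y ^ 30 := by unfold QQ; push_cast; rw [pw]
  have hDe : De p = Y ^ 15 := by unfold De; rw [pw]
  have hrho : rho p = hh p / Y ^ 30 := by unfold rho; rw [hQ]
  rw [pw] at hη
  have hY19 : Y ≤ Y ^ 19 := le_self_pow₀ (by linarith) (by norm_num)
  have b0 : 0 ≤ be p := by rw [hbe]; positivity
  have b1 : be p ≤ 1 / 10 := by
    rw [hbe, inv_le_comm₀ (by positivity) (by norm_num)]; linarith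
  have t20 : 20 / Y ≤ 1 / 2 := by rw [div_le_iff₀ hY0]; linarith
  have u0 : 0 < 1 / Y := by positivity
  refine ⟨?_, ?_, by nlinarith, ?_, b0, by linarith, by linarith⟩
  · have c1 : 1 - 1 / Y ≤ (1 - be p) ^ NN p := by
      have := one_add_mul_le_pow (a := -be p) (by linarith) (NN p)
      rw [hNN] at this
      have e : Y ^ 18 * -be p = -(1 / Y) := by rw [hbe]; field_simp
      rw [e] at this
      simpa [sub_eq_add_neg] using this
    have c2 : 2 * η * (hh p + 1) ≤ 1 / Y := by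
      calc 2 * η * (hh p + 1) ≤ 2 * (Y ^ 2)⁻¹ * (hh p + 1) := by gcongr
        _ = (2 * (hh p + 1)) / Y * (1 / Y) := by field_simp
        _ ≤ 1 * (1 / Y) := by
            gcongr; rw [div_le_one hY0]; nlinarith
        _ = 1 / Y := one_mul _
    have c3 : dd p * (2 * rho p * (hh p + 1)) ≤ 1 / Y := by
      rw [hdd, hrho]
      calc Y ^ 28 * (2 * (hh p / Y ^ 30) * (hh p + 1)) = (2 * hh p * (hh p + 1)) / Y * (1 / Y) := by
            field_simp
        _ ≤ 1 * (1 / Y) := by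
            gcongr; rw [div_le_one hY0]; nlinarith
        _ = 1 / Y := one_mul _
    have c4 : 1 - 2 * (1 / Y) ≤
        Real.exp (-(2 * η * (hh p + 1) + dd p * (2 * rho p * (hh p + 1)))) := by
      linarith [Real.add_one_le_exp (-(2 * η * (hh p + 1) + dd p * (2 * rho p * (hh p + 1))))]
    have e20 : 20 / Y = 20 * (1 / Y) := by ring
    have e9 : 9 / Y = 9 * (1 / Y) := by ring
    rw [e20] at t20 ⊢
    rw [e9]
    set s := 1 / Y
    calc 1 - 20 * s ≤ (1 - 9 * s) * ((1 - s) * (1 - 2 * s)) := by nlinarith [sq_nonneg s, mul_pos u0 u0]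
      _ ≤ _ := by
          gcongr
          all_goals linarith
  · have c1 : (1 + be p) / 2 ≤ Real.exp (-(1 / 4)) := by
      linarith [Real.add_one_le_exp (-(1 / 4 : ℝ))]
    calc Real.exp (3 * De p) * ((1 + be p) / 2) ^ NN p
        ≤ Real.exp (3 * De p) * Real.exp (-(1 / 4)) ^ NN p := by gcongr
      _ = Real.exp (3 * De p + NN p * -(1 / 4)) := by rw [← Real.exp_nat_mul, ← Real.exp_add]
      _ ≤ _ := by
          gcongr
          rw [hDe, hNN, pw]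
          have : Y ^ 15 ≤ Y ^ 17 := pow_le_pow_right₀ (by linarith) (by norm_num)
          have e : Y ^ 18 = Y * Y ^ 17 := by ring
          have : 0 < Y ^ 17 := by positivity
          nlinarith
  · rw [hrho]
    have : Y ≤ Y ^ 30 := le_self_pow₀ (by linarith) (by norm_num)
    rw [← mul_div_assoc, div_le_one (by positivity)]
    nlinarith

/-- one bit coordinate: if the offset is `x = ρ n + δ`, `0 ≤ δ ≤ 2ρ`, the label `l = -(n / Q) - 1` gives the
points `x + hh (l + bit) = ρ a + δ`, `a = (n mod Q) - Q` or `n mod Q` (`ZMod.val_intCast`), `cw_le_point` -/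
theorem bit_point {p : ℕ} (hp : 40 ≤ p) (n : ℤ) {x : ℝ} (h₁ : rho p * n ≤ x) (h₂ : x ≤ rho p * (n + 2))
    (b : Bool) :
    |x + hh p * ((-(n / (QQ p : ℤ)) - 1 + (if b then 1 else 0) : ℤ) : ℝ)| ≤ hh p + 1 ∧
      wb p (n : ZMod (QQ p)) b ≤ Real.exp (2 * rho p * (hh p + 1)) *
        (hh p * gau (x + hh p * ((-(n / (QQ p : ℤ)) - 1 + (if b then 1 else 0) : ℤ) : ℝ))) := by
  have hρ := rho_pos hp
  have hm := rho_mul p
  have n4 := (step_num hp (η := ((2 : ℝ) ^ (2 * p))⁻¹) (by positivity) le_rfl).2.2.2.1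
  have hQ0 : (0 : ℤ) < QQ p := by unfold QQ; positivity
  have hv : (((n : ZMod (QQ p)).val : ℕ) : ℤ) = n % (QQ p : ℤ) := ZMod.val_intCast n
  have o0 : 0 ≤ n % (QQ p : ℤ) := Int.emod_nonneg _ hQ0.ne'
  have o1 : n % (QQ p : ℤ) < QQ p := Int.emod_lt_of_pos _ hQ0
  have hd : n % (QQ p : ℤ) + (QQ p : ℤ) * (n / (QQ p : ℤ)) = n := Int.emod_add_mul_ediv _ _
  set o := n % (QQ p : ℤ)
  set m := n / (QQ p : ℤ)
  have hd' : (n : ℝ) = o + QQ p * m := by exact_mod_cast hd.symm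
  have o0' : (0 : ℝ) ≤ o := by exact_mod_cast o0
  have o1' : (o : ℝ) + 1 ≤ QQ p := by exact_mod_cast o1
  set a : ℤ := if b then o else o - QQ p with ha
  set y := x + hh p * ((-m - 1 + (if b then 1 else 0) : ℤ) : ℝ) with hy
  have hy' : y = x - rho p * n + rho p * a := by
    rw [hy, ha, hd', ← hm]
    cases b <;> simp <;> ring
  have a1 : -(QQ p : ℝ) ≤ a ∧ (a : ℝ) + 1 ≤ QQ p := by
    rw [ha]
    cases b <;> simp <;> constructor <;> linarith
  have y1 : a * rho p ≤ y := by rw [hy']; linarith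
  have y2 : y ≤ (a + 2) * rho p := by rw [hy']; linarith
  have y3 : |y| ≤ hh p + 1 := by
    rw [abs_le]
    constructor <;> nlinarith [a1.1, a1.2]
  refine ⟨y3, ?_⟩
  have := cw_le_point hρ.le y1 y2 y3
  have e : wb p (n : ZMod (QQ p)) b = QQ p * cw (rho p) a := by
    unfold wb; rw [hv]
  rw [e, ← hm]
  calc (QQ p : ℝ) * cw (rho p) a ≤ QQ p * (rho p * (Real.exp (2 * rho p * (hh p + 1)) * gau y)) := by
        gcongr
    _ = _ := by rw [hm]; rw [← hm]; ring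

/-- rounding of the shifts: with `X = t + j₀ hh κ/(Q P0) - hh ξ/(Q P0)`, `n = ⌊X/ρ⌋ + S + (ξ + i κ)/P0`, the
offset `t + ρ S + (j₀ + i) hh κ / (Q P0)` lies in `[ρ n, ρ (n+2)]` -/
theorem round_shift {p : ℕ} (hp : 40 ≤ p) {P0 : ℕ} (hP : 0 < P0) (t : ℝ) (ξ κ j₀ i S : ℤ) :
    let n : ℤ := ⌊(t + j₀ * (hh p * κ / (QQ p * P0)) - hh p * ξ / (QQ p * P0)) / rho p⌋ + S +
      (ξ + i * κ) / (P0 : ℤ)
    rho p * n ≤ t + rho p * S + (j₀ + i) * (hh p * κ / (QQ p * P0)) ∧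
      t + rho p * S + (j₀ + i) * (hh p * κ / (QQ p * P0)) ≤ rho p * (n + 2) := by
  intro n
  have hρ := rho_pos hp
  have hm := rho_mul p
  have hQ0 : (0 : ℝ) < QQ p := by unfold QQ; positivity
  have hP' : (0 : ℝ) < P0 := by exact_mod_cast hP
  have hPz : (0 : ℤ) < P0 := by exact_mod_cast hP
  set X := t + j₀ * (hh p * κ / (QQ p * P0)) - hh p * ξ / (QQ p * P0) with hX
  have f1 := Int.floor_le (X / rho p)
  have f2 := Int.lt_floor_add_one (X / rho p)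
  rw [le_div_iff₀ hρ] at f1
  rw [div_lt_iff₀ hρ] at f2
  have hd : (ξ + i * κ) % (P0 : ℤ) + (P0 : ℤ) * ((ξ + i * κ) / (P0 : ℤ)) = ξ + i * κ :=
    Int.emod_add_mul_ediv _ _
  have o0 : 0 ≤ (ξ + i * κ) % (P0 : ℤ) := Int.emod_nonneg _ hPz.ne'
  have o1 : (ξ + i * κ) % (P0 : ℤ) < P0 := Int.emod_lt_of_pos _ hPz
  set o := (ξ + i * κ) % (P0 : ℤ)
  set r := (ξ + i * κ) / (P0 : ℤ) with hr
  have hd' : (ξ : ℝ) + i * κ = o + P0 * r := by exact_mod_cast hd.symm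
  have o0' : (0 : ℝ) ≤ o := by exact_mod_cast o0
  have o1' : (o : ℝ) ≤ P0 := by exact_mod_cast o1.le
  have e : t + rho p * S + (j₀ + i) * (hh p * κ / (QQ p * P0)) =
      X + rho p * S + rho p * r + rho p * (o / P0) := by
    have : (ξ : ℝ) = o + P0 * r - i * κ := by linarith
    rw [hX, ← hm, this]
    field_simp
    ring
  have q0 : 0 ≤ (o : ℝ) / P0 := by positivity
  have q1 : (o : ℝ) / P0 ≤ 1 := by rw [div_le_one hP']; exact o1'
  have hn : (n : ℝ) = ⌊X / rho p⌋ + S + r := by simp only [n]; push_cast; rfl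
  rw [e, hn]
  constructor <;> nlinarith

end Crest.Agent.R225
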