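import Crest.Agent.R225.Indep

set_option autoImplicit false

open MeasureTheory Set
open scoped ENNReal NNReal Matrix

namespace Crest.Agent.R225

namespace TorsX

open Classical in
/-- bounded multiplicity -/
theorem sum_meas_le {α ι : Type} [MeasurableSpace α] [Fintype ι] (μ : Measure α) (S : ι → Set α)
    (hS : ∀ i, MeasurableSet (S i)) {M : ℝ}
    (h : ∀ x, ((Finset.univ.filter fun i => x ∈ S i).card : ℝ) ≤ M) :
    ∑ i, μ (S i) ≤ ENNReal.ofReal M * μ univ := by
  have h1 : ∀ i, μ (S i) = ∫⁻ x, (S i).indicator 1 x ∂μ := fun i =>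
    (lintegral_indicator_one (hS i)).symm
  simp_rw [h1]
  rw [← lintegral_finsetSum _ (fun i _ => measurable_one.indicator (hS i)), ← lintegral_const]
  refine lintegral_mono fun x => ?_
  have : ∑ i, (S i).indicator (1 : α → ℝ≥0∞) x =
      ((Finset.univ.filter fun i => x ∈ S i).card : ℝ≥0∞) := by
    rw [Finset.card_filter]
    push_cast
    refine Finset.sum_congr rfl fun i _ => ?_
    by_cases hx : x ∈ S i <;> simp [hx]
  show ∑ i, (S i).indicator (1 : α → ℝ≥0∞) x ≤ _
  rw [this, ← ENNReal.ofReal_natCast]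
  exact ENNReal.ofReal_le_ofReal (h x)

open Classical in
/-- one coordinate -/
theorem count1 {H : ℕ} (hH : 0 < H) {ρ : ℝ} (hρ : 0 ≤ ρ) (x : UnitAddCircle) :
    ((Finset.univ.filter fun t : Fin H => ∃ s : ℝ, |s| ≤ ρ ∧
      (s : UnitAddCircle) = x + (((t : ℕ) / H : ℝ) : UnitAddCircle)).card : ℝ) ≤ 2 * ρ * H + 1 := by
  obtain ⟨x0, rfl⟩ := QuotientAddGroup.mk_surjective x
  have hH' : (0 : ℝ) < H := by exact_mod_cast hH
  set a : ℝ := H * (-ρ - x0) with ha
  set b : ℝ := H * (ρ - x0) with hb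
  have key : ∀ t : Fin H, (∃ s : ℝ, |s| ≤ ρ ∧
      (s : UnitAddCircle) = (x0 : UnitAddCircle) + (((t : ℕ) / H : ℝ) : UnitAddCircle)) →
      ∃ k : ℤ, ((t : ℕ) : ℤ) + k * H ∈ Finset.Icc ⌈a⌉ ⌊b⌋ := by
    rintro t ⟨s, hs, hst⟩
    rw [← AddCircle.coe_add, eq_comm, QuotientAddGroup.eq] at hst
    obtain ⟨k, hk⟩ := AddSubgroup.mem_zmultiples_iff.1 hst
    refine ⟨k, ?_⟩
    have hk' : (k : ℝ) = -(x0 + (t : ℕ) / H) + s := by simpa using hk
    have e : ((((t : ℕ) : ℤ) + k * H : ℤ) : ℝ) = H * (s - x0) := by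
      push_cast
      rw [hk']
      field_simp
      ring
    rw [abs_le] at hs
    rw [Finset.mem_Icc, Int.ceil_le, Int.le_floor, e]
    constructor
    · exact mul_le_mul_of_nonneg_left (by linarith) hH'.le
    · exact mul_le_mul_of_nonneg_left (by linarith) hH'.le
  choose! k hk using key
  have hc := Finset.card_le_card_of_injOn (s := Finset.univ.filter fun t : Fin H => ∃ s : ℝ, |s| ≤ ρ ∧
      (s : UnitAddCircle) = (x0 : UnitAddCircle) + (((t : ℕ) / H : ℝ) : UnitAddCircle))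
    (t := Finset.Icc ⌈a⌉ ⌊b⌋) (fun t : Fin H => ((t : ℕ) : ℤ) + k t * H)
    (fun t ht => hk t (by simpa using ht)) (by
      intro t _ t' _ e
      have e1 : (((t : ℕ) : ℤ) + k t * H) % H = (((t' : ℕ) : ℤ) + k t' * H) % H := congrArg (· % (H : ℤ)) e
      rw [Int.add_mul_emod_self_right, Int.add_mul_emod_self_right,
        Int.emod_eq_of_lt (by positivity) (by exact_mod_cast t.2),
        Int.emod_eq_of_lt (by positivity) (by exact_mod_cast t'.2)] at e1
      exact Fin.ext (by exact_mod_cast e1))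
  rw [Int.card_Icc] at hc
  have h1 := Int.le_ceil a
  have h2 := Int.floor_le b
  have hba : b - a = 2 * ρ * H := by rw [ha, hb]; ring
  have h3 : (((⌊b⌋ + 1 - ⌈a⌉).toNat : ℕ) : ℝ) ≤ 2 * ρ * H + 1 := by
    rcases le_total 0 (⌊b⌋ + 1 - ⌈a⌉) with h | h
    · have : (((⌊b⌋ + 1 - ⌈a⌉).toNat : ℕ) : ℝ) = ((⌊b⌋ + 1 - ⌈a⌉ : ℤ) : ℝ) := by
        rw [← Int.cast_natCast, Int.toNat_of_nonneg h]
      rw [this]
      push_cast
      linarith
    · rw [Int.toNat_eq_zero.2 h, Nat.cast_zero]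
      positivity
  exact le_trans (by exact_mod_cast hc) h3

open Classical in
/-- all coordinates -/
theorem count {d : Type} [Fintype d] {H : ℕ} (hH : 0 < H) {ρ : ℝ} (hρ : 0 ≤ ρ) (x : T d) :
    ((Finset.univ.filter fun τ : d → Fin H =>
      x + pr (fun i => ((τ i : ℕ) / H : ℝ)) ∈ pr '' Metric.closedBall (0 : d → ℝ) ρ).card : ℝ) ≤
      (2 * ρ * H + 1) ^ Fintype.card d := by
  have hsub : (Finset.univ.filter fun τ : d → Fin H =>
      x + pr (fun i => ((τ i : ℕ) / H : ℝ)) ∈ pr '' Metric.closedBall (0 : d → ℝ) ρ) ⊆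
      Fintype.piFinset fun i => Finset.univ.filter fun t : Fin H => ∃ s : ℝ, |s| ≤ ρ ∧
        (s : UnitAddCircle) = x i + (((t : ℕ) / H : ℝ) : UnitAddCircle) := by
    intro τ hτ
    obtain ⟨s, hs, hst⟩ := (Finset.mem_filter.1 hτ).2
    rw [Fintype.mem_piFinset]
    intro i
    refine Finset.mem_filter.2 ⟨Finset.mem_univ _, s i, ?_, congrFun hst i⟩
    rw [mem_closedBall_zero_iff] at hs
    exact (norm_le_pi_norm s i).trans hs
  have hc := Finset.card_le_card hsub
  rw [Fintype.card_piFinset] at hc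
  refine le_trans (Nat.cast_le.2 hc) ?_
  rw [← Finset.card_univ, ← Finset.prod_const]
  push_cast
  exact Finset.prod_le_prod (fun i _ => by positivity) fun i _ => count1 hH hρ (x i)

end TorsX

open Classical in
/-- **Torsion lemma.**  From `Rel`: `exists_fun` with the integer values `n y` gives `ℓ` with
`ℓ(j) = -(∑ b n)/H ≡ 1/H (mod 1)`.  For `τ : d → Fin H` translate `ω` by `λ_τ o = pr (fun i => τ i * ℓ o)`:
the positions `XX ω y`, `y ∈ F`, are unchanged and `XX ω j` moves by `pr (τ / H)`.  By translation invariance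
`H^card * vol (Hit (insert j F)) = ∫_{Hit F} #{τ | XX ω j + pr (τ/H) ∈ I j}`, and in each coordinate at most
`2ρH + 1` residues `τ_i` put `x + τ_i / H` within `ρ` of an integer.  Finish with `vol_Hit`. -/
theorem tors {m d : Type} [Fintype m] [Fintype d] {I : (m → ℤ) → Set (T d)} {ρ : ℝ} (hρ : 0 ≤ ρ)
    (hI : Sm I ρ) {F : Finset (m → ℤ)} (hF : LinearIndepOn ℚ hat (F : Set (m → ℤ))) {j : m → ℤ}
    {H : ℕ} (h : Rel F j H) :
    (volume (Hit I (insert j F))).toReal ≤
      (∏ z ∈ F, (volume (I z)).toReal) * (1 / H + 2 * ρ) ^ Fintype.card d := by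
  obtain ⟨hH, b, -, hrel, n, c, hc⟩ := h
  have hH' : (0 : ℝ) < H := by exact_mod_cast hH
  obtain ⟨ℓ, hℓ⟩ := exists_fun hF (fun y => (n y : ℝ))
  have hmeas : ∀ z, MeasurableSet (I z) := fun z => (hI z).1
  -- the value of `ℓ` at `j`
  have hj : ∑ o, (hat j o : ℝ) * ℓ o = 1 / H - c := by
    have h1 : ∀ o, (H : ℝ) * (hat j o : ℝ) + ∑ y ∈ F, (b y : ℝ) * (hat y o : ℝ) = 0 := by
      intro o
      have := congrFun hrel o
      simp only [Pi.add_apply, Pi.smul_apply, Finset.sum_apply, smul_eq_mul, Pi.zero_apply] at this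
      exact_mod_cast this
    have h2 : (H : ℝ) * ∑ o, (hat j o : ℝ) * ℓ o + ∑ y ∈ F, (b y : ℝ) * (n y : ℝ) = 0 := by
      have : ∑ y ∈ F, (b y : ℝ) * (n y : ℝ) = ∑ o, (∑ y ∈ F, (b y : ℝ) * (hat y o : ℝ)) * ℓ o := by
        simp_rw [Finset.sum_mul]
        rw [Finset.sum_comm]
        refine Finset.sum_congr rfl fun y hy => ?_
        rw [← hℓ y hy, Finset.mul_sum]
        exact Finset.sum_congr rfl fun o _ => by ring
      rw [this, Finset.mul_sum, ← Finset.sum_add_distrib]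
      refine Finset.sum_eq_zero fun o _ => ?_
      have := h1 o
      linear_combination ℓ o * this
    have h3 : ∑ y ∈ F, (b y : ℝ) * (n y : ℝ) + 1 = H * c := by exact_mod_cast hc
    field_simp
    linarith
  set lam : (d → Fin H) → Option m → T d := fun τ o => pr (fun i => ((τ i : ℕ) : ℝ) * ℓ o) with hlam
  have hF0 : ∀ τ, ∀ y ∈ F, XX (lam τ) y = 0 := by
    intro τ y hy
    rw [hlam]
    simp only []
    rw [XX_pr, ← pr_rv (fun i => ((τ i : ℕ) : ℤ) * n y)]
    congr 1
    funext i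
    simp only [rv]
    push_cast
    rw [← hℓ y hy, Finset.mul_sum]
    exact Finset.sum_congr rfl fun o _ => by ring
  have hj0 : ∀ τ, XX (lam τ) j = pr (fun i => ((τ i : ℕ) / H : ℝ)) := by
    intro τ
    rw [hlam]
    simp only []
    rw [XX_pr, pr_eq_iff]
    refine ⟨fun i => ((τ i : ℕ) : ℤ) * c, ?_⟩
    funext i
    simp only [rv, Pi.add_apply]
    push_cast
    have : ∑ o, (hat j o : ℝ) * (((τ i : ℕ) : ℝ) * ℓ o) = (τ i : ℕ) * (1 / H - c) := by
      rw [← hj, Finset.mul_sum]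
      exact Finset.sum_congr rfl fun o _ => by ring
    rw [this]
    ring
  set S : (d → Fin H) → Set (Option m → T d) :=
    fun τ => {ω | XX ω j + pr (fun i => ((τ i : ℕ) / H : ℝ)) ∈ I j} with hS
  have hSm : ∀ τ, MeasurableSet (S τ) := fun τ =>
    ((continuous_XX j).add continuous_const).measurable (hmeas j)
  have hinv : (volume : Measure (Option m → T d)).IsAddRightInvariant :=
    Measure.pi.isAddRightInvariant _
  have hvol : ∀ τ, volume (Hit I (insert j F)) = (volume.restrict (Hit I F)) (S τ) := by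
    intro τ
    rw [Measure.restrict_apply (hSm τ), ← measure_preimage_add_right volume (lam τ)]
    congr 1
    ext ω
    simp only [Hit, mem_preimage, mem_ofPred_eq, Finset.forall_mem_insert, mem_inter_iff, hS, XX_add, hj0]
    refine and_congr Iff.rfl (forall₂_congr fun y hy => ?_)
    rw [hF0 τ y hy, add_zero]
  have hsum := TorsX.sum_meas_le (volume.restrict (Hit I F)) S hSm
    (M := (2 * ρ * H + 1) ^ Fintype.card d) (fun ω => by
      refine le_trans ?_ (TorsX.count hH hρ (XX ω j))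
      exact_mod_cast Finset.card_le_card (fun τ hτ => Finset.mem_filter.2
        ⟨Finset.mem_univ _, (hI j).2 (Finset.mem_filter.1 hτ).2⟩))
  simp_rw [← hvol] at hsum
  rw [Finset.sum_const, Finset.card_univ, Fintype.card_fun, Fintype.card_fin, Measure.restrict_apply_univ,
    vol_Hit hmeas hF, nsmul_eq_mul] at hsum
  have hfin : ENNReal.ofReal ((2 * ρ * H + 1) ^ Fintype.card d) * ∏ z ∈ F, volume (I z) ≠ ⊤ :=
    ENNReal.mul_ne_top ENNReal.ofReal_ne_top (ENNReal.prod_ne_top fun z _ => measure_ne_top _ _)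
  have h2 := ENNReal.toReal_mono hfin hsum
  rw [ENNReal.toReal_mul, ENNReal.toReal_mul, ENNReal.toReal_ofReal (by positivity),
    ENNReal.toReal_prod, ENNReal.toReal_natCast] at h2
  push_cast at h2
  have e : (1 / H + 2 * ρ : ℝ) = (2 * ρ * H + 1) / H := by field_simp; ring
  rw [e, div_pow, ← mul_div_assoc, le_div_iff₀ (by positivity)]
  linarith

end Crest.Agent.R225
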