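import Crest.Agent.R225.G2
import Crest.Agent.R225.Small

set_option autoImplicit false

open MeasureTheory Set
open scoped ENNReal NNReal Matrix

namespace Crest.Agent.R225

namespace TwoX

/-- the event as a subset of the product -/
def SS {l n : ℕ} (a b : Fin l → ℝ) : Set ((Fin l → Fin n → ℝ) × (Fin n → ℝ)) :=
  {p | ∀ r, p.1 r ⬝ᵥ p.2 ∈ Icc (a r) (b r)}

theorem cont_dot {l n : ℕ} (r : Fin l) :
    Continuous fun p : (Fin l → Fin n → ℝ) × (Fin n → ℝ) => p.1 r ⬝ᵥ p.2 := by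
  unfold dotProduct
  fun_prop

theorem SS_meas {l n : ℕ} (a b : Fin l → ℝ) : MeasurableSet (SS (n := n) a b) := by
  have : SS (n := n) a b = ⋂ r, (fun p : (Fin l → Fin n → ℝ) × (Fin n → ℝ) => p.1 r ⬝ᵥ p.2) ⁻¹'
      Icc (a r) (b r) := by
    ext p; simp [SS]
  rw [this]
  exact MeasurableSet.iInter fun r => (cont_dot r).measurable measurableSet_Icc

/-- indicator -/
noncomputable def ind {l n : ℕ} (a b : Fin l → ℝ) (p : (Fin l → Fin n → ℝ) × (Fin n → ℝ)) : ℝ :=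
  (SS a b).indicator 1 p

theorem ind_meas {l n : ℕ} (a b : Fin l → ℝ) : Measurable (ind (n := n) a b) :=
  measurable_one.indicator (SS_meas a b)

theorem ind_abs {l n : ℕ} (a b : Fin l → ℝ) (p : (Fin l → Fin n → ℝ) × (Fin n → ℝ)) :
    |ind a b p| ≤ 1 := by
  unfold ind
  by_cases h : p ∈ SS a b <;> simp [h]

theorem mG_eq {l n : ℕ} (ν : Measure (Fin n → ℝ)) (a b : Fin l → ℝ) (G : Fin l → Fin n → ℝ) :
    mG ν a b G = ∫ x, ind a b (G, x) ∂ν := by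
  have hm : MeasurableSet (Prod.mk G ⁻¹' SS (n := n) a b) := measurable_prodMk_left (SS_meas a b)
  have : (fun x => ind a b (G, x)) = (Prod.mk G ⁻¹' SS (n := n) a b).indicator 1 := by
    funext x
    unfold ind
    by_cases h : (G, x) ∈ SS a b
    · rw [indicator_of_mem h, indicator_of_mem (show x ∈ Prod.mk G ⁻¹' SS a b from h)]; rfl
    · rw [indicator_of_notMem h, indicator_of_notMem (show x ∉ Prod.mk G ⁻¹' SS a b from h)]
  rw [this, integral_indicator_one hm]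
  rfl

theorem meas_dot {n : ℕ} (x : Fin n → ℝ) : Measurable fun g : Fin n → ℝ => g ⬝ᵥ x := by
  have : Continuous fun g : Fin n → ℝ => g ⬝ᵥ x := by unfold dotProduct; fun_prop
  exact this.measurable

theorem gv_Icc {n : ℕ} (x : Fin n → ℝ) (a b : ℝ) :
    (gv n {g | g ⬝ᵥ x ∈ Icc a b}).toReal = gI (x ⬝ᵥ x) a b := by
  unfold gI
  rw [← map_dot n x, Measure.map_apply (meas_dot x) measurableSet_Icc]
  rfl

theorem gmx_pi {l n : ℕ} (A : Fin l → Set (Fin n → ℝ)) :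
    (gmx l n {G | ∀ r, G r ∈ A r}).toReal = ∏ r, (gv n (A r)).toReal := by
  have : {G : Fin l → Fin n → ℝ | ∀ r, G r ∈ A r} = Set.pi univ A := by
    ext G; simp
  rw [this, gmx, Measure.pi_pi, ENNReal.toReal_prod]

theorem int_ind {l n : ℕ} (a b : Fin l → ℝ) (x : Fin n → ℝ) :
    ∫ G, ind a b (G, x) ∂(gmx l n) = ∏ r, gI (x ⬝ᵥ x) (a r) (b r) := by
  have hm : MeasurableSet ((fun G => (G, x)) ⁻¹' SS (n := n) a b) :=
    measurable_prodMk_right (SS_meas a b)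
  have : (fun G => ind a b (G, x)) = ((fun G => (G, x)) ⁻¹' SS (n := n) a b).indicator 1 := by
    funext G
    unfold ind
    by_cases h : (G, x) ∈ SS a b
    · rw [indicator_of_mem h, indicator_of_mem (show G ∈ (fun G => (G, x)) ⁻¹' SS a b from h)]; rfl
    · rw [indicator_of_notMem h,
        indicator_of_notMem (show G ∉ (fun G => (G, x)) ⁻¹' SS a b from h)]
  rw [this, integral_indicator_one hm]
  have h2 := gmx_pi (l := l) (n := n) (fun r => {g | g ⬝ᵥ x ∈ Icc (a r) (b r)})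
  simp only [gv_Icc] at h2
  exact h2

theorem int_ind2 {l n : ℕ} (a b a' b' : Fin l → ℝ) (x x' : Fin n → ℝ) :
    ∫ G, ind a b (G, x) * ind a' b' (G, x') ∂(gmx l n) =
      ∏ r, (gv n {g | g ⬝ᵥ x ∈ Icc (a r) (b r) ∧ g ⬝ᵥ x' ∈ Icc (a' r) (b' r)}).toReal := by
  have hm : MeasurableSet (((fun G => (G, x)) ⁻¹' SS (n := n) a b) ∩
      ((fun G => (G, x')) ⁻¹' SS (n := n) a' b')) :=
    (measurable_prodMk_right (SS_meas a b)).inter (measurable_prodMk_right (SS_meas a' b'))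
  have : (fun G => ind a b (G, x) * ind a' b' (G, x')) = (((fun G => (G, x)) ⁻¹' SS (n := n) a b) ∩
      ((fun G => (G, x')) ⁻¹' SS (n := n) a' b')).indicator 1 := by
    funext G
    unfold ind
    by_cases h : (G, x) ∈ SS a b <;> by_cases h' : (G, x') ∈ SS a' b' <;>
      simp [indicator, h, h']
  rw [this, integral_indicator_one hm]
  have h2 := gmx_pi (l := l) (n := n)
    (fun r => {g | g ⬝ᵥ x ∈ Icc (a r) (b r) ∧ g ⬝ᵥ x' ∈ Icc (a' r) (b' r)})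
  rw [← h2]
  unfold Measure.real
  congr 2
  ext G
  simp only [SS, mem_inter_iff, mem_preimage, mem_ofPred_eq]
  exact ⟨fun h r => ⟨h.1 r, h.2 r⟩, fun h => ⟨fun r => (h r).1, fun r => (h r).2⟩⟩

theorem abs_prod_sub {ι : Type} (s : Finset ι) (f g : ι → ℝ) (hf : ∀ i, 0 ≤ f i ∧ f i ≤ 1)
    (hg : ∀ i, 0 ≤ g i ∧ g i ≤ 1) :
    |∏ i ∈ s, f i - ∏ i ∈ s, g i| ≤ ∑ i ∈ s, |f i - g i| := by
  classical
  induction s using Finset.induction_on with
  | empty => simp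
  | insert j s hj ih =>
    rw [Finset.prod_insert hj, Finset.prod_insert hj, Finset.sum_insert hj]
    have hP0 : 0 ≤ ∏ i ∈ s, f i := Finset.prod_nonneg fun i _ => (hf i).1
    have hP1 : ∏ i ∈ s, f i ≤ 1 := Finset.prod_le_one (fun i _ => (hf i).1) fun i _ => (hf i).2
    have e : f j * ∏ i ∈ s, f i - g j * ∏ i ∈ s, g i =
        (f j - g j) * ∏ i ∈ s, f i + g j * (∏ i ∈ s, f i - ∏ i ∈ s, g i) := by ring
    rw [e]
    refine (abs_add_le _ _).trans (add_le_add ?_ ?_)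
    · rw [abs_mul, abs_of_nonneg hP0]
      exact mul_le_of_le_one_right (abs_nonneg _) hP1
    · rw [abs_mul, abs_of_nonneg (hg j).1]
      exact (mul_le_of_le_one_left (abs_nonneg _) (hg j).2).trans ih

theorem amgm {s c : ℝ} (hc : 0 < c) : s ≤ 3 / 4 * c + s ^ 4 / (4 * c ^ 3) := by
  have h : 0 ≤ (s - c) ^ 2 * ((s + c) ^ 2 + 2 * c ^ 2) := by positivity
  have e : 3 / 4 * c + s ^ 4 / (4 * c ^ 3) - s =
      (s - c) ^ 2 * ((s + c) ^ 2 + 2 * c ^ 2) / (4 * c ^ 3) := by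
    field_simp; ring
  have : 0 ≤ (s - c) ^ 2 * ((s + c) ^ 2 + 2 * c ^ 2) / (4 * c ^ 3) := by positivity
  linarith

/-- pointwise bound of one row -/
theorem row_le {n : ℕ} (hn : 1 ≤ n) {δ : ℝ} (hδ : 0 < δ) (x x' : Fin n → ℝ) (a b a' b' : ℝ) :
    |(gv n {g | g ⬝ᵥ x ∈ Icc a b ∧ g ⬝ᵥ x' ∈ Icc a' b'}).toReal -
        gI (x ⬝ᵥ x) a b * gI (x' ⬝ᵥ x') a' b'| ≤
      {y : Fin n → ℝ | y ⬝ᵥ y ≤ δ ^ 3 * n / 2}.indicator 1 x +
      {y : Fin n → ℝ | y ⬝ᵥ y ≤ δ ^ 3 * n / 2}.indicator 1 x' +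
      (45 / 4 * δ + 80 / 27 / (δ ^ 9 * n ^ 2) * (x ⬝ᵥ x') ^ 2) := by
  have hn' : (0 : ℝ) < n := by exact_mod_cast hn
  have h1 : |(gv n {g | g ⬝ᵥ x ∈ Icc a b ∧ g ⬝ᵥ x' ∈ Icc a' b'}).toReal -
        gI (x ⬝ᵥ x) a b * gI (x' ⬝ᵥ x') a' b'| ≤ 1 := by
    have p0 : 0 ≤ (gv n {g | g ⬝ᵥ x ∈ Icc a b ∧ g ⬝ᵥ x' ∈ Icc a' b'}).toReal := ENNReal.toReal_nonneg
    have p1 : (gv n {g | g ⬝ᵥ x ∈ Icc a b ∧ g ⬝ᵥ x' ∈ Icc a' b'}).toReal ≤ 1 := measureReal_le_one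
    have q0 := mul_nonneg (gI_nonneg (x ⬝ᵥ x) a b) (gI_nonneg (x' ⬝ᵥ x') a' b')
    have q1 := mul_le_one₀ (gI_le_one (x ⬝ᵥ x) a b) (gI_nonneg (x' ⬝ᵥ x') a' b')
      (gI_le_one (x' ⬝ᵥ x') a' b')
    rw [abs_le]; constructor <;> linarith
  have hr : 0 ≤ 45 / 4 * δ + 80 / 27 / (δ ^ 9 * n ^ 2) * (x ⬝ᵥ x') ^ 2 := by positivity
  have i0 : ∀ y : Fin n → ℝ,
      (0 : ℝ) ≤ {y : Fin n → ℝ | y ⬝ᵥ y ≤ δ ^ 3 * n / 2}.indicator 1 y := fun y =>
    indicator_nonneg (fun _ _ => zero_le_one) y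
  by_cases hx : x ⬝ᵥ x ≤ δ ^ 3 * n / 2
  · rw [indicator_of_mem (show x ∈ {y : Fin n → ℝ | y ⬝ᵥ y ≤ δ ^ 3 * n / 2} from hx)]
    have := i0 x'
    simp only [Pi.one_apply]
    linarith
  by_cases hx' : x' ⬝ᵥ x' ≤ δ ^ 3 * n / 2
  · rw [indicator_of_mem (show x' ∈ {y : Fin n → ℝ | y ⬝ᵥ y ≤ δ ^ 3 * n / 2} from hx')]
    have := i0 x
    simp only [Pi.one_apply]
    linarith
  push Not at hx hx'
  have hm : 0 < δ ^ 3 * n / 2 := by positivity
  have h2 := one_row n x x' (hm.trans hx) (hm.trans hx') a b a' b'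
  have hden : δ ^ 3 * n / 2 ≤ √(x ⬝ᵥ x) * √(x' ⬝ᵥ x') := by
    calc δ ^ 3 * n / 2 = √(δ ^ 3 * n / 2) * √(δ ^ 3 * n / 2) := (Real.mul_self_sqrt hm.le).symm
      _ ≤ _ := mul_le_mul (Real.sqrt_le_sqrt hx.le) (Real.sqrt_le_sqrt hx'.le)
          (Real.sqrt_nonneg _) (Real.sqrt_nonneg _)
  have h3 : |x ⬝ᵥ x'| / (√(x ⬝ᵥ x) * √(x' ⬝ᵥ x')) ≤ |x ⬝ᵥ x'| / (δ ^ 3 * n / 2) :=
    div_le_div_of_nonneg_left (abs_nonneg _) hm hden
  have h4 := Real.sqrt_le_sqrt h3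
  have h5 := amgm (s := √(|x ⬝ᵥ x'| / (δ ^ 3 * n / 2))) (c := 3 / 2 * δ) (by positivity)
  have h6 : √(|x ⬝ᵥ x'| / (δ ^ 3 * n / 2)) ^ 4 = (x ⬝ᵥ x') ^ 2 / (δ ^ 3 * n / 2) ^ 2 := by
    have : √(|x ⬝ᵥ x'| / (δ ^ 3 * n / 2)) ^ 4 = (√(|x ⬝ᵥ x'| / (δ ^ 3 * n / 2)) ^ 2) ^ 2 := by ring
    rw [this, Real.sq_sqrt (by positivity), div_pow, sq_abs]
  rw [h6] at h5
  have h7 : (x ⬝ᵥ x') ^ 2 / (δ ^ 3 * n / 2) ^ 2 / (4 * (3 / 2 * δ) ^ 3) =
      8 / 27 / (δ ^ 9 * n ^ 2) * (x ⬝ᵥ x') ^ 2 := by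
    field_simp; ring
  rw [h7] at h5
  have h8 : 80 / 27 / (δ ^ 9 * n ^ 2) * (x ⬝ᵥ x') ^ 2 =
      10 * (8 / 27 / (δ ^ 9 * n ^ 2) * (x ⬝ᵥ x') ^ 2) := by ring
  have := i0 x
  have := i0 x'
  linarith

theorem sq_int {n : ℕ} {K : Set (Fin n → ℝ)} (h : Body K) :
    Integrable (fun p : (Fin n → ℝ) × (Fin n → ℝ) => (p.1 ⬝ᵥ p.2) ^ 2) ((un K).prod (un K)) := by
  haveI := h.prob
  have e : (fun p : (Fin n → ℝ) × (Fin n → ℝ) => (p.1 ⬝ᵥ p.2) ^ 2) =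
      fun p => ∑ i, ∑ j, (p.1 i * p.1 j) * (p.2 i * p.2 j) := by
    funext p
    simp only [dotProduct, sq, Finset.sum_mul_sum]
    refine Finset.sum_congr rfl fun i _ => Finset.sum_congr rfl fun j _ => by ring
  rw [e]
  refine integrable_finsetSum _ fun i _ => integrable_finsetSum _ fun j _ => ?_
  have h1 : Integrable (fun x : Fin n → ℝ => x i * x j) (un K) := integrable_un h (by fun_prop)
  exact h1.mul_prod h1

end TwoX

open TwoX

/-- measurability and bounds (`measurable_measure_prodMk_left`) -/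
theorem mG_meas {l n : ℕ} (ν : Measure (Fin n → ℝ)) [IsFiniteMeasure ν] (a b : Fin l → ℝ) :
    Measurable (mG ν a b) := by
  have h := (measurable_measure_prodMk_left (ν := ν) (SS_meas (n := n) a b)).ennreal_toReal
  exact h

/-- Fubini and `map_dot`, rows are independent (`Measure.pi_pi`) -/
theorem int_mG {l n : ℕ} (ν : Measure (Fin n → ℝ)) [IsFiniteMeasure ν] (a b : Fin l → ℝ) :
    ∫ G, mG ν a b G ∂(gmx l n) = gQ ν a b := by
  simp only [mG_eq]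
  rw [integral_integral_swap (f := fun G x => ind a b (G, x))]
  · simp only [int_ind]; rfl
  · exact Integrable.of_bound (ind_meas a b).aestronglyMeasurable 1
      (Filter.Eventually.of_forall fun p => ind_abs a b p)

/-- **two-point estimate.**  `mG Q G * mG Q' G = (ν ⊗ ν) {(x,x') | G x ∈ Q, G x' ∈ Q'}`; Fubini; for fixed
`x, x'` the probability is a product over the rows, `|∏ a_r - ∏ b_r| ≤ ∑ |a_r - b_r|` for numbers in `[0,1]`,
`one_row`.  With `ε = n^(-1/20)`: outside the event `x⬝x ≤ ε^6 n/2 ∨ x'⬝x' ≤ ε^6 n/2` (mass `≤ 40 ε²`,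
`small_ball`, there bound the difference by `1`) the correlation is `≤ 2 |x⬝x'| / (ε^6 n)`, and
`∫∫ √|x⬝x'| ≤ n^(1/4)` (e.g. `√t ≤ (3/4) c + t^2/(4 c³)`, `c = n^(1/4)`, `∫∫ (x⬝x')² = n` by `iso_lin`, `iso_sq`).
Total `n^(-1/10) (40 + 15 l)`; for `l = 0` both products agree. -/
theorem two_point {l n : ℕ} (hn : 1 ≤ n) {K : Set (Fin n → ℝ)} (h : Body K) (hi : Iso K)
    {W : Set (Fin n → ℝ)} (hW : MeasurableSet W) (a b a' b' : Fin l → ℝ) :
    |∫ G, mG ((un K).restrict W) a b G * mG ((un K).restrict W) a' b' G ∂(gmx l n) -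
        gQ ((un K).restrict W) a b * gQ ((un K).restrict W) a' b'| ≤
      60 * l * (n : ℝ) ^ (-(1 / 10) : ℝ) := by
  haveI := h.prob
  have hn' : (0 : ℝ) < n := by exact_mod_cast hn
  set μ := un K with hμ
  set ν := μ.restrict W with hν
  set δ : ℝ := (n : ℝ) ^ (-(1 / 10) : ℝ) with hδ
  have hδ0 : 0 < δ := Real.rpow_pos_of_pos hn' _
  have hδn : δ ^ 10 * n = 1 := by
    rw [hδ, ← Real.rpow_natCast, ← Real.rpow_mul hn'.le]
    norm_num
    rw [Real.rpow_neg_one]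
    exact inv_mul_cancel₀ hn'.ne'
  -- the two integrals over pairs
  let P : (Fin n → ℝ) × (Fin n → ℝ) → ℝ := fun p =>
    ∫ G, ind a b (G, p.1) * ind a' b' (G, p.2) ∂(gmx l n)
  let Q : (Fin n → ℝ) × (Fin n → ℝ) → ℝ := fun p =>
    (∏ r, gI (p.1 ⬝ᵥ p.1) (a r) (b r)) * ∏ r, gI (p.2 ⬝ᵥ p.2) (a' r) (b' r)
  have hFm : Measurable fun q : (Fin l → Fin n → ℝ) × ((Fin n → ℝ) × (Fin n → ℝ)) =>
      ind a b (q.1, q.2.1) * ind a' b' (q.1, q.2.2) :=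
    ((ind_meas a b).comp (by fun_prop)).mul ((ind_meas a' b').comp (by fun_prop))
  have hFi : Integrable (fun q : (Fin l → Fin n → ℝ) × ((Fin n → ℝ) × (Fin n → ℝ)) =>
      ind a b (q.1, q.2.1) * ind a' b' (q.1, q.2.2)) ((gmx l n).prod (ν.prod ν)) := by
    refine Integrable.of_bound hFm.aestronglyMeasurable 1 (Filter.Eventually.of_forall fun q => ?_)
    rw [Real.norm_eq_abs, abs_mul]
    exact mul_le_one₀ (ind_abs _ _ _) (abs_nonneg _) (ind_abs _ _ _)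
  have e1 : ∫ G, mG ν a b G * mG ν a' b' G ∂(gmx l n) = ∫ p, P p ∂(ν.prod ν) := by
    simp only [mG_eq, ← integral_prod_mul]
    exact integral_integral_swap (f := fun G (p : (Fin n → ℝ) × (Fin n → ℝ)) =>
      ind a b (G, p.1) * ind a' b' (G, p.2)) hFi
  have e2 : gQ ν a b * gQ ν a' b' = ∫ p, Q p ∂(ν.prod ν) := by
    unfold gQ
    rw [← integral_prod_mul]
  have hPi : Integrable P (ν.prod ν) := hFi.integral_prod_right
  have hsq : Measurable fun x : Fin n → ℝ => x ⬝ᵥ x := by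
    have : Continuous fun x : Fin n → ℝ => x ⬝ᵥ x := by unfold dotProduct; fun_prop
    exact this.measurable
  have hq : ∀ c d : Fin l → ℝ,
      Integrable (fun x : Fin n → ℝ => ∏ r, gI (x ⬝ᵥ x) (c r) (d r)) ν := fun c d => by
    refine Integrable.of_bound
      (Finset.measurable_prod _ fun r _ => (measurable_gI _ _).comp hsq).aestronglyMeasurable 1
      (Filter.Eventually.of_forall fun x => ?_)
    rw [Real.norm_eq_abs, abs_of_nonneg (Finset.prod_nonneg fun r _ => gI_nonneg _ _ _)]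
    exact Finset.prod_le_one (fun r _ => gI_nonneg _ _ _) fun r _ => gI_le_one _ _ _
  have hQi : Integrable Q (ν.prod ν) := (hq a b).mul_prod (hq a' b')
  -- the dominating function
  set A : Set (Fin n → ℝ) := {y | y ⬝ᵥ y ≤ δ ^ 3 * n / 2} with hA
  have hAm : MeasurableSet A := measurableSet_le hsq measurable_const
  let B : (Fin n → ℝ) × (Fin n → ℝ) → ℝ := fun p =>
    A.indicator 1 p.1 + A.indicator 1 p.2 + (45 / 4 * δ + 80 / 27 / (δ ^ 9 * n ^ 2) * (p.1 ⬝ᵥ p.2) ^ 2)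
  have hB0 : ∀ p, 0 ≤ B p := fun p => by
    have i0 : ∀ y : Fin n → ℝ, (0 : ℝ) ≤ A.indicator 1 y := fun y =>
      indicator_nonneg (fun _ _ => zero_le_one) y
    have := i0 p.1
    have := i0 p.2
    show 0 ≤ A.indicator 1 p.1 + A.indicator 1 p.2 +
      (45 / 4 * δ + 80 / 27 / (δ ^ 9 * n ^ 2) * (p.1 ⬝ᵥ p.2) ^ 2)
    positivity
  have hPQ : ∀ p, |P p - Q p| ≤ l * B p := fun p => by
    have e3 : Q p = ∏ r, gI (p.1 ⬝ᵥ p.1) (a r) (b r) * gI (p.2 ⬝ᵥ p.2) (a' r) (b' r) :=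
      (Finset.prod_mul_distrib).symm
    have e4 : P p = _ := int_ind2 a b a' b' p.1 p.2
    rw [e3, e4]
    refine (abs_prod_sub _ _ _ (fun r => ⟨ENNReal.toReal_nonneg, measureReal_le_one⟩)
      (fun r => ⟨mul_nonneg (gI_nonneg _ _ _) (gI_nonneg _ _ _),
        mul_le_one₀ (gI_le_one _ _ _) (gI_nonneg _ _ _) (gI_le_one _ _ _)⟩)).trans ?_
    refine (Finset.sum_le_sum fun r _ => row_le hn hδ0 p.1 p.2 (a r) (b r) (a' r) (b' r)).trans ?_
    rw [Finset.sum_const, Finset.card_univ, Fintype.card_fin, nsmul_eq_mul]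
  have hAi : Integrable (A.indicator (1 : (Fin n → ℝ) → ℝ)) μ :=
    (integrable_const (1 : ℝ)).indicator hAm
  have i1 : Integrable (fun p : (Fin n → ℝ) × (Fin n → ℝ) => A.indicator (1 : (Fin n → ℝ) → ℝ) p.1)
      (μ.prod μ) := hAi.comp_fst μ
  have i2 : Integrable (fun p : (Fin n → ℝ) × (Fin n → ℝ) => A.indicator (1 : (Fin n → ℝ) → ℝ) p.2)
      (μ.prod μ) := hAi.comp_snd μ
  have i3 : Integrable (fun p : (Fin n → ℝ) × (Fin n → ℝ) =>
      80 / 27 / (δ ^ 9 * n ^ 2) * (p.1 ⬝ᵥ p.2) ^ 2) (μ.prod μ) := (sq_int h).const_mul _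
  have i4 : Integrable (fun p : (Fin n → ℝ) × (Fin n → ℝ) =>
      45 / 4 * δ + 80 / 27 / (δ ^ 9 * n ^ 2) * (p.1 ⬝ᵥ p.2) ^ 2) (μ.prod μ) :=
    (integrable_const _).add i3
  have i12 : Integrable (fun p : (Fin n → ℝ) × (Fin n → ℝ) => A.indicator (1 : (Fin n → ℝ) → ℝ) p.1 +
      A.indicator (1 : (Fin n → ℝ) → ℝ) p.2) (μ.prod μ) := i1.add i2
  have hBi : Integrable B (μ.prod μ) := i12.add i4
  have hAv : μ.real A ≤ 20 * δ := by
    have hε : 0 < √δ := Real.sqrt_pos.2 hδ0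
    have := small_ball hn h hi hε
    have e6 : √δ ^ 6 = δ ^ 3 := by
      have : √δ ^ 6 = (√δ ^ 2) ^ 3 := by ring
      rw [this, Real.sq_sqrt hδ0.le]
    rw [e6, Real.sq_sqrt hδ0.le] at this
    exact this
  have hsqv : ∫ p : (Fin n → ℝ) × (Fin n → ℝ), (p.1 ⬝ᵥ p.2) ^ 2 ∂(μ.prod μ) = n := by
    rw [integral_prod_symm _ (sq_int h)]
    simp only [hμ, iso_lin h hi]
    exact iso_sq h hi
  have hBv : ∫ p, B p ∂(μ.prod μ) ≤ 60 * δ := by
    have e5 : ∫ p, B p ∂(μ.prod μ) = μ.real A + μ.real A +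
        (45 / 4 * δ + 80 / 27 / (δ ^ 9 * n ^ 2) * n) := by
      show ∫ p : (Fin n → ℝ) × (Fin n → ℝ), (A.indicator 1 p.1 + A.indicator 1 p.2 +
        (45 / 4 * δ + 80 / 27 / (δ ^ 9 * n ^ 2) * (p.1 ⬝ᵥ p.2) ^ 2)) ∂(μ.prod μ) = _
      rw [integral_add i12 i4, integral_add i1 i2, integral_add (integrable_const _) i3,
        integral_const, integral_const_mul, hsqv, integral_fun_fst, integral_fun_snd, integral_indicator_one hAm]
      simp
    have e6 : 80 / 27 / (δ ^ 9 * n ^ 2) * n = 80 / 27 * δ := by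
      have : (n : ℝ) = (δ ^ 10)⁻¹ := eq_inv_of_mul_eq_one_right hδn
      rw [this]; field_simp
    rw [e5, e6]
    linarith
  rw [e1, e2, ← integral_sub hPi hQi]
  have hνν : ν.prod ν = (μ.prod μ).restrict (W ×ˢ W) := Measure.prod_restrict W W
  calc |∫ p, P p - Q p ∂(ν.prod ν)| ≤ ∫ p, |P p - Q p| ∂(ν.prod ν) := abs_integral_le_integral_abs
    _ ≤ ∫ p, l * B p ∂(ν.prod ν) := by
        refine integral_mono (hPi.sub hQi).abs ?_ hPQ
        rw [hνν]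
        exact (hBi.const_mul _).restrict
    _ ≤ ∫ p, l * B p ∂(μ.prod μ) := by
        rw [hνν]
        exact setIntegral_le_integral (hBi.const_mul _)
          (Filter.Eventually.of_forall fun p => mul_nonneg (Nat.cast_nonneg _) (hB0 p))
    _ ≤ 60 * l * δ := by
        rw [integral_const_mul]
        have := mul_le_mul_of_nonneg_left hBv (Nat.cast_nonneg (α := ℝ) l)
        linarith

end Crest.Agent.R225
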