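import Crest.Agent.R225.Defs

set_option autoImplicit false

open MeasureTheory Set
open scoped ENNReal NNReal Matrix

namespace Crest.Agent.R225

namespace Young1X

open Filter Topology ProbabilityTheory

/-- the Gaussian density -/
noncomputable def ga (x : ℝ) : ℝ := Real.exp (-Real.pi * x ^ 2)

/-- its distribution function -/
noncomputable def Ph (x : ℝ) : ℝ := ∫ t in Iic x, ga t

theorem ga_pos (x : ℝ) : 0 < ga x := Real.exp_pos _

theorem ga_int : Integrable ga := integrable_exp_neg_mul_sq Real.pi_pos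

theorem ga_one : ∫ x, ga x = 1 := by
  unfold ga
  rw [integral_gaussian, div_self Real.pi_pos.ne', Real.sqrt_one]

theorem Ph_deriv (x : ℝ) : HasStrictDerivAt Ph (ga x) x := by
  have e : Ph = fun u => Ph 0 + ∫ t in (0 : ℝ)..u, ga t := by
    funext u
    rw [← intervalIntegral.integral_Iic_sub_Iic ga_int.integrableOn ga_int.integrableOn]
    unfold Ph
    ring
  have hc : Continuous ga := by unfold ga; fun_prop
  rw [e]
  exact (hc.integral_hasStrictDerivAt 0 x).const_add _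

theorem Ph_mono : StrictMono Ph :=
  strictMono_of_hasDerivAt_pos (fun x => (Ph_deriv x).hasDerivAt) ga_pos

theorem Ph_surj {u : ℝ} (hu : u ∈ Ioo (0 : ℝ) 1) : ∃ x, Ph x = u := by
  have h1 : Tendsto Ph atTop (𝓝 1) := by
    rw [← ga_one]
    exact (aecover_Iic tendsto_id).integral_tendsto_of_countably_generated ga_int
  have h0 : Tendsto Ph atBot (𝓝 0) := by
    have h2 : Tendsto (fun x => ∫ t in Ioi x, ga t) atBot (𝓝 (∫ x, ga x)) :=
      (aecover_Ioi tendsto_id).integral_tendsto_of_countably_generated ga_int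
    have h3 := h2.const_sub (∫ x, ga x)
    rw [sub_self] at h3
    refine h3.congr fun x => ?_
    rw [← intervalIntegral.integral_Iic_add_Ioi (b := x) ga_int.integrableOn ga_int.integrableOn,
      add_sub_cancel_right]
    rfl
  obtain ⟨x, -, hx⟩ := isPreconnected_univ.intermediate_value_Ioo (l₁ := atBot) (l₂ := atTop)
    (by simp) (by simp) (fun x _ => (Ph_deriv x).hasDerivAt.continuousAt.continuousWithinAt) h0 h1 hu
  exact ⟨x, hx⟩

theorem strict {F : ℝ → ℝ} (hF : Monotone F) {x y z d : ℝ} (hd : d ≠ 0) (h : HasDerivAt F d z)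
    (hxy : x < y) (hz : z ∈ Icc x y) : F x < F y := by
  refine lt_of_le_of_ne (hF hxy.le) fun e => hd ?_
  have h1 : ∀ t ∈ Icc x y, F t = F x := fun t ht => le_antisymm (e ▸ hF ht.2) (hF ht.1)
  exact (uniqueDiffOn_Icc hxy z hz).eq_deriv _ h.hasDerivWithinAt
    ((hasDerivWithinAt_const z _ (F x)).congr h1 (h1 z hz))

/-- monotone transport to the Gaussian -/
theorem transport {f : ℝ → ℝ≥0∞} (hf : Measurable f) (h0 : ∫⁻ x, f x ≠ 0) (h1 : ∫⁻ x, f x ≠ ∞) :
    ∃ (S : Set ℝ) (T a : ℝ → ℝ), MeasurableSet S ∧ (∀ᵐ x, x ∈ S ∨ f x = 0) ∧ StrictMonoOn T S ∧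
      ∀ x ∈ S, 0 < a x ∧ HasDerivAt T (a x) x ∧
        f x = (∫⁻ x, f x) * ENNReal.ofReal (a x * ga (T x)) := by
  set I := ∫⁻ x, f x with hI
  have hm : Measurable fun x => I⁻¹ * f x := hf.const_mul _
  have : IsProbabilityMeasure (volume.withDensity fun x => I⁻¹ * f x) := ⟨by
    rw [withDensity_apply _ MeasurableSet.univ, Measure.restrict_univ, lintegral_const_mul _ hf,
      ENNReal.inv_mul_cancel h0 h1]⟩
  set μ := volume.withDensity fun x => I⁻¹ * f x with hμ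
  have a1 : ∀ᵐ x, HasDerivAt (cdf μ) (I⁻¹ * f x).toReal x ∧ f x < ∞ := by
    filter_upwards [(cdf μ).ae_hasDerivAt, Measure.rnDeriv_withDensity volume hm,
      ae_lt_top hf h1] with x b1 b2 b3
    rw [measure_cdf, b2] at b1
    exact ⟨b1, b3⟩
  obtain ⟨N, hN1, hN2, hN3⟩ := exists_measurable_superset_of_null (ae_iff.1 a1)
  have key : ∀ x ∈ Nᶜ ∩ {x | f x ≠ 0}, 0 < (I⁻¹ * f x).toReal ∧
      HasDerivAt (cdf μ) (I⁻¹ * f x).toReal x ∧ f x < ∞ ∧
      Ph (Function.invFun Ph (cdf μ x)) = cdf μ x := by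
    intro x hx
    obtain ⟨b1, b2⟩ : HasDerivAt (cdf μ) (I⁻¹ * f x).toReal x ∧ f x < ∞ :=
      not_not.1 fun h => hx.1 (hN1 h)
    have b3 : 0 < (I⁻¹ * f x).toReal := ENNReal.toReal_pos
      (mul_ne_zero (ENNReal.inv_ne_zero.2 h1) hx.2)
      (ENNReal.mul_ne_top (ENNReal.inv_ne_top.2 h0) b2.ne)
    refine ⟨b3, b1, b2, Function.invFun_eq (Ph_surj ⟨?_, ?_⟩)⟩
    · exact (cdf_nonneg μ (x - 1)).trans_lt
        (strict (monotone_cdf μ) b3.ne' b1 (by linarith) ⟨by linarith, le_rfl⟩)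
    · exact (strict (monotone_cdf μ) b3.ne' b1 (y := x + 1) (by linarith)
        ⟨le_rfl, by linarith⟩).trans_le (cdf_le_one μ (x + 1))
  refine ⟨Nᶜ ∩ {x | f x ≠ 0}, fun x => Function.invFun Ph (cdf μ x),
    fun x => (ga (Function.invFun Ph (cdf μ x)))⁻¹ * (I⁻¹ * f x).toReal,
    hN2.compl.inter (hf (measurableSet_singleton 0)).compl, ?_, fun x hx y hy hxy => ?_,
    fun x hx => ?_⟩
  · filter_upwards [compl_mem_ae_iff.2 hN3] with x hx
    by_cases h : f x = 0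
    · exact Or.inr h
    · exact Or.inl ⟨hx, h⟩
  · obtain ⟨b1, b2, -, b4⟩ := key x hx
    refine Ph_mono.lt_iff_lt.1 ?_
    beta_reduce
    rw [b4, (key y hy).2.2.2]
    exact strict (monotone_cdf μ) b1.ne' b2 hxy ⟨le_rfl, hxy.le⟩
  · obtain ⟨b1, b2, b3, b4⟩ := key x hx
    have g0 := ga_pos (Function.invFun Ph (cdf μ x))
    refine ⟨mul_pos (inv_pos.2 g0) b1, ?_, ?_⟩
    · have c1 := ((Ph_deriv (Function.invFun Ph (cdf μ x))).to_local_left_inverse g0.ne'
        (g := Function.invFun Ph)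
        (Eventually.of_forall (Function.leftInverse_invFun Ph_mono.injective))).hasDerivAt
      rw [b4] at c1
      exact c1.comp x b2
    · rw [mul_right_comm, inv_mul_cancel₀ g0.ne', one_mul, ENNReal.ofReal_toReal
        (ENNReal.mul_ne_top (ENNReal.inv_ne_top.2 h0) b3.ne), ← mul_assoc,
        ENNReal.mul_inv_cancel h0 h1, one_mul]

/-- the dominating Gaussian -/
noncomputable def ps (p : ℝ × ℝ) : ℝ :=
  Real.exp (-(Real.pi / 3) * p.1 ^ 2) * Real.exp (-(4 * Real.pi / 9) * (p.2 - p.1 / 2) ^ 2)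

theorem lint_gauss {b : ℝ} (hb : 0 < b) :
    ∫⁻ x : ℝ, ENNReal.ofReal (Real.exp (-b * x ^ 2)) = ENNReal.ofReal √(Real.pi / b) := by
  rw [← integral_gaussian, ofReal_integral_eq_lintegral_ofReal (integrable_exp_neg_mul_sq hb)
    (Eventually.of_forall fun x => (Real.exp_pos _).le)]

theorem ps_int : ∫⁻ p, ENNReal.ofReal (ps p) ≤ ENNReal.ofReal (21 / 8) := by
  have hπ := Real.pi_pos
  rw [Measure.volume_eq_prod, lintegral_prod _ (by unfold ps; fun_prop)]
  have e : ∀ x : ℝ, ∫⁻ y, ENNReal.ofReal (ps (x, y)) =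
      ENNReal.ofReal (Real.exp (-(Real.pi / 3) * x ^ 2)) * ENNReal.ofReal (3 / 2) := fun x => by
    simp only [ps, ENNReal.ofReal_mul (Real.exp_pos _).le]
    rw [lintegral_const_mul _ (by fun_prop), lintegral_sub_right_eq_self
      (fun y => ENNReal.ofReal (Real.exp (-(4 * Real.pi / 9) * y ^ 2))) (x / 2),
      lint_gauss (by positivity), show Real.pi / (4 * Real.pi / 9) = (3 / 2) ^ 2 by field_simp; ring,
      Real.sqrt_sq (by norm_num)]
  simp only [e]
  rw [lintegral_mul_const _ (by fun_prop), lint_gauss (by positivity),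
    ← ENNReal.ofReal_mul (Real.sqrt_nonneg _), show Real.pi / (Real.pi / 3) = 3 by field_simp]
  refine ENNReal.ofReal_le_ofReal ?_
  have : √3 ≤ 7 / 4 := Real.sqrt_le_iff.2 ⟨by norm_num, by norm_num⟩
  linarith

theorem pt {a b c : ℝ} (ha : 0 < a) (hb : 0 < b) (hc : 0 < c) (A B C : ℝ) :
    (a * ga A) ^ (2 / 3 : ℝ) * (b * ga B) ^ (2 / 3 : ℝ) * (c * ga C) ^ (2 / 3 : ℝ) ≤
      1 / 3 * (((a + c) * (b + c) - c * c) * ps (A + C, B + C)) := by
  have h1 : a ^ (2 / 3 : ℝ) * b ^ (2 / 3 : ℝ) * c ^ (2 / 3 : ℝ) ≤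
      1 / 3 * ((a + c) * (b + c) - c * c) := by
    have h := Real.geom_mean_le_arith_mean3_weighted (w₁ := 1 / 3) (w₂ := 1 / 3) (w₃ := 1 / 3)
      (p₁ := a * b) (p₂ := a * c) (p₃ := b * c) (by norm_num) (by norm_num) (by norm_num)
      (by positivity) (by positivity) (by positivity) (by norm_num)
    have e : ∀ {x : ℝ}, 0 < x → x ^ (2 / 3 : ℝ) = x ^ (1 / 3 : ℝ) * x ^ (1 / 3 : ℝ) := fun hx => by
      rw [← Real.rpow_add hx]; norm_num
    rw [Real.mul_rpow ha.le hb.le, Real.mul_rpow ha.le hc.le, Real.mul_rpow hb.le hc.le] at h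
    rw [e ha, e hb, e hc]
    linarith
  have h2 : ga A ^ (2 / 3 : ℝ) * ga B ^ (2 / 3 : ℝ) * ga C ^ (2 / 3 : ℝ) ≤ ps (A + C, B + C) := by
    unfold ga ps
    rw [← Real.exp_mul, ← Real.exp_mul, ← Real.exp_mul, ← Real.exp_add, ← Real.exp_add,
      ← Real.exp_add, Real.exp_le_exp]
    nlinarith [mul_nonneg Real.pi_pos.le (sq_nonneg (A + B - C))]
  have g1 := ga_pos A
  have g2 := ga_pos B
  have g3 := ga_pos C
  rw [Real.mul_rpow ha.le g1.le, Real.mul_rpow hb.le g2.le, Real.mul_rpow hc.le g3.le]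
  have h3 := mul_le_mul h1 h2 (by positivity) (le_trans (by positivity) h1)
  linarith

end Young1X

open Young1X

/-- **Young's inequality on the line with a constant `< 1`** (Barthe's transport proof; sharp constant
`√3/2 ≤ 7/8`).  WLOG the three integrals are finite and positive (zero: the integrand vanishes a.e.;
infinite: trivial), normalise them to `1`, pass to real a.e. finite functions.  Let `F G H` be the
distribution functions (`F x = ∫_{Iic x} f`; derivative `f x` a.e.: `LocallyIntegrable.ae_hasDerivAt_integral`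
or `VitaliFamily`/`StieltjesFunction.ae_hasDerivAt`), `Φ x = ∫_{Iic x} exp (-π s²)` (strictly increasing, onto
`(0,1)`, `C¹`), `T₁ = Φ⁻¹ ∘ F` etc.  On the measurable set `s` of `(x,y)` where the three derivatives exist and
`f x, g y, h (x+y) > 0` (then `F x ∈ (0,1)` and `F` is not locally constant on either side), the map
`Θ (x,y) = (T₁ x + T₃ (x+y), T₂ y + T₃ (x+y))` is injective (monotone: the scalar product with the increment
is a sum of three nonnegative terms) with Jacobian `ab + ac + bc ≥ 3 (abc)^(2/3)`, `a = T₁' = f x / γ(T₁ x)`..,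
and `(γ(A)γ(B)γ(C))^(2/3) ≤ ψ(A + C, B + C)`, `ψ(p,q) = exp (-(4π/9)(p² - pq + q²))`, `∫ ψ = 9/(2√3)`.
Change of variables: `lintegral_image_eq_lintegral_abs_det_fderiv_mul`.  So `3 ∫ (fgh)^(2/3) ≤ 9/(2√3)`. -/
theorem young1 {f g h : ℝ → ℝ≥0∞} (hf : Measurable f) (hg : Measurable g) (hh : Measurable h) :
    ∫⁻ x, ∫⁻ y, f x ^ (2 / 3 : ℝ) * g y ^ (2 / 3 : ℝ) * h (x + y) ^ (2 / 3 : ℝ) ≤
      ENNReal.ofReal (7 / 8) * ((∫⁻ x, f x) * (∫⁻ x, g x) * ∫⁻ x, h x) ^ (2 / 3 : ℝ) := by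
  have q1 : Measure.QuasiMeasurePreserving (fun p : ℝ × ℝ => p.1) volume volume :=
    Measure.quasiMeasurePreserving_fst
  have q2 : Measure.QuasiMeasurePreserving (fun p : ℝ × ℝ => p.2) volume volume :=
    Measure.quasiMeasurePreserving_snd
  have q3 : Measure.QuasiMeasurePreserving (fun p : ℝ × ℝ => p.1 + p.2) volume volume :=
    q2.comp (measurePreserving_prod_add (volume : Measure ℝ) volume).quasiMeasurePreserving
  have z : (0 : ℝ≥0∞) ^ (2 / 3 : ℝ) = 0 := ENNReal.zero_rpow_of_pos (by norm_num)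
  have e : ∫⁻ x, ∫⁻ y, f x ^ (2 / 3 : ℝ) * g y ^ (2 / 3 : ℝ) * h (x + y) ^ (2 / 3 : ℝ) =
      ∫⁻ p : ℝ × ℝ, f p.1 ^ (2 / 3 : ℝ) * g p.2 ^ (2 / 3 : ℝ) * h (p.1 + p.2) ^ (2 / 3 : ℝ) := by
    rw [Measure.volume_eq_prod, lintegral_prod _ (by fun_prop)]
  rw [e]
  by_cases f0 : ∫⁻ x, f x = 0
  · refine le_trans (le_of_eq ((lintegral_congr_ae ?_).trans lintegral_zero)) bot_le
    filter_upwards [q1.ae ((lintegral_eq_zero_iff hf).1 f0)] with p hp
    rw [hp, Pi.zero_apply, z, zero_mul, zero_mul]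
  by_cases g0 : ∫⁻ x, g x = 0
  · refine le_trans (le_of_eq ((lintegral_congr_ae ?_).trans lintegral_zero)) bot_le
    filter_upwards [q2.ae ((lintegral_eq_zero_iff hg).1 g0)] with p hp
    rw [hp, Pi.zero_apply, z, mul_zero, zero_mul]
  by_cases h0 : ∫⁻ x, h x = 0
  · refine le_trans (le_of_eq ((lintegral_congr_ae ?_).trans lintegral_zero)) bot_le
    filter_upwards [q3.ae ((lintegral_eq_zero_iff hh).1 h0)] with p hp
    rw [hp, Pi.zero_apply, z, mul_zero]
  by_cases ht : (∫⁻ x, f x) * (∫⁻ x, g x) * ∫⁻ x, h x = ∞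
  · rw [ht, ENNReal.top_rpow_of_pos (by norm_num), ENNReal.mul_top (by simp)]
    exact le_top
  obtain ⟨S1, T1, a, m1, n1, s1, d1⟩ := transport hf f0 fun hx => ht (by
    rw [hx, ENNReal.top_mul g0, ENNReal.top_mul h0])
  obtain ⟨S2, T2, b, m2, n2, s2, d2⟩ := transport hg g0 fun hx => ht (by
    rw [hx, ENNReal.mul_top f0, ENNReal.top_mul h0])
  obtain ⟨S3, T3, c, m3, n3, s3, d3⟩ := transport hh h0 fun hx => ht (by
    rw [hx, ENNReal.mul_top (mul_ne_zero f0 g0)])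
  set s : Set (ℝ × ℝ) := {p | p.1 ∈ S1 ∧ p.2 ∈ S2 ∧ p.1 + p.2 ∈ S3} with hs
  have ms : MeasurableSet s :=
    (measurable_fst m1).inter ((measurable_snd m2).inter ((measurable_fst.add measurable_snd) m3))
  have cv := lintegral_image_eq_lintegral_abs_det_fderiv_mul (volume : Measure (ℝ × ℝ)) ms
    (f := fun p => (T1 p.1 + T3 (p.1 + p.2), T2 p.2 + T3 (p.1 + p.2)))
    (f' := fun p => (Matrix.toLin (.finTwoProd ℝ) (.finTwoProd ℝ)
      !![a p.1 + c (p.1 + p.2), c (p.1 + p.2);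
        c (p.1 + p.2), b p.2 + c (p.1 + p.2)]).toContinuousLinearMap)
    (fun p hp => by
      have c3 := (d3 _ hp.2.2).2.1.comp_hasFDerivAt p
        ((hasFDerivAt_fst (𝕜 := ℝ) (p := p)).add (hasFDerivAt_snd (𝕜 := ℝ) (p := p)))
      refine ((((d1 _ hp.1).2.1.comp_hasFDerivAt p hasFDerivAt_fst).add c3).prodMk
        (((d2 _ hp.2.1).2.1.comp_hasFDerivAt p hasFDerivAt_snd).add c3)).hasFDerivWithinAt.congr_fderiv
        (ContinuousLinearMap.ext fun v => ?_)
      rw [LinearMap.coe_toContinuousLinearMap', Matrix.toLin_finTwoProd_apply]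
      ext <;> simp <;> ring)
    (by
      have key : ∀ p ∈ s, ∀ p' ∈ s, T1 p.1 + T3 (p.1 + p.2) = T1 p'.1 + T3 (p'.1 + p'.2) →
          T2 p.2 + T3 (p.1 + p.2) = T2 p'.2 + T3 (p'.1 + p'.2) → p'.1 ≤ p.1 := by
        intro p hp p' hp' e1 e2
        by_contra hc
        have c1 := s1 hp.1 hp'.1 (not_le.1 hc)
        have c2 : p.2 < p'.2 := (s2.lt_iff_lt hp.2.1 hp'.2.1).1 (by linarith)
        have c3 := s3 hp.2.2 hp'.2.2 (add_lt_add (not_le.1 hc) c2)
        linarith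
      intro p hp p' hp' e
      obtain ⟨e1, e2⟩ := Prod.mk.inj e
      have c1 : p.1 = p'.1 := le_antisymm (key p' hp' p hp e1.symm e2.symm) (key p hp p' hp' e1 e2)
      refine Prod.ext c1 (s2.injOn hp.2.1 hp'.2.1 ?_)
      rw [c1] at e1 e2
      rw [← c1] at e1 e2
      have c2 := congrArg T1 c1
      linarith)
    fun p => ENNReal.ofReal (ps p)
  have fin := cv.symm.le.trans ((setLIntegral_le_lintegral _ _).trans ps_int)
  set K := ((∫⁻ x, f x) * (∫⁻ x, g x) * ∫⁻ x, h x) ^ (2 / 3 : ℝ) with hK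
  have K1 : K * ENNReal.ofReal (1 / 3) ≠ ∞ :=
    ENNReal.mul_ne_top (ENNReal.rpow_ne_top_of_nonneg (by norm_num) ht) ENNReal.ofReal_ne_top
  have fin' := mul_le_mul_right fin (K * ENNReal.ofReal (1 / 3))
  rw [← lintegral_const_mul' _ _ K1, ← lintegral_indicator ms, mul_assoc,
    ← ENNReal.ofReal_mul (by norm_num), show (1 / 3 * (21 / 8) : ℝ) = 7 / 8 by norm_num,
    mul_comm K (ENNReal.ofReal (7 / 8))] at fin'
  refine le_trans (lintegral_mono_ae ?_) fin'
  filter_upwards [q1.ae n1, q2.ae n2, q3.ae n3] with p p1 p2 p3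
  rcases p1 with p1 | p1
  swap
  · rw [p1, z, zero_mul, zero_mul]; exact bot_le
  rcases p2 with p2 | p2
  swap
  · rw [p2, z, mul_zero, zero_mul]; exact bot_le
  rcases p3 with p3 | p3
  swap
  · rw [p3, z, mul_zero]; exact bot_le
  obtain ⟨a0, -, a1⟩ := d1 _ p1
  obtain ⟨b0, -, b1⟩ := d2 _ p2
  obtain ⟨c0, -, c1⟩ := d3 _ p3
  have t0 : (0 : ℝ) ≤ 2 / 3 := by norm_num
  have g1 := mul_pos a0 (ga_pos (T1 p.1))
  have g2 := mul_pos b0 (ga_pos (T2 p.2))
  have g3 := mul_pos c0 (ga_pos (T3 (p.1 + p.2)))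
  have w := ENNReal.ofReal_le_ofReal
    (pt a0 b0 c0 (T1 p.1) (T2 p.2) (T3 (p.1 + p.2)))
  have D0 : 0 ≤ (a p.1 + c (p.1 + p.2)) * (b p.2 + c (p.1 + p.2)) -
      c (p.1 + p.2) * c (p.1 + p.2) := by
    nlinarith [mul_pos a0 b0, mul_pos a0 c0, mul_pos b0 c0]
  rw [ENNReal.ofReal_mul (by positivity), ENNReal.ofReal_mul (by positivity),
    ENNReal.ofReal_mul (by norm_num), ENNReal.ofReal_mul D0] at w
  rw [indicator_of_mem (show p ∈ s from ⟨p1, p2, p3⟩), a1, b1, c1, hK,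
    LinearMap.det_toContinuousLinearMap, LinearMap.det_toLin, Matrix.det_fin_two_of,
    abs_of_nonneg D0]
  simp only [ENNReal.mul_rpow_of_nonneg _ _ t0]
  rw [ENNReal.ofReal_rpow_of_pos g1, ENNReal.ofReal_rpow_of_pos g2, ENNReal.ofReal_rpow_of_pos g3,
    mul_assoc _ (ENNReal.ofReal (1 / 3))]
  refine le_trans (le_of_eq ?_) (mul_le_mul_right w _)
  ring

end Crest.Agent.R225
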